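import Crest.Agent.R121.LGT

/-! Row 121: weak operator ultralimits -/

set_option autoImplicit false
set_option linter.unusedSectionVars false

namespace Crest.Agent.R121

open Crest.Agent.R95 Crest.Agent.R124 MeasureTheory Filter Topology
open scoped InnerProductSpace BigOperators ComplexConjugate

variable {K : Type*} [NormedAddCommGroup K] [InnerProductSpace ℂ K] [CompleteSpace K]

/-- The form `(η, ξ) ↦ lim_U ⟪η, a i ξ⟫` (limits exist in compact discs) is bounded and sesquilinear;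
`InnerProductSpace.continuousLinearMapOfBilin` (or Riesz for each `ξ`). -/
theorem exists_wlim {I : Type*} (U : Ultrafilter I) (a : I → K →L[ℂ] K) {C : ℝ}
    (h : ∀ i, ‖a i‖ ≤ C) :
    ∃ b : K →L[ℂ] K, ‖b‖ ≤ C ∧ ∀ η ξ, Tendsto (fun i => ⟪η, a i ξ⟫_ℂ) U (𝓝 ⟪η, b ξ⟫_ℂ) := by
  obtain ⟨i0⟩ : Nonempty I := U.toFilter.nonempty_of_neBot
  have hC : 0 ≤ C := (norm_nonneg _).trans (h i0)
  have hb : ∀ i (ξ η : K), ‖⟪a i ξ, η⟫_ℂ‖ ≤ C * ‖ξ‖ * ‖η‖ := fun i ξ η =>
    (norm_inner_le_norm _ _).trans (mul_le_mul_of_nonneg_right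
      (((a i).le_opNorm ξ).trans (mul_le_mul_of_nonneg_right (h i) (norm_nonneg _)))
      (norm_nonneg _))
  have hex : ∀ ξ η : K, ∃ L : ℂ, Tendsto (fun i => ⟪a i ξ, η⟫_ℂ) U (𝓝 L) := fun ξ η => by
    obtain ⟨L, -, hL⟩ := (isCompact_closedBall (0 : ℂ) (C * ‖ξ‖ * ‖η‖)).ultrafilter_le_nhds
      (U.map fun i => ⟪a i ξ, η⟫_ℂ) (by
        rw [le_principal_iff, Ultrafilter.coe_map, mem_map]
        exact Eventually.of_forall fun i => by simpa using hb i ξ η)
    exact ⟨L, hL⟩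
  choose L hL using hex
  have hLb : ∀ ξ η, ‖L ξ η‖ ≤ C * ‖ξ‖ * ‖η‖ := fun ξ η =>
    le_of_tendsto (hL ξ η).norm (Eventually.of_forall fun i => hb i ξ η)
  let φ : K → K →ₗ[ℂ] ℂ := fun ξ =>
    { toFun := L ξ
      map_add' := fun η η' => tendsto_nhds_unique (hL ξ (η + η')) (by
        simpa [inner_add_right] using (hL ξ η).add (hL ξ η'))
      map_smul' := fun c η => tendsto_nhds_unique (hL ξ (c • η)) (by
        simpa [inner_smul_right] using (hL ξ η).const_mul c) }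
  let φ' : K → StrongDual ℂ K := fun ξ => (φ ξ).mkContinuous (C * ‖ξ‖) (hLb ξ)
  let v : K → K := fun ξ => (InnerProductSpace.toDual ℂ K).symm (φ' ξ)
  have hv : ∀ ξ η, ⟪v ξ, η⟫_ℂ = L ξ η := fun ξ η => by
    simp [v, φ', φ]
  have hvn : ∀ ξ, ‖v ξ‖ ≤ C * ‖ξ‖ := fun ξ => by
    simp only [v, LinearIsometryEquiv.norm_map]
    exact LinearMap.mkContinuous_norm_le _ (by positivity) _
  let w : K →ₗ[ℂ] K :=
    { toFun := v
      map_add' := fun ξ ξ' => ext_inner_right ℂ fun η => by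
        rw [inner_add_left, hv, hv, hv]
        exact tendsto_nhds_unique (hL (ξ + ξ') η) (by
          simpa [inner_add_left] using (hL ξ η).add (hL ξ' η))
      map_smul' := fun c ξ => ext_inner_right ℂ fun η => by
        rw [RingHom.id_apply, inner_smul_left, hv, hv]
        exact tendsto_nhds_unique (hL (c • ξ) η) (by
          simpa only [map_smul, inner_smul_left] using (hL ξ η).const_mul (conj c)) }
  refine ⟨w.mkContinuous C hvn, LinearMap.mkContinuous_norm_le _ hC _, fun η ξ => ?_⟩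
  have h1 := (Complex.continuous_conj.tendsto _).comp (hL ξ η)
  rw [← hv, inner_conj_symm] at h1
  simpa [Function.comp_def, inner_conj_symm, w] using h1

/-- Weak operator convergence in `Al P`. -/
def WT {P : VonNeumannAlgebra K} {I : Type*} (l : Filter I) (a : I → Al P) (b : Al P) : Prop :=
  ∀ η ξ : K, Tendsto (fun i => ⟪η, (a i : K →L[ℂ] K) ξ⟫_ℂ) l (𝓝 ⟪η, (b : K →L[ℂ] K) ξ⟫_ℂ)

section
variable {P : VonNeumannAlgebra K} {I : Type*} {l : Filter I} {a a' : I → Al P} {b b' : Al P}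

/-- `mem_of_comm`. -/
theorem exists_wt (U : Ultrafilter I) (a : I → Al P) {C : ℝ} (h : ∀ i, ‖a i‖ ≤ C) :
    ∃ b : Al P, ‖b‖ ≤ C ∧ WT U a b := by
  obtain ⟨b, hb, hlim⟩ := exists_wlim U (fun i => (a i : K →L[ℂ] K)) (C := C) h
  have hbP : b ∈ P := mem_of_comm fun y hy => by
    ext ξ
    refine ext_inner_left ℂ fun η => ?_
    have h1 := hlim (ContinuousLinearMap.adjoint y η) ξ
    have h2 := hlim η (y ξ)
    simp only [ContinuousLinearMap.adjoint_inner_left] at h1
    refine tendsto_nhds_unique h1 (h2.congr fun i => ?_)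
    have := comm_of_mem (P := P) (a i).2 hy
    rw [← mul_apply_eq_comp, this, mul_apply_eq_comp]
  exact ⟨⟨b, hbP⟩, hb, hlim⟩

lemma WT.unique [l.NeBot] (h : WT l a b) (h' : WT l a b') : b = b' := by
  refine Subtype.ext ?_
  ext ξ
  exact ext_inner_left ℂ fun η => tendsto_nhds_unique (h η ξ) (h' η ξ)

lemma WT.const (b : Al P) : WT l (fun _ => b) b := fun _ _ => tendsto_const_nhds

lemma WT.congr' (h : WT l a b) (h' : ∀ᶠ i in l, a i = a' i) : WT l a' b := by
  intro η ξ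
  refine (h η ξ).congr' (h'.mono fun i hi => ?_)
  simp only [hi]

lemma WT.add (h : WT l a b) (h' : WT l a' b') : WT l (fun i => a i + a' i) (b + b') := by
  intro η ξ
  simpa [inner_add_right] using (h η ξ).add (h' η ξ)

lemma WT.sub (h : WT l a b) (h' : WT l a' b') : WT l (fun i => a i - a' i) (b - b') := by
  intro η ξ
  simpa [inner_sub_right] using (h η ξ).sub (h' η ξ)

lemma WT.smul (h : WT l a b) (c : ℂ) : WT l (fun i => c • a i) (c • b) := by
  intro η ξ
  simpa [inner_smul_right] using (h η ξ).const_mul c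

lemma WT.zsmul (h : WT l a b) (c : ℤ) : WT l (fun i => c • a i) (c • b) := by
  simpa only [Int.cast_smul_eq_zsmul] using h.smul (c : ℂ)

lemma WT.sum {κ : Type*} (s : Finset κ) {a : κ → I → Al P} {b : κ → Al P}
    (h : ∀ k, WT l (a k) (b k)) : WT l (fun i => ∑ k ∈ s, a k i) (∑ k ∈ s, b k) := by
  classical
  induction s using Finset.induction_on with
  | empty => simpa using WT.const (0 : Al P)
  | insert k s hk ih => simpa [Finset.sum_insert hk] using (h k).add ih

lemma WT.mul_left (h : WT l a b) (x : Al P) : WT l (fun i => x * a i) (x * b) := by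
  intro η ξ
  simpa [ContinuousLinearMap.adjoint_inner_left] using
    h (ContinuousLinearMap.adjoint (x : K →L[ℂ] K) η) ξ

lemma WT.mul_right (h : WT l a b) (x : Al P) : WT l (fun i => a i * x) (b * x) := by
  intro η ξ
  simpa using h η ((x : K →L[ℂ] K) ξ)

/-- Ultralimits of bounded cochains (`MultilinearMap.mkContinuous`, uniqueness of limits). -/
theorem exists_wt_co (U : Ultrafilter I) {n : ℕ} (g : I → Co (Al P) n) {C : ℝ}
    (h : ∀ i, ‖g i‖ ≤ C) :
    ∃ g' : Co (Al P) n, ‖g'‖ ≤ C ∧ ∀ x, WT U (fun i => g i x) (g' x) := by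
  obtain ⟨i0⟩ : Nonempty I := U.toFilter.nonempty_of_neBot
  have hC : 0 ≤ C := (norm_nonneg _).trans (h i0)
  have hex : ∀ x : Fin n → Al P, ∃ b : Al P, ‖b‖ ≤ C * ∏ k, ‖x k‖ ∧ WT U (fun i => g i x) b :=
    fun x => exists_wt U (fun i => g i x) fun i => ((g i).le_opNorm x).trans
      (mul_le_mul_of_nonneg_right (h i) (Finset.prod_nonneg fun _ _ => norm_nonneg _))
  choose b hb hw using hex
  let G : MultilinearMap ℂ (fun _ : Fin n => Al P) (Al P) :=
    { toFun := b
      map_update_add' := fun x k y y' => (hw _).unique (by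
        simpa only [ContinuousMultilinearMap.map_update_add] using
          (hw (Function.update x k y)).add (hw (Function.update x k y')))
      map_update_smul' := fun x k c y => (hw _).unique (by
        simpa only [ContinuousMultilinearMap.map_update_smul] using
          (hw (Function.update x k y)).smul c) }
  exact ⟨G.mkContinuous C hb, G.mkContinuous_norm_le hC hb, hw⟩

/-- Ultralimits of uniformly bounded linear maps on the space of bounded maps. -/
theorem exists_wt_lin (U : Ultrafilter I) (𝒜 : I → (Al P →L[ℂ] Al P) →ₗ[ℂ] Al P) {C : ℝ}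
    (h : ∀ i T, ‖𝒜 i T‖ ≤ C * ‖T‖) :
    ∃ ℬ : (Al P →L[ℂ] Al P) →ₗ[ℂ] Al P, (∀ T, ‖ℬ T‖ ≤ C * ‖T‖) ∧
      ∀ T, WT U (fun i => 𝒜 i T) (ℬ T) := by
  have hex : ∀ T : Al P →L[ℂ] Al P, ∃ b : Al P, ‖b‖ ≤ C * ‖T‖ ∧ WT U (fun i => 𝒜 i T) b :=
    fun T => exists_wt U (fun i => 𝒜 i T) fun i => h i T
  choose b hb hw using hex
  refine ⟨{ toFun := b
            map_add' := fun T T' => (hw _).unique (by
              simpa only [map_add] using (hw T).add (hw T'))
            map_smul' := fun c T => (hw _).unique (by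
              simpa only [map_smul, RingHom.id_apply] using (hw T).smul c) }, hb, hw⟩

end

/-- From approximate to exact invariance.  PROOF.  Index set `Finset (tests) × ℕ` with
tests `= (Al P →L Al P) × S × Λ` (nonempty finsets enumerated by `Fin n`), ultrafilter `U ≤ atTop`,
`𝒜 i T = ∑ m* T m` for the family chosen for `(F, N)`, `ε = 1/(N+1)`; `norm_avg_le`, `exists_wt_lin`.
Each `ψ l` is weakly continuous, so `ψ l (ℬ (T ∘ rmul x) - x * ℬ T) = 0` for `x ∈ S`; `sep`; the set of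
`x` with `ℬ (T ∘ rmul x) = x * ℬ T` is a closed submodule.  (If `Λ` is empty, `sep` says `Al P` is
trivial.) -/
theorem avg_of_app {P : VonNeumannAlgebra K} (z : Al P) {Λ : Type*} (ψ : Λ → Al P → ℂ)
    (hψ : ∀ l, ∃ (n : ℕ) (ζ ξ : Fin n → K), ∀ a : Al P,
      ψ l a = ∑ i, ⟪ζ i, (a : K →L[ℂ] K) (ξ i)⟫_ℂ)
    (sep : ∀ a, (∀ l, ψ l a = 0) → a = 0) (S : Set (Al P)) (hS0 : S.Nonempty)
    (hS : Dense (Submodule.span ℂ S : Set (Al P)))
    (app : ∀ (n : ℕ) (T : Fin n → Al P →L[ℂ] Al P) (x : Fin n → Al P) (l : Fin n → Λ),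
      (∀ k, x k ∈ S) → ∀ ε : ℝ, 0 < ε → ∃ (N : ℕ) (m : Fin N → Al P), Adm m ∧ ∀ k,
        ‖ψ (l k) (∑ i, star (m i) * T k (m i * x k) - x k * ∑ i, star (m i) * T k (m i))‖ ≤ ε ∧
        ‖ψ (l k) (z - ∑ i, star (m i) * m i)‖ ≤ ε) : Avg z := by
  classical
  have key : ∀ i : Finset ((Al P →L[ℂ] Al P) × S × Λ) × ℕ, ∃ (N : ℕ) (m : Fin N → Al P),
      Adm m ∧ ∀ t ∈ i.1,
        ‖ψ t.2.2 (∑ j, star (m j) * t.1 (m j * t.2.1) - t.2.1 * ∑ j, star (m j) * t.1 (m j))‖ ≤
          1 / ((i.2 : ℝ) + 1) ∧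
        ‖ψ t.2.2 (z - ∑ j, star (m j) * m j)‖ ≤ 1 / ((i.2 : ℝ) + 1) := by
    rintro ⟨F, N⟩
    let e := F.equivFin.symm
    obtain ⟨N', m, hm, h⟩ := app F.card (fun k => (e k).1.1) (fun k => (e k).1.2.1)
      (fun k => (e k).1.2.2) (fun k => (e k).1.2.1.2) (1 / ((N : ℝ) + 1)) (by positivity)
    refine ⟨N', m, hm, fun t ht => ?_⟩
    simpa only [Equiv.apply_symm_apply] using h (e.symm ⟨t, ht⟩)
  choose N m hm hk using key
  let 𝒜 : Finset ((Al P →L[ℂ] Al P) × S × Λ) × ℕ → (Al P →L[ℂ] Al P) →ₗ[ℂ] Al P := fun i =>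
    { toFun := fun T => ∑ j, star (m i j) * T (m i j)
      map_add' := fun T T' => by simp [mul_add, Finset.sum_add_distrib]
      map_smul' := fun c T => by simp [Finset.smul_sum] }
  have h𝒜 : ∀ i T, 𝒜 i T = ∑ j, star (m i j) * T (m i j) := fun _ _ => rfl
  let U : Ultrafilter (Finset ((Al P →L[ℂ] Al P) × S × Λ) × ℕ) := Ultrafilter.of atTop
  have hU : U.toFilter ≤ atTop := Ultrafilter.of_le _
  obtain ⟨ℬ, hℬ, hw⟩ := exists_wt_lin U 𝒜 (C := 2) fun i T => norm_avg_le T (hm i)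
  -- weak continuity of the tests
  have hcont : ∀ (l : Λ) (a : _ → Al P) (b : Al P), WT U.toFilter a b →
      Tendsto (fun i => ψ l (a i)) U.toFilter (𝓝 (ψ l b)) := fun l a b hab => by
    obtain ⟨n, ζ, ξ, hl⟩ := hψ l
    simp only [hl]
    exact tendsto_finsetSum _ fun k _ => hab _ _
  have hε : Tendsto (fun i : Finset ((Al P →L[ℂ] Al P) × S × Λ) × ℕ => 1 / ((i.2 : ℝ) + 1))
      U.toFilter (𝓝 0) := by
    refine (tendsto_one_div_add_atTop_nhds_zero_nat.comp ?_).mono_left hU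
    rw [← prod_atTop_atTop_eq]
    exact tendsto_snd
  have hev : ∀ t : (Al P →L[ℂ] Al P) × S × Λ, ∀ᶠ i in U.toFilter, t ∈ i.1 := fun t => by
    refine hU ?_
    filter_upwards [eventually_ge_atTop (({t} : Finset _), 0)] with i hi
    exact hi.1 (Finset.mem_singleton_self t)
  have hz : ∀ (a : _ → Al P) (b : Al P), WT U.toFilter a b →
      (∀ l, ∀ᶠ i in U.toFilter,
        ‖ψ l (a i)‖ ≤ 1 / ((i.2 : ℝ) + 1)) → b = 0 := fun a b hab h =>
    sep b fun l => tendsto_nhds_unique (hcont l a b hab) (squeeze_zero_norm' (h l) hε)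
  refine ⟨ℬ, hℬ, fun T b => ?_, fun T => ?_, ?_⟩
  · refine (hw _).unique ?_
    have := (hw T).mul_right b
    simpa only [h𝒜, Finset.sum_mul, ContinuousLinearMap.comp_apply, rmul_apply, mul_assoc]
      using this
  · have hS' : ∀ x ∈ S, ℬ (T.comp (rmul x)) = x * ℬ T := fun x hx => by
      refine sub_eq_zero.mp (hz _ _ ((hw (T.comp (rmul x))).sub ((hw T).mul_left x)) fun l => ?_)
      filter_upwards [hev (T, ⟨x, hx⟩, l)] with i hi
      exact (hk i _ hi).1
    let f : Al P →L[ℂ] Al P := (ℬ.mkContinuous 2 hℬ).comp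
      ((ContinuousLinearMap.compL ℂ (Al P) (Al P) (Al P) T).comp
        (ContinuousLinearMap.mul ℂ (Al P)).flip)
    have hfg : f = rmul (ℬ T) := ContinuousLinearMap.ext_on hS hS'
    intro x
    exact congrArg (fun g : Al P →L[ℂ] Al P => g x) hfg
  · obtain ⟨x, hx⟩ := hS0
    refine (sub_eq_zero.mp (hz _ _ ((WT.const z).sub (hw (ContinuousLinearMap.id ℂ _)))
      fun l => ?_)).symm
    filter_upwards [hev (0, ⟨x, hx⟩, l)] with i hi
    exact (hk i _ hi).2

end Crest.Agent.R121
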