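import Crest.Agent.R121.AmpA

/-! Row 121: the amplified bilinear forms (auxiliary file for `Amp.lean`) -/

set_option autoImplicit false
set_option linter.unusedSectionVars false

namespace Crest.Agent.R121

open Crest.Agent.R95 Crest.Agent.R124 MeasureTheory Filter Topology
open scoped InnerProductSpace BigOperators ComplexConjugate

variable {A : Type*} [CStarAlgebra A] [PartialOrder A] [StarOrderedRing A] [Tr A]
  {J : Type} [Fintype J] [DecidableEq J] [Nonempty J]

/-- `B p c = H⁻¹ ∑ₗ τ (y pᵢₗ T cₗᵢ)`. -/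
noncomputable def ampB (T : A →L[ℂ] A) (y : A) (i : J) :
    CStarMatrix J J A →L[ℂ] CStarMatrix J J A →L[ℂ] ℂ :=
  (Fintype.card J : ℂ)⁻¹ • ∑ l,
    ((ContinuousLinearMap.compL ℂ A A ℂ (τ : A →L[ℂ] ℂ)) ∘L ContinuousLinearMap.mul ℂ A).bilinearComp
      (ContinuousLinearMap.mul ℂ A y ∘L ent i l) (T ∘L ent l i)

lemma ampB_apply (T : A →L[ℂ] A) (y : A) (i : J) (p c : CStarMatrix J J A) :
    ampB T y i p c = (Fintype.card J : ℂ)⁻¹ * ∑ l, τ (y * p i l * T (c l i)) := by
  simp [ampB]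

lemma n2_entry_le (M : CStarMatrix J J A) (i j : J) :
    n2 (M i j) ≤ √(Fintype.card J) * n2 M := by
  have h1 : n2 (M i j) ^ 2 ≤ Fintype.card J * n2 M ^ 2 :=
    (Finset.single_le_sum (f := fun j => n2 (M i j) ^ 2) (fun i _ => by positivity)
      (Finset.mem_univ j)).trans (row_n2_le M i)
  refine (sq_le_sq₀ (n2_nonneg _) (mul_nonneg (Real.sqrt_nonneg _) (n2_nonneg _))).mp ?_
  rwa [mul_pow, Real.sq_sqrt (Nat.cast_nonneg _)]

lemma adm_col {n : ℕ} {c : Fin n → CStarMatrix J J A} (hc : Adm c) (i : J) :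
    Adm fun q : Fin n × J => ((√(Fintype.card J : ℝ))⁻¹ : ℂ) • c q.1 q.2 i := by
  have h1 : (1 : ℝ) ≤ Fintype.card J := by exact_mod_cast Fintype.card_pos
  have hs : ((√(Fintype.card J : ℝ) : ℂ))⁻¹ * ((√(Fintype.card J : ℝ) : ℂ))⁻¹ =
      (Fintype.card J : ℂ)⁻¹ := by
    rw [← mul_inv, ← Complex.ofReal_mul, Real.mul_self_sqrt (Nat.cast_nonneg _)]; simp
  have hn : ‖(Fintype.card J : ℂ)⁻¹‖ = (Fintype.card J : ℝ)⁻¹ := by simp
  constructor
  · have : ∑ q : Fin n × J, star (((√(Fintype.card J : ℝ))⁻¹ : ℂ) • c q.1 q.2 i) *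
        (((√(Fintype.card J : ℝ))⁻¹ : ℂ) • c q.1 q.2 i) =
        (Fintype.card J : ℂ)⁻¹ • (∑ l, star (c l) * c l) i i := by
      simp only [star_smul, smul_mul_smul_comm, mat_sum_apply, mat_mul_apply, mat_star_apply,
        Fintype.sum_prod_type, Finset.smul_sum, star_inv₀, Complex.star_def, Complex.conj_ofReal, hs]
    rw [this, norm_smul, hn]
    have h2 := (CStarMatrix.norm_entry_le_norm (M := ∑ l, star (c l) * c l) (i := i) (j := i)).trans
      hc.1
    exact mul_le_one₀ (inv_le_one_of_one_le₀ h1) (norm_nonneg _) h2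
  · have : ∑ q : Fin n × J, (((√(Fintype.card J : ℝ))⁻¹ : ℂ) • c q.1 q.2 i) *
        star (((√(Fintype.card J : ℝ))⁻¹ : ℂ) • c q.1 q.2 i) =
        (Fintype.card J : ℂ)⁻¹ • ∑ m, ∑ l, c l m i * star (c l m i) := by
      rw [Finset.sum_comm (f := fun m l => c l m i * star (c l m i))]
      simp only [star_smul, smul_mul_smul_comm,
        Fintype.sum_prod_type, Finset.smul_sum, star_inv₀, Complex.star_def, Complex.conj_ofReal, hs]
    rw [this, norm_smul, hn, inv_mul_le_iff₀ cardJ_pos, mul_one]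
    refine (norm_sum_le _ _).trans ?_
    have h3 : ∀ m : J, ‖∑ l, c l m i * star (c l m i)‖ ≤ 1 := fun m => by
      have h2 := (CStarMatrix.norm_entry_le_norm (M := ∑ l, c l * star (c l)) (i := m)
        (j := m)).trans hc.2
      refine le_trans (CStarAlgebra.norm_le_norm_of_nonneg_of_le
        (Finset.sum_nonneg fun l _ => mul_star_self_nonneg _) ?_) h2
      rw [mat_sum_apply]
      refine Finset.sum_le_sum fun l _ => ?_
      simp only [mat_mul_apply, mat_star_apply]
      exact Finset.single_le_sum (f := fun j => c l m j * star (c l m j))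
        (fun j _ => mul_star_self_nonneg _) (Finset.mem_univ i)
    calc _ ≤ ∑ _m : J, (1 : ℝ) := Finset.sum_le_sum fun m _ => h3 m
      _ = _ := by simp

lemma ampB_BB {T : A →L[ℂ] A} {y : A} {Λ₀ ε Λ' : ℝ} (hΛ₀ : 0 ≤ Λ₀) (hε : 0 ≤ ε) (hΛ' : 0 ≤ Λ')
    (hT : ‖T‖ ≤ Λ₀) (hy : ‖y‖ ≤ Λ₀)
    (h : ∀ (n : ℕ) (c : Fin n → A), Adm c →
      ∑ l, n2 (T (c l) * y) ^ 2 ≤ ε + Λ' * ∑ l, n2 (c l) ^ 2) (i : J) :
    BB (ampB T y i) ((Fintype.card J : ℝ) ^ 2 * Λ₀ ^ 2) ε Λ' where
  h0 := by positivity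
  h1 := hε
  h2 := hΛ'
  b1 a b c := by
    have hH := cardJ_pos (J := J)
    have key : ∀ l m, ‖τ (y * (a i m * b m l) * T (c l i))‖ ≤
        Fintype.card J * Λ₀ ^ 2 * n2 a * n2 b * ‖c‖ := fun l m => by
      have e1 : y * (a i m * b m l) * T (c l i) = (y * a i m) * (b m l * T (c l i)) := by
        noncomm_ring
      rw [e1]
      refine (norm_τ_mul_le _ _).trans ?_
      have h1 : n2 (y * a i m) ≤ Λ₀ * (√(Fintype.card J) * n2 a) :=
        (n2_mul_le_left _ _).trans (mul_le_mul hy (n2_entry_le _ _ _) (n2_nonneg _) hΛ₀)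
      have h2 : n2 (b m l * T (c l i)) ≤ (√(Fintype.card J) * n2 b) * (Λ₀ * ‖c‖) :=
        (n2_mul_le_right _ _).trans (mul_le_mul (n2_entry_le _ _ _) ((T.le_opNorm _).trans
          (mul_le_mul hT CStarMatrix.norm_entry_le_norm (norm_nonneg _) hΛ₀)) (norm_nonneg _)
          (mul_nonneg (Real.sqrt_nonneg _) (n2_nonneg _)))
      refine (mul_le_mul h1 h2 (n2_nonneg _)
        (mul_nonneg hΛ₀ (mul_nonneg (Real.sqrt_nonneg _) (n2_nonneg _)))).trans_eq ?_
      have := Real.mul_self_sqrt hH.le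
      calc _ = (√(Fintype.card J : ℝ) * √(Fintype.card J : ℝ)) * Λ₀ ^ 2 * n2 a * n2 b * ‖c‖ := by
            ring
        _ = _ := by rw [this]
    rw [ampB_apply, norm_mul, norm_inv, Complex.norm_natCast, inv_mul_le_iff₀ hH]
    simp only [mat_mul_apply, Finset.mul_sum, Finset.sum_mul, map_sum]
    calc _ ≤ ∑ _l : J, ∑ _m : J, Fintype.card J * Λ₀ ^ 2 * n2 a * n2 b * ‖c‖ :=
          norm_sum_le_of_le _ fun l _ => norm_sum_le_of_le _ fun m _ => key l m
      _ = _ := by simp; ring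
  b2 n p c hc := by
    have hH := cardJ_pos (J := J)
    have hs := Real.sqrt_pos.mpr hH
    have h1 : ∑ q : Fin n × J, n2 (T (c q.1 q.2 i) * y) ^ 2 ≤
        Fintype.card J * (ε + Λ' * ∑ l, n2 (c l) ^ 2) := by
      let E := (Fintype.equivFin (Fin n × J)).symm
      have := h _ _ ((adm_col hc i).comp_equiv E)
      rw [E.sum_comp fun q => n2 (T (((√(Fintype.card J : ℝ))⁻¹ : ℂ) • c q.1 q.2 i) * y) ^ 2,
        E.sum_comp fun q => n2 (((√(Fintype.card J : ℝ))⁻¹ : ℂ) • c q.1 q.2 i) ^ 2] at this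
      simp only [map_smul, smul_mul_assoc, n2_smul, mul_pow, norm_inv, Complex.norm_real,
        Real.norm_of_nonneg hs.le, inv_pow, Real.sq_sqrt hH.le, ← Finset.mul_sum] at this
      rw [inv_mul_le_iff₀ hH] at this
      refine this.trans ?_
      gcongr
      rw [inv_mul_le_iff₀ hH, Fintype.sum_prod_type, Finset.mul_sum]
      exact Finset.sum_le_sum fun l _ => col_n2_le (c l) i
    have h2 : ∑ q : Fin n × J, n2 (p q.1 i q.2) ^ 2 ≤ Fintype.card J * ∑ l, n2 (p l) ^ 2 := by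
      rw [Fintype.sum_prod_type, Finset.mul_sum]
      exact Finset.sum_le_sum fun l _ => row_n2_le (p l) i
    simp only [ampB_apply, ← Finset.mul_sum]
    rw [norm_mul, norm_inv, Complex.norm_natCast, inv_mul_le_iff₀ hH, ← Fintype.sum_prod_type']
    calc _ ≤ ∑ q : Fin n × J, n2 (p q.1 i q.2) * n2 (T (c q.1 q.2 i) * y) :=
          norm_sum_le_of_le _ fun q _ => by
            rw [mul_assoc, τ_comm, mul_assoc]; exact norm_τ_mul_le _ _
      _ ≤ √(∑ q : Fin n × J, n2 (p q.1 i q.2) ^ 2) *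
            √(∑ q : Fin n × J, n2 (T (c q.1 q.2 i) * y) ^ 2) :=
          Real.sum_mul_le_sqrt_mul_sqrt _ _ _
      _ ≤ √(Fintype.card J * ∑ l, n2 (p l) ^ 2) *
            √(Fintype.card J * (ε + Λ' * ∑ l, n2 (c l) ^ 2)) := by gcongr
      _ = (√(Fintype.card J : ℝ) * √(Fintype.card J : ℝ)) * (√(∑ l, n2 (p l) ^ 2) *
            √(ε + Λ' * ∑ l, n2 (c l) ^ 2)) := by
          rw [Real.sqrt_mul hH.le, Real.sqrt_mul hH.le]; ring
      _ = _ := by rw [Real.mul_self_sqrt hH.le]

variable {ι : Type} [Fintype ι] [DecidableEq ι]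

/-- The family attached to a matrix. -/
noncomputable def ampM (f : ι → ι → A) (V : CStarMatrix J J A) (s : J × J × ι × ι) : A :=
  ((√(Fintype.card (J × ι) : ℝ))⁻¹ : ℂ) • (V s.1 s.2.1 * f s.2.2.1 s.2.2.2)

lemma sqrt_inv_mul_self (n : ℕ) :
    ((√(n : ℝ) : ℂ))⁻¹ * ((√(n : ℝ) : ℂ))⁻¹ = (n : ℂ)⁻¹ := by
  rw [← mul_inv, ← Complex.ofReal_mul, Real.mul_self_sqrt (Nat.cast_nonneg _)]; simp

lemma continuous_ampM (f : ι → ι → A) (s : J × J × ι × ι) : Continuous fun V => ampM f V s :=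
  ((continuous_entry _ _).mul continuous_const).const_smul _

lemma ampM_col {f : ι → ι → A} (hf : MU 1 f) {V : CStarMatrix J J A}
    (hV : V ∈ unitary (CStarMatrix J J A)) : ∑ s, star (ampM f V s) * ampM f V s = 1 := by
  have hι : (Fintype.card ι : ℂ) ≠ 0 := by exact_mod_cast (MU.card_pos hf).ne'
  have h1 : ∀ d, ∑ l, star (V l d) * V l d = 1 := fun d => by
    have := congrFun (congrFun hV.1 d) d
    simpa only [mat_mul_apply, mat_star_apply, CStarMatrix.one_apply_eq] using this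
  simp only [ampM, star_smul, smul_mul_smul_comm, star_inv₀, Complex.star_def, Complex.conj_ofReal,
    sqrt_inv_mul_self, ← Finset.smul_sum, star_mul, hf.star]
  rw [Fintype.sum_prod_type, Finset.sum_comm]
  have h2 : ∀ s : J × ι × ι, ∑ l, f s.2.2 s.2.1 * star (V l s.1) * (V l s.1 * f s.2.1 s.2.2) =
      f s.2.2 s.2.2 := fun s => by
    have : ∀ l, f s.2.2 s.2.1 * star (V l s.1) * (V l s.1 * f s.2.1 s.2.2) =
        f s.2.2 s.2.1 * (star (V l s.1) * V l s.1) * f s.2.1 s.2.2 := fun l => by noncomm_ring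
    simp only [this, ← Finset.mul_sum, ← Finset.sum_mul, h1, mul_one, hf.mul, if_true]
  simp only [h2, Fintype.sum_prod_type, hf.sum, Finset.sum_const, Finset.card_univ,
    Fintype.card_prod, ← Nat.cast_smul_eq_nsmul ℂ, smul_smul]
  rw [Nat.cast_mul, inv_mul_cancel₀ (mul_ne_zero cardJ_ne hι), one_smul]

lemma ampM_row {f : ι → ι → A} (hf : MU 1 f) {V : CStarMatrix J J A}
    (hV : V ∈ unitary (CStarMatrix J J A)) : ∑ s, ampM f V s * star (ampM f V s) = 1 := by
  have hι : (Fintype.card ι : ℂ) ≠ 0 := by exact_mod_cast (MU.card_pos hf).ne'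
  have h1 : ∀ l, ∑ d, V l d * star (V l d) = 1 := fun d => by
    have := congrFun (congrFun hV.2 d) d
    simpa only [mat_mul_apply, mat_star_apply, CStarMatrix.one_apply_eq] using this
  simp only [ampM, star_smul, smul_mul_smul_comm, star_inv₀, Complex.star_def, Complex.conj_ofReal,
    sqrt_inv_mul_self, ← Finset.smul_sum, star_mul, hf.star]
  have h2 : ∀ (l d : J), ∑ α, ∑ β, V l d * f α β * (f β α * star (V l d)) =
      (Fintype.card ι : ℂ) • (V l d * star (V l d)) := fun l d => by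
    have : ∀ α β, V l d * f α β * (f β α * star (V l d)) = V l d * f α α * star (V l d) :=
      fun α β => by
        rw [mul_assoc, ← mul_assoc (f α β), hf.mul, if_pos rfl, mul_assoc]
    simp only [this, Finset.sum_const, Finset.card_univ, ← Finset.smul_sum, ← Finset.mul_sum,
      ← Finset.sum_mul, hf.sum, mul_one, Nat.cast_smul_eq_nsmul]
  simp only [Fintype.sum_prod_type, h2, ← Finset.smul_sum, h1, Finset.sum_const, Finset.card_univ,
    Fintype.card_prod, ← Nat.cast_smul_eq_nsmul ℂ, smul_smul]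
  rw [Nat.cast_mul, mul_comm (Fintype.card ι : ℂ), inv_mul_cancel₀ (mul_ne_zero cardJ_ne hι),
    one_smul]

lemma FF_ampB {f : ι → ι → A} (hf : MU 1 f) (T : A →L[ℂ] A) (y : A) (x : J → A) (i : J)
    (V : CStarMatrix J J A) :
    FF (ampU f) (fun a b => ampB T y i (star (dg x) * b * star V) (V * a * dg x)) =
      (Fintype.card J : ℂ)⁻¹ *
        τ (y * (star (x i) * ∑ s, star (ampM f V s) * T (ampM f V s * x i))) := by
  have key : ∀ (c d : J) (α β : ι) (l : J),
      τ (y * (star (dg x) * ampU f (c, α) (d, β) * star V) i l *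
        T ((V * ampU f (d, β) (c, α) * dg x) l i)) =
      if i = c then τ (y * (star (x i) * (star (V l d * f β α) * T (V l d * f β α * x i))))
      else 0 := fun c d α β l => by
    rw [mul_assoc (star (dg x)), star_dg, dg_mul_apply, mul_dg_apply, ampU, ampU, sing_mul_apply,
      mul_sing_apply, mat_star_apply]
    split_ifs
    · simp only [star_mul, hf.star, mul_assoc]
    · simp
  simp only [FF, ampB_apply, Fintype.sum_prod_type, key, ampM, star_smul, smul_mul_assoc, map_smul,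
    mul_smul_comm, smul_smul, star_inv₀, Complex.star_def, Complex.conj_ofReal, sqrt_inv_mul_self,
    ← Finset.smul_sum, ← Finset.mul_sum, smul_eq_mul]
  rw [mul_left_comm]
  congr 2
  rw [Finset.sum_eq_single i]
  · simp only [if_true, Finset.mul_sum, map_sum]
    calc _ = ∑ α, ∑ d, ∑ l, ∑ β,
          τ (y * (star (x i) * (star (V l d * f β α) * T (V l d * f β α * x i)))) :=
          Finset.sum_congr rfl fun α _ => Finset.sum_congr rfl fun d _ => Finset.sum_comm
      _ = ∑ α, ∑ l, ∑ d, ∑ β,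
          τ (y * (star (x i) * (star (V l d * f β α) * T (V l d * f β α * x i)))) :=
          Finset.sum_congr rfl fun α _ => Finset.sum_comm
      _ = ∑ l, ∑ α, ∑ d, ∑ β,
          τ (y * (star (x i) * (star (V l d * f β α) * T (V l d * f β α * x i)))) :=
          Finset.sum_comm
      _ = ∑ l, ∑ d, ∑ α, ∑ β,
          τ (y * (star (x i) * (star (V l d * f β α) * T (V l d * f β α * x i)))) :=
          Finset.sum_congr rfl fun l _ => Finset.sum_comm
      _ = _ := Finset.sum_congr rfl fun l _ => Finset.sum_congr rfl fun d _ => Finset.sum_comm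
  · intro b _ hb; simp [Ne.symm hb]
  · simp

end Crest.Agent.R121
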