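import Crest.Agent.R121.Defs

/-! Row 121: little Grothendieck inequality, clamps -/

set_option autoImplicit false
set_option linter.unusedSectionVars false

namespace Crest.Agent.R121

open Crest.Agent.R95 Crest.Agent.R124 MeasureTheory Filter Topology
open scoped InnerProductSpace BigOperators ComplexConjugate

variable {A : Type*} [CStarAlgebra A]

lemma lgt_norm_unitary_le {u : A} (hu : u ∈ unitary A) : ‖u‖ ≤ 1 := by
  have := CStarRing.norm_mem_unitary_mul (1 : A) hu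
  rw [mul_one] at this
  exact this ▸ (IsStarProjection.one (R := A)).norm_le

section Order
attribute [local instance] CStarAlgebra.spectralOrder CStarAlgebra.spectralOrderedRing

lemma lgt_sa {E : Type*} [NormedAddCommGroup E] [InnerProductSpace ℂ E] (S : A →L[ℂ] E)
    {u : A} (hu : u ∈ unitary A) {η : ℝ} (hη : ∀ v ∈ unitary A, ‖S v‖ ^ 2 ≤ ‖S u‖ ^ 2 + η)
    {ι : Type*} [Fintype ι] (h : ι → A) (hsa : ∀ i, IsSelfAdjoint (h i))
    (hs1 : ∑ i, h i ^ 2 ≤ 1) : ∑ i, ‖S (u * h i)‖ ^ 2 ≤ Fintype.card ι * η + 2 * ‖S‖ ^ 2 := by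
  have hsq : ∀ i, 0 ≤ h i ^ 2 := fun i => (hsa i).sq_nonneg
  have hle : ∀ i, h i ^ 2 ≤ 1 := fun i =>
    (Finset.single_le_sum (f := fun i => h i ^ 2) (fun i _ => hsq i) (Finset.mem_univ i)).trans hs1
  have hn1 : ∀ i, ‖h i‖ ≤ 1 := fun i => by
    have := (CStarAlgebra.norm_le_one_iff_of_nonneg _ (hsq i)).mpr (hle i)
    rw [sq, (hsa i).norm_mul_self] at this
    nlinarith [norm_nonneg (h i)]
  set c : ι → A := fun i => CFC.sqrt (1 - h i ^ 2) with hc
  have c0 : ∀ i, 0 ≤ c i := fun i => CFC.sqrt_nonneg _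
  have c2 : ∀ i, c i * c i = 1 - h i ^ 2 := fun i =>
    CFC.sqrt_mul_sqrt_self _ (sub_nonneg.mpr (hle i))
  have c1 : ∀ i, c i ≤ 1 := fun i => by
    rw [← CStarAlgebra.norm_le_one_iff_of_nonneg _ (c0 i)]
    have h1 : ‖c i * c i‖ ≤ 1 := by
      rw [c2, CStarAlgebra.norm_le_one_iff_of_nonneg _ (sub_nonneg.mpr (hle i))]
      exact sub_le_self _ (hsq i)
    rw [(c0 i).isSelfAdjoint.norm_mul_self] at h1
    nlinarith [norm_nonneg (c i)]
  have d1 : ∀ i, 1 - c i ≤ h i ^ 2 := fun i => by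
    have h1 : 0 ≤ c i * (1 - c i) :=
      Commute.mul_nonneg (c0 i) (sub_nonneg.mpr (c1 i))
        ((Commute.one_right _).sub_right (Commute.refl _))
    rw [mul_sub, mul_one, c2] at h1
    rw [← sub_nonneg]; convert h1 using 1; abel
  have d2 : ‖∑ i, (1 - c i)‖ ≤ 1 := by
    rw [CStarAlgebra.norm_le_one_iff_of_nonneg _
      (Finset.sum_nonneg fun i _ => sub_nonneg.mpr (c1 i))]
    exact (Finset.sum_le_sum fun i _ => d1 i).trans hs1
  have hu1 : ∀ i, h i + Complex.I • c i ∈ unitary A := fun i =>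
    IsSelfAdjoint.self_add_I_smul_cfcSqrt_sub_sq_mem_unitary _ (hsa i) (hn1 i)
  have hu2 : ∀ i, h i - Complex.I • c i ∈ unitary A := fun i => by
    have := Unitary.star_mem (hu1 i)
    rwa [star_add, star_smul, (hsa i).star_eq, (c0 i).isSelfAdjoint.star_eq, RCLike.star_def,
      Complex.conj_I, neg_smul, ← sub_eq_add_neg] at this
  have k1 : ∀ i, ‖S (u * h i)‖ ^ 2 ≤ η + 2 * (⟪S u, S (u * (1 - c i))⟫_ℂ).re := fun i => by
    have e1 := hη _ (mul_mem hu (hu1 i))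
    have e2 := hη _ (mul_mem hu (hu2 i))
    have e3 := parallelogram_law_with_norm ℂ (S (u * h i)) (Complex.I • S (u * c i))
    rw [mul_add, mul_smul_comm, map_add, map_smul] at e1
    rw [mul_sub, mul_smul_comm, map_sub, map_smul] at e2
    rw [norm_smul, Complex.norm_I, one_mul] at e3
    have e4 : S (u * c i) = S u - S (u * (1 - c i)) := by
      rw [mul_sub, mul_one, map_sub]; abel
    have e5 := @norm_sub_sq ℂ _ _ _ _ (S u) (S (u * (1 - c i)))
    rw [← e4] at e5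
    have e6 := sq_nonneg ‖S (u * (1 - c i))‖
    simp only [RCLike.re_to_complex] at e5
    linarith
  have k2 : ∑ i, (⟪S u, S (u * (1 - c i))⟫_ℂ).re ≤ ‖S‖ ^ 2 := by
    rw [← Complex.re_sum, ← inner_sum, ← map_sum, ← Finset.mul_sum]
    have e1 := S.unit_le_opNorm _ (lgt_norm_unitary_le hu)
    have e2 := S.unit_le_opNorm (u * ∑ i, (1 - c i))
      (by rwa [CStarRing.norm_mem_unitary_mul _ hu])
    calc _ ≤ ‖⟪S u, S (u * ∑ i, (1 - c i))⟫_ℂ‖ := Complex.re_le_norm _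
      _ ≤ _ := norm_inner_le_norm _ _
      _ ≤ ‖S‖ * ‖S‖ := by gcongr
      _ = _ := by ring
  refine (Finset.sum_le_sum fun i _ => k1 i).trans ?_
  rw [Finset.sum_add_distrib, ← Finset.mul_sum, Finset.sum_const, Finset.card_univ, nsmul_eq_mul]
  linarith

end Order

/-- Little Grothendieck inequality.  PROOF (compare `R124.column_sa`).  `N = ‖S‖`,
`β = sup {‖S u‖ : u unitary} ≤ N`; fix `η > 0` and a unitary `u` with `β² - ‖S u‖² ≤ η`.  Write
`u* cᵢ = hᵢ + i kᵢ` (real and imaginary part), `hᵢ² + kᵢ² = (cᵢ* cᵢ + u* cᵢ cᵢ* u)/2`, so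
`∑ (hᵢ² + kᵢ²) ≤ 1`.  For `g` among the `hᵢ, kᵢ`: `r = sqrt (1 - g²)`, `r ± i g` unitary, parallelogram:
`‖S(u r)‖² + ‖S(u g)‖² ≤ β²`; `d = 1 - r`, `0 ≤ d ≤ g²`,
`‖S(u r)‖² ≥ ‖S u‖² - 2 re ⟪S u, S (u d)⟫`.  Summing, `∑_g ‖S(u g)‖² ≤ 2 n η + 2 N²` because
`‖∑ d‖ ≤ 1`.  Finally `‖S cᵢ‖² ≤ 2 ‖S(u hᵢ)‖² + 2 ‖S(u kᵢ)‖²`, `η → 0`. -/
theorem lgt {E : Type*} [NormedAddCommGroup E] [InnerProductSpace ℂ E] (S : A →L[ℂ] E)
    {ι : Type*} [Fintype ι] {c : ι → A} (hc : Adm c) : ∑ i, ‖S (c i)‖ ^ 2 ≤ 4 * ‖S‖ ^ 2 := by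
  let _ := CStarAlgebra.spectralOrder A
  have _ := CStarAlgebra.spectralOrderedRing A
  rw [adm_iff] at hc
  let U : Set ℝ := {t | ∃ u ∈ unitary A, t = ‖S u‖ ^ 2}
  have hUne : U.Nonempty := ⟨_, 1, one_mem _, rfl⟩
  have hUb : BddAbove U := ⟨‖S‖ ^ 2, by
    rintro _ ⟨u, hu, rfl⟩
    exact pow_le_pow_left₀ (norm_nonneg _) (S.unit_le_opNorm _ (lgt_norm_unitary_le hu)) 2⟩
  refine le_of_forall_pos_le_add fun ε hε => ?_
  set η : ℝ := ε / (4 * (Fintype.card ι + 1)) with hη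
  have hη0 : 0 < η := by positivity
  obtain ⟨_, ⟨u, hu, rfl⟩, hlt⟩ := exists_lt_of_lt_csSup hUne (sub_lt_self (sSup U) hη0)
  let g : ι ⊕ ι → A := Sum.elim (fun i => (realPart (star u * c i) : A))
    fun i => (imaginaryPart (star u * c i) : A)
  have hg : ∑ i, g i ^ 2 ≤ 1 := by
    have h1 : (2 : ℝ) • ∑ i, g i ^ 2 = ∑ i, star (c i) * c i +
        star u * (∑ i, c i * star (c i)) * u := by
      rw [Fintype.sum_sum_type, ← Finset.sum_add_distrib, Finset.smul_sum, Finset.mul_sum,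
        Finset.sum_mul, ← Finset.sum_add_distrib]
      refine Finset.sum_congr rfl fun i _ => ?_
      have := star_mul_self_add_self_mul_star (star u * c i)
      rw [two_smul] at this
      simp only [g, Sum.elim_inl, Sum.elim_inr, sq, two_smul, ← this, star_mul, star_star,
        mul_assoc, ← mul_assoc u, hu.2, one_mul]
    have h2 : star u * (∑ i, c i * star (c i)) * u ≤ 1 := by
      simpa [hu.1] using star_left_conjugate_le_conjugate hc.2 u
    have h3 : (2 : ℝ) • ∑ i, g i ^ 2 ≤ (2 : ℝ) • (1 : A) := by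
      rw [h1, two_smul]; exact add_le_add hc.1 h2
    exact le_of_smul_le_smul_left h3 two_pos
  have h4 := lgt_sa S hu (η := η) (fun v hv => by
    have := le_csSup hUb ⟨v, hv, rfl⟩
    linarith) g (by rintro (i | i) <;> exact Subtype.prop _) hg
  have h5 : ∀ i, ‖S (c i)‖ ^ 2 ≤ 2 * (‖S (u * g (.inl i))‖ ^ 2 + ‖S (u * g (.inr i))‖ ^ 2) := by
    intro i
    have e1 : c i = u * g (.inl i) + Complex.I • (u * g (.inr i)) := by
      simp only [g, Sum.elim_inl, Sum.elim_inr]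
      rw [← mul_smul_comm, ← mul_add, realPart_add_I_smul_imaginaryPart, ← mul_assoc, hu.2, one_mul]
    have e3 := parallelogram_law_with_norm ℂ (S (u * g (.inl i))) (Complex.I • S (u * g (.inr i)))
    rw [norm_smul, Complex.norm_I, one_mul] at e3
    rw [e1, map_add, map_smul]
    nlinarith [norm_nonneg (S (u * g (.inl i)) - Complex.I • S (u * g (.inr i)))]
  have h6 : 4 * (Fintype.card ι + 1) * η = ε := by rw [hη]; field_simp
  rw [Fintype.sum_sum_type, ← Finset.sum_add_distrib, Fintype.card_sum] at h4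
  push_cast at h4
  refine (Finset.sum_le_sum fun i _ => h5 i).trans ?_
  rw [← Finset.mul_sum]
  linarith

/-- Scaled form of `lgt` (apply it to `t^{-1/2} • c`; `t = 0` forces `c = 0`). -/
theorem lgt' {E : Type*} [NormedAddCommGroup E] [InnerProductSpace ℂ E] (S : A →L[ℂ] E)
    {ι : Type*} [Fintype ι] {c : ι → A} {t : ℝ} (h1 : ‖∑ i, star (c i) * c i‖ ≤ t)
    (h2 : ‖∑ i, c i * star (c i)‖ ≤ t) : ∑ i, ‖S (c i)‖ ^ 2 ≤ 4 * t * ‖S‖ ^ 2 := by
  refine le_of_forall_pos_le_add fun ε hε => ?_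
  have ht : 0 ≤ t := (norm_nonneg _).trans h1
  set M : ℝ := t + ε / (4 * (‖S‖ ^ 2 + 1)) with hM
  have hM0 : 0 < M := by positivity
  have htM : t ≤ M := le_add_of_nonneg_right (by positivity)
  obtain ⟨r, hr0, hr⟩ : ∃ r : ℝ, 0 ≤ r ∧ r * r = M⁻¹ :=
    ⟨√(M⁻¹), Real.sqrt_nonneg _, Real.mul_self_sqrt (by positivity)⟩
  have hrc : (r : ℂ) * r = (M⁻¹ : ℝ) := by rw [← hr]; simp
  have hn : ‖((M⁻¹ : ℝ) : ℂ)‖ = M⁻¹ := by
    rw [Complex.norm_real, Real.norm_of_nonneg (by positivity)]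
  have hadm : Adm fun l => (r : ℂ) • c l := by
    constructor
    · simp only [star_smul, smul_mul_smul_comm, RCLike.star_def, Complex.conj_ofReal, hrc,
        ← Finset.smul_sum, norm_smul, hn]
      rw [inv_mul_le_iff₀ hM0, mul_one]
      exact h1.trans htM
    · simp only [star_smul, smul_mul_smul_comm, RCLike.star_def, Complex.conj_ofReal, hrc,
        ← Finset.smul_sum, norm_smul, hn]
      rw [inv_mul_le_iff₀ hM0, mul_one]
      exact h2.trans htM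
  have h := lgt S hadm
  simp only [map_smul, norm_smul, Complex.norm_real, Real.norm_of_nonneg hr0, mul_pow, sq r, hr,
    ← Finset.mul_sum] at h
  rw [inv_mul_le_iff₀ hM0] at h
  have h3 : ε / (4 * (‖S‖ ^ 2 + 1)) * (4 * (‖S‖ ^ 2 + 1)) = ε := by field_simp
  have h4 : 0 ≤ ε / (4 * (‖S‖ ^ 2 + 1)) := by positivity
  rw [hM] at h
  nlinarith

section Order
attribute [local instance] CStarAlgebra.spectralOrder CStarAlgebra.spectralOrderedRing

/-- `e = cfc (fun t => max 0 (min 1 (2 - t / c))) h`; all claims are pointwise inequalities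
(`cfc_le_cfc`-type lemmas / `cfc_nonneg`). -/
theorem exists_clamp {h : A} (h0 : 0 ≤ h) {c : ℝ} (hc : 0 < c) :
    ∃ e : A, 0 ≤ e ∧ e ≤ 1 ∧ Commute e h ∧ e * h * e ≤ (2 * c) • (1 : A) ∧
      (1 - e) * (1 - e) ≤ c⁻¹ • h ∧ (h ≤ 1 → h + e * e ≤ (1 + 2 * c) • (1 : A)) := by
  let f : ℝ → ℝ := fun t => max 0 (min 1 (2 - t / c))
  have hf : Continuous f := by fun_prop
  have hsa : IsSelfAdjoint h := h0.isSelfAdjoint
  have hsp : ∀ t ∈ spectrum ℝ h, 0 ≤ t := fun t ht => spectrum_nonneg_of_nonneg h0 ht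
  have f0 : ∀ t, 0 ≤ f t := fun t => le_max_left _ _
  have f1 : ∀ t, f t ≤ 1 := fun t => max_le zero_le_one (min_le_left _ _)
  have f2 : ∀ t, 2 * c ≤ t → f t = 0 := fun t ht => max_eq_left ((min_le_right _ _).trans (by
    rw [sub_nonpos, le_div_iff₀ hc]; exact ht))
  have f3 : ∀ t, t ≤ c → f t = 1 := fun t ht => by
    have : t / c ≤ 1 := by rwa [div_le_one hc]
    simp only [f]
    rw [min_eq_left (by linarith), max_eq_right zero_le_one]
  have hc1 : ∀ r : ℝ, r • (1 : A) = cfc (fun _ : ℝ => r) h := fun r => by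
    rw [cfc_const r h, Algebra.algebraMap_eq_smul_one]
  refine ⟨cfc f h, cfc_nonneg fun t _ => f0 t, cfc_le_one f h fun t _ => f1 t,
    (Commute.refl h).cfc_real f, ?_, ?_, fun h1 => ?_⟩
  · have : cfc f h * h * cfc f h = cfc (fun t => f t * t * f t) h := by
      rw [cfc_mul _ _ h, cfc_mul _ _ h, cfc_id' ℝ h]
    rw [this, hc1]
    refine cfc_mono fun t ht => ?_
    have := hsp t ht
    rcases le_total (2 * c) t with h2 | h2
    · rw [f2 t h2]; simp; positivity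
    · have := f0 t
      have := f1 t
      calc f t * t * f t ≤ 1 * (2 * c) * 1 := by gcongr
        _ = _ := by ring
  · have : (1 - cfc f h) * (1 - cfc f h) = cfc (fun t => (1 - f t) * (1 - f t)) h := by
      rw [cfc_mul _ _ h, cfc_sub _ _ h, cfc_const_one ℝ h]
    rw [this, ← cfc_const_mul_id c⁻¹ h]
    refine cfc_mono fun t ht => ?_
    have := hsp t ht
    rcases le_total t c with h2 | h2
    · rw [f3 t h2]; simp; positivity
    · have := f0 t
      have := f1 t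
      have : 1 ≤ c⁻¹ * t := by rwa [le_inv_mul_iff₀ hc, mul_one]
      nlinarith
  · have : h + cfc f h * cfc f h = cfc (fun t => t + f t * f t) h := by
      rw [cfc_add h _ _, cfc_mul _ _ h, cfc_id' ℝ h]
    rw [this, hc1]
    refine cfc_mono fun t ht => ?_
    have h3 : t ≤ 1 := (CFC.le_one_iff h).1 h1 t ht
    rcases le_total (2 * c) t with h2 | h2
    · rw [f2 t h2]; linarith
    · have := f0 t
      have := f1 t
      nlinarith

end Order

variable {K : Type*} [NormedAddCommGroup K] [InnerProductSpace ℂ K] [CompleteSpace K]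

/-- `⟪η, ∑ m* T(m) ξ⟫ = ∑ ⟪m η, T(m) ξ⟫`, Cauchy–Schwarz, `∑ ‖m η‖² ≤ ‖η‖²` and `lgt` for
`S c = T c ξ`. -/
theorem norm_avg_le {P : VonNeumannAlgebra K} (T : Al P →L[ℂ] Al P) {ι : Type*} [Fintype ι]
    {m : ι → Al P} (hm : Adm m) : ‖∑ i, star (m i) * T (m i)‖ ≤ 2 * ‖T‖ := by
  let ev : K → Al P →L[ℂ] K := fun ξ =>
    (ContinuousLinearMap.apply ℂ K ξ).comp P.toStarSubalgebra.toSubalgebra.toSubmodule.subtypeL
  have hev : ∀ ξ x, ev ξ x = (x : K →L[ℂ] K) ξ := fun ξ x => rfl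
  change ‖((∑ i, star (m i) * T (m i) : Al P) : K →L[ℂ] K)‖ ≤ _
  refine ContinuousLinearMap.opNorm_le_bound _ (by positivity) fun ξ => ?_
  set η := ((∑ i, star (m i) * T (m i) : Al P) : K →L[ℂ] K) ξ with hη
  have h1 : ∑ i, ‖(T (m i) : K →L[ℂ] K) ξ‖ ^ 2 ≤ (2 * ‖T‖ * ‖ξ‖) ^ 2 := by
    have hS : ‖(ev ξ).comp T‖ ≤ ‖T‖ * ‖ξ‖ :=
      ContinuousLinearMap.opNorm_le_bound _ (by positivity) fun x => by
        calc _ ≤ ‖T x‖ * ‖ξ‖ := (T x : K →L[ℂ] K).le_opNorm ξ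
          _ ≤ ‖T‖ * ‖x‖ * ‖ξ‖ := by gcongr; exact T.le_opNorm x
          _ = _ := by ring
    calc _ ≤ 4 * ‖(ev ξ).comp T‖ ^ 2 := lgt ((ev ξ).comp T) hm
      _ ≤ 4 * (‖T‖ * ‖ξ‖) ^ 2 := by gcongr
      _ = _ := by ring
  have h2 : ∑ i, ‖(m i : K →L[ℂ] K) η‖ ^ 2 ≤ ‖η‖ ^ 2 := by
    have : ∑ i, ‖(m i : K →L[ℂ] K) η‖ ^ 2 = (⟪η, ev η (∑ i, star (m i) * m i)⟫_ℂ).re := by
      rw [map_sum, inner_sum, Complex.re_sum]
      exact Finset.sum_congr rfl fun i _ => norm_sq_eq_inner _ _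
    rw [this, hev]
    refine (Complex.re_le_norm _).trans ((norm_inner_le_norm _ _).trans ?_)
    rw [sq]
    gcongr
    exact (ContinuousLinearMap.le_of_opNorm_le _ hm.1 η).trans_eq (one_mul _)
  have h3 : ‖η‖ ^ 2 ≤ ∑ i, ‖(m i : K →L[ℂ] K) η‖ * ‖(T (m i) : K →L[ℂ] K) ξ‖ := by
    have : ‖η‖ ^ 2 = (⟪η, ev ξ (∑ i, star (m i) * T (m i))⟫_ℂ).re := by
      rw [hev, ← hη, inner_self_eq_norm_sq_to_K]; norm_cast
    rw [this, map_sum, inner_sum, Complex.re_sum]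
    refine Finset.sum_le_sum fun i _ => ?_
    have : ⟪η, ev ξ (star (m i) * T (m i))⟫_ℂ = ⟪(m i : K →L[ℂ] K) η, (T (m i) : K →L[ℂ] K) ξ⟫_ℂ :=
      inner_star_right _ _ _
    rw [this]
    exact (Complex.re_le_norm _).trans (norm_inner_le_norm _ _)
  have h4 := Finset.sum_mul_sq_le_sq_mul_sq Finset.univ (fun i => ‖(m i : K →L[ℂ] K) η‖)
    fun i => ‖(T (m i) : K →L[ℂ] K) ξ‖
  have h5 : (‖η‖ ^ 2) ^ 2 ≤ (‖η‖ * (2 * ‖T‖ * ‖ξ‖)) ^ 2 :=
    (pow_le_pow_left₀ (by positivity) h3 2).trans (h4.trans (by rw [mul_pow]; gcongr))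
  have h6 := (sq_le_sq₀ (by positivity) (by positivity)).1 h5
  rcases (norm_nonneg η).eq_or_lt with h0 | h0
  · rw [← h0]; positivity
  · rw [sq] at h6
    exact le_of_mul_le_mul_left h6 h0

end Crest.Agent.R121
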