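import Crest.Agent.R121.MUb
import Crest.Agent.R121.LGT

/-! Row 121: matrix units in general position -/

set_option autoImplicit false
set_option linter.unusedSectionVars false

namespace Crest.Agent.R121

open Crest.Agent.R95 Crest.Agent.R124 MeasureTheory Filter Topology
open scoped InnerProductSpace BigOperators ComplexConjugate

variable {A : Type*} [CStarAlgebra A] [Tr A]

section
variable {ι : Type*} [Fintype ι] [DecidableEq ι] {f : ι → ι → A}

/-- Amplification of the corner `f i₀ i₀`. -/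
noncomputable def gen_amp (f : ι → ι → A) (i₀ : ι) (y : A) : A := ∑ k, f k i₀ * y * f i₀ k

lemma gen_sum_mul (hf : MU 1 f) (X Y : ι → A) (j j' : ι) :
    (∑ l, X l * f j l) * (∑ l, f l j' * Y l) = ∑ l, X l * f j j' * Y l := by
  rw [Finset.sum_mul_sum]
  refine Finset.sum_congr rfl fun l _ => ?_
  rw [Finset.sum_eq_single l]
  · rw [mul_assoc, ← mul_assoc (f j l), hf.mul, if_pos rfl, mul_assoc]
  · intro l' _ h
    rw [mul_assoc, ← mul_assoc (f j l), hf.mul, if_neg h.symm, zero_mul, mul_zero]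
  · simp

lemma gen_amp_mul (hf : MU 1 f) (i₀ : ι) (y z : A) :
    gen_amp f i₀ y * gen_amp f i₀ z = gen_amp f i₀ (y * f i₀ i₀ * z) := by
  have := gen_sum_mul hf (fun l => f l i₀ * y) (fun l => z * f i₀ l) i₀ i₀
  simpa only [gen_amp, mul_assoc] using this

lemma gen_amp_star (hf : MU 1 f) (i₀ : ι) (y : A) :
    star (gen_amp f i₀ y) = gen_amp f i₀ (star y) := by
  simp only [gen_amp, star_sum, star_mul, hf.star, mul_assoc]

lemma gen_amp_comm (hf : MU 1 f) (i₀ : ι) (y : A) (i j : ι) :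
    Commute (gen_amp f i₀ y) (f i j) := by
  have h1 : gen_amp f i₀ y * f i j = f i i₀ * y * f i₀ j := by
    rw [gen_amp, Finset.sum_mul, Finset.sum_eq_single i]
    · rw [mul_assoc, hf.mul, if_pos rfl]
    · intro l _ h; rw [mul_assoc, hf.mul, if_neg h, mul_zero]
    · simp
  have h2 : f i j * gen_amp f i₀ y = f i i₀ * y * f i₀ j := by
    rw [gen_amp, Finset.mul_sum, Finset.sum_eq_single j]
    · rw [← mul_assoc, ← mul_assoc, hf.mul, if_pos rfl]
    · intro l _ h; rw [← mul_assoc, ← mul_assoc, hf.mul, if_neg h.symm, zero_mul, zero_mul]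
    · simp
  exact h1.trans h2.symm

lemma gen_amp_add (f : ι → ι → A) (i₀ : ι) (y z : A) :
    gen_amp f i₀ (y + z) = gen_amp f i₀ y + gen_amp f i₀ z := by
  simp only [gen_amp, mul_add, add_mul, Finset.sum_add_distrib]

lemma gen_half_left {v p : A} (hv : PI v) (h0 : v * v = 0) (h1 : star v * v + v * star v = p) :
    p * v = v := by
  rw [← h1, add_mul, mul_assoc, h0, mul_zero, zero_add, hv]

lemma gen_half_right {v p : A} (hv : PI v) (h0 : v * v = 0) (h1 : star v * v + v * star v = p) :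
    v * p = v := by
  rw [← h1, mul_add, ← mul_assoc, ← mul_assoc, h0, zero_mul, add_zero, hv]

lemma gen_pi_star {v : A} (hv : PI v) : PI (star v) := by
  have := congrArg star hv
  simp only [star_mul, star_star] at this
  rw [PI, star_star, mul_assoc, this]

/-- Halving inside the commutant of `f`: halve `p * f i₀ i₀` by `v₀`, `v = ∑ₖ f k i₀ * v₀ * f i₀ k`. -/
lemma half_comm (hA : II A) (hf : MU 1 f) {p : A} (hp : IsStarProjection p)
    (hpf : ∀ i j, Commute p (f i j)) :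
    ∃ v : A, (∀ i j, Commute v (f i j)) ∧ PI v ∧ v * v = 0 ∧ star v * v + v * star v = p := by
  obtain ⟨i₀⟩ := Fintype.card_pos_iff.mp (MU.card_pos hf)
  have hff : f i₀ i₀ * f i₀ i₀ = f i₀ i₀ := by rw [hf.mul, if_pos rfl]
  have hq : IsStarProjection (p * f i₀ i₀) :=
    hp.mul ⟨hff, hf.star i₀ i₀⟩ (hpf i₀ i₀)
  obtain ⟨v, hv, h0, h1⟩ := hA.half _ hq
  have hl : f i₀ i₀ * v = v := by
    rw [← gen_half_left hv h0 h1, (hpf i₀ i₀).eq, ← mul_assoc, ← mul_assoc, hff]
  have hr : v * f i₀ i₀ = v := by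
    rw [← gen_half_right hv h0 h1, mul_assoc, mul_assoc, hff]
  have hl' : star v * f i₀ i₀ = star v := by
    have := congrArg star hl
    rwa [star_mul, hf.star] at this
  refine ⟨gen_amp f i₀ v, gen_amp_comm hf i₀ v, ?_, ?_, ?_⟩
  · rw [PI, gen_amp_star hf, gen_amp_mul hf, gen_amp_mul hf, hr, mul_assoc v, hl', hv]
  · rw [gen_amp_mul hf, hr, h0]; simp [gen_amp]
  · rw [gen_amp_star hf, gen_amp_mul hf, gen_amp_mul hf, hr, hl', ← gen_amp_add, h1, gen_amp]
    calc ∑ k, f k i₀ * (p * f i₀ i₀) * f i₀ k = ∑ k, p * f k k := by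
          refine Finset.sum_congr rfl fun k _ => ?_
          rw [← mul_assoc, ← (hpf k i₀).eq, mul_assoc, mul_assoc, hf.mul, if_pos rfl, hf.mul,
            if_pos rfl]
      _ = p := by rw [← Finset.mul_sum, hf.sum, mul_one]

/-- The `2 × 2` matrix units of a halving. -/
def g2 (v : A) : Bool → Bool → A
  | true, true => v * star v
  | true, false => v
  | false, true => star v
  | false, false => star v * v

lemma g2_mu {v : A} (hv : PI v) (h0 : v * v = 0) (h1 : star v * v + v * star v = 1) :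
    MU 1 (g2 v) := by
  have hv' : star v * v * star v = star v := by simpa [PI] using gen_pi_star hv
  have h0' : star v * star v = 0 := by rw [← star_mul, h0, star_zero]
  have a1 : v * (star v * v) = v := by rw [← mul_assoc]; exact hv
  have a2 : star v * (v * star v) = star v := by rw [← mul_assoc]; exact hv'
  have a3 : ∀ y, v * (v * y) = 0 := fun y => by rw [← mul_assoc, h0, zero_mul]
  have a4 : ∀ y, star v * (star v * y) = 0 := fun y => by rw [← mul_assoc, h0', zero_mul]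
  refine ⟨fun a b c d => ?_, fun a b => ?_, ?_⟩
  · cases a <;> cases b <;> cases c <;> cases d <;>
      simp [g2, mul_assoc, a1, a2, a3, a4, h0, h0']
  · cases a <;> cases b <;> simp [g2]
  · rw [Fintype.sum_bool, ← h1, add_comm]; rfl

lemma mu_mul {κ : Type*} [Fintype κ] [DecidableEq κ] {g : κ → κ → A} (hf : MU 1 f) (hg : MU 1 g)
    (h : ∀ i j a b, Commute (g a b) (f i j)) :
    MU 1 (fun p q : ι × κ => f p.1 q.1 * g p.2 q.2) ∧
      ∀ y, EK (fun p q : ι × κ => f p.1 q.1 * g p.2 q.2) y = EK g (EK f y) := by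
  refine ⟨⟨fun a b c d => ?_, fun a b => ?_, ?_⟩, fun y => ?_⟩
  · rw [mul_assoc, ← mul_assoc (g _ _), (h _ _ _ _).eq, mul_assoc, ← mul_assoc, hf.mul, hg.mul]
    by_cases h1 : b.1 = c.1 <;> by_cases h2 : b.2 = c.2 <;> simp [h1, h2, Prod.ext_iff]
  · rw [star_mul, hf.star, hg.star, (h _ _ _ _).eq]
  · rw [Fintype.sum_prod_type]
    simp only [← Finset.mul_sum, hg.sum, mul_one, hf.sum]
  · simp only [EK_apply, FF, Fintype.card_prod, Nat.cast_mul, mul_inv, Finset.mul_sum,
      Finset.sum_mul, mul_smul_comm, smul_mul_assoc, ← Finset.smul_sum, smul_smul,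
      Fintype.sum_prod_type]
    rw [mul_comm]
    congr 1
    rw [Finset.sum_comm]
    refine Finset.sum_congr rfl fun a _ => ?_
    rw [show (∑ i, ∑ j, ∑ b, f j i * g b a * y * (f i j * g a b)) =
      ∑ i, ∑ b, ∑ j, f j i * g b a * y * (f i j * g a b) from
        Finset.sum_congr rfl fun i _ => Finset.sum_comm, Finset.sum_comm]
    refine Finset.sum_congr rfl fun b _ => Finset.sum_congr rfl fun i _ =>
      Finset.sum_congr rfl fun j _ => ?_
    rw [← (h j i b a).eq]
    simp only [mul_assoc]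

lemma gen_sym_sq {v p : A} (hv : PI v) (h0 : v * v = 0) (h1 : star v * v + v * star v = p) :
    (v * star v - star v * v) * (v * star v - star v * v) = p := by
  have hv' : star v * v * star v = star v := by simpa [PI] using gen_pi_star hv
  have h0' : star v * star v = 0 := by rw [← star_mul, h0, star_zero]
  have a1 : v * (star v * v) = v := by rw [← mul_assoc]; exact hv
  have a2 : star v * (v * star v) = star v := by rw [← mul_assoc]; exact hv'
  have a3 : ∀ y, v * (v * y) = 0 := fun y => by rw [← mul_assoc, h0, zero_mul]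
  have a4 : ∀ y, star v * (star v * y) = 0 := fun y => by rw [← mul_assoc, h0', zero_mul]
  rw [← h1]
  simp [sub_mul, mul_sub, mul_assoc, a1, a2, a3, a4, add_comm]

lemma gen_sym_comm {G v : A} {ρ : ℝ} (hv : PI v) (h0 : v * v = 0)
    (h1 : star v * v + v * star v = 1) (h : n2 (G - EK (g2 v) G) ≤ ρ) :
    n2 ((v * star v - star v * v) * G - G * (v * star v - star v * v)) ≤ 2 * ρ := by
  set t := v * star v - star v * v with ht
  have hts : star t = t := by simp [ht]
  have htt := gen_sym_sq hv h0 h1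
  have hu : t ∈ unitary A := ⟨by rw [hts]; exact htt, by rw [hts]; exact htt⟩
  have hm : t ∈ Sp (g2 v) := sub_mem (e_mem_Sp (g2 v) true true) (e_mem_Sp (g2 v) false false)
  have hc := EK_comm (g2_mu hv h0 h1) hm G
  clear_value t
  have : t * G - G * t = t * (G - EK (g2 v) G) - (G - EK (g2 v) G) * t := by
    rw [mul_sub, sub_mul, hc]; abel
  rw [this]
  refine (n2_sub_le _ _).trans ?_
  rw [n2_unitary_mul hu, n2_mul_unitary hu]; linarith

lemma gen_half_add {p v w : A} (hp : IsStarProjection p) (hv : PI v) (h0 : v * v = 0)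
    (h1 : star v * v + v * star v = p) (hw : PI w) (k0 : w * w = 0)
    (k1 : star w * w + w * star w = 1 - p) :
    PI (v + w) ∧ (v + w) * (v + w) = 0 ∧
      star (v + w) * (v + w) + (v + w) * star (v + w) = 1 ∧
      (v + w) * star (v + w) - star (v + w) * (v + w) =
        (v * star v - star v * v) + (w * star w - star w * w) := by
  have hpp : p * (1 - p) = 0 := by rw [mul_sub, mul_one, hp.isIdempotentElem.eq, sub_self]
  have hpp' : (1 - p) * p = 0 := by rw [sub_mul, one_mul, hp.isIdempotentElem.eq, sub_self]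
  have vl := gen_half_left hv h0 h1
  have vr := gen_half_right hv h0 h1
  have wl := gen_half_left hw k0 k1
  have wr := gen_half_right hw k0 k1
  have hs : star (1 - p) = 1 - p := by rw [star_sub, star_one, hp.isSelfAdjoint.star_eq]
  have vl' : star v * p = star v := by
    have := congrArg star vl; rwa [star_mul, hp.isSelfAdjoint.star_eq] at this
  have vr' : p * star v = star v := by
    have := congrArg star vr; rwa [star_mul, hp.isSelfAdjoint.star_eq] at this
  have wl' : star w * (1 - p) = star w := by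
    have := congrArg star wl; rwa [star_mul, hs] at this
  have wr' : (1 - p) * star w = star w := by
    have := congrArg star wr; rwa [star_mul, hs] at this
  have z : ∀ a b : A, a * p = a → (1 - p) * b = b → a * b = 0 := fun a b ha hb => by
    rw [← ha, ← hb, mul_assoc, ← mul_assoc p, hpp, zero_mul, mul_zero]
  have z' : ∀ a b : A, a * (1 - p) = a → p * b = b → a * b = 0 := fun a b ha hb => by
    rw [← ha, ← hb, mul_assoc, ← mul_assoc (1 - p), hpp', zero_mul, mul_zero]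
  have e1 := z v w vr wl
  have e2 := z v (star w) vr wr'
  have e3 := z (star v) w vl' wl
  have e5 := z' w v wr vl
  have e6 := z' w (star v) wr vr'
  have e7 := z' (star w) v wl' vl
  have m1 : (v + w) * star (v + w) = v * star v + w * star w := by
    rw [star_add, add_mul, mul_add, mul_add, e2, e6]; abel
  have m2 : star (v + w) * (v + w) = star v * v + star w * w := by
    rw [star_add, add_mul, mul_add, mul_add, e3, e7]; abel
  refine ⟨?_, ?_, ?_, ?_⟩
  · rw [PI, m1, add_mul, mul_add, mul_add, hv, hw, mul_assoc v, e3, mul_assoc w, e7]; simp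
  · rw [add_mul, mul_add, mul_add, h0, k0, e1, e5]; simp
  · rw [m1, m2, show star v * v + star w * w + (v * star v + w * star w) =
      (star v * v + v * star v) + (star w * w + w * star w) by abel, h1, k1]; abel
  · rw [m1, m2]; abel

lemma gen_comm_star (hf : MU 1 f) {q : A} (hq : ∀ i j, Commute q (f i j)) (i j : ι) :
    Commute (star q) (f i j) := by
  have := (hq j i).star_star
  rwa [hf.star] at this

lemma gen_comm_proj (hA : II A) (hf : MU 1 f) {G : A} {ρ : ℝ}
    (h : ∀ v : A, (∀ i j, Commute v (f i j)) → PI v → v * v = 0 → star v * v + v * star v = 1 →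
      n2 (G - EK (g2 v) G) ≤ ρ) {p : A} (hp : IsStarProjection p) (hq : ∀ i j, Commute p (f i j)) :
    n2 (p * G - G * p) ≤ 4 * ρ := by
  have := nontrivial_of_tr A
  obtain ⟨v, cv, hv, h0, h1⟩ := half_comm hA hf hp hq
  obtain ⟨w, cw, hw, k0, k1⟩ := half_comm hA hf hp.one_sub
    fun i j => (Commute.one_left _).sub_left (hq i j)
  have k0' : star w * star w = 0 := by rw [← star_mul, k0, star_zero]
  obtain ⟨a1, a2, a3, a4⟩ := gen_half_add hp hv h0 h1 hw k0 k1
  obtain ⟨b1, b2, b3, b4⟩ := gen_half_add hp hv h0 h1 (gen_pi_star hw) k0'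
    (by rw [star_star, add_comm]; exact k1)
  have c1 := gen_sym_comm a1 a2 a3 (h _ (fun i j => (cv i j).add_left (cw i j)) a1 a2 a3)
  have c2 := gen_sym_comm b1 b2 b3
    (h _ (fun i j => (cv i j).add_left (gen_comm_star hf cw i j)) b1 b2 b3)
  rw [a4] at c1
  rw [b4, star_star] at c2
  have hss := gen_sym_sq hv h0 h1
  have hsp : (v * star v - star v * v) * p = v * star v - star v * v := by
    have vl := congrArg star (gen_half_left hv h0 h1)
    rw [star_mul, hp.isSelfAdjoint.star_eq] at vl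
    rw [sub_mul, mul_assoc, vl, mul_assoc, gen_half_right hv h0 h1]
  have hps : p * (v * star v - star v * v) = v * star v - star v * v := by
    have vr := congrArg star (gen_half_right hv h0 h1)
    rw [star_mul, hp.isSelfAdjoint.star_eq] at vr
    rw [mul_sub, ← mul_assoc, gen_half_left hv h0 h1, ← mul_assoc, vr]
  have hst : star (v * star v - star v * v) = v * star v - star v * v := by simp
  set s := v * star v - star v * v
  set s' := w * star w - star w * w with hs'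
  have c3 : n2 (s * G - G * s) ≤ 2 * ρ := by
    have e : (2 : ℂ) • (s * G - G * s) = ((s + s') * G - G * (s + s')) +
        ((s + (star w * w - w * star w)) * G - G * (s + (star w * w - w * star w))) := by
      rw [two_smul, hs']; noncomm_ring
    have := n2_add_le ((s + s') * G - G * (s + s'))
      ((s + (star w * w - w * star w)) * G - G * (s + (star w * w - w * star w)))
    rw [← e, n2_smul] at this
    simp only [Complex.norm_ofNat] at this
    linarith
  clear_value s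
  have ns : ‖s‖ ≤ 1 := by
    have h2 : ‖s‖ * ‖s‖ ≤ 1 := by
      rw [← CStarRing.norm_star_mul_self, hst, hss]; exact hp.norm_le
    nlinarith [norm_nonneg s]
  have np : ‖1 - p‖ ≤ 1 := hp.one_sub.norm_le
  have hρ : 0 ≤ 2 * ρ := (n2_nonneg _).trans c3
  have e : p * G - G * p = s * (s * G - G * s) * (1 - p) + (1 - p) * (s * G - G * s) * s := by
    have hs0 : s * (1 - p) = 0 := by rw [mul_sub, mul_one, hsp, sub_self]
    have hs1 : (1 - p) * s = 0 := by rw [sub_mul, one_mul, hps, sub_self]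
    calc p * G - G * p = (s * s) * G * (1 - p) - s * G * (s * (1 - p)) +
          (((1 - p) * s) * G * s - (1 - p) * G * (s * s)) := by
          rw [hss, hs0, hs1]; noncomm_ring
      _ = _ := by noncomm_ring
  rw [e]
  refine (n2_add_le _ _).trans ?_
  have bd : ∀ a b : A, ‖a‖ ≤ 1 → ‖b‖ ≤ 1 → n2 (a * (s * G - G * s) * b) ≤ 2 * ρ := fun a b ha hb =>
    calc n2 (a * (s * G - G * s) * b) ≤ n2 (a * (s * G - G * s)) * ‖b‖ := n2_mul_le_right _ _
      _ ≤ n2 (a * (s * G - G * s)) := mul_le_of_le_one_right (n2_nonneg _) hb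
      _ ≤ ‖a‖ * n2 (s * G - G * s) := n2_mul_le_left _ _
      _ ≤ n2 (s * G - G * s) := mul_le_of_le_one_left (n2_nonneg _) ha
      _ ≤ 2 * ρ := c3
  linarith [bd _ _ ns np, bd _ _ np ns]

lemma gen_comm_sa (hA : II A) (hf : MU 1 f) {G : A} {ρ : ℝ}
    (h : ∀ v : A, (∀ i j, Commute v (f i j)) → PI v → v * v = 0 → star v * v + v * star v = 1 →
      n2 (G - EK (g2 v) G) ≤ ρ) {a : A} (ha : IsSelfAdjoint a) (ha1 : ‖a‖ ≤ 1)
    (hq : ∀ i j, Commute a (f i j)) : n2 (a * G - G * a) ≤ 8 * ρ := by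
  set S : Set ℝ := {r | ∃ a : A, IsSelfAdjoint a ∧ ‖a‖ ≤ 1 ∧ (∀ i j, Commute a (f i j)) ∧
    r = n2 (a * G - G * a)} with hS
  have hb : BddAbove S := ⟨2 * n2 G, by
    rintro _ ⟨a, -, ha1, -, rfl⟩
    have h1 := n2_mul_le_left a G
    have h2 := n2_mul_le_right G a
    have := n2_sub_le (a * G) (G * a)
    nlinarith [n2_nonneg G]⟩
  have hm : n2 (a * G - G * a) ∈ S := ⟨a, ha, ha1, hq, rfl⟩
  have key : sSup S ≤ (8 * ρ + sSup S) / 2 := by
    refine csSup_le ⟨_, hm⟩ ?_
    rintro _ ⟨a, ha, ha1, hq, rfl⟩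
    obtain ⟨s, hs, hss, hn, hc⟩ := hA.cut a ha ha1
    have hcs : ∀ i j, Commute s (f i j) := fun i j => hc _ (hq i j)
    have h1 : n2 (((2 : ℂ) • a - s) * G - G * ((2 : ℂ) • a - s)) ≤ sSup S :=
      le_csSup hb ⟨_, by rw [two_smul]; exact (ha.add ha).sub hs, hn,
        fun i j => ((hq i j).smul_left _).sub_left (hcs i j), rfl⟩
    have hp : IsStarProjection ((2 : ℂ)⁻¹ • (1 + s)) := by
      refine ⟨?_, ?_⟩
      · rw [IsIdempotentElem, smul_mul_smul_comm, add_mul, mul_add, mul_add, hss]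
        simp only [mul_one, one_mul]
        module
      · rw [IsSelfAdjoint, star_smul, star_add, star_one, hs.star_eq]; simp
    have h2 := gen_comm_proj hA hf h hp
      fun i j => ((Commute.one_left _).add_left (hcs i j)).smul_left _
    have e : (2 : ℂ) • (a * G - G * a) = (((2 : ℂ) • a - s) * G - G * ((2 : ℂ) • a - s)) +
        (2 : ℂ) • ((2 : ℂ)⁻¹ • (1 + s) * G - G * (2 : ℂ)⁻¹ • (1 + s)) := by
      simp only [sub_mul, mul_sub, smul_mul_assoc, mul_smul_comm, add_mul, mul_add, one_mul,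
        mul_one]
      module
    have h3 := n2_add_le (((2 : ℂ) • a - s) * G - G * ((2 : ℂ) • a - s))
      ((2 : ℂ) • ((2 : ℂ)⁻¹ • (1 + s) * G - G * (2 : ℂ)⁻¹ • (1 + s)))
    rw [← e, n2_smul, n2_smul] at h3
    simp only [Complex.norm_ofNat] at h3
    linarith
  linarith [le_csSup hb hm]

/-- If `G` commutes with `f` and is `ρ`-close to `EK (g2 v) G` for every halving `v` of `1` in the
commutant `Q` of `f`, then `G` almost commutes with `Q`.  PROOF.  `t = v v* - v* v` commutes with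
`EK (g2 v) G` (`EK_comm`), so `n2 (t G - G t) ≤ 2ρ`.  For a projection `p ∈ Q` halve `p` by `v₁` and `1 - p`
by `v₂`; `v₁ + v₂` and `v₁ + v₂*` halve `1`, the mean of the two `t` is `s = v₁ v₁* - v₁* v₁`, `s* s = p`,
`n2 (p G (1-p)) = n2 ((s G - G s) (1-p)) ≤ 2ρ`, same for `(1-p) G p`; so `n2 [p, G] ≤ 4ρ` and
`n2 [s', G] ≤ 8ρ` for symmetries `s' = 2p - 1 ∈ Q`.  For self-adjoint `h ∈ Q`, `‖h‖ ≤ 1`: with
`C = sup n2 [h, G] ≤ 2 n2 G`, `hA.cut` gives `2 h = s' + h'`, so `2 C ≤ 8ρ + C`.  General `q`: real and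
imaginary parts, scaling. -/
lemma comm_Q (hA : II A) (hf : MU 1 f) {G : A} {ρ : ℝ}
    (h : ∀ v : A, (∀ i j, Commute v (f i j)) → PI v → v * v = 0 → star v * v + v * star v = 1 →
      n2 (G - EK (g2 v) G) ≤ ρ) {q : A} (hq : ∀ i j, Commute q (f i j)) :
    n2 (q * G - G * q) ≤ 16 * ρ * ‖q‖ := by
  rcases (norm_nonneg q).eq_or_lt with h0 | h0
  · obtain rfl := norm_eq_zero.mp h0.symm
    simp
  have hc : ((‖q‖ : ℝ) : ℂ) ≠ 0 := by exact_mod_cast h0.ne'
  have hq' := gen_comm_star hf hq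
  have nb : ∀ c : ℂ, ‖c‖ = 1 → ∀ y : A, ‖y‖ ≤ 2 * ‖q‖ → ‖(c * (2 * (‖q‖ : ℂ))⁻¹) • y‖ ≤ 1 :=
    fun c hc y hy => by
      rw [norm_smul, norm_mul, hc, one_mul, norm_inv, norm_mul, Complex.norm_ofNat,
        Complex.norm_real, norm_norm, inv_mul_le_iff₀ (by positivity), mul_one]
      exact hy
  have h1 := gen_comm_sa hA hf h (a := (1 * (2 * (‖q‖ : ℂ))⁻¹) • (q + star q))
    (by rw [IsSelfAdjoint, star_smul, star_add, star_star, add_comm]; simp)
    (nb _ norm_one _ ((norm_add_le _ _).trans (by rw [norm_star]; linarith)))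
    fun i j => ((hq i j).add_left (hq' i j)).smul_left _
  have h2 := gen_comm_sa hA hf h (a := (Complex.I * (2 * (‖q‖ : ℂ))⁻¹) • (star q - q))
    (by
      rw [IsSelfAdjoint, star_smul, star_sub, star_star, ← neg_sub (star q), smul_neg, ← neg_smul]
      simp)
    (nb _ Complex.norm_I _ ((norm_sub_le _ _).trans (by rw [norm_star]; linarith)))
    fun i j => ((hq' i j).sub_left (hq i j)).smul_left _
  have e : q = (‖q‖ : ℂ) • (1 * (2 * (‖q‖ : ℂ))⁻¹) • (q + star q) +
      ((‖q‖ : ℂ) * Complex.I) • (Complex.I * (2 * (‖q‖ : ℂ))⁻¹) • (star q - q) := by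
    rw [smul_smul, smul_smul, show (‖q‖ : ℂ) * (1 * (2 * (‖q‖ : ℂ))⁻¹) = 2⁻¹ by field_simp,
      show (‖q‖ : ℂ) * Complex.I * (Complex.I * (2 * (‖q‖ : ℂ))⁻¹) = -2⁻¹ by
        field_simp; rw [Complex.I_sq]]
    module
  set a := (1 * (2 * (‖q‖ : ℂ))⁻¹) • (q + star q)
  set b := (Complex.I * (2 * (‖q‖ : ℂ))⁻¹) • (star q - q)
  have e2 : q * G - G * q = (‖q‖ : ℂ) • (a * G - G * a) +
      ((‖q‖ : ℂ) * Complex.I) • (b * G - G * b) := by
    conv_lhs => rw [e]
    simp only [add_mul, mul_add, smul_mul_assoc, mul_smul_comm]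
    module
  rw [e2]
  refine (n2_add_le _ _).trans ?_
  rw [n2_smul, n2_smul, norm_mul, Complex.norm_I, Complex.norm_real, norm_norm]
  nlinarith

lemma gen_EK_mul_e (hf : MU 1 f) (a : A) (i j : ι) :
    EK f (a * f i j) = (Fintype.card ι : ℂ)⁻¹ • ∑ l, f l j * a * f i l := by
  rw [EK_apply, FF, Finset.sum_comm]
  congr 1
  refine Finset.sum_congr rfl fun l _ => ?_
  rw [Finset.sum_eq_single j]
  · rw [mul_assoc, mul_assoc, hf.mul, if_pos rfl, mul_assoc]
  · intro k _ h
    rw [mul_assoc, mul_assoc, hf.mul, if_neg h.symm, mul_zero, mul_zero]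
  · simp

lemma gen_EK_eq (f : ι → ι → A) (y : A) :
    EK f y = (Fintype.card ι : ℂ)⁻¹ • ∑ i, ∑ l, f l i * y * f i l := by
  rw [EK_apply, FF]

lemma gen_col (hf : MU 1 f) (a : A) :
    ∑ p : ι × ι, star (EK f (a * f p.1 p.2)) * EK f (a * f p.1 p.2) =
      (Fintype.card ι : ℂ)⁻¹ • EK f (star a * a) := by
  simp only [gen_EK_mul_e hf, star_smul, star_sum, star_mul, hf.star, smul_mul_smul_comm]
  rw [gen_EK_eq, smul_smul, ← Finset.smul_sum, Fintype.sum_prod_type]
  congr 1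
  · simp
  refine Finset.sum_congr rfl fun i _ => ?_
  have := fun j => gen_sum_mul hf (fun l => f l i * star a) (fun l => a * f i l) j j
  simp only [mul_assoc] at this ⊢
  simp only [this]
  rw [Finset.sum_comm]
  refine Finset.sum_congr rfl fun l _ => ?_
  rw [← Finset.mul_sum, ← Finset.mul_sum, ← Finset.sum_mul, hf.sum, one_mul]

lemma gen_row (hf : MU 1 f) (a : A) :
    ∑ p : ι × ι, EK f (a * f p.1 p.2) * star (EK f (a * f p.1 p.2)) =
      (Fintype.card ι : ℂ)⁻¹ • EK f (a * star a) := by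
  simp only [gen_EK_mul_e hf, star_smul, star_sum, star_mul, hf.star, smul_mul_smul_comm]
  rw [gen_EK_eq, smul_smul, ← Finset.smul_sum, Fintype.sum_prod_type, Finset.sum_comm]
  congr 1
  · simp
  refine Finset.sum_congr rfl fun j _ => ?_
  have := fun i => gen_sum_mul hf (fun l => f l j * a) (fun l => star a * f j l) i i
  simp only [mul_assoc] at this ⊢
  simp only [this]
  rw [Finset.sum_comm]
  refine Finset.sum_congr rfl fun l _ => ?_
  rw [← Finset.mul_sum, ← Finset.mul_sum, ← Finset.sum_mul, hf.sum, one_mul]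

lemma gen_EK_comm (hf : MU 1 f) (y : A) (i j : ι) : Commute (EK f y) (f i j) :=
  (EK_comm hf (e_mem_Sp f i j) y).symm

/-- From the commutant to the whole algebra.  PROOF.  `S a = v2 (EK f a * G - G * EK f a)` has
`‖S‖ ≤ σ`.  `a = ∑ f i j * aᵢⱼ`, `aᵢⱼ = ∑ₖ f k i * a * f j k = K • EK f (a * f j i)` commutes with `f`;
`∑ᵢⱼ aᵢⱼ* aᵢⱼ = K • (K⁻¹ ∑ ...) `: both `∑ᵢⱼ aᵢⱼ* aᵢⱼ = K • EK f (a* a)` and `∑ᵢⱼ aᵢⱼ aᵢⱼ* = K • EK f (a a*)`
have norm `≤ K ‖a‖²`; `n2 (∑ f i j * qᵢⱼ)² = K⁻¹ ∑ n2 qᵢⱼ²` for `qᵢⱼ` commuting with `f`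
(`τ_EK`, `EK_e`); `lgt'`. -/
lemma comm_all (hf : MU 1 f) {G : A} (hG : ∀ i j, Commute G (f i j)) {σ : ℝ} (hσ : 0 ≤ σ)
    (h : ∀ q : A, (∀ i j, Commute q (f i j)) → n2 (q * G - G * q) ≤ σ * ‖q‖) (a : A) :
    n2 (a * G - G * a) ≤ 2 * σ * ‖a‖ := by
  let S : A →L[ℂ] L2 A := v2.comp ((rmul G - ContinuousLinearMap.mul ℂ A G).comp (EK f))
  have hS : ∀ y, ‖S y‖ = n2 (EK f y * G - G * EK f y) := fun y => rfl
  have nS : ‖S‖ ≤ σ := S.opNorm_le_bound hσ fun y => by
    rw [hS]
    exact (h _ (gen_EK_comm hf y)).trans (mul_le_mul_of_nonneg_left (norm_EK_le hf y) hσ)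
  have hK : (0 : ℝ) < Fintype.card ι := by exact_mod_cast MU.card_pos hf
  have nb : ∀ y : A, ‖y‖ ≤ ‖a‖ ^ 2 →
      ‖(Fintype.card ι : ℂ)⁻¹ • EK f y‖ ≤ (Fintype.card ι : ℝ)⁻¹ * ‖a‖ ^ 2 := fun y hy => by
    rw [norm_smul, norm_inv, Complex.norm_natCast]
    exact mul_le_mul_of_nonneg_left ((norm_EK_le hf y).trans hy) (by positivity)
  have key := lgt' S (c := fun p : ι × ι => EK f (a * f p.1 p.2))
    (t := (Fintype.card ι : ℝ)⁻¹ * ‖a‖ ^ 2)
    (by rw [gen_col hf]; exact nb _ (by rw [CStarRing.norm_star_mul_self, sq]))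
    (by rw [gen_row hf]; exact nb _ (by rw [CStarRing.norm_self_mul_star, sq]))
  have par := parseval hf (a * G - G * a)
  have e : ∀ i j, EK f ((a * G - G * a) * f i j) =
      EK f (EK f (a * f i j)) * G - G * EK f (EK f (a * f i j)) := fun i j => by
    rw [EK_of_comm hf (gen_EK_comm hf _), ← EK_mul_right hG, ← EK_mul_left hG, ← map_sub, sub_mul,
      mul_assoc a G, (hG i j).eq, mul_assoc, mul_assoc]
  simp only [hS] at key
  rw [Fintype.sum_prod_type] at key
  simp only [e] at par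
  rw [par] at key
  have k2 : n2 (a * G - G * a) ^ 2 ≤ (2 * σ * ‖a‖) ^ 2 := by
    have : ‖S‖ ^ 2 ≤ σ ^ 2 := pow_le_pow_left₀ S.opNorm_nonneg nS 2
    refine le_of_mul_le_mul_left (a := (Fintype.card ι : ℝ)⁻¹) (key.trans ?_) (by positivity)
    calc 4 * ((Fintype.card ι : ℝ)⁻¹ * ‖a‖ ^ 2) * ‖S‖ ^ 2
        ≤ 4 * ((Fintype.card ι : ℝ)⁻¹ * ‖a‖ ^ 2) * σ ^ 2 := by gcongr
      _ = _ := by ring
  exact (pow_le_pow_iff_left₀ (n2_nonneg _) (by positivity) two_ne_zero).mp k2

section Order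
attribute [local instance] CStarAlgebra.spectralOrder CStarAlgebra.spectralOrderedRing

lemma gen_sum_n2_le {α : Type*} (s : Finset α) (P : α → A) (hP : ∀ i, 0 ≤ P i) :
    ∑ i ∈ s, n2 (P i) ^ 2 ≤ n2 (∑ i ∈ s, P i) ^ 2 := by
  classical
  induction s using Finset.induction_on with
  | empty => simp
  | insert a s ha ih =>
    rw [Finset.sum_insert ha, Finset.sum_insert ha]
    have hs : 0 ≤ ∑ i ∈ s, P i := Finset.sum_nonneg fun i _ => hP i
    have h1 := τ_mul_re_nonneg (hP a) hs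
    have h2 := τ_mul_re_nonneg hs (hP a)
    have e : n2 (P a + ∑ i ∈ s, P i) ^ 2 = n2 (P a) ^ 2 + n2 (∑ i ∈ s, P i) ^ 2 +
        (τ (P a * ∑ i ∈ s, P i)).re + (τ ((∑ i ∈ s, P i) * P a)).re := by
      rw [n2_sq, n2_sq, n2_sq, star_add, (hP a).isSelfAdjoint.star_eq, hs.isSelfAdjoint.star_eq,
        add_mul, mul_add, mul_add]
      simp only [map_add, Complex.add_re]
      ring
    linarith

lemma gen_EK_nonneg (hf : MU 1 f) {y : A} (hy : 0 ≤ y) : 0 ≤ EK f y := by
  rw [gen_EK_eq, show (Fintype.card ι : ℂ)⁻¹ = (((Fintype.card ι : ℝ)⁻¹ : ℝ) : ℂ) by simp,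
    Complex.coe_smul]
  refine smul_nonneg (by positivity) (Finset.sum_nonneg fun i _ => Finset.sum_nonneg fun l _ => ?_)
  rw [← hf.star i l]
  exact star_left_conjugate_nonneg hy _

/-- Coarse blocks dominate: `EK f (x* f β β x)` is positive, `τ (a b) ≥ 0` for positive `a, b`. -/
lemma theta_le_blocks (hf : MU 1 f) {Γ : Type*} [Fintype Γ] [DecidableEq Γ] (bl : ι → Γ) (x : A) :
    theta f x ≤ ∑ γ, n2 (EK f (star x * (∑ β with bl β = γ, f β β) * x)) ^ 2 := by
  rw [theta, ← Finset.sum_fiberwise Finset.univ bl]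
  refine Finset.sum_le_sum fun γ _ => ?_
  rw [Finset.mul_sum, Finset.sum_mul, map_sum]
  refine gen_sum_n2_le _ (fun β => EK f (star x * f β β * x)) fun β => gen_EK_nonneg hf ?_
  refine star_left_conjugate_nonneg (IsStarProjection.nonneg ⟨?_, hf.star β β⟩) x
  rw [IsIdempotentElem, hf.mul, if_pos rfl]

end Order

end

lemma gen_exists_mu (hA : II A) (n : ℕ) :
    ∃ (Γ : Type) (_ : Fintype Γ) (_ : DecidableEq Γ) (f : Γ → Γ → A), MU 1 f ∧
      Fintype.card Γ = 2 ^ n := by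
  induction n with
  | zero => exact ⟨Unit, inferInstance, inferInstance, fun _ _ => 1,
      ⟨by simp, by simp, by simp⟩, by simp⟩
  | succ n ih =>
    obtain ⟨Γ, _, _, f, hf, hc⟩ := ih
    obtain ⟨v, cv, hv, h0, h1⟩ := half_comm hA hf (IsStarProjection.one A)
      fun i j => Commute.one_left _
    refine ⟨Γ × Bool, inferInstance, inferInstance, _,
      (mu_mul hf (g2_mu hv h0 h1) fun i j a b => ?_).1, by simp [hc, pow_succ]⟩
    have c' := gen_comm_star hf cv i j
    cases a <;> cases b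
    exacts [c'.mul_left (cv i j), c', cv i j, (cv i j).mul_left c']

lemma gen_theta (hA : II A) {κ : Type*} [Fintype κ] (x : κ → A) (hx : ∀ k, x k ∈ unitary A)
    {δ : ℝ} (hδ : 0 < δ) :
    ∃ (ι : Type) (_ : Fintype ι) (_ : DecidableEq ι) (f : ι → ι → A), MU 1 f ∧
      ∀ k, theta f (x k) ≤ δ := by
  have := nontrivial_of_tr A
  obtain ⟨n, hn⟩ := pow_unbounded_of_one_lt (4 / δ) (one_lt_two (α := ℝ))
  obtain ⟨Γ, _, _, g, hg, hc⟩ := gen_exists_mu hA n
  set m : ℝ := (Fintype.card Γ : ℝ) with hm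
  have hm0 : 0 < m := by rw [hm]; exact_mod_cast MU.card_pos hg
  have hmδ : 4 / m ≤ δ := by
    rw [div_le_iff₀ hm0, hm, hc, mul_comm, ← div_le_iff₀ hδ]; push_cast; exact hn.le
  set ρ : ℝ := (32 * m ^ 2)⁻¹ with hρ
  have hρ0 : 0 < ρ := by positivity
  let Y : κ × Γ × Γ → A := fun t => star (x t.1) * (g t.2.1 t.2.1 - g t.2.2 t.2.2) * x t.1
  let S : Set ℝ := {r | ∃ (ι : Type) (_ : Fintype ι) (_ : DecidableEq ι) (f : ι → ι → A)
    (bl : ι → Γ), MU 1 f ∧ (∀ γ, ∑ β with bl β = γ, f β β = g γ γ) ∧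
      r = ∑ t, n2 (EK f (Y t)) ^ 2}
  have hne : S.Nonempty := ⟨_, Γ, inferInstance, inferInstance, g, id, hg,
    fun γ => by simp [Finset.filter_eq'], rfl⟩
  have hb : BddBelow S := ⟨0, by
    rintro _ ⟨ι, _, _, f, bl, -, -, rfl⟩
    positivity⟩
  obtain ⟨_, ⟨ι, _, _, f, bl, hf, hbl, rfl⟩, hlt⟩ :=
    exists_lt_of_csInf_lt hne (lt_add_of_pos_right (sInf S) (pow_pos hρ0 2))
  refine ⟨ι, inferInstance, inferInstance, f, hf, fun k => ?_⟩
  have h1 : ∀ t, ∀ v : A, (∀ i j, Commute v (f i j)) → PI v → v * v = 0 →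
      star v * v + v * star v = 1 → n2 (EK f (Y t) - EK (g2 v) (EK f (Y t))) ≤ ρ := by
    intro t v cv hv h0 h1
    have hgv := g2_mu hv h0 h1
    obtain ⟨m1, m2⟩ := mu_mul hf hgv fun i j a b => by
      have c' := gen_comm_star hf cv i j
      cases a <;> cases b
      exacts [c'.mul_left (cv i j), c', cv i j, (cv i j).mul_left c']
    have hle : sInf S ≤ ∑ t, n2 (EK (g2 v) (EK f (Y t))) ^ 2 := by
      refine csInf_le hb ⟨ι × Bool, inferInstance, inferInstance, _, fun p => bl p.1, m1,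
        fun γ => ?_, by simp only [m2]⟩
      rw [← hbl, Finset.sum_filter, Finset.sum_filter, Fintype.sum_prod_type]
      refine Finset.sum_congr rfl fun β _ => ?_
      split_ifs
      · simp only [← Finset.mul_sum, hgv.sum, mul_one]
      · simp
    have hs : ∑ t, n2 (EK f (Y t) - EK (g2 v) (EK f (Y t))) ^ 2 ≤ ρ ^ 2 := by
      simp only [n2_sub_EK hgv, Finset.sum_sub_distrib]; linarith
    exact (pow_le_pow_iff_left₀ (n2_nonneg _) hρ0.le two_ne_zero).mp
      ((Finset.single_le_sum (f := fun t => n2 (EK f (Y t) - EK (g2 v) (EK f (Y t))) ^ 2)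
        (fun _ _ => sq_nonneg _) (Finset.mem_univ t)).trans hs)
  have h2 : ∀ t a, n2 (a * EK f (Y t) - EK f (Y t) * a) ≤ 2 * (16 * ρ) * ‖a‖ := fun t a =>
    comm_all hf (gen_EK_comm hf _) (by positivity) (fun q hq => comm_Q hA hf (h1 t) hq) a
  have hxx : ∀ y, x k * (star (x k) * y) = y := fun y => by rw [← mul_assoc, (hx k).2, one_mul]
  have nb : ∀ γ γ', ‖star (x k) * g γ γ' * x k‖ ≤ 1 := fun γ γ' => by
    rw [CStarRing.norm_mul_mem_unitary _ (hx k),
      CStarRing.norm_mem_unitary_mul _ (Unitary.star_mem (hx k))]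
    exact MU.norm_le hg _ _
  have h3 : ∀ γ γ', n2 (EK f (Y (k, γ, γ'))) ≤ m⁻¹ := fun γ γ' => by
    set a := star (x k) * g γ γ' * x k with ha
    set b := star (x k) * g γ' γ * x k with hb'
    have e : Y (k, γ, γ') = a * b - b * a := by
      simp only [Y, ha, hb', mul_assoc, hxx]
      rw [← mul_assoc (g γ γ'), ← mul_assoc (g γ' γ), hg.mul, hg.mul, if_pos rfl, if_pos rfl,
        sub_mul, mul_sub]
    have es : star (Y (k, γ, γ')) = Y (k, γ, γ') := by
      simp only [Y, star_mul, star_sub, star_star, hg.star, mul_assoc]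
    have h4 := h2 (k, γ, γ') a
    have na : ‖a‖ ≤ 1 := nb γ γ'
    have nb' : n2 b ≤ 1 := (n2_le_norm _).trans (nb γ' γ)
    have h5 : ((n2 (EK f (Y (k, γ, γ'))) ^ 2 : ℝ) : ℂ) =
        -τ (b * (a * EK f (Y (k, γ, γ')) - EK f (Y (k, γ, γ')) * a)) := by
      rw [← τ_star_mul_self, EK_star hf, es, τ_EK_mul_EK hf]
      generalize EK f (Y (k, γ, γ')) = G
      rw [e, sub_mul, mul_sub, map_sub, map_sub, mul_assoc a, τ_comm a]
      simp only [mul_assoc]; ring
    have h6 : n2 (EK f (Y (k, γ, γ'))) ^ 2 ≤ m⁻¹ ^ 2 := by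
      have := norm_τ_mul_le b (a * EK f (Y (k, γ, γ')) - EK f (Y (k, γ, γ')) * a)
      rw [← norm_neg, ← h5, Complex.norm_real, Real.norm_of_nonneg (sq_nonneg _)] at this
      calc _ ≤ _ := this
        _ ≤ 1 * (2 * (16 * ρ) * 1) :=
          mul_le_mul nb' (h4.trans (by gcongr)) (n2_nonneg _) zero_le_one
        _ = m⁻¹ ^ 2 := by rw [hρ]; field_simp; norm_num
    exact (pow_le_pow_iff_left₀ (n2_nonneg _) (by positivity) two_ne_zero).mp h6
  have h7 : ∀ γ, n2 (EK f (star (x k) * g γ γ * x k)) ≤ 2 / m := fun γ => by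
    have e : (m : ℂ) • EK f (star (x k) * g γ γ * x k) = 1 + ∑ γ', EK f (Y (k, γ, γ')) := by
      rw [← map_sum, ← EK_one hf, ← map_add, ← map_smul]
      congr 1
      simp only [Y]
      rw [← Finset.sum_mul, ← Finset.mul_sum, Finset.sum_sub_distrib, hg.sum, mul_sub, sub_mul,
        mul_one, (hx k).1, Finset.sum_const, Finset.card_univ, hm]
      simp [← Nat.cast_smul_eq_nsmul ℂ]
    have := n2_add_le 1 (∑ γ', EK f (Y (k, γ, γ')))
    rw [← e, n2_smul, n2_one, Complex.norm_real, Real.norm_of_nonneg hm0.le] at this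
    have h8 : n2 (∑ γ', EK f (Y (k, γ, γ'))) ≤ 1 :=
      calc _ ≤ ∑ γ', n2 (EK f (Y (k, γ, γ'))) := n2_sum_le _ _
        _ ≤ ∑ _γ' : Γ, m⁻¹ := Finset.sum_le_sum fun γ' _ => h3 γ γ'
        _ = 1 := by rw [Finset.sum_const, Finset.card_univ, nsmul_eq_mul, ← hm]; field_simp
    rw [le_div_iff₀ hm0]; linarith
  refine (theta_le_blocks hf bl _).trans ?_
  simp only [hbl]
  calc ∑ γ, n2 (EK f (star (x k) * g γ γ * x k)) ^ 2 ≤ ∑ _γ : Γ, (2 / m) ^ 2 :=
        Finset.sum_le_sum fun γ _ => pow_le_pow_left₀ (n2_nonneg _) (h7 γ) 2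
    _ = 4 / m := by rw [Finset.sum_const, Finset.card_univ, nsmul_eq_mul, ← hm]; field_simp; norm_num
    _ ≤ δ := hmδ

/-- PROOF.  Add `1` to the family (`theta_one`).  Iterated doubling (`half_comm`, `g2_mu`, `mu_mul`)
gives matrix units `f⁰` with index type `Γ`, `m₀ = card Γ ≥ 4/δ`; `q γ = f⁰ γ γ`.  Among all
`(ι : Type, f, bl : ι → Γ)` with `MU 1 f`, `q γ = ∑_{bl β = γ} f β β`, choose one for which
`Φ f = ∑_{k,γ,γ'} n2 (EK f (xₖ* (q γ - q γ') xₖ))²` is within `ρ²` of the infimum.  Doubling by `v`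
gives a competitor, so (`mu_mul`, `n2_sub_EK`) each `G = EK f (x* (q γ - q γ') x)` satisfies the
hypothesis of `comm_Q`; `comm_all`: `n2 [a, G] ≤ 32 ρ ‖a‖`.  With `a = x* f⁰ γ γ' x`, `b = a*`,
`x* (q γ - q γ') x = a b - b a`, `G* = G`: `n2 G² = τ (G (a b - b a)) = τ ((G a - a G) b) ≤ 32 ρ`.
`m₀ • EK f (x* q γ x) = 1 + ∑_γ' G`, so `n2 (EK f (x* q γ x)) ≤ 1/m₀ + √(32ρ)`, and
`theta_le_blocks` gives `θ ≤ 2/m₀ + 64 m₀ ρ`. -/
theorem generic (hA : II A) {κ : Type*} [Fintype κ] (x : κ → A) (hx : ∀ k, x k ∈ unitary A)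
    {δ : ℝ} (hδ : 0 < δ) :
    ∃ (ι : Type) (_ : Fintype ι) (_ : DecidableEq ι) (f : ι → ι → A), MU 1 f ∧
      (Fintype.card ι : ℝ)⁻¹ ≤ δ ∧ ∀ k, theta f (x k) ≤ δ := by
  obtain ⟨ι, _, _, f, hf, h⟩ := gen_theta hA (fun o : Option κ => o.elim 1 x)
    (fun o => by cases o; exacts [one_mem _, hx _]) hδ
  exact ⟨ι, inferInstance, inferInstance, f, hf, theta_one hf ▸ h none, fun k => h (some k)⟩

end Crest.Agent.R121
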