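import Crest.Agent.R121.Core
import Crest.Agent.R121.Generic
import Crest.Agent.R121.AmpB

/-! Row 121: amplification: invariance for uniformly integrable maps -/

set_option autoImplicit false
set_option linter.unusedSectionVars false

namespace Crest.Agent.R121

open Crest.Agent.R95 Crest.Agent.R124 MeasureTheory Filter Topology
open scoped InnerProductSpace BigOperators ComplexConjugate

variable {A : Type*} [CStarAlgebra A] [Tr A]

/-- The value vectors of finite families with row and column sum `1`. -/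
def ampS {J κ : Type} (x : J → A) (T : κ → A →L[ℂ] A) (y : κ → A) : Set (κ × J → ℂ) :=
  {v | ∃ (σ : Type) (_ : Fintype σ) (m : σ → A), ∑ l, star (m l) * m l = 1 ∧
    ∑ l, m l * star (m l) = 1 ∧
    ∀ q, v q = τ (y q.1 * (star (x q.2) * ∑ l, star (m l) * T q.1 (m l * x q.2)))}

lemma convex_ampS {J κ : Type} (x : J → A) (T : κ → A →L[ℂ] A) (y : κ → A) :
    Convex ℝ (ampS x T y) := by
  rintro v ⟨σ, _, m, h1, h2, h3⟩ v' ⟨σ', _, m', h1', h2', h3'⟩ a b ha hb hab
  have hs : ∀ {t : ℝ}, 0 ≤ t → ((√t : ℝ) : ℂ) * ((√t : ℝ) : ℂ) = t := fun ht => by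
    rw [← Complex.ofReal_mul, Real.mul_self_sqrt ht]
  have hab' : (a : ℂ) + b = 1 := by exact_mod_cast hab
  refine ⟨σ ⊕ σ', inferInstance,
    Sum.elim (fun l => ((√a : ℝ) : ℂ) • m l) (fun l => ((√b : ℝ) : ℂ) • m' l), ?_, ?_, fun q => ?_⟩
  · simp only [Fintype.sum_sum_type, Sum.elim_inl, Sum.elim_inr, star_smul, smul_mul_smul_comm,
      Complex.star_def, Complex.conj_ofReal, hs ha, hs hb, ← Finset.smul_sum, h1, h1', ← add_smul,
      hab', one_smul]
  · simp only [Fintype.sum_sum_type, Sum.elim_inl, Sum.elim_inr, star_smul, smul_mul_smul_comm,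
      Complex.star_def, Complex.conj_ofReal, hs ha, hs hb, ← Finset.smul_sum, h2, h2', ← add_smul,
      hab', one_smul]
  · simp only [Fintype.sum_sum_type, Sum.elim_inl, Sum.elim_inr, star_smul, smul_mul_assoc,
      map_smul, mul_smul_comm, smul_smul, Complex.star_def, Complex.conj_ofReal, hs ha, hs hb,
      ← Finset.smul_sum, mul_add, map_add, Pi.add_apply, Pi.smul_apply, h3, h3', Complex.real_smul,
      smul_eq_mul]

attribute [local instance] CStarAlgebra.spectralOrder CStarAlgebra.spectralOrderedRing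

/-- PROOF.  `𝔐 = CStarMatrix J J A`, `H = card J`, trace `τ_H M = H⁻¹ ∑ⱼ τ (M j j)` (a `Tr` instance),
`n2 M² = H⁻¹ ∑ n2 (M i j)²`; `sing i j : A →L 𝔐` (single entry; continuous because the topology is the
product topology), `T_H M = ∑ sing i j (T (M i j))`, `‖T_H‖ ≤ c ‖T‖` with `c = ∑ ‖sing i j‖`
(`CStarMatrix.norm_entry_le_norm`), `D = sing i i y`, `‖D‖ ≤ c ‖y‖`.  `B i k p c = τ_H (D p T_H c)`
satisfies `BB` with `Λ = c² Λ₀²`, and the given `ε, Λ'`: `b1` since `τ (D a b t) = τ (b (t D a))`; `b2` by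
Cauchy–Schwarz and `n2 (T_H c * D)² = H⁻¹ ∑ₗ n2 (T (c l i) y)²`, the entries `H^{-1/2} • c_l i j` of an
admissible family form an admissible family.  Take `N, lam, ε` from `core` (`ε₀ / (4H)`), `δ`, and `f`
from `generic` for the family `x j, (x j)*`; `e (j,α) (k,β) = sing j k (f α β)`, `X = diag x`,
`EK e Y = ∑ₗ sing l l (H⁻¹ ∑ⱼ EK f (Y j j))`, `theta e X = H⁻² ∑ⱼ theta f (x j) ≤ δ`.
For a unitary `V ∈ 𝔐` let `𝔪 V (l,j,α,β) = K^{-1/2} • V l j * f α β` (`K = H card ι`): row and column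
sums are `1`, `FF B_i (X* b V*) (V a X) = H⁻¹ ∑ τ (y xᵢ* 𝔪* T (𝔪 xᵢ))`, and
`FF B_i (b V'*) (V' a) = H⁻¹ ∑ τ (y 𝔪'* T 𝔪')` does not depend on `i` (`V' = X* (w X*)^n`).  So
`Φᵢ = ∑ lam n Ex (…)` satisfies `‖Φᵢ - Φ_{j₀}‖ ≤ ε₀ / 2`.  The set of value vectors
`(k, j) ↦ ∑ τ (y k * (x j)* 𝔪* T k (𝔪 x j))` in `κ × J → ℂ` of finite families with row and column sum `1`
is convex (concatenate `√t • 𝔪`, `√(1-t) • 𝔪'`); `Ex_mem`, `Convex.sum_mem`, `Ex_clm` put the vector
`Φ` in its closure. -/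
theorem amp_inv (hA : II A) {J κ : Type} [Fintype J] [DecidableEq J] [Fintype κ] (x : J → A)
    (hx : ∀ j, x j ∈ unitary A) (j₀ : J) (hj₀ : x j₀ = 1) {Λ₀ ε₀ : ℝ} (hΛ₀ : 0 ≤ Λ₀)
    (hε₀ : 0 < ε₀) :
    ∃ ε : ℝ, 0 < ε ∧ ∀ Λ' : ℝ, 0 ≤ Λ' → ∀ (T : κ → A →L[ℂ] A) (y : κ → A),
      (∀ k, ‖T k‖ ≤ Λ₀) → (∀ k, ‖y k‖ ≤ Λ₀) →
      (∀ k (n : ℕ) (c : Fin n → A), Adm c →
        ∑ l, n2 (T k (c l) * y k) ^ 2 ≤ ε + Λ' * ∑ l, n2 (c l) ^ 2) →
      ∃ (n : ℕ) (m : Fin n → A), ∑ l, star (m l) * m l = 1 ∧ ∑ l, m l * star (m l) = 1 ∧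
        ∀ k j, ‖τ (y k * (star (x j) * ∑ l, star (m l) * T k (m l * x j))) -
          τ (y k * ∑ l, star (m l) * T k (m l))‖ ≤ ε₀ := by
  have : Nonempty J := ⟨j₀⟩
  have hH := cardJ_pos (J := J)
  obtain ⟨N, lam, ε, hε, hlam, hsum, hcore⟩ := core (A := CStarMatrix J J A)
    (ε₀ := ε₀ / (4 * Fintype.card J)) (Λ := (Fintype.card J : ℝ) ^ 2 * Λ₀ ^ 2) (by positivity)
    (by positivity)
  refine ⟨ε, hε, fun Λ' hΛ' T y hT hy h => ?_⟩
  obtain ⟨δ, hδ, hcore⟩ := hcore Λ' hΛ'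
  obtain ⟨ι, _, _, f, hf, hcard, hθ⟩ := generic hA (κ := J ⊕ J) (Sum.elim x fun j => star (x j))
    (by rintro (j | j); exacts [hx j, Unitary.star_mem (hx j)]) hδ
  have he : MU 1 (ampU (J := J) f) := ampU_mu hf
  have hX := dg_mem hx
  have hι : (0 : ℝ) < Fintype.card ι := by exact_mod_cast MU.card_pos hf
  have hcard' : (Fintype.card (J × ι) : ℝ)⁻¹ ≤ δ := by
    refine le_trans ?_ hcard
    rw [Fintype.card_prod, Nat.cast_mul]
    have h1 : (1 : ℝ) ≤ Fintype.card J := by exact_mod_cast Fintype.card_pos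
    exact inv_anti₀ hι (le_mul_of_one_le_left hι.le h1)
  have hcore := fun k i => hcore (J × ι) (ampU f) (dg x) he hX hcard'
    (theta_ampU f x hδ.le fun j => hθ (Sum.inl j))
    (by rw [star_dg]; exact theta_ampU f _ hδ.le fun j => hθ (Sum.inr j))
    (ampB (T k) (y k) i) (ampB_BB hΛ₀ hε.le hΛ' (hT k) (hy k) (h k) i)
  -- the vector valued functions
  let F : ℕ → CStarMatrix J J A → κ × J → ℂ := fun n w q =>
    τ (y q.1 * (star (x q.2) * ∑ s, star (ampM f ((w * dg x) ^ n) s) *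
      T q.1 (ampM f ((w * dg x) ^ n) s * x q.2)))
  let G : ℕ → κ → CStarMatrix J J A → ℂ := fun n k w =>
    τ (y k * (star (1 : A) * ∑ s, star (ampM f (star (dg x) * (w * star (dg x)) ^ n) s) *
      T k (ampM f (star (dg x) * (w * star (dg x)) ^ n) s * 1)))
  have hF : ∀ n, Continuous (F n) := fun n => continuous_pi fun q => by
    have hm : ∀ s, Continuous fun w : CStarMatrix J J A => ampM f ((w * dg x) ^ n) s := fun s =>
      (continuous_ampM f s).comp ((continuous_id.mul continuous_const).pow n)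
    exact (τ : A →L[ℂ] ℂ).continuous.comp (continuous_const.mul (continuous_const.mul
      (continuous_finsetSum _ fun s _ => (hm s).star.mul
        ((T q.1).continuous.comp ((hm s).mul continuous_const)))))
  have hFq : ∀ n q, Ex (ampU f) (F n) q = Ex (ampU f) fun w => F n w q := fun n q =>
    Ex_clm (ampU f) (ContinuousLinearMap.proj (R := ℝ) (φ := fun _ : κ × J => ℂ) q) (hF n)
  have hc : ∀ k i, ‖(∑ n ∈ Finset.range N, lam n • Ex (ampU f) (F n)) (k, i) -
      ∑ n ∈ Finset.range N, lam n * Ex (ampU f) (G n k)‖ ≤ ε₀ / 4 := fun k i => by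
    have h0 := hcore k i
    have e1 : ∀ (n : ℕ) (w : CStarMatrix J J A), (FF (ampU f) fun a b => ampB (T k) (y k) i
        (star (dg x) * b * star (w * dg x) ^ n) ((w * dg x) ^ n * a * dg x)) =
        (Fintype.card J : ℂ)⁻¹ * F n w (k, i) := fun n w => by
      rw [← star_pow]
      exact FF_ampB hf (T k) (y k) x i _
    have e2 : ∀ (n : ℕ) (w : CStarMatrix J J A), (FF (ampU f) fun a b => ampB (T k) (y k) i
        (b * star (w * star (dg x)) ^ n * dg x) (star (dg x) * (w * star (dg x)) ^ n * a)) =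
        (Fintype.card J : ℂ)⁻¹ * G n k w := fun n w => by
      have := FF_ampB hf (T k) (y k) (fun _ => 1) i (star (dg x) * (w * star (dg x)) ^ n)
      rw [dg_one, star_mul (star (dg x)), star_star, star_pow, star_one] at this
      simp only [one_mul, mul_one, star_one, mul_assoc] at this
      simpa only [G, star_one, one_mul, mul_one, mul_assoc] using this
    simp only [e1, e2, Ex_mul, ← mul_sub, mul_left_comm _ (Fintype.card J : ℂ)⁻¹,
      ← Finset.mul_sum] at h0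
    rw [norm_mul, norm_inv, Complex.norm_natCast, inv_mul_le_iff₀ hH] at h0
    simp only [Finset.sum_apply, Pi.smul_apply, hFq, Complex.real_smul, ← Finset.sum_sub_distrib,
      ← mul_sub]
    refine h0.trans_eq ?_
    field_simp
  have hmem : ∑ n ∈ Finset.range N, lam n • Ex (ampU f) (F n) ∈ closure (ampS x T y) :=
    (convex_ampS x T y).closure.sum_mem (fun n _ => hlam n) hsum fun n _ =>
      Ex_mem he (hF n) (convex_ampS x T y).closure isClosed_closure fun w hw =>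
        have hV := pow_mem (mul_mem hw.1 hX) n
        subset_closure ⟨_, inferInstance, ampM f ((w * dg x) ^ n), ampM_col hf hV, ampM_row hf hV,
          fun _ => rfl⟩
  obtain ⟨v, ⟨σ, _, m, h1, h2, h3⟩, hv⟩ := Metric.mem_closure_iff.mp hmem (ε₀ / 4) (by positivity)
  let E := (Fintype.equivFin σ).symm
  refine ⟨_, fun l => m (E l), ?_, ?_, fun k j => ?_⟩
  · rw [E.sum_comp fun l => star (m l) * m l, h1]
  · rw [E.sum_comp fun l => m l * star (m l), h2]
  rw [E.sum_comp fun l => star (m l) * T k (m l * x j), E.sum_comp fun l => star (m l) * T k (m l)]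
  have e0 := h3 (k, j₀)
  simp only [hj₀, star_one, one_mul, mul_one] at e0
  rw [← e0, ← h3 (k, j)]
  have d1 := (dist_le_pi_dist _ _ (k, j)).trans hv.le
  have d2 := (dist_le_pi_dist _ _ (k, j₀)).trans hv.le
  have d3 := hc k j
  have d4 := hc k j₀
  rw [← dist_eq_norm] at d3 d4 ⊢
  rw [dist_comm] at d1 d4
  have t1 := dist_triangle4 (v (k, j)) _ _ _ |>.trans (add_le_add (add_le_add d1 d3) d4)
  have t2 := (dist_triangle _ _ _).trans (add_le_add t1 d2)
  linarith

end Crest.Agent.R121
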