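import Crest.Agent.R121.Haar

/-! Row 121: matrices over a tracial algebra (auxiliary file for `Amp.lean`) -/

set_option autoImplicit false
set_option linter.unusedSectionVars false

namespace Crest.Agent.R121

open Crest.Agent.R95 Crest.Agent.R124 MeasureTheory Filter Topology
open scoped InnerProductSpace BigOperators ComplexConjugate

variable {A : Type*} [CStarAlgebra A] [PartialOrder A] [StarOrderedRing A]
  {J : Type} [Fintype J] [DecidableEq J]

/-- An entry of a matrix. -/
noncomputable def ent (i j : J) : CStarMatrix J J A →L[ℂ] A :=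
  LinearMap.mkContinuous
    { toFun := fun M => M i j, map_add' := fun _ _ => rfl, map_smul' := fun _ _ => rfl } 1
    fun M => by rw [one_mul]; exact CStarMatrix.norm_entry_le_norm (M := M) (i := i) (j := j)

@[simp] lemma ent_apply (i j : J) (M : CStarMatrix J J A) : ent i j M = M i j := rfl

lemma mat_sum_apply {σ : Type*} (s : Finset σ) (F : σ → CStarMatrix J J A) (i j : J) :
    (∑ a ∈ s, F a) i j = ∑ a ∈ s, F a i j := map_sum (ent i j) F s

lemma continuous_entry (i j : J) : Continuous fun M : CStarMatrix J J A => M i j :=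
  (ent (A := A) i j).continuous

lemma mat_mul_apply (M N : CStarMatrix J J A) (i j : J) : (M * N) i j = ∑ l, M i l * N l j :=
  CStarMatrix.mul_apply

lemma mat_star_apply (M : CStarMatrix J J A) (i j : J) : (star M) i j = star (M j i) :=
  CStarMatrix.star_apply

/-- A matrix with a single entry. -/
noncomputable def sing (i j : J) (a : A) : CStarMatrix J J A :=
  CStarMatrix.ofMatrix fun k l => if k = i ∧ l = j then a else 0

lemma sing_apply (i j : J) (a : A) (k l : J) : sing i j a k l = if k = i ∧ l = j then a else 0 :=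
  rfl

/-- A diagonal matrix. -/
noncomputable def dg (x : J → A) : CStarMatrix J J A :=
  CStarMatrix.ofMatrix fun k l => if k = l then x k else 0

lemma dg_apply (x : J → A) (k l : J) : dg x k l = if k = l then x k else 0 := rfl

lemma dg_one : dg (fun _ : J => (1 : A)) = 1 := by
  ext k l; rw [dg_apply, CStarMatrix.one_apply]

lemma star_dg (x : J → A) : star (dg x) = dg fun j => star (x j) := by
  ext k l
  rw [mat_star_apply, dg_apply, dg_apply]
  by_cases h : k = l
  · subst h; simp
  · simp [h, Ne.symm h]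

lemma dg_mul_apply (x : J → A) (M : CStarMatrix J J A) (k l : J) : (dg x * M) k l = x k * M k l := by
  simp [mat_mul_apply, dg_apply]

lemma mul_dg_apply (x : J → A) (M : CStarMatrix J J A) (k l : J) : (M * dg x) k l = M k l * x l := by
  simp [mat_mul_apply, dg_apply]

lemma dg_mem {x : J → A} (hx : ∀ j, x j ∈ unitary A) : dg x ∈ unitary (CStarMatrix J J A) := by
  constructor
  · ext k l
    rw [star_dg, dg_mul_apply, dg_apply, CStarMatrix.one_apply]
    split_ifs
    · exact (hx k).1
    · simp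
  · ext k l
    rw [star_dg, dg_mul_apply, dg_apply, CStarMatrix.one_apply]
    split_ifs
    · exact (hx k).2
    · simp

lemma sing_mul_apply (i j : J) (a : A) (M : CStarMatrix J J A) (k l : J) :
    (sing i j a * M) k l = if k = i then a * M j l else 0 := by
  rw [mat_mul_apply, Finset.sum_eq_single j]
  · simp [sing_apply]
  · intro b _ hb; simp [sing_apply, hb]
  · simp

lemma mul_sing_apply (i j : J) (a : A) (M : CStarMatrix J J A) (k l : J) :
    (M * sing i j a) k l = if l = j then M k i * a else 0 := by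
  rw [mat_mul_apply, Finset.sum_eq_single i]
  · simp [sing_apply]
  · intro b _ hb; simp [sing_apply, hb]
  · simp

variable {ι : Type} [Fintype ι] [DecidableEq ι]

/-- The amplified matrix units. -/
noncomputable def ampU (f : ι → ι → A) (p q : J × ι) : CStarMatrix J J A := sing p.1 q.1 (f p.2 q.2)

lemma ampU_mu {f : ι → ι → A} (hf : MU 1 f) : MU 1 (ampU (J := J) f) where
  mul := by
    rintro ⟨a, α⟩ ⟨b, β⟩ ⟨c, γ⟩ ⟨d, δ⟩
    ext k l
    simp only [ampU, sing_mul_apply, sing_apply, Prod.mk.injEq]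
    by_cases hbc : b = c <;> by_cases hβ : β = γ <;> by_cases hk : k = a <;> by_cases hl : l = d <;>
      simp [hbc, hβ, hk, hl, sing_apply, hf.mul]
  star := by
    rintro ⟨a, α⟩ ⟨b, β⟩
    ext k l
    simp only [ampU, mat_star_apply, sing_apply]
    by_cases hk : k = b <;> by_cases hl : l = a <;> simp [hk, hl, hf.star]
  sum := by
    ext k l
    rw [mat_sum_apply, Fintype.sum_prod_type, CStarMatrix.one_apply, Finset.sum_eq_single k]
    · by_cases h : k = l
      · subst h; simp [ampU, sing_apply, hf.sum]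
      · simp [ampU, sing_apply, h, Ne.symm h]
    · intro b _ hb; simp [ampU, sing_apply, Ne.symm hb]
    · simp

lemma EK_ampU (f : ι → ι → A) (Y : CStarMatrix J J A) :
    EK (ampU f) Y = dg fun _ => (Fintype.card J : ℂ)⁻¹ • ∑ j, EK f (Y j j) := by
  ext k l
  rw [EK_apply, FF, CStarMatrix.smul_apply, mat_sum_apply, dg_apply]
  simp only [mat_sum_apply, Fintype.sum_prod_type, ampU, mul_sing_apply, sing_mul_apply, EK_apply, FF]
  by_cases h : k = l
  · subst h
    simp only [if_true, Finset.smul_sum, smul_smul, Fintype.card_prod, Nat.cast_mul, mul_inv]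
    refine Finset.sum_congr rfl fun j _ => Finset.sum_congr rfl fun α _ => ?_
    rw [Finset.sum_eq_single k]
    · simp
    · intro b _ hb; simp [Ne.symm hb]
    · simp
  · rw [if_neg h]
    refine smul_eq_zero_of_right _ (Finset.sum_eq_zero fun j _ => Finset.sum_eq_zero fun α _ =>
      Finset.sum_eq_zero fun b _ => Finset.sum_eq_zero fun β _ => ?_)
    by_cases h1 : l = b
    · subst h1; simp [h]
    · simp [h1]

variable [Tr A] [Nonempty J]

lemma cardJ_pos : (0 : ℝ) < Fintype.card J := by exact_mod_cast Fintype.card_pos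

lemma cardJ_ne : (Fintype.card J : ℂ) ≠ 0 := by exact_mod_cast Fintype.card_ne_zero

lemma tr_star_mul_self (M : CStarMatrix J J A) :
    (Fintype.card J : ℂ)⁻¹ * ∑ j, τ ((star M * M) j j) =
      (((Fintype.card J : ℝ)⁻¹ * ∑ i, ∑ j, n2 (M i j) ^ 2 : ℝ) : ℂ) := by
  simp only [mat_mul_apply, mat_star_apply, map_sum, τ_star_mul_self]
  rw [Finset.sum_comm]
  push_cast
  rfl

/-- The normalised trace on matrices. -/
noncomputable instance trM : Tr (CStarMatrix J J A) where
  τ := (Fintype.card J : ℂ)⁻¹ • ∑ j, (τ : A →L[ℂ] ℂ) ∘L ent j j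
  τ_one := by
    simp [τ_one]
  τ_comm M N := by
    simp only [smul_apply, sum_apply,
      ContinuousLinearMap.comp_apply, ent_apply, mat_mul_apply, map_sum]
    rw [Finset.sum_comm]
    simp only [fun i j => τ_comm (M i j) (N j i)]
  τ_star M := by
    simp [mat_star_apply, τ_star]
  τ_nonneg M := by
    simp only [smul_apply, sum_apply,
      ContinuousLinearMap.comp_apply, ent_apply, smul_eq_mul]
    rw [tr_star_mul_self, Complex.ofReal_re]
    positivity
  faithful M h := by
    simp only [smul_apply, sum_apply,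
      ContinuousLinearMap.comp_apply, ent_apply, smul_eq_mul] at h
    rw [tr_star_mul_self, Complex.ofReal_re, mul_eq_zero] at h
    have h := h.resolve_left (inv_pos.mpr cardJ_pos).ne'
    rw [Finset.sum_eq_zero_iff_of_nonneg fun i _ => by positivity] at h
    ext i j
    have h := h i (Finset.mem_univ _)
    rw [Finset.sum_eq_zero_iff_of_nonneg fun i _ => by positivity] at h
    simpa [n2_eq_zero] using h j (Finset.mem_univ _)

lemma τ_mat (M : CStarMatrix J J A) : τ M = (Fintype.card J : ℂ)⁻¹ * ∑ j, τ (M j j) := by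
  change ((Fintype.card J : ℂ)⁻¹ • ∑ j, (τ : A →L[ℂ] ℂ) ∘L ent j j) M = _
  simp

lemma n2_mat_sq (M : CStarMatrix J J A) :
    n2 M ^ 2 = (Fintype.card J : ℝ)⁻¹ * ∑ i, ∑ j, n2 (M i j) ^ 2 := by
  rw [n2_sq, τ_mat, tr_star_mul_self, Complex.ofReal_re]

lemma sum_n2_entry (M : CStarMatrix J J A) :
    ∑ i, ∑ j, n2 (M i j) ^ 2 = Fintype.card J * n2 M ^ 2 := by
  rw [n2_mat_sq, ← mul_assoc, mul_inv_cancel₀ cardJ_pos.ne', one_mul]

lemma row_n2_le (M : CStarMatrix J J A) (i : J) :
    ∑ j, n2 (M i j) ^ 2 ≤ Fintype.card J * n2 M ^ 2 := by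
  rw [← sum_n2_entry]
  exact Finset.single_le_sum (f := fun i => ∑ j, n2 (M i j) ^ 2) (fun i _ => by positivity)
    (Finset.mem_univ i)

lemma col_n2_le (M : CStarMatrix J J A) (j : J) :
    ∑ i, n2 (M i j) ^ 2 ≤ Fintype.card J * n2 M ^ 2 := by
  rw [← sum_n2_entry]
  exact Finset.sum_le_sum fun i _ => Finset.single_le_sum (f := fun j => n2 (M i j) ^ 2)
    (fun i _ => by positivity) (Finset.mem_univ j)

lemma n2_dg_const (a : A) : n2 (dg fun _ : J => a) ^ 2 = n2 a ^ 2 := by
  rw [n2_mat_sq]
  have : ∀ i : J, ∑ j, n2 (dg (fun _ : J => a) i j) ^ 2 = n2 a ^ 2 := fun i => by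
    rw [Finset.sum_eq_single i]
    · simp [dg_apply]
    · intro b _ hb; simp [dg_apply, Ne.symm hb]
    · simp
  simp only [this, Finset.sum_const, Finset.card_univ, nsmul_eq_mul]
  rw [← mul_assoc, inv_mul_cancel₀ cardJ_pos.ne', one_mul]

lemma theta_ampU (f : ι → ι → A) (x : J → A) {δ : ℝ} (hδ : 0 ≤ δ) (h : ∀ j, theta f (x j) ≤ δ) :
    theta (ampU f) (dg x) ≤ δ := by
  have key : ∀ p : J × ι, n2 (EK (ampU f) (star (dg x) * ampU f p p * dg x)) ^ 2 =
      (Fintype.card J : ℝ)⁻¹ ^ 2 * n2 (EK f (star (x p.1) * f p.2 p.2 * x p.1)) ^ 2 := by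
    rintro ⟨j, β⟩
    rw [EK_ampU, n2_dg_const, n2_smul, mul_pow, Finset.sum_eq_single j]
    · simp [star_dg, mul_dg_apply, dg_mul_apply, ampU, sing_apply]
    · intro b _ hb
      simp [star_dg, mul_dg_apply, dg_mul_apply, ampU, sing_apply, hb]
    · simp
  unfold theta at *
  simp only [key, Fintype.sum_prod_type, ← Finset.mul_sum]
  have h1 : (1 : ℝ) ≤ Fintype.card J := by exact_mod_cast Fintype.card_pos
  calc _ ≤ (Fintype.card J : ℝ)⁻¹ ^ 2 * ∑ _j : J, δ := by gcongr with j; exact h j
    _ = (Fintype.card J : ℝ)⁻¹ * δ := by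
      simp only [Finset.sum_const, Finset.card_univ, nsmul_eq_mul]
      field_simp
    _ ≤ 1 * δ := by gcongr; exact inv_le_one_of_one_le₀ h1
    _ = δ := one_mul _

end Crest.Agent.R121
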