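import Crest.Agent.R121.CBAux

/-! Row 121: averaging completely bounded maps (minimal invariant set). -/

set_option autoImplicit false
set_option linter.unusedSectionVars false
set_option linter.deprecated false
set_option linter.unusedVariables false

namespace Crest.Agent.R121

open Crest.Agent.R95 Crest.Agent.R124 MeasureTheory Filter Topology
open scoped InnerProductSpace BigOperators ComplexConjugate

variable {K : Type*} [NormedAddCommGroup K] [InnerProductSpace ℂ K] [CompleteSpace K]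
  {P : VonNeumannAlgebra K}

lemma N2_apply_le {I : Type*} [Fintype I] (b : K →L[ℂ] K) (ξ : I → K) :
    N2 (fun i => b (ξ i)) ≤ ‖b‖ * N2 ξ := by
  refine Real.sqrt_le_iff.mpr ⟨mul_nonneg (norm_nonneg _) (N2_nonneg _), ?_⟩
  rw [mul_pow, N2_sq, Finset.mul_sum]
  refine Finset.sum_le_sum fun i _ => ?_
  rw [← mul_pow]
  exact pow_le_pow_left₀ (norm_nonneg _) (b.le_opNorm _) 2

lemma JB.add {q : K →L[ℂ] K} {S S' : Bool → Al P → Al P} {d d' : ℝ} (h : JB q S d)
    (h' : JB q S' d') : JB q (fun b y => S b y + S' b y) (d + d') := by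
  intro I J _ _ t X hX η hη ξ
  have h1 := h I J t X hX η hη ξ
  have h2 := h' I J t X hX η hη ξ
  simp only [AddMemClass.coe_add, ContinuousLinearMap.add_apply, inner_add_right,
    Finset.sum_add_distrib]
  refine (norm_add_le _ _).trans ?_
  linarith

lemma JB.mul_right {q : K →L[ℂ] K} {S : Bool → Al P → Al P} {d : ℝ} (hd : 0 ≤ d) (h : JB q S d)
    (c : Al P) : JB q (fun b y => S b y * c) (d * ‖c‖) := by
  intro I J _ _ t X hX η hη ξ
  have h1 := h I J t X hX η hη fun j => (c : K →L[ℂ] K) (ξ j)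
  have h2 := N2_apply_le (c : K →L[ℂ] K) ξ
  have h3 := N2_nonneg η
  refine h1.trans ?_
  calc _ ≤ d * N2 η * (‖(c : K →L[ℂ] K)‖ * N2 ξ) := by gcongr
    _ = _ := by change _ = d * ‖(c : K →L[ℂ] K)‖ * _ * _; ring

lemma JB.comp_right {q : K →L[ℂ] K} {S : Bool → Al P → Al P} {d : ℝ} (h : JB q S d)
    {c : Al P} (hc : ‖c‖ ≤ 1) : JB q (fun b y => S b (y * c)) d := by
  intro I J _ _ t X hX η hη ξ
  refine h I J t (fun i j => X i j * c) (fun ζ => ?_) η hη ξ
  refine (hX fun j => (c : K →L[ℂ] K) (ζ j)).trans (Finset.sum_le_sum fun j _ => ?_)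
  have : ‖(c : K →L[ℂ] K) (ζ j)‖ ≤ ‖ζ j‖ :=
    ((c : K →L[ℂ] K).le_opNorm _).trans (mul_le_of_le_one_left (norm_nonneg _) hc)
  gcongr

lemma jb_id : JB (P := P) 1 (fun _ y => y) 1 := by
  intro I J _ _ t X hX η _ ξ
  simp only [← inner_sum]
  refine (norm_sum_inner_le _ _).trans ?_
  rw [one_mul]
  exact mul_le_mul_of_nonneg_left (Real.sqrt_le_sqrt (hX ξ)) (N2_nonneg _)

lemma isCb_id : IsCb (P := P) (ContinuousLinearMap.id ℂ (Al P)) 1 := jb_id.isCb

variable (P) in
/-- The completely bounded maps. -/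
def CBs : Submodule ℂ (Al P →L[ℂ] Al P) where
  carrier := {T | ∃ C, 0 ≤ C ∧ IsCb T C}
  add_mem' := by
    rintro S T ⟨C, hC, hS⟩ ⟨D, hD, hT⟩
    exact ⟨C + D, add_nonneg hC hD, (hS.jb.add hT.jb).isCb⟩
  zero_mem' := ⟨0, le_rfl, fun N X _ η ξ => by simp⟩
  smul_mem' := by
    rintro c T ⟨C, hC, hT⟩
    refine ⟨C * ‖c • (1 : Al P)‖, by positivity, ?_⟩
    have := (hT.jb.mul_right hC (c • (1 : Al P))).isCb
    simp only [mul_smul_comm, mul_one] at this
    exact this

lemma rmul_comp_mem {T : Al P →L[ℂ] Al P} (h : T ∈ CBs P) (b : Al P) :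
    (rmul b).comp T ∈ CBs P := by
  obtain ⟨C, hC, hT⟩ := h
  exact ⟨C * ‖b‖, by positivity, (hT.jb.mul_right hC b).isCb⟩

lemma comp_rmul_mem {T : Al P →L[ℂ] Al P} (h : T ∈ CBs P) (x : Al P) :
    T.comp (rmul x) ∈ CBs P := by
  obtain ⟨C, hC, hT⟩ := h
  have h0 : 0 < ‖x‖ + 1 := by positivity
  have h1 : T.comp (rmul ((((‖x‖ + 1)⁻¹ : ℝ) : ℂ) • x)) ∈ CBs P :=
    ⟨C, hC, (hT.jb.comp_right (c := (((‖x‖ + 1)⁻¹ : ℝ) : ℂ) • x) (by
      rw [norm_smul, Complex.norm_real, norm_inv, Real.norm_of_nonneg h0.le, inv_mul_le_iff₀ h0]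
      linarith)).isCb⟩
  convert (CBs P).smul_mem ((‖x‖ + 1 : ℝ) : ℂ) h1 using 1
  refine ContinuousLinearMap.ext fun m => ?_
  simp only [ContinuousLinearMap.comp_apply, rmul_apply, ContinuousLinearMap.smul_apply,
    mul_smul_comm, map_smul, smul_smul]
  rw [← Complex.ofReal_mul, mul_inv_cancel₀ h0.ne', Complex.ofReal_one, one_smul]

variable (P) in
/-- The space in which the semigroup acts. -/
abbrev Om := CBs P →ₗ[ℂ] Al P →ₗ[ℂ] Al P

/-- The action of a column. -/
noncomputable def act {M : Type} [Fintype M] (m : M → Al P) (σ : Om P) : Om P :=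
  LinearMap.mk₂ ℂ (fun T y => ∑ l, star (m l) * σ T (m l * y))
    (fun S T y => by simp only [map_add, LinearMap.add_apply, mul_add, Finset.sum_add_distrib])
    (fun c T y => by simp only [map_smul, LinearMap.smul_apply, mul_smul_comm, Finset.smul_sum])
    (fun T y y' => by simp only [map_add, mul_add, Finset.sum_add_distrib])
    (fun c T y => by simp only [map_smul, mul_smul_comm, Finset.smul_sum])

lemma act_apply {M : Type} [Fintype M] (m : M → Al P) (σ : Om P) (T : CBs P) (y : Al P) :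
    act m σ T y = ∑ l, star (m l) * σ T (m l * y) := rfl

/-- Pointwise weak convergence. -/
def LimO {α : Type*} (l : Filter α) (f : α → Om P) (σ : Om P) : Prop :=
  ∀ T y, WT l (fun a => f a T y) (σ T y)

/-- The basic compact convex set. -/
structure InK (σ : Om P) : Prop where
  right : ∀ (T T' : CBs P) (b : Al P), T'.1 = (rmul b).comp T.1 → ∀ y, σ T' y = σ T y * b
  left : ∀ (T T' : CBs P) (x : Al P), T'.1 = T.1.comp (rmul x) → ∀ y, σ T' y = σ T (y * x)
  id : ∀ T : CBs P, T.1 = ContinuousLinearMap.id ℂ _ → ∀ y, σ T y = y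
  cb : ∀ (T : CBs P) (C : ℝ), 0 ≤ C → IsCb T.1 C → JB 1 (fun _ => σ T) C

/-- Nonempty closed convex invariant subsets. -/
structure Good (S : Set (Om P)) : Prop where
  sub : ∀ σ ∈ S, InK σ
  ne : S.Nonempty
  cl : ∀ (U : Ultrafilter (Om P)) (σ : Om P), S ∈ U → LimO U (fun τ => τ) σ → σ ∈ S
  mid : ∀ σ ∈ S, ∀ τ ∈ S, (2⁻¹ : ℂ) • (σ + τ) ∈ S
  inv : ∀ (M : Type) [Fintype M] (m : M → Al P), ∑ l, star (m l) * m l = 1 →
    ∀ σ ∈ S, act m σ ∈ S

lemma Good.cl' {S : Set (Om P)} (h : Good S) {α : Type*} (U : Ultrafilter α) {f : α → Om P}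
    {σ : Om P} (hf : ∀ᶠ a in U, f a ∈ S) (hl : LimO U f σ) : σ ∈ S :=
  h.cl (U.map f) σ hf fun T y η ξ => hl T y η ξ

lemma col_le {M : Type} [Fintype M] {m : M → Al P} {r : K →L[ℂ] K} (hr : IsStarProjection r)
    (hm : ∑ l, star (m l : K →L[ℂ] K) * m l = r) (ζ : K) :
    ∑ l, ‖(m l : K →L[ℂ] K) ζ‖ ^ 2 ≤ ‖ζ‖ ^ 2 := by
  have h1 : ∑ l, ‖(m l : K →L[ℂ] K) ζ‖ ^ 2 = ‖r ζ‖ ^ 2 := by
    rw [norm_sq_eq_inner, hr.isSelfAdjoint.star_eq, hr.isIdempotentElem.eq, ← hm,
      ContinuousLinearMap.sum_apply, inner_sum, Complex.re_sum]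
    exact Finset.sum_congr rfl fun l _ => norm_sq_eq_inner _ _
  rw [h1]
  exact pow_le_pow_left₀ (norm_nonneg _)
    ((r.le_opNorm _).trans (mul_le_of_le_one_left (norm_nonneg _) hr.norm_le)) 2

lemma col_le' {M : Type} [Fintype M] {m : M → Al P} (hm : ∑ l, star (m l) * m l = 1) (ζ : K) :
    ∑ l, ‖(m l : K →L[ℂ] K) ζ‖ ^ 2 ≤ ‖ζ‖ ^ 2 :=
  col_le (IsStarProjection.one _) (by simpa using congrArg (fun a : Al P => (a : K →L[ℂ] K)) hm) ζ

lemma exists_limO {α : Type*} (U : Ultrafilter α) {f : α → Om P} (hf : ∀ᶠ a in U, InK (f a)) :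
    ∃ σ, LimO U f σ := by
  classical
  have h : ∀ (T : CBs P) (y : Al P), ∃ b, WT U (fun a => f a T y) b := fun T y => by
    obtain ⟨C, hC, hT⟩ := T.2
    obtain ⟨b, -, hb⟩ := exists_wt U (fun a => if InK (f a) then f a T y else 0) (C := C * ‖y‖)
      (fun a => by
        split_ifs with h
        · exact (h.cb T C hC hT).norm_le hC y
        · rw [norm_zero]; positivity)
    exact ⟨b, hb.congr' (hf.mono fun a ha => if_pos ha)⟩
  choose g hg using h
  refine ⟨LinearMap.mk₂ ℂ g (fun S T y => ?_) (fun c T y => ?_) (fun T y y' => ?_)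
    (fun c T y => ?_), hg⟩
  · refine (hg _ _).unique ?_
    simpa only [map_add, LinearMap.add_apply] using (hg S y).add (hg T y)
  · refine (hg _ _).unique ?_
    simpa only [map_smul, LinearMap.smul_apply] using (hg T y).smul c
  · refine (hg _ _).unique ?_
    simpa only [map_add] using (hg T y).add (hg T y')
  · refine (hg _ _).unique ?_
    simpa only [map_smul] using (hg T y).smul c

lemma good_inK : Good {σ : Om P | InK σ} where
  sub σ h := h
  ne := ⟨(ContinuousLinearMap.coeLM ℂ).comp (CBs P).subtype,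
    { right := fun T T' b h y => by
        change T'.1 y = T.1 y * b
        rw [h]; rfl
      left := fun T T' x h y => by
        change T'.1 y = T.1 (y * x)
        rw [h]; rfl
      id := fun T h y => by
        change T.1 y = y
        rw [h]; rfl
      cb := fun T C hC h => h.jb }⟩
  cl U σ hU hl :=
    { right := fun T T' b h y => (hl T' y).unique (((hl T y).mul_right b).congr'
        (Filter.mem_of_superset hU fun τ hτ => (InK.right hτ T T' b h y).symm))
      left := fun T T' x h y => (hl T' y).unique ((hl T (y * x)).congr'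
        (Filter.mem_of_superset hU fun τ hτ => (InK.left hτ T T' x h y).symm))
      id := fun T h y => (hl T y).unique ((WT.const y).congr'
        (Filter.mem_of_superset hU fun τ hτ => (InK.id hτ T h y).symm))
      cb := fun T C hC h => JB.lim (l := U) (S := fun (τ : Om P) _ => τ T)
        (Filter.mem_of_superset hU fun τ hτ => InK.cb hτ T C hC h) fun _ y => hl T y }
  mid σ hσ τ hτ :=
    { right := fun T T' b h y => by
        simp only [LinearMap.smul_apply, LinearMap.add_apply, InK.right hσ T T' b h,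
          InK.right hτ T T' b h, smul_mul_assoc, add_mul]
      left := fun T T' x h y => by
        simp only [LinearMap.smul_apply, LinearMap.add_apply, InK.left hσ T T' x h,
          InK.left hτ T T' x h]
      id := fun T h y => by
        simp only [LinearMap.smul_apply, LinearMap.add_apply, InK.id hσ T h, InK.id hτ T h]
        rw [← two_smul ℂ y, smul_smul, inv_mul_cancel₀ two_ne_zero, one_smul]
      cb := fun T C hC h => (InK.cb hσ T C hC h).mid (InK.cb hτ T C hC h) }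
  inv M _ m hm σ hσ :=
    { right := fun T T' b h y => by
        simp only [act_apply, InK.right hσ T T' b h, Finset.sum_mul, mul_assoc]
      left := fun T T' x h y => by
        simp only [act_apply, InK.left hσ T T' x h, mul_assoc]
      id := fun T h y => by
        simp only [act_apply, InK.id hσ T h, ← mul_assoc, ← Finset.sum_mul, hm, one_mul]
      cb := fun T C hC h => (InK.cb hσ T C hC h).act hC (fun _ => m) (fun _ => col_le' hm)
        fun _ _ _ _ => rfl }

lemma exists_minimal : ∃ S : Set (Om P), Good S ∧ ∀ S', Good S' → S' ⊆ S → S ⊆ S' := by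
  obtain ⟨S, -, hS⟩ := zorn_superset_nonempty {S : Set (Om P) | Good S} (fun c hc hch hne => by
    obtain ⟨S₀, hS₀⟩ := hne
    have : Nonempty c := ⟨⟨S₀, hS₀⟩⟩
    have hdir : Directed (· ≥ ·) fun S : c => 𝓟 (S : Set (Om P)) := by
      intro S S'
      rcases hch.total S.2 S'.2 with h | h
      · exact ⟨S, le_rfl, principal_mono.mpr h⟩
      · exact ⟨S', principal_mono.mpr h, le_rfl⟩
    have hne : (⨅ S : c, 𝓟 (S : Set (Om P))).NeBot :=
      iInf_neBot_of_directed hdir fun S => principal_neBot_iff.mpr (Good.ne (hc S.2))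
    obtain ⟨U, hU⟩ := Ultrafilter.exists_le (⨅ S : c, 𝓟 (S : Set (Om P)))
    have hU' : ∀ S ∈ c, S ∈ U := fun S hS =>
      le_principal_iff.mp (hU.trans (iInf_le (fun S : c => 𝓟 (S : Set (Om P))) ⟨S, hS⟩))
    obtain ⟨σ, hσ⟩ := exists_limO U (f := fun τ => τ)
      (Filter.mem_of_superset (hU' S₀ hS₀) fun τ hτ => Good.sub (hc hS₀) τ hτ)
    refine ⟨⋂₀ c, ⟨fun τ hτ => Good.sub (hc hS₀) τ (hτ S₀ hS₀),
      ⟨σ, fun S hS => Good.cl (hc hS) U σ (hU' S hS) hσ⟩,
      fun V τ hV hl S hS => Good.cl (hc hS) V τ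
        (Filter.mem_of_superset hV (Set.sInter_subset_of_mem hS)) hl,
      fun τ hτ τ' hτ' S hS => Good.mid (hc hS) τ (hτ S hS) τ' (hτ' S hS),
      fun M _ m hm τ hτ S hS => Good.inv (hc hS) M m hm τ (hτ S hS)⟩,
      fun S hS => Set.sInter_subset_of_mem hS⟩) _ good_inK
  exact ⟨S, hS.prop, fun S' h1 h2 => hS.le_of_le h1 h2⟩

/-- Sublevel sets of joint bounds. -/
lemma Good.level {S : Set (Om P)} (hS : Good S) {z : K →L[ℂ] K} (hz : z ∈ P.commutant)
    (T : CBs P) (sel : Bool → Bool) (S₂ : Al P →ₗ[ℂ] Al P) {d : ℝ} (hd : 0 ≤ d)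
    (hne : ∃ σ ∈ S, JB z (fun b => cond (sel b) (σ T) S₂) d) :
    Good {σ | σ ∈ S ∧ JB z (fun b => cond (sel b) (σ T) S₂) d} where
  sub σ h := hS.sub σ h.1
  ne := hne
  cl U σ hU hl := ⟨hS.cl U σ (Filter.mem_of_superset hU fun τ h => h.1) hl,
    JB.lim (l := U) (S := fun (τ : Om P) b => cond (sel b) (τ T) S₂)
      (Filter.mem_of_superset hU fun τ h => h.2) fun b y => by
        cases sel b
        · exact WT.const _
        · exact hl T y⟩
  mid σ hσ τ hτ := ⟨hS.mid σ hσ.1 τ hτ.1, by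
    convert hσ.2.mid hτ.2 using 2 with b
    funext y
    cases sel b
    · simp only [cond_false]
      rw [← two_smul ℂ (S₂ y), smul_smul, inv_mul_cancel₀ two_ne_zero, one_smul]
    · rfl⟩
  inv M _ m hm σ hσ := ⟨hS.inv M m hm σ hσ.1, by
    convert hσ.2.act (z := z) hd (M := Option M)
      (fun b l => cond (sel b) (l.elim 0 m) (l.elim 1 fun _ => 0)) (fun b ζ => ?_)
      (fun b l v hv => ?_) using 2 with b
    · funext y
      cases sel b
      · simp [Fintype.sum_option]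
      · simp [Fintype.sum_option, act_apply]
    · cases sel b
      · simp [Fintype.sum_option]
      · simpa [Fintype.sum_option] using col_le' hm ζ
    · rw [← ContinuousLinearMap.mul_apply, ← comm_of_mem (Subtype.prop _) hz,
        ContinuousLinearMap.mul_apply, hv]⟩

/-- One step of the descent. -/
lemma descent {S : Set (Om P)} (hS : Good S) (hmin : ∀ S', Good S' → S' ⊆ S → S ⊆ S')
    {σ₁ σ₂ : Om P} (h₁ : σ₁ ∈ S) (h₂ : σ₂ ∈ S) (T : CBs P) {y : Al P} (hy : ‖y‖ ≤ 1)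
    {p z : K →L[ℂ] K} (hp : p ∈ P) (hp' : IsStarProjection p) (hp0 : p ≠ 0) (hz : CP P z)
    (hzp : z * p = p) (hsup : ∀ q : K →L[ℂ] K, (∀ x ∈ P, q * x * p = 0) → q * z = 0) {δ : ℝ}
    (hδ : 0 ≤ δ) (hδp : ∀ v, p v = v →
      δ * ‖v‖ ≤ ‖star (((2⁻¹ : ℂ) • (σ₁ T y - σ₂ T y) : Al P) : K →L[ℂ] K) v‖)
    {d : ℝ} (hd : 0 ≤ d) (h : ∀ σ ∈ S, JB z (fun _ => σ T) d) :
    δ ^ 2 ≤ d ^ 2 ∧ ∀ σ ∈ S, JB z (fun _ => σ T) √(d ^ 2 - δ ^ 2) := by
  classical
  have hj : JB z (fun b => cond b (σ₁ T) (σ₂ T)) d :=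
    (hmin _ (hS.level hz.com T (fun b => b) (σ₂ T) hd ⟨σ₂, h₂, by
      convert h σ₂ h₂ using 2 with b
      cases b <;> rfl⟩) (fun _ h => h.1) h₁).2
  have hzp' : ∀ v, p v = v → z v = v := fun v hv => by
    rw [← hv, ← ContinuousLinearMap.mul_apply, hzp]
  have hgain := @JB.gain K _ _ _ P z p (σ₁ T) (σ₂ T) d δ hd hδ hj hzp' y hy hδp
  have hle : δ ^ 2 ≤ d ^ 2 := by
    obtain ⟨v, hv⟩ : ∃ v, p v ≠ 0 := by
      by_contra hc; push Not at hc; exact hp0 (ContinuousLinearMap.ext hc)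
    have := hgain (I := Unit) (J := Empty) (fun _ j => j.elim) (fun ζ => by simp)
      (fun _ => p v) (fun _ => congr($(hp'.isIdempotentElem.eq) v))
    rw [N2_sq] at this
    simp only [Finset.univ_eq_empty, Finset.sum_empty, Finset.univ_unique,
      Finset.sum_singleton] at this
    have h0 : 0 < ‖p v‖ ^ 2 := by positivity
    nlinarith [nonneg_of_mul_nonneg_left this h0]
  refine ⟨hle, ?_⟩
  set d' := √(d ^ 2 - δ ^ 2) with hd'
  have hd'0 : 0 ≤ d' := Real.sqrt_nonneg _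
  set σ : Om P := (2⁻¹ : ℂ) • (σ₁ + σ₂) with hσ
  have hσS : σ ∈ S := hS.mid _ h₁ _ h₂
  have hσp : JB p (fun _ => σ T) d' := fun I J _ _ t X hX η hη ξ =>
    inner_of_adj (mul_nonneg hd'0 (N2_nonneg _)) (by
      rw [mul_pow, hd', Real.sq_sqrt (sub_nonneg.mpr hle)]
      exact hgain X hX η hη) ξ
  -- partial isometries into `p` exhausting `z`
  obtain ⟨V, hV, hVp, hVm⟩ := exists_maximal_pairwise
    (fun v : K →L[ℂ] K => v ∈ P ∧ v ≠ 0 ∧ PI v ∧ p * v = v) (fun v w => v * star w = 0)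
  have horth : Pairwise fun v w : V =>
      star (v : K →L[ℂ] K) * v * (star (w : K →L[ℂ] K) * w) = 0 := fun v w hvw => by
    beta_reduce
    rw [mul_assoc, ← mul_assoc (v : K →L[ℂ] K), hVp v.2 w.2 (fun e => hvw (Subtype.ext e)),
      zero_mul, mul_zero]
  obtain ⟨s, hsP, hs', hs1, -⟩ := exists_sum_proj (P := P)
    (fun v : V => star (v : K →L[ℂ] K) * v)
    (fun v => mul_mem (star_mem (hV v v.2).1) (hV v v.2).1)
    (fun v => (hV v v.2).2.2.1.proj_right) horth
  have hvs : ∀ v ∈ V, v * s = v := fun v hv => by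
    rw [mul_eq_of_hasSum (j := ⟨v, hv⟩) hs1 (fun w hw => by
      rw [← mul_assoc, hVp hv w.2 (fun e => hw (Subtype.ext e.symm)), zero_mul])]
    exact (hV v hv).2.2.1.mul_right
  have hsz : (1 - s) * z = 0 := hsup _ fun x hx => by
    by_contra hne
    have hne' : p * star x * (1 - s) ≠ 0 := fun h0 => hne (by
      have := congrArg star h0
      rwa [star_mul, star_mul, star_star, hp'.isSelfAdjoint.star_eq,
        hs'.one_sub.isSelfAdjoint.star_eq, star_zero, ← mul_assoc] at this)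
    obtain ⟨w, hwP, hw0, hw, hpw, hws⟩ := exists_pi_of_ne hp (sub_mem (one_mem P) hsP)
      (star_mem hx) hp' hs'.one_sub hne'
    have hvw : ∀ v ∈ V, v * star w = 0 := fun v hv => by
      rw [← hws, star_mul, hs'.one_sub.isSelfAdjoint.star_eq, ← mul_assoc, mul_sub, mul_one,
        hvs v hv, sub_self, zero_mul]
    have hwV := hVm w ⟨hwP, hw0, hw, hpw⟩ fun v hv => ⟨hvw v hv, by
      simpa using congrArg star (hvw v hv)⟩
    exact hw0 (by rw [← hw, hvw w hwV, zero_mul])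
  let v : V → Al P := fun v => ⟨v, (hV v v.2).1⟩
  let e : Finset V → Al P := fun F => ∑ a ∈ F, star (v a) * v a
  have he : ∀ F, (e F : K →L[ℂ] K) = ∑ a ∈ F, star (a : K →L[ℂ] K) * a := fun F => by
    simp [e, v]
  have he' : ∀ F, IsStarProjection (e F : K →L[ℂ] K) := fun F => by
    rw [he]
    refine ⟨?_, ?_⟩
    · change _ * _ = _
      rw [Finset.sum_mul]
      refine Finset.sum_congr rfl fun a ha => ?_
      rw [Finset.mul_sum, Finset.sum_eq_single a (fun b _ hb => horth (Ne.symm hb))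
        (fun h => absurd ha h)]
      exact (hV a a.2).2.2.1.proj_right.isIdempotentElem
    · exact isSelfAdjoint_sum _ fun a _ => IsSelfAdjoint.star_mul_self _
  have hee : ∀ F, star (1 - e F) * (1 - e F) = 1 - e F := fun F => Subtype.ext (by
    have := (he' F).one_sub
    change star (1 - (e F : K →L[ℂ] K)) * (1 - e F) = 1 - e F
    rw [this.isSelfAdjoint.star_eq, this.isIdempotentElem.eq])
  let m : (F : Finset V) → Option (Fin F.card) → Al P := fun F l =>
    l.elim (1 - e F) fun k => v (F.equivFin.symm k)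
  have hsumF : ∀ (F : Finset V) {M : Type _} [AddCommMonoid M] (g : V → M),
      ∑ k : Fin F.card, g (F.equivFin.symm k) = ∑ a ∈ F, g a := fun F M _ g => by
    rw [F.equivFin.symm.sum_comp (fun a : F => g a), Finset.sum_coe_sort]
  have hm : ∀ F, ∑ l, star (m F l) * m F l = 1 := fun F => by
    simp only [m, Fintype.sum_option, Option.elim_none, Option.elim_some, hee]
    rw [hsumF F fun a => star (v a) * v a, sub_add_cancel]
  obtain ⟨U, hU⟩ := Ultrafilter.exists_le (atTop : Filter (Finset V))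
  obtain ⟨σ', hσ'⟩ := exists_limO U (f := fun F => act (m F) σ)
    (Eventually.of_forall fun F => hS.sub _ (hS.inv _ _ (hm F) σ hσS))
  have hσ'S : σ' ∈ S := hS.cl' U (Eventually.of_forall fun F => hS.inv _ _ (hm F) σ hσS) hσ'
  have key : JB z (fun _ => σ' T) d' := by
    intro I J _ _ t X hX η hη ξ
    obtain ⟨C, hC, hT⟩ := T.2
    have hb := ((hS.sub σ hσS).cb T C hC hT).norm_le hC
    have hrem : ∀ i j, Tendsto (fun F => ⟪η i, ((star (1 - e F) * σ T ((1 - e F) * X i j) : Al P) :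
        K →L[ℂ] K) (ξ j)⟫_ℂ) U (𝓝 0) := fun i j => by
      have h1 : Tendsto (fun F => ((1 - e F : Al P) : K →L[ℂ] K) (η i)) U (𝓝 0) := by
        have h2 : η i - s (η i) = 0 := by
          have := congr($hsz (η i))
          rwa [ContinuousLinearMap.mul_apply, hη i] at this
        rw [← h2]
        refine (tendsto_const_nhds.sub ((hs1 (η i)).mono_left hU)).congr fun F => ?_
        change _ = η i - (e F : K →L[ℂ] K) (η i)
        rw [he, ContinuousLinearMap.sum_apply]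
      rw [tendsto_zero_iff_norm_tendsto_zero] at h1 ⊢
      refine squeeze_zero (fun _ => norm_nonneg _) (fun F => ?_)
        (by simpa using h1.mul_const (C * ‖X i j‖ * ‖ξ j‖))
      rw [MulMemClass.coe_mul, StarMemClass.coe_star, ContinuousLinearMap.mul_apply,
        inner_star_right]
      refine (norm_inner_le_norm _ _).trans (mul_le_mul_of_nonneg_left ?_ (norm_nonneg _))
      refine (ContinuousLinearMap.le_opNorm _ _).trans
        (mul_le_mul_of_nonneg_right ((hb _).trans ?_) (norm_nonneg _))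
      refine mul_le_mul_of_nonneg_left ((norm_mul_le _ _).trans
        (mul_le_of_le_one_left (norm_nonneg _) ?_)) hC
      exact (he' F).one_sub.norm_le
    have hmain : Tendsto (fun F : Finset V => ‖∑ i, ∑ j, ⟪η i, ((∑ k : Fin F.card,
        star (v (F.equivFin.symm k)) * σ T (v (F.equivFin.symm k) * X i j) : Al P) :
          K →L[ℂ] K) (ξ j)⟫_ℂ‖) U
        (𝓝 ‖∑ i, ∑ j, ⟪η i, (σ' T (X i j) : K →L[ℂ] K) (ξ j)⟫_ℂ‖) := by
      refine (tendsto_finset_sum _ fun i _ => tendsto_finset_sum _ fun j _ => ?_).norm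
      have := (hσ' T (X i j) (η i) (ξ j)).sub (hrem i j)
      rw [sub_zero] at this
      refine this.congr fun F => ?_
      simp only [act_apply, m, Fintype.sum_option, Option.elim_none, Option.elim_some,
        AddMemClass.coe_add, ContinuousLinearMap.add_apply, inner_add_right, add_sub_cancel_left]
    refine le_of_tendsto' hmain fun F => ?_
    exact hσp.act (z := z) hd'0 (fun _ (k : Fin F.card) => v (F.equivFin.symm k))
      (fun _ => col_le (he' F) (by
        rw [he, ← hsumF F fun a => star (a : K →L[ℂ] K) * a]))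
      (fun _ k w _ => congr($((hV _ (F.equivFin.symm k).1.2).2.2.2) w)) I J t X hX η hη ξ
  intro τ hτ
  exact (hmin _ (hS.level hz.com T (fun _ => true) 0 hd'0 ⟨σ', hσ'S, key⟩) (fun _ h => h.1) hτ).2

lemma minimal_subsingleton {S : Set (Om P)} (hS : Good S)
    (hmin : ∀ S', Good S' → S' ⊆ S → S ⊆ S') {σ₁ σ₂ : Om P} (h₁ : σ₁ ∈ S) (h₂ : σ₂ ∈ S) :
    σ₁ = σ₂ := by
  have key : ∀ (T : CBs P) (y : Al P), ‖y‖ ≤ 1 → σ₁ T y = σ₂ T y := fun T y hy => by
    by_contra hne
    set a : Al P := (2⁻¹ : ℂ) • (σ₁ T y - σ₂ T y) with ha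
    have ha0 : 0 < ‖a‖ := norm_pos_iff.mpr (smul_ne_zero (by norm_num) (sub_ne_zero.mpr hne))
    obtain ⟨p, hp, hp', h1, h2⟩ := exists_cut_sq (P := P) (y := star (a : K →L[ℂ] K))
      (star_mem a.2) (half_pos ha0)
    have hp0 : p ≠ 0 := by
      rintro rfl
      have : ‖star (a : K →L[ℂ] K)‖ ≤ ‖a‖ / 2 :=
        ContinuousLinearMap.opNorm_le_bound _ (half_pos ha0).le fun ζ => by simpa using h1 ζ
      rw [norm_star] at this
      change ‖a‖ ≤ _ at this
      linarith
    obtain ⟨z, hz, hzc, hz', hzp, hsup⟩ := exists_central_support hp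
    obtain ⟨C, hC, hT⟩ := T.2
    have step := fun (d : ℝ) => descent hS hmin h₁ h₂ T hy hp hp' hp0 ⟨hz, hzc, hz'⟩ hzp hsup
      (half_pos ha0).le (fun v hv => by simpa only [hv] using h2 v) (d := d)
    have ind : ∀ n : ℕ, ∃ d, 0 ≤ d ∧ d ^ 2 = C ^ 2 - n * (‖a‖ / 2) ^ 2 ∧
        ∀ σ ∈ S, JB z (fun _ => σ T) d := fun n => by
      induction n with
      | zero => exact ⟨C, hC, by simp, fun σ hσ => ((hS.sub σ hσ).cb T C hC hT).restrict⟩
      | succ n ih =>
        obtain ⟨d, hd, hd2, h⟩ := ih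
        obtain ⟨h3, h4⟩ := step d hd h
        refine ⟨_, Real.sqrt_nonneg _, ?_, h4⟩
        rw [Real.sq_sqrt (sub_nonneg.mpr h3), hd2]; push_cast; ring
    obtain ⟨n, hn⟩ := exists_nat_gt (C ^ 2 / (‖a‖ / 2) ^ 2)
    obtain ⟨d, -, hd2, -⟩ := ind n
    rw [div_lt_iff₀ (by positivity)] at hn
    nlinarith [sq_nonneg d]
  refine LinearMap.ext fun T => LinearMap.ext fun y => ?_
  have h0 : 0 < ‖y‖ + 1 := by positivity
  have := key T ((((‖y‖ + 1)⁻¹ : ℝ) : ℂ) • y) (by
    rw [norm_smul, Complex.norm_real, norm_inv, Real.norm_of_nonneg h0.le, inv_mul_le_iff₀ h0]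
    linarith)
  rw [map_smul, map_smul] at this
  exact smul_right_injective _ (by exact_mod_cast (inv_pos.mpr h0).ne') this

/-- A minimal closed convex invariant set is a point `σ`; `𝒜 T = σ T 1`. -/
theorem avg_cb (P : VonNeumannAlgebra K) :
    ∃ 𝒜 : (Al P →L[ℂ] Al P) →ₗ[ℂ] Al P,
      (∀ (T : Al P →L[ℂ] Al P) (C : ℝ), 0 ≤ C → IsCb T C → ‖𝒜 T‖ ≤ C ∧
        (∀ b, 𝒜 ((rmul b).comp T) = 𝒜 T * b) ∧ ∀ x, 𝒜 (T.comp (rmul x)) = x * 𝒜 T) ∧
      𝒜 (ContinuousLinearMap.id ℂ (Al P)) = 1 := by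
  obtain ⟨S, hS, hmin⟩ := exists_minimal (P := P)
  obtain ⟨σ, hσ⟩ := hS.ne
  have hK := hS.sub σ hσ
  have hmod : ∀ (T : CBs P) (x : Al P), σ T x = x * σ T 1 := fun T x => by
    have hx : x ∈ Submodule.span ℂ (unitary (Al P) : Set (Al P)) := by
      rw [CStarAlgebra.span_unitary]; trivial
    induction hx using Submodule.span_induction with
    | mem u hu =>
      have h1 := minimal_subsingleton hS hmin
        (hS.inv Unit (fun _ => u) (by simpa using hu.1) σ hσ) hσ
      have h2 : star u * σ T u = σ T 1 := by simpa [act_apply] using congr($h1 T 1)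
      rw [← h2, ← mul_assoc, hu.2, one_mul]
    | zero => simp
    | add x y _ _ hx hy => rw [map_add, hx, hy, add_mul]
    | smul c x _ hx => rw [map_smul, hx, smul_mul_assoc]
  obtain ⟨𝒜, h𝒜⟩ := LinearMap.exists_extend (σ.flip 1)
  have h𝒜' : ∀ T : CBs P, 𝒜 T = σ T 1 := fun T => congr($h𝒜 T)
  refine ⟨𝒜, fun T C hC hT => ?_, ?_⟩
  · have hT' : T ∈ CBs P := ⟨C, hC, hT⟩
    refine ⟨?_, fun b => ?_, fun x => ?_⟩
    · rw [h𝒜' ⟨T, hT'⟩]
      exact (hK.cb ⟨T, hT'⟩ C hC hT).norm_le_one hC (IsStarProjection.one _).norm_le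
    · rw [h𝒜' ⟨T, hT'⟩, h𝒜' ⟨_, rmul_comp_mem hT' b⟩]
      exact hK.right ⟨T, hT'⟩ _ b rfl 1
    · rw [h𝒜' ⟨T, hT'⟩, h𝒜' ⟨_, comp_rmul_mem hT' x⟩, ← hmod, hK.left ⟨T, hT'⟩ _ x rfl 1, one_mul]
  · rw [h𝒜' ⟨_, 1, zero_le_one, isCb_id⟩]
    exact hK.id _ rfl 1

end Crest.Agent.R121
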