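import Crest.Agent.R121.WL
import Crest.Agent.R124.VN1
import Crest.Agent.R124.VN2

/-! Row 121: joint matrix bounds for pairs of maps. -/

set_option autoImplicit false
set_option linter.unusedSectionVars false
set_option linter.deprecated false
set_option linter.unusedVariables false

namespace Crest.Agent.R121

open Crest.Agent.R95 Crest.Agent.R124 MeasureTheory Filter Topology
open scoped InnerProductSpace BigOperators ComplexConjugate

variable {K : Type*} [NormedAddCommGroup K] [InnerProductSpace ℂ K] [CompleteSpace K]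

/-- The `ℓ²`-norm of a family of vectors. -/
noncomputable def N2 {I : Type*} [Fintype I] (η : I → K) : ℝ := √(∑ i, ‖η i‖ ^ 2)

lemma N2_nonneg {I : Type*} [Fintype I] (η : I → K) : 0 ≤ N2 η := Real.sqrt_nonneg _

lemma N2_sq {I : Type*} [Fintype I] (η : I → K) : N2 η ^ 2 = ∑ i, ‖η i‖ ^ 2 :=
  Real.sq_sqrt (Finset.sum_nonneg fun _ _ => by positivity)

lemma norm_sum_inner_le {I : Type*} [Fintype I] (η ξ : I → K) :
    ‖∑ i, ⟪η i, ξ i⟫_ℂ‖ ≤ N2 η * N2 ξ := by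
  refine (norm_sum_le _ _).trans ((Finset.sum_le_sum fun i _ => norm_inner_le_norm _ _).trans ?_)
  exact Real.sum_mul_le_sqrt_mul_sqrt _ _ _

section
variable {I J : Type*} [Fintype I] [Fintype J]

lemma sum_inner_adj (a : I → J → K →L[ℂ] K) (η : I → K) (ξ : J → K) :
    ∑ i, ∑ j, ⟪η i, a i j (ξ j)⟫_ℂ = ∑ j, ⟪∑ i, star (a i j) (η i), ξ j⟫_ℂ := by
  rw [Finset.sum_comm]
  simp only [sum_inner, inner_star_left]

lemma inner_of_adj {a : I → J → K →L[ℂ] K} {η : I → K} {d : ℝ} (hd : 0 ≤ d)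
    (h : ∑ j, ‖∑ i, star (a i j) (η i)‖ ^ 2 ≤ d ^ 2) (ξ : J → K) :
    ‖∑ i, ∑ j, ⟪η i, a i j (ξ j)⟫_ℂ‖ ≤ d * N2 ξ := by
  rw [sum_inner_adj]
  refine (norm_sum_inner_le _ _).trans (mul_le_mul_of_nonneg_right ?_ (N2_nonneg _))
  exact Real.sqrt_le_iff.mpr ⟨hd, h⟩

lemma adj_of_inner {a : I → J → K →L[ℂ] K} {η : I → K} {d : ℝ} (hd : 0 ≤ d)
    (h : ∀ ξ : J → K, ‖∑ i, ∑ j, ⟪η i, a i j (ξ j)⟫_ℂ‖ ≤ d * N2 ξ) :
    ∑ j, ‖∑ i, star (a i j) (η i)‖ ^ 2 ≤ d ^ 2 := by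
  set v : J → K := fun j => ∑ i, star (a i j) (η i) with hv
  have h1 := h v
  rw [sum_inner_adj] at h1
  have h2 : ∑ j, ⟪v j, v j⟫_ℂ = ((N2 v ^ 2 : ℝ) : ℂ) := by
    rw [N2_sq]; push_cast
    exact Finset.sum_congr rfl fun j _ => inner_self_eq_norm_sq_to_K _
  change ‖∑ j, ⟪v j, v j⟫_ℂ‖ ≤ _ at h1
  rw [h2, Complex.norm_real, Real.norm_of_nonneg (by positivity)] at h1
  change ∑ j, ‖v j‖ ^ 2 ≤ _
  rw [← N2_sq]
  have := N2_nonneg v
  nlinarith

end

variable {P : VonNeumannAlgebra K}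

/-- Joint bound for two maps acting on different rows, tested on vectors fixed by `q`. -/
def JB (q : K →L[ℂ] K) (S : Bool → Al P → Al P) (d : ℝ) : Prop :=
  ∀ (I J : Type) [Fintype I] [Fintype J] (t : I → Bool) (X : I → J → Al P),
    Contr (fun i j => (X i j : K →L[ℂ] K)) → ∀ η : I → K, (∀ i, q (η i) = η i) → ∀ ξ : J → K,
      ‖∑ i, ∑ j, ⟪η i, (S (t i) (X i j) : K →L[ℂ] K) (ξ j)⟫_ℂ‖ ≤ d * N2 η * N2 ξ

lemma JB.isCb {S : Al P → Al P} {d : ℝ} (h : JB 1 (fun _ => S) d) : IsCb S d :=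
  fun N X hX η ξ => h (Fin N) (Fin N) (fun _ => true) X hX η (fun _ => rfl) ξ

lemma IsCb.jb {S : Al P → Al P} {d : ℝ} (h : IsCb S d) : JB 1 (fun _ => S) d := by
  intro I J _ _ t X hX η _ ξ
  let E := (Fintype.equivFin (I ⊕ J)).symm
  let y : I ⊕ J → I ⊕ J → Al P := fun a b =>
    Sum.elim (fun i => Sum.elim (fun _ => 0) (fun j => X i j) b) (fun _ => 0) a
  have hy : Contr fun a b => (y a b : K →L[ℂ] K) := fun ζ => by
    have := hX (fun j => ζ (Sum.inr j))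
    have h0 : 0 ≤ ∑ i, ‖ζ (Sum.inl i)‖ ^ 2 := Finset.sum_nonneg fun _ _ => by positivity
    simp only [Fintype.sum_sum_type, y, Sum.elim_inl, Sum.elim_inr, ZeroMemClass.coe_zero,
      ContinuousLinearMap.zero_apply, Finset.sum_const_zero, zero_add, norm_zero, add_zero, ne_eq,
      OfNat.ofNat_ne_zero, not_false_eq_true, zero_pow]
    linarith
  have := h _ (fun a b => y (E a) (E b))
    (fun ζ => by
      have h1 := hy (ζ ∘ E.symm)
      rw [← E.sum_comp, ← E.sum_comp] at h1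
      simp only [Function.comp, Equiv.symm_apply_apply] at h1
      convert h1 using 4 with a
      rw [← E.sum_comp]; simp)
    (fun a => Sum.elim η (fun _ => 0) (E a)) (fun a => Sum.elim (fun _ => 0) ξ (E a))
  rw [E.sum_comp (fun a => ‖Sum.elim η (fun _ => 0) a‖ ^ 2),
    E.sum_comp (fun a => ‖Sum.elim (fun _ => 0) ξ a‖ ^ 2),
    E.sum_comp (fun a => ∑ b, ⟪Sum.elim η (fun _ => 0) a,
      (S (y a (E b)) : K →L[ℂ] K) (Sum.elim (fun _ => 0) ξ (E b))⟫_ℂ)] at this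
  simp only [fun a => E.sum_comp (fun b => ⟪Sum.elim η (fun _ => 0) a,
      (S (y a b) : K →L[ℂ] K) (Sum.elim (fun _ => 0) ξ b)⟫_ℂ)] at this
  simpa [Fintype.sum_sum_type, y, N2] using this

lemma JB.mono {q : K →L[ℂ] K} {S : Bool → Al P → Al P} {d d' : ℝ} (h : JB q S d) (hd : d ≤ d') :
    JB q S d' := fun I J _ _ t X hX η hη ξ => (h I J t X hX η hη ξ).trans (by
  have := N2_nonneg η
  have := N2_nonneg ξ
  gcongr)

lemma JB.restrict {q : K →L[ℂ] K} {S : Bool → Al P → Al P} {d : ℝ} (h : JB 1 S d) : JB q S d :=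
  fun I J _ _ t X hX η _ ξ => h I J t X hX η (fun _ => rfl) ξ

lemma JB.norm_le_one {S : Al P → Al P} {d : ℝ} (hd : 0 ≤ d) (h : JB 1 (fun _ => S) d) {y : Al P}
    (hy : ‖y‖ ≤ 1) : ‖S y‖ ≤ d := by
  change ‖(S y : K →L[ℂ] K)‖ ≤ d
  refine ContinuousLinearMap.opNorm_le_bound _ hd fun ξ => ?_
  have := h Unit Unit (fun _ => true) (fun _ _ => y) (fun ζ => by
    simp only [Finset.univ_unique, Finset.sum_singleton]
    have : ‖(y : K →L[ℂ] K) (ζ default)‖ ≤ ‖ζ default‖ :=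
      ((y : K →L[ℂ] K).le_opNorm _).trans (mul_le_of_le_one_left (norm_nonneg _) hy)
    gcongr) (fun _ => (S y : K →L[ℂ] K) ξ) (fun _ => rfl) (fun _ => ξ)
  simp only [Finset.univ_unique, Finset.sum_singleton, N2, norm_nonneg, Real.sqrt_sq,
    inner_self_eq_norm_sq_to_K, norm_pow] at this
  have h1 : ‖((‖(S y : K →L[ℂ] K) ξ‖ : ℝ) : ℂ)‖ = ‖(S y : K →L[ℂ] K) ξ‖ := by simp
  erw [h1] at this
  rcases (norm_nonneg ((S y : K →L[ℂ] K) ξ)).eq_or_lt with h0 | h0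
  · rw [← h0]; positivity
  · nlinarith

lemma JB.norm_le {S : Al P →ₗ[ℂ] Al P} {d : ℝ} (hd : 0 ≤ d) (h : JB 1 (fun _ => S) d) (y : Al P) :
    ‖S y‖ ≤ d * ‖y‖ := by
  rcases eq_or_ne y 0 with rfl | hy
  · simp
  have h0 : 0 < ‖y‖ := norm_pos_iff.mpr hy
  have := h.norm_le_one hd (y := ((‖y‖⁻¹ : ℝ) : ℂ) • y) (by
    rw [norm_smul, Complex.norm_real, norm_inv, norm_norm, inv_mul_cancel₀ h0.ne'])
  rw [map_smul, norm_smul, Complex.norm_real, norm_inv, norm_norm, inv_mul_le_iff₀ h0] at this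
  linarith

/-- Stability under `S ↦ ∑ m* S (m ·)`. -/
lemma JB.act {q z : K →L[ℂ] K} {S : Bool → Al P → Al P} {d : ℝ} (hd : 0 ≤ d) (h : JB q S d)
    {M : Type} [Fintype M] (m : Bool → M → Al P)
    (hm : ∀ b ζ, ∑ l, ‖(m b l : K →L[ℂ] K) ζ‖ ^ 2 ≤ ‖ζ‖ ^ 2)
    (hq : ∀ b l v, z v = v → q ((m b l : K →L[ℂ] K) v) = (m b l : K →L[ℂ] K) v) :
    JB z (fun b y => ∑ l, star (m b l) * S b (m b l * y)) d := by
  intro I J _ _ t X hX η hη ξ
  have := h (I × M) J (fun p => t p.1) (fun p j => m (t p.1) p.2 * X p.1 j) (fun ζ => by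
    rw [Fintype.sum_prod_type]
    refine le_trans (Finset.sum_le_sum fun i _ => ?_) (hX ζ)
    have := hm (t i) (∑ j, (X i j : K →L[ℂ] K) (ζ j))
    simpa [map_sum] using this) (fun p => (m (t p.1) p.2 : K →L[ℂ] K) (η p.1))
    (fun p => hq _ _ _ (hη _)) ξ
  have h1 : N2 (fun p : I × M => (m (t p.1) p.2 : K →L[ℂ] K) (η p.1)) ≤ N2 η := by
    refine Real.sqrt_le_sqrt ?_
    rw [Fintype.sum_prod_type]
    exact Finset.sum_le_sum fun i _ => hm (t i) (η i)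
  have h2 := N2_nonneg ξ
  refine le_trans (le_of_eq ?_) (this.trans (by gcongr))
  congr 1
  rw [Fintype.sum_prod_type]
  refine Finset.sum_congr rfl fun i _ => ?_
  rw [Finset.sum_comm]
  refine Finset.sum_congr rfl fun j _ => ?_
  simp only [AddSubmonoidClass.coe_finset_sum, ContinuousLinearMap.sum_apply, inner_sum,
    MulMemClass.coe_mul, StarMemClass.coe_star, ContinuousLinearMap.mul_apply, inner_star_right]

lemma JB.mid {q : K →L[ℂ] K} {S S' : Bool → Al P → Al P} {d : ℝ} (h : JB q S d) (h' : JB q S' d) :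
    JB q (fun b y => (2⁻¹ : ℂ) • (S b y + S' b y)) d := by
  intro I J _ _ t X hX η hη ξ
  have h1 := h I J t X hX η hη ξ
  have h2 := h' I J t X hX η hη ξ
  simp only [SetLike.val_smul, AddMemClass.coe_add, ContinuousLinearMap.smul_apply,
    ContinuousLinearMap.add_apply, inner_smul_right, inner_add_right, ← Finset.mul_sum,
    Finset.sum_add_distrib, norm_mul, norm_inv, Complex.norm_ofNat]
  have := norm_add_le (∑ i, ∑ j, ⟪η i, (S (t i) (X i j) : K →L[ℂ] K) (ξ j)⟫_ℂ)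
    (∑ i, ∑ j, ⟪η i, (S' (t i) (X i j) : K →L[ℂ] K) (ξ j)⟫_ℂ)
  linarith

lemma JB.lim {q : K →L[ℂ] K} {α : Type*} {l : Filter α} [l.NeBot] {S : α → Bool → Al P → Al P}
    {S' : Bool → Al P → Al P} {d : ℝ} (h : ∀ᶠ a in l, JB q (S a) d)
    (hl : ∀ b y, WT l (fun a => S a b y) (S' b y)) : JB q S' d := by
  intro I J _ _ t X hX η hη ξ
  have h1 : Tendsto (fun a => ‖∑ i, ∑ j, ⟪η i, (S a (t i) (X i j) : K →L[ℂ] K) (ξ j)⟫_ℂ‖) l
      (𝓝 ‖∑ i, ∑ j, ⟪η i, (S' (t i) (X i j) : K →L[ℂ] K) (ξ j)⟫_ℂ‖) :=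
    (tendsto_finset_sum _ fun i _ => tendsto_finset_sum _ fun j _ => hl _ _ _ _).norm
  exact le_of_tendsto h1 (h.mono fun a ha => ha I J t X hX η hη ξ)

/-- The gain coming from the difference of the two maps. -/
lemma JB.gain {z p : K →L[ℂ] K} {S₁ S₂ : Al P →ₗ[ℂ] Al P} {d δ : ℝ} (hd : 0 ≤ d) (hδ : 0 ≤ δ)
    (h : JB z (fun b => cond b S₁ S₂) d) (hzp : ∀ v, p v = v → z v = v) {y : Al P} (hy : ‖y‖ ≤ 1)
    (hp : ∀ v, p v = v → δ * ‖v‖ ≤ ‖star (((2⁻¹ : ℂ) • (S₁ y - S₂ y) : Al P) : K →L[ℂ] K) v‖)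
    {I J : Type} [Fintype I] [Fintype J] (X : I → J → Al P)
    (hX : Contr (fun i j => (X i j : K →L[ℂ] K))) (η : I → K) (hη : ∀ i, p (η i) = η i) :
    ∑ j, ‖∑ i, star (((2⁻¹ : ℂ) • (S₁ (X i j) + S₂ (X i j)) : Al P) : K →L[ℂ] K) (η i)‖ ^ 2 ≤
      (d ^ 2 - δ ^ 2) * N2 η ^ 2 := by
  classical
  set c : ℝ := √2⁻¹ with hc
  have hcc : c * c = 2⁻¹ := Real.mul_self_sqrt (by norm_num)
  have hc2 : c ^ 2 = 2⁻¹ := by rw [sq, hcc]
  have hcC : (c : ℂ) * c = 2⁻¹ := by rw [← Complex.ofReal_mul, hcc]; simp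
  let Y : Bool × I → J ⊕ I → Al P := fun r s => (c : ℂ) • Sum.elim (X r.2)
    (fun i' => if r.2 = i' then cond r.1 y (-y) else 0) s
  have hY : Contr fun r s => (Y r s : K →L[ℂ] K) := fun ζ => by
    have e1 : ∀ r : Bool × I, ∑ s, (Y r s : K →L[ℂ] K) (ζ s) =
        (c : ℂ) • (∑ j, (X r.2 j : K →L[ℂ] K) (ζ (Sum.inl j)) +
          ((cond r.1 y (-y) : Al P) : K →L[ℂ] K) (ζ (Sum.inr r.2))) := fun r => by
      simp only [Y, Fintype.sum_sum_type, Sum.elim_inl, Sum.elim_inr, SetLike.val_smul,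
        ContinuousLinearMap.smul_apply, ← Finset.smul_sum]
      congr 2
      rw [Finset.sum_eq_single r.2 (fun b _ hb => by simp [Ne.symm hb]) (by simp)]
      simp
    simp only [e1, Fintype.sum_prod_type, Fintype.sum_bool, Fintype.sum_sum_type, cond_true,
      cond_false, norm_smul, Complex.norm_real, mul_pow, Real.norm_eq_abs, sq_abs, hc2,
      ← Finset.sum_add_distrib, NegMemClass.coe_neg, ContinuousLinearMap.neg_apply,
      ← sub_eq_add_neg]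
    have e2 : ∀ u v : K, 2⁻¹ * ‖u + v‖ ^ 2 + 2⁻¹ * ‖u - v‖ ^ 2 = ‖u‖ ^ 2 + ‖v‖ ^ 2 := fun u v => by
      have := parallelogram_law_with_norm ℂ u v
      nlinarith
    simp only [e2, Finset.sum_add_distrib]
    refine add_le_add (hX fun j => ζ (Sum.inl j)) (Finset.sum_le_sum fun i _ => ?_)
    have : ‖(y : K →L[ℂ] K) (ζ (Sum.inr i))‖ ≤ ‖ζ (Sum.inr i)‖ :=
      ((y : K →L[ℂ] K).le_opNorm _).trans (mul_le_of_le_one_left (norm_nonneg _) hy)
    gcongr
  have h1 := adj_of_inner (d := d * N2 fun r : Bool × I => (c : ℂ) • η r.2)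
    (mul_nonneg hd (N2_nonneg _))
    (h (Bool × I) (J ⊕ I) (fun r => r.1) Y hY (fun r => (c : ℂ) • η r.2)
      (fun r => by rw [map_smul, hzp _ (hη _)]))
  have h2 : N2 (fun r : Bool × I => (c : ℂ) • η r.2) ^ 2 = N2 η ^ 2 := by
    simp only [N2_sq, Fintype.sum_prod_type, Fintype.sum_bool, norm_smul, Complex.norm_real,
      mul_pow, Real.norm_eq_abs, sq_abs, hc2, ← Finset.mul_sum]
    ring
  rw [mul_pow, h2, Fintype.sum_sum_type] at h1
  have h3 : ∀ j, ∑ r : Bool × I, star ((cond r.1 S₁ S₂ : Al P → Al P) (Y r (Sum.inl j)) : K →L[ℂ] K)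
      ((c : ℂ) • η r.2) =
      ∑ i, star (((2⁻¹ : ℂ) • (S₁ (X i j) + S₂ (X i j)) : Al P) : K →L[ℂ] K) (η i) := fun j => by
    simp only [Fintype.sum_prod_type, Fintype.sum_bool, cond_true, cond_false, Y, Sum.elim_inl,
      map_smul, SetLike.val_smul, star_smul, ContinuousLinearMap.smul_apply, smul_smul,
      ← Finset.sum_add_distrib, AddMemClass.coe_add, star_add, ContinuousLinearMap.add_apply,
      smul_add, RCLike.star_def, Complex.conj_ofReal, hcC, map_inv₀, map_ofNat]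
  have h4 : ∀ i', ∑ r : Bool × I, star ((cond r.1 S₁ S₂ : Al P → Al P) (Y r (Sum.inr i')) : K →L[ℂ] K)
      ((c : ℂ) • η r.2) =
      star (((2⁻¹ : ℂ) • (S₁ y - S₂ y) : Al P) : K →L[ℂ] K) (η i') := fun i' => by
    simp only [Fintype.sum_prod_type, Fintype.sum_bool, cond_true, cond_false, Y, Sum.elim_inr]
    rw [Finset.sum_eq_single i' (fun b _ hb => by simp [hb]) (by simp),
      Finset.sum_eq_single i' (fun b _ hb => by simp [hb]) (by simp)]
    simp only [if_true, map_smul, map_neg, SetLike.val_smul, star_smul,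
      ContinuousLinearMap.smul_apply, smul_smul, RCLike.star_def, Complex.conj_ofReal, hcC,
      map_inv₀, map_ofNat, NegMemClass.coe_neg, star_neg, ContinuousLinearMap.neg_apply, smul_neg,
      AddSubgroupClass.coe_sub, star_sub, ContinuousLinearMap.sub_apply, smul_sub]
    rw [sub_eq_add_neg]
  simp only [h3, h4] at h1
  have h5 : δ ^ 2 * N2 η ^ 2 ≤
      ∑ i, ‖star (((2⁻¹ : ℂ) • (S₁ y - S₂ y) : Al P) : K →L[ℂ] K) (η i)‖ ^ 2 := by
    rw [N2_sq, Finset.mul_sum]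
    refine Finset.sum_le_sum fun i _ => ?_
    rw [← mul_pow]
    exact pow_le_pow_left₀ (by positivity) (hp _ (hη i)) 2
  linarith

end Crest.Agent.R121
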