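import Crest.Agent.R121.Defs

/-! Row 121: matrix units: flip averages, finite design, conditional expectation -/

set_option autoImplicit false
set_option linter.unusedSectionVars false
set_option linter.unusedVariables false

namespace Crest.Agent.R121

open Crest.Agent.R95 Crest.Agent.R124 MeasureTheory Filter Topology
open scoped InnerProductSpace BigOperators ComplexConjugate

variable {A : Type*} [CStarAlgebra A] {ι : Type*} [Fintype ι] [DecidableEq ι] {e : ι → ι → A}
  {E : Type*} [AddCommGroup E] [Module ℂ E]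

lemma e_mem_Sp (e : ι → ι → A) (i j : ι) : e i j ∈ Sp e := Submodule.subset_span ⟨(i, j), rfl⟩

lemma emb_mem_Sp (e : ι → ι → A) (m : Matrix ι ι ℂ) : emb e m ∈ Sp e := by
  exact Submodule.sum_mem _ fun i _ => Submodule.sum_mem _ fun j _ =>
    Submodule.smul_mem _ _ (e_mem_Sp e i j)

lemma one_mem_Sp (he : MU 1 e) : (1 : A) ∈ Sp e := by
  rw [← he.sum]
  exact Submodule.sum_mem _ fun i _ => e_mem_Sp e i i

lemma mul_mem_Sp (he : MU 1 e) {x y : A} (hx : x ∈ Sp e) (hy : y ∈ Sp e) : x * y ∈ Sp e := by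
  induction hx using Submodule.span_induction with
  | mem x hx =>
    obtain ⟨p, rfl⟩ := hx
    induction hy using Submodule.span_induction with
    | mem y hy =>
      obtain ⟨q, rfl⟩ := hy
      simp only [he.mul]
      split_ifs
      · exact e_mem_Sp e _ _
      · exact zero_mem _
    | zero => simp
    | add y z _ _ h1 h2 => rw [mul_add]; exact add_mem h1 h2
    | smul c y _ h => rw [mul_smul_comm]; exact Submodule.smul_mem _ _ h
  | zero => simp
  | add y z _ _ h1 h2 => rw [add_mul]; exact add_mem h1 h2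
  | smul c y _ h => rw [smul_mul_assoc]; exact Submodule.smul_mem _ _ h

lemma star_mem_Sp (he : MU 1 e) {x : A} (hx : x ∈ Sp e) : star x ∈ Sp e := by
  induction hx using Submodule.span_induction with
  | mem x hx =>
    obtain ⟨p, rfl⟩ := hx
    simp only [he.star]
    exact e_mem_Sp e _ _
  | zero => simp
  | add y z _ _ h1 h2 => rw [star_add]; exact add_mem h1 h2
  | smul c y _ h => rw [star_smul]; exact Submodule.smul_mem _ _ h

lemma Ue.star (he : MU 1 e) {w : A} (hw : w ∈ Ue e) : star w ∈ Ue e := by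
  exact ⟨Unitary.star_mem hw.1, star_mem_Sp he hw.2⟩

lemma MU.norm_le (he : MU 1 e) (i j : ι) : ‖e i j‖ ≤ 1 := by
  have hp : IsStarProjection (e j j) := ⟨by simp [IsIdempotentElem, he.mul], he.star j j⟩
  have h1 := CStarRing.norm_star_mul_self (x := e i j)
  rw [he.star, he.mul, if_pos rfl] at h1
  have h2 := hp.norm_le
  nlinarith [norm_nonneg (e i j)]

lemma FF_swap (e : ι → ι → A) (G : A → A → E) : FF e (fun a b => G b a) = FF e G := by
  unfold FF
  rw [Finset.sum_comm]

lemma FF_add (e : ι → ι → A) (G G' : A → A → E) :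
    FF e (fun a b => G a b + G' a b) = FF e G + FF e G' := by
  simp only [FF, Finset.sum_add_distrib, smul_add]

lemma FF_sum {κ : Type*} (e : ι → ι → A) (s : Finset κ) (G : κ → A → A → E) :
    FF e (fun a b => ∑ k ∈ s, G k a b) = ∑ k ∈ s, FF e (G k) := by
  classical
  induction s using Finset.induction_on with
  | empty => simp [FF]
  | insert k s hk ih => simp only [Finset.sum_insert hk, FF_add, ih]

lemma FF_smul (e : ι → ι → A) (c : ℂ) (G : A → A → E) :
    FF e (fun a b => c • G a b) = c • FF e G := by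
  simp only [FF, ← Finset.smul_sum, smul_comm c]

/-- Fubini for two flip averages. -/
lemma FF_comm (e : ι → ι → A) (G : A → A → A → A → E) :
    (FF e fun a b => FF e fun a' b' => G a b a' b') = FF e fun a' b' => FF e fun a b => G a b a' b' := by
  have h : ∀ (c : ℂ) (H : A → A → E), FF e (fun a b => c • H a b) = c • FF e H := fun c H => by
    simp only [FF, ← Finset.smul_sum, smul_comm c]
  conv_lhs => enter [2, a, b]; rw [FF]
  rw [h, FF_sum]
  simp only [FF_sum]
  rfl

lemma map_FF {E' : Type*} [AddCommGroup E'] [Module ℂ E'] (e : ι → ι → A) {L : E → E'}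
    (hL : IsLinearMap ℂ L) (G : A → A → E) : L (FF e G) = FF e fun a b => L (G a b) := by
  have := fun x => (hL.mk'_apply x).symm
  simp only [FF, this, map_smul, map_sum]

/-- A flip average of a family of bilinear functions is bilinear. -/
lemma Bil.FF {G : A → A → A → A → E} (e : ι → ι → A) (h : ∀ a b, Bil (G a b)) :
    Bil fun a' b' => FF e fun a b => G a b a' b' := by
  refine ⟨fun b' => ⟨fun x y => ?_, fun c x => ?_⟩, fun a' => ⟨fun x y => ?_, fun c x => ?_⟩⟩
  · simp only [((h _ _).1 _).map_add, FF_add]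
  · simp only [((h _ _).1 _).map_smul, FF_smul]
  · simp only [((h _ _).2 _).map_add, FF_add]
  · simp only [((h _ _).2 _).map_smul, FF_smul]

lemma Bil.swap {G : A → A → E} (hG : Bil G) : Bil fun a b => G b a := ⟨hG.2, hG.1⟩

lemma Bil.ite_left {G : A → A → E} (hG : Bil G) (p : Prop) [Decidable p] (a b : A) :
    G (if p then a else 0) b = if p then G a b else 0 := by
  split_ifs
  · rfl
  · exact (hG.1 b).map_zero

lemma Bil.ite_right {G : A → A → E} (hG : Bil G) (p : Prop) [Decidable p] (a b : A) :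
    G a (if p then b else 0) = if p then G a b else 0 := by
  split_ifs
  · rfl
  · exact (hG.2 a).map_zero

lemma Bil.sum_left {G : A → A → E} (hG : Bil G) {κ : Type*} (s : Finset κ) (a : κ → A) (b : A) :
    G (∑ k ∈ s, a k) b = ∑ k ∈ s, G (a k) b :=
  map_sum ((hG.1 b).mk' _) a s

lemma Bil.sum_right {G : A → A → E} (hG : Bil G) {κ : Type*} (s : Finset κ) (a : A) (b : κ → A) :
    G a (∑ k ∈ s, b k) = ∑ k ∈ s, G a (b k) :=
  map_sum ((hG.2 a).mk' _) b s

/-- Pre-composing a bilinear function with linear maps. -/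
lemma Bil.comp {G : A → A → E} (hG : Bil G) {L L' : A → A} (hL : IsLinearMap ℂ L)
    (hL' : IsLinearMap ℂ L') : Bil fun a b => G (L a) (L' b) :=
  ⟨fun _ => ⟨fun x y => by simp only [hL.map_add, (hG.1 _).map_add],
      fun c x => by simp only [hL.map_smul, (hG.1 _).map_smul]⟩,
    fun _ => ⟨fun x y => by simp only [hL'.map_add, (hG.2 _).map_add],
      fun c x => by simp only [hL'.map_smul, (hG.2 _).map_smul]⟩⟩

/-- Post-composing a bilinear function with a linear map. -/
lemma Bil.map {E' : Type*} [AddCommGroup E'] [Module ℂ E'] {G : A → A → E} (hG : Bil G)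
    {L : E → E'} (hL : IsLinearMap ℂ L) : Bil fun a b => L (G a b) :=
  ⟨fun _ => ⟨fun x y => by simp only [(hG.1 _).map_add, hL.map_add],
      fun c x => by simp only [(hG.1 _).map_smul, hL.map_smul]⟩,
    fun _ => ⟨fun x y => by simp only [(hG.2 _).map_add, hL.map_add],
      fun c x => by simp only [(hG.2 _).map_smul, hL.map_smul]⟩⟩

lemma lin_mul_left (x : A) : IsLinearMap ℂ fun a : A => x * a :=
  ⟨fun _ _ => mul_add _ _ _, fun _ _ => mul_smul_comm _ _ _⟩

lemma lin_mul_right (x : A) : IsLinearMap ℂ fun a : A => a * x :=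
  ⟨fun _ _ => add_mul _ _ _, fun _ _ => smul_mul_assoc _ _ _⟩

lemma lin_id : IsLinearMap ℂ fun a : A => a := ⟨fun _ _ => rfl, fun _ _ => rfl⟩

lemma bil_mul : Bil fun a b : A => a * b := ⟨fun b => lin_mul_right b, fun a => lin_mul_left a⟩

lemma bil_sandwich (y : A) : Bil fun a b : A => a * y * b :=
  bil_mul.comp (lin_mul_right y) lin_id

/-- `span_induction` on `x`; for `x = e k l` both sides are `K⁻¹ ∑ⱼ G (e j l) (e k j)`. -/
lemma FF_mul_right (he : MU 1 e) {G : A → A → E} (hG : Bil G) {x : A} (hx : x ∈ Sp e) :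
    FF e (fun a b => G (a * x) b) = FF e fun a b => G a (x * b) := by
  induction hx using Submodule.span_induction with
  | mem x hx =>
    obtain ⟨⟨k, l⟩, rfl⟩ := hx
    simp only [FF, he.mul, hG.ite_left, hG.ite_right]
    congr 1
    rw [Finset.sum_comm, Finset.sum_comm (f := fun i j => if l = i then G (e j i) (e k j) else 0)]
    simp
  | zero => simp only [mul_zero, zero_mul, (hG.1 _).map_zero, (hG.2 _).map_zero]
  | add y z _ _ h1 h2 =>
    simp only [mul_add, add_mul, (hG.1 _).map_add, (hG.2 _).map_add, FF_add, h1, h2]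
  | smul c y _ h =>
    simp only [mul_smul_comm, smul_mul_assoc, (hG.1 _).map_smul, (hG.2 _).map_smul, FF_smul, h]

lemma FF_mul_left (he : MU 1 e) {G : A → A → E} (hG : Bil G) {x : A} (hx : x ∈ Sp e) :
    FF e (fun a b => G (x * a) b) = FF e fun a b => G a (b * x) := by
  have := FF_mul_right he hG.swap hx
  rw [← FF_swap e fun a b => G (x * a) b, ← FF_swap e fun a b => G a (b * x)]
  exact this.symm

lemma FF_flip_right (he : MU 1 e) {G : A → A → E} (hG : Bil G) {w : A} (hw : w ∈ Ue e) :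
    FF e (fun a b => G (a * w) (star w * b)) = FF e G := by
  have := FF_mul_right he (hG.comp lin_id (lin_mul_left (star w))) hw.2
  simpa only [← mul_assoc, hw.1.1, one_mul] using this

lemma FF_flip_left (he : MU 1 e) {G : A → A → E} (hG : Bil G) {w : A} (hw : w ∈ Ue e) :
    FF e (fun a b => G (w * a) (b * star w)) = FF e G := by
  have := FF_mul_left he (hG.comp lin_id (lin_mul_right (star w))) hw.2
  simpa only [mul_assoc, hw.1.2, mul_one] using this

lemma sgn_mul_self (b : Bool) : sgn b * sgn b = 1 := by cases b <;> simp [sgn]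

lemma star_sgn (b : Bool) : star (sgn b) = sgn b := by cases b <;> simp [sgn]

lemma sgn_not (b : Bool) : sgn (!b) = -sgn b := by cases b <;> simp [sgn]

lemma star_du (he : MU 1 e) (d : Des ι) : star (du e d) = ∑ i, sgn (d.2 i) • e i (d.1 i) := by
  simp only [du, star_sum, star_smul, star_sgn, he.star]

lemma du_mem (he : MU 1 e) (d : Des ι) : du e d ∈ Ue e := by
  refine ⟨⟨?_, ?_⟩, Submodule.sum_mem _ fun i _ => Submodule.smul_mem _ _ (e_mem_Sp e _ _)⟩
  · rw [star_du he, du, Finset.sum_mul_sum, ← he.sum]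
    refine Finset.sum_congr rfl fun i _ => ?_
    simp only [smul_mul_smul_comm, he.mul, EmbeddingLike.apply_eq_iff_eq, smul_ite, smul_zero,
      Finset.sum_ite_eq, Finset.mem_univ, if_true, sgn_mul_self, one_smul]
  · rw [star_du he, du, Finset.sum_mul_sum, ← he.sum, ← Equiv.sum_comp d.1 fun a => e a a]
    refine Finset.sum_congr rfl fun i _ => ?_
    simp only [smul_mul_smul_comm, he.mul, smul_ite, smul_zero,
      Finset.sum_ite_eq, Finset.mem_univ, if_true, sgn_mul_self, one_smul]

lemma sg_mem (he : MU 1 e) (s : ι → Bool) : sg e s ∈ Ue e := by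
  exact du_mem he (1, s)

lemma star_sg (he : MU 1 e) (s : ι → Bool) : star (sg e s) = sg e s := by
  exact star_du he (1, s)

/-- Flipping the `i`-th sign. -/
def flipAt (i : ι) : (ι → Bool) ≃ (ι → Bool) :=
  Function.Involutive.toPerm (fun s => Function.update s i (!s i)) fun s => by simp

lemma flipAt_self (i : ι) (s : ι → Bool) : flipAt i s i = !s i :=
  Function.update_self ..

lemma flipAt_ne {i j : ι} (h : j ≠ i) (s : ι → Bool) : flipAt i s j = s j :=
  Function.update_of_ne h ..

lemma sum_sgn (i : ι) : ∑ s : ι → Bool, sgn (s i) = 0 := by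
  have := (flipAt i).sum_comp fun s => sgn (s i)
  simp only [flipAt_self, sgn_not, Finset.sum_neg_distrib] at this
  linear_combination (-1 / 2 : ℂ) * this

/-- `∑_s sgn (s i) * sgn (s j) = if i = j then 2^K else 0` (flip the `i`-th sign). -/
lemma sum_sgn_mul (i j : ι) :
    ∑ s : ι → Bool, sgn (s i) * sgn (s j) =
      if i = j then (Fintype.card (ι → Bool) : ℂ) else 0 := by
  split_ifs with h
  · subst h
    simp [sgn_mul_self]
  · have := (flipAt i).sum_comp fun s => sgn (s i) * sgn (s j)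
    simp only [flipAt_self, flipAt_ne (Ne.symm h), sgn_not, neg_mul,
      Finset.sum_neg_distrib] at this
    linear_combination (-1 / 2 : ℂ) * this

lemma sum_du (e : ι → ι → A) : ∑ d : Des ι, du e d = 0 := by
  rw [Fintype.sum_prod_type]
  refine Finset.sum_eq_zero fun σ _ => ?_
  simp only [du]
  rw [Finset.sum_comm]
  refine Finset.sum_eq_zero fun i _ => ?_
  rw [← Finset.sum_smul, sum_sgn, zero_smul]

lemma sum_sgn_bil {G : A → A → E} (hG : Bil G) (a b : ι → A) :
    ∑ s : ι → Bool, G (∑ i, sgn (s i) • a i) (∑ i, sgn (s i) • b i) =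
      (Fintype.card (ι → Bool) : ℂ) • ∑ i, G (a i) (b i) := by
  simp only [hG.sum_left, hG.sum_right, (hG.1 _).map_smul, (hG.2 _).map_smul, smul_smul]
  rw [Finset.sum_comm, Finset.smul_sum]
  refine Finset.sum_congr rfl fun i _ => ?_
  rw [Finset.sum_comm]
  simp only [← Finset.sum_smul, sum_sgn_mul, ite_smul, zero_smul, Finset.sum_ite_eq,
    Finset.mem_univ, if_true]

lemma sum_perm_apply (F : ι → E) (i : ι) :
    (Fintype.card ι : ℂ) • ∑ σ : Equiv.Perm ι, F (σ i) =
      (Fintype.card (Equiv.Perm ι) : ℂ) • ∑ j, F j := by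
  have h1 : ∀ i', ∑ σ : Equiv.Perm ι, F (σ i') = ∑ σ : Equiv.Perm ι, F (σ i) := fun i' => by
    rw [← Equiv.sum_comp (Equiv.mulRight (Equiv.swap i i'))]
    simp
  have h2 : ∑ i', ∑ σ : Equiv.Perm ι, F (σ i') = ∑ _σ : Equiv.Perm ι, ∑ j, F j := by
    rw [Finset.sum_comm]
    exact Finset.sum_congr rfl fun σ _ => Equiv.sum_comp σ F
  simp only [h1, Finset.sum_const, Finset.card_univ] at h2
  rw [Nat.cast_smul_eq_nsmul, Nat.cast_smul_eq_nsmul, h2]

/-- Signs kill the off-diagonal terms; `∑_σ F (σ i) = (K-1)! ∑ⱼ F j`, i.e.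
`K • ∑_σ F (σ i) = K! • ∑ⱼ F j` (translate by `swap i i'` and sum over `i'`). -/
lemma sum_du_bil (he : MU 1 e) {G : A → A → E} (hG : Bil G) :
    ∑ d : Des ι, G (du e d) (star (du e d)) = (Fintype.card (Des ι) : ℂ) • FF e G := by
  rw [Fintype.sum_prod_type]
  simp only [star_du he]
  simp only [du, sum_sgn_bil hG]
  rw [← Finset.smul_sum, Finset.sum_comm, FF, Fintype.card_prod, Nat.cast_mul, mul_comm, mul_smul]
  congr 1
  rw [smul_comm, Finset.smul_sum, Finset.smul_sum]
  refine Finset.sum_congr rfl fun i _ => ?_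
  have hK : (Fintype.card ι : ℂ) ≠ 0 := by
    have : Nonempty ι := ⟨i⟩
    exact_mod_cast Fintype.card_ne_zero
  rw [← sum_perm_apply (fun j => G (e j i) (e i j)) i, smul_smul, inv_mul_cancel₀ hK, one_smul]

lemma sum_sg_bil (e : ι → ι → A) {G : A → A → E} (hG : Bil G) :
    ∑ s : ι → Bool, G (sg e s) (sg e s) =
      (Fintype.card (ι → Bool) : ℂ) • ∑ β, G (e β β) (e β β) := by
  exact sum_sgn_bil hG _ _

lemma expect_du (he : MU 1 e) {G : A → A → ℂ} (hG : Bil G) :
    𝔼 d : Des ι, G (du e d) (star (du e d)) = FF e G := by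
  have hK : (Fintype.card (Des ι) : ℂ) ≠ 0 := by exact_mod_cast Fintype.card_ne_zero
  rw [Finset.expect_eq_sum_div_card, sum_du_bil he hG, Finset.card_univ, smul_eq_mul,
    mul_div_cancel_left₀ _ hK]

lemma expect_sg (e : ι → ι → A) {G : A → A → ℂ} (hG : Bil G) :
    𝔼 s : ι → Bool, G (sg e s) (sg e s) = ∑ β, G (e β β) (e β β) := by
  have hK : (Fintype.card (ι → Bool) : ℂ) ≠ 0 := by exact_mod_cast Fintype.card_ne_zero
  rw [Finset.expect_eq_sum_div_card, sum_sg_bil e hG, Finset.card_univ, smul_eq_mul,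
    mul_div_cancel_left₀ _ hK]

lemma EK_star (he : MU 1 e) (y : A) : star (EK e y) = EK e (star y) := by
  simp only [EK_apply, FF, star_smul, star_sum, star_mul, he.star, mul_assoc, star_inv₀,
    star_natCast]

lemma EK_comm (he : MU 1 e) {x : A} (hx : x ∈ Sp e) (y : A) : x * EK e y = EK e y * x := by
  rw [EK_apply, map_FF e (lin_mul_left x), map_FF e (lin_mul_right x)]
  have := FF_mul_left he (bil_sandwich y) hx
  simpa only [mul_assoc] using this

lemma EK_mul_left {q : A} (hq : ∀ i j, Commute q (e i j)) (y : A) :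
    EK e (q * y) = q * EK e y := by
  rw [EK_apply, EK_apply, map_FF e (lin_mul_left q)]
  simp only [FF, ← mul_assoc, (hq _ _).eq]

lemma EK_mul_right {q : A} (hq : ∀ i j, Commute q (e i j)) (y : A) :
    EK e (y * q) = EK e y * q := by
  rw [EK_apply, EK_apply, map_FF e (lin_mul_right q)]
  simp only [FF, mul_assoc, (hq _ _).eq]

lemma EK_conj (he : MU 1 e) {w : A} (hw : w ∈ Ue e) (y : A) :
    EK e (star w * y * w) = EK e y := by
  have := FF_flip_right he (bil_sandwich y) (Ue.star he hw)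
  rw [EK_apply, EK_apply, ← this]
  simp only [star_star, mul_assoc]

/-- `EK y` is the average of `u y u*` over the design (`sum_du_bil`). -/
lemma norm_EK_le (he : MU 1 e) (y : A) : ‖EK e y‖ ≤ ‖y‖ := by
  have h := sum_du_bil he (bil_sandwich y)
  rw [← EK_apply] at h
  have h1 : ‖∑ d : Des ι, du e d * y * star (du e d)‖ ≤ ∑ _d : Des ι, ‖y‖ :=
    norm_sum_le_of_le _ fun d _ => by
      rw [CStarRing.norm_mul_mem_unitary _ (Unitary.star_mem (du_mem he d).1),
        CStarRing.norm_mem_unitary_mul _ (du_mem he d).1]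
  rw [h, norm_smul, Finset.sum_const, Finset.card_univ, nsmul_eq_mul, Complex.norm_natCast] at h1
  exact le_of_mul_le_mul_left h1 (by exact_mod_cast Fintype.card_pos)

variable [Tr A]

lemma MU.card_pos (he : MU 1 e) : 0 < Fintype.card ι := by
  have := nontrivial_of_tr A
  rcases isEmpty_or_nonempty ι with h | h
  · exact absurd he.sum (by simp)
  · exact Fintype.card_pos

lemma MU.card_ne (he : MU 1 e) : (Fintype.card ι : ℂ) ≠ 0 := by
  exact_mod_cast (MU.card_pos he).ne'

lemma EK_one (he : MU 1 e) : EK e 1 = 1 := by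
  simp only [EK_apply, FF, mul_one, he.mul, if_true, he.sum, Finset.sum_const, Finset.card_univ]
  rw [← Nat.cast_smul_eq_nsmul ℂ, smul_smul, inv_mul_cancel₀ (MU.card_ne he), one_smul]

lemma EK_of_comm (he : MU 1 e) {q : A} (hq : ∀ i j, Commute q (e i j)) : EK e q = q := by
  simpa only [mul_one, EK_one he] using EK_mul_left hq 1

lemma EK_e (he : MU 1 e) (i j : ι) :
    EK e (e i j) = if i = j then (Fintype.card ι : ℂ)⁻¹ • (1 : A) else 0 := by
  simp only [EK_apply, FF, he.mul, ite_mul, zero_mul]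
  rw [Finset.sum_comm]
  simp only [Finset.sum_ite_eq', Finset.mem_univ, if_true]
  by_cases h : i = j
  · simp [h, he.sum]
  · simp [h, Ne.symm h]

/-- `FF e (b * a) = 1`: the term produced by the chosen slot in a Schwinger–Dyson equation. -/
lemma FF_mul_self (he : MU 1 e) {L : A → E} (hL : IsLinearMap ℂ L) :
    FF e (fun a b => L (a * b)) = L 1 ∧ FF e (fun a b => L (b * a)) = L 1 := by
  have h : FF e (fun a b => L (a * b)) = L 1 := by
    rw [← EK_one he, EK_apply, map_FF e hL]
    simp only [mul_one]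
  exact ⟨h, (FF_swap e fun a b => L (a * b)).trans h⟩

lemma lin_τ : IsLinearMap ℂ fun a : A => τ a := ⟨fun _ _ => map_add _ _ _, fun _ _ => map_smul _ _ _⟩

lemma lin_τ_mul (x y : A) : IsLinearMap ℂ fun a : A => τ (x * a * y) :=
  ⟨fun _ _ => by rw [mul_add, add_mul, map_add],
    fun _ _ => by rw [mul_smul_comm, smul_mul_assoc, map_smul]⟩

lemma τ_mul_EK (he : MU 1 e) (x y : A) : τ (x * EK e y) = τ (EK e x * y) := by
  have h1 := map_FF e (lin_τ_mul x 1) fun a b => a * y * b
  have h2 := map_FF e (lin_τ_mul 1 y) fun a b => a * x * b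
  simp only [mul_one, one_mul] at h1 h2
  rw [EK_apply, EK_apply, h1, h2, ← FF_swap]
  congr 1
  ext a b
  rw [τ_comm (a * x * b), ← mul_assoc, τ_comm _ a, τ_comm y]
  simp only [mul_assoc]

lemma τ_EK (he : MU 1 e) (y : A) : τ (EK e y) = τ y := by
  have := τ_mul_EK he 1 y
  simpa only [one_mul, EK_one he] using this

lemma τ_EK_mul_EK (he : MU 1 e) (x y : A) : τ (EK e x * EK e y) = τ (x * EK e y) := by
  rw [← τ_mul_EK he, EK_of_comm he fun i j => (EK_comm he (e_mem_Sp e i j) y).symm]

lemma n2_EK_sq (he : MU 1 e) (y : A) :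
    ((n2 (EK e y) ^ 2 : ℝ) : ℂ) = FF e fun a b => τ (star y * a * y * b) := by
  have h1 := map_FF e (lin_τ_mul (star y) 1) fun a b => a * y * b
  simp only [mul_one, ← mul_assoc] at h1
  rw [← τ_star_mul_self, EK_star he, τ_EK_mul_EK he, EK_apply, h1]

lemma n2_sub_EK (he : MU 1 e) (y : A) : n2 (y - EK e y) ^ 2 = n2 y ^ 2 - n2 (EK e y) ^ 2 := by
  have h1 : τ (star y * EK e y) = τ (star (EK e y) * EK e y) := by
    rw [EK_star he, τ_EK_mul_EK he]
  have h2 : τ (star (EK e y) * y) = τ (star (EK e y) * EK e y) := by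
    rw [EK_star he, τ_EK_mul_EK he, τ_mul_EK he]
  simp only [n2_sq, star_sub, sub_mul, mul_sub, map_sub, h1, h2, Complex.sub_re]
  ring

lemma n2_EK_le (he : MU 1 e) (y : A) : n2 (EK e y) ≤ n2 y := by
  have := n2_sub_EK he y
  refine (sq_le_sq₀ (n2_nonneg _) (n2_nonneg _)).mp ?_
  nlinarith [sq_nonneg (n2 (y - EK e y))]

lemma n2_e_sq (he : MU 1 e) (i j : ι) : n2 (e i j) ^ 2 = (Fintype.card ι : ℝ)⁻¹ := by
  rw [n2_sq, he.star, he.mul, if_pos rfl, ← τ_EK he, EK_e he, if_pos rfl, map_smul, τ_one,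
    smul_eq_mul, mul_one, ← Complex.ofReal_natCast, ← Complex.ofReal_inv, Complex.ofReal_re]

/-- By `n2_EK_sq`: `∑ᵢⱼ FF τ (eⱼᵢ y* a y eᵢⱼ b)`, and `∑ᵢⱼ eᵢⱼ b eⱼᵢ = K • EK b`, `EK_e`. -/
lemma parseval (he : MU 1 e) (y : A) :
    ∑ i, ∑ j, n2 (EK e (y * e i j)) ^ 2 = (Fintype.card ι : ℝ)⁻¹ * n2 y ^ 2 := by
  have hs : ∀ b : A, ∑ i, ∑ j, e i j * b * e j i = (Fintype.card ι : ℂ) • EK e b := fun b => by
    rw [EK_apply, FF, smul_smul, mul_inv_cancel₀ (MU.card_ne he), one_smul, Finset.sum_comm]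
  apply Complex.ofReal_injective
  simp only [Complex.ofReal_sum, n2_EK_sq he, ← FF_sum]
  have h1 : ∀ a b : A, ∑ i, ∑ j, τ (star (y * e i j) * a * (y * e i j) * b) =
      τ (star y * a * y * ((Fintype.card ι : ℂ) • EK e b)) := fun a b => by
    rw [← hs, Finset.mul_sum, map_sum]
    refine Finset.sum_congr rfl fun i _ => ?_
    rw [Finset.mul_sum, map_sum]
    refine Finset.sum_congr rfl fun j _ => ?_
    rw [star_mul, he.star, mul_assoc (e j i), mul_assoc (e j i), mul_assoc (e j i), τ_comm]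
    simp only [mul_assoc]
  simp only [h1, FF, EK_e he, smul_ite, smul_zero, smul_smul, mul_inv_cancel₀ (MU.card_ne he),
    one_smul, mul_ite, mul_one, mul_zero, apply_ite τ, map_zero, Finset.sum_ite_eq,
    Finset.mem_univ, if_true]
  rw [← map_sum, ← Finset.sum_mul, ← Finset.mul_sum, he.sum, mul_one, τ_star_mul_self]
  simp

lemma lin_star_star {L : A → A} (hL : IsLinearMap ℂ L) :
    IsLinearMap ℂ fun a => star (L (star a)) :=
  ⟨fun x y => by rw [star_add, hL.map_add, star_add],
    fun c x => by rw [star_smul, hL.map_smul, star_smul, star_star]⟩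

lemma bil_n2 {L : A → A} (hL : IsLinearMap ℂ L) :
    Bil fun a b : A => τ (star (L (star a)) * L b) :=
  (bil_mul.comp (lin_star_star hL) hL).map lin_τ

/-- Second moments over the design only depend on the flip. -/
lemma expect_du_n2 (he : MU 1 e) {L : A → A} (hL : IsLinearMap ℂ L) :
    𝔼 d : Des ι, n2 (L (du e d)) ^ 2 = (Fintype.card ι : ℝ)⁻¹ * ∑ i, ∑ j, n2 (L (e i j)) ^ 2 ∧
    𝔼 d : Des ι, n2 (L (star (du e d))) ^ 2 =
      (Fintype.card ι : ℝ)⁻¹ * ∑ i, ∑ j, n2 (L (e i j)) ^ 2 := by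
  constructor
  · apply Complex.ofReal_injective
    have := expect_du he (bil_n2 hL).swap
    simp only [star_star, τ_star_mul_self, FF, he.star] at this
    rw [Complex.ofReal_expect, this, Finset.sum_comm]
    simp
  · apply Complex.ofReal_injective
    have := expect_du he (bil_n2 hL)
    simp only [τ_star_mul_self, FF, he.star] at this
    rw [Complex.ofReal_expect, this]
    simp

lemma expect_sg_n2 (he : MU 1 e) {L : A → A} (hL : IsLinearMap ℂ L) :
    𝔼 s : ι → Bool, n2 (L (sg e s)) ^ 2 = ∑ β, n2 (L (e β β)) ^ 2 := by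
  apply Complex.ofReal_injective
  have := expect_sg e (bil_n2 hL)
  simp only [star_sg he, τ_star_mul_self, he.star] at this
  rw [Complex.ofReal_expect, this]
  simp

lemma expect_le_sqrt {κ : Type*} [Fintype κ] [Nonempty κ] (f : κ → ℝ) :
    𝔼 k, f k ≤ √(𝔼 k, f k ^ 2) := by
  refine Real.le_sqrt_of_sq_le ?_
  have := Finset.expect_mul_sq_le_sq_mul_sq Finset.univ f fun _ => (1 : ℝ)
  simpa using this

/-- A flip average that is pointwise dominated on the design by a 2-norm: `FF = 𝔼_d`
(`expect_du`), then `𝔼 n2 ≤ √(𝔼 n2²)` and `expect_du_n2`. -/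
lemma norm_FF_le (he : MU 1 e) {G : A → A → ℂ} (hG : Bil G) {L : A → A} (hL : IsLinearMap ℂ L)
    {C : ℝ} (hC : 0 ≤ C)
    (h : (∀ u ∈ Ue e, ‖G u (star u)‖ ≤ C * n2 (L u)) ∨
      ∀ u ∈ Ue e, ‖G u (star u)‖ ≤ C * n2 (L (star u))) :
    ‖FF e G‖ ≤ C * √((Fintype.card ι : ℝ)⁻¹ * ∑ i, ∑ j, n2 (L (e i j)) ^ 2) := by
  rw [← expect_du he hG]
  refine (RCLike.norm_expect_le (K := ℂ)).trans ?_
  rcases h with h | h
  · refine (Finset.expect_le_expect fun d _ => h _ (du_mem he d)).trans ?_
    rw [← Finset.mul_expect, ← (expect_du_n2 he hL).1]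
    exact mul_le_mul_of_nonneg_left (expect_le_sqrt _) hC
  · refine (Finset.expect_le_expect fun d _ => h _ (du_mem he d)).trans ?_
    rw [← Finset.mul_expect, ← (expect_du_n2 he hL).2]
    exact mul_le_mul_of_nonneg_left (expect_le_sqrt _) hC

end Crest.Agent.R121
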