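import Crest.Agent.R121.Defs
import Crest.Agent.R121.MUa
import Crest.Agent.R124.Glue

/-! Row 121: the prism cochain is `h`-completely bounded in the first variable -/

set_option autoImplicit false
set_option linter.unusedSectionVars false

namespace Crest.Agent.R121

open Crest.Agent.R95 Crest.Agent.R124 MeasureTheory Filter Topology
open scoped InnerProductSpace BigOperators ComplexConjugate

variable {K : Type*} [NormedAddCommGroup K] [InnerProductSpace ℂ K] [CompleteSpace K]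

lemma cb_sgn_mul (a b : Bool) : sgn a * sgn b = sgn (a == b) := by
  cases a <;> cases b <;> simp [sgn]

lemma cb_norm_sgn (a : Bool) : ‖sgn a‖ = 1 := by cases a <;> simp [sgn]

lemma cb_conj_sgn (a : Bool) : conj (sgn a) = sgn a := by cases a <;> simp [sgn]

/-- The diagonal sum is an average over signs. -/
lemma cb_diag_le {E Q : Type*} [NormedAddCommGroup E] [NormedSpace ℂ E] [Fintype Q] [DecidableEq Q]
    (B : Q → Q → E) {C : ℝ}
    (h : ∀ ε : Q → Bool, ‖∑ p, ∑ q, (sgn (ε p) * sgn (ε q)) • B p q‖ ≤ C) :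
    ‖∑ q, B q q‖ ≤ C := by
  have e : ∑ ε : Q → Bool, ∑ p, ∑ q, (sgn (ε p) * sgn (ε q)) • B p q =
      (Fintype.card (Q → Bool) : ℂ) • ∑ q, B q q := by
    rw [Finset.sum_comm, Finset.smul_sum]
    refine Finset.sum_congr rfl fun p _ => ?_
    rw [Finset.sum_comm]
    simp only [← Finset.sum_smul, sum_sgn_mul]
    simp
  have h1 := (norm_sum_le _ _).trans (Finset.sum_le_sum fun ε (_ : ε ∈ Finset.univ) => h ε)
  rw [e, norm_smul, Complex.norm_natCast, Finset.sum_const, Finset.card_univ, nsmul_eq_mul] at h1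
  exact le_of_mul_le_mul_left h1 (by exact_mod_cast Fintype.card_pos)

/-- Random signs.  Induction on `r` (`f.curryLeft`): with `sum_sgn_mul`,
`∑_q f (cons (u⁰ q) (u q)) (ξ q) = 𝔼_ε ∑_q f.curryLeft (∑ₚ εₚ • u⁰ p) (u q) (ε_q • ξ q)`; products of signs
are signs (`sgn (a == b)`). -/
theorem sign_bound {P : VonNeumannAlgebra K} {Q : Type*} [Fintype Q] [DecidableEq Q] :
    ∀ (r : ℕ) (f : Co (Al P) r) (u : Fin r → Q → Al P) (M : Fin r → ℝ) (ξ : Q → K) (M' : ℝ),
      (∀ i (ε : Q → Bool), ‖∑ q, sgn (ε q) • u i q‖ ≤ M i) →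
      (∀ ε : Q → Bool, ‖∑ q, sgn (ε q) • ξ q‖ ≤ M') →
      ‖∑ q, (f (fun i => u i q) : K →L[ℂ] K) (ξ q)‖ ≤ ‖f‖ * (∏ i, M i) * M' := by
  intro r
  induction r with
  | zero =>
    intro f u M ξ M' _ h2
    have h3 := h2 fun _ => true
    simp only [sgn, if_true, one_smul] at h3
    simp only [fun q => Subsingleton.elim (fun i => u i q) (0 : Fin 0 → Al P)]
    rw [← map_sum]
    have h4 : ‖(f 0 : K →L[ℂ] K)‖ ≤ ‖f‖ := by
      have := f.le_opNorm 0
      rwa [Fin.prod_univ_zero, mul_one] at this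
    rw [Fin.prod_univ_zero, mul_one]
    exact (ContinuousLinearMap.le_opNorm _ _).trans
      (mul_le_mul h4 h3 (norm_nonneg _) (norm_nonneg _))
  | succ r ih =>
    intro f u M ξ M' h1 h2
    have hM : ∀ i, 0 ≤ M i := fun i => (norm_nonneg _).trans (h1 i fun _ => true)
    have hM' : 0 ≤ M' := (norm_nonneg _).trans (h2 fun _ => true)
    have e : ∀ q, f (fun i => u i q) = f.curryLeft (u 0 q) fun i => u i.succ q := fun q => by
      rw [ContinuousMultilinearMap.curryLeft_apply]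
      congr 1
      exact (Fin.cons_self_tail fun i => u i q).symm
    simp only [e]
    refine cb_diag_le (fun p q => (f.curryLeft (u 0 p) (fun i => u i.succ q) : K →L[ℂ] K) (ξ q))
      fun ε => ?_
    have := ih (f.curryLeft (∑ p, sgn (ε p) • u 0 p)) (fun i => u i.succ) (fun i => M i.succ)
      (fun q => sgn (ε q) • ξ q) M' (fun i => h1 i.succ) fun ε' => by
        simp only [smul_smul, cb_sgn_mul]; exact h2 _
    have hn : ‖f.curryLeft (∑ p, sgn (ε p) • u 0 p)‖ ≤ ‖f‖ * M 0 :=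
      (f.curryLeft.le_opNorm _).trans (by
        rw [ContinuousMultilinearMap.curryLeft_norm]
        exact mul_le_mul_of_nonneg_left (h1 0 ε) (norm_nonneg _))
    rw [Finset.sum_comm, Fin.prod_univ_succ, ← mul_assoc]
    refine le_trans (le_of_eq ?_) (this.trans (mul_le_mul_of_nonneg_right
      (mul_le_mul_of_nonneg_right hn (Finset.prod_nonneg fun i _ => hM _)) hM'))
    congr 1
    refine Finset.sum_congr rfl fun q _ => ?_
    simp only [map_sum, map_smul, sum_apply, smul_apply, AddSubmonoidClass.coe_finsetSum,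
      SetLike.val_smul, Finset.smul_sum, smul_smul, mul_comm]

lemma cb_sum_pad {E : Type*} [AddCommMonoid E] {N N' : ℕ} (hN : N' ≤ N) (φ : Fin N → E)
    (hφ : ∀ i : Fin N, ¬ (i : ℕ) < N' → φ i = 0) :
    ∑ i, φ i = ∑ i : Fin N', φ (Fin.castLE hN i) :=
  (Fintype.sum_of_injective (Fin.castLE hN) (Fin.castLE_injective hN) _ _
    (fun i hi => hφ i fun h' => hi ⟨⟨i, h'⟩, rfl⟩) fun _ => rfl).symm

/-- Padding with zeros. -/
lemma CbB.mono {P : VonNeumannAlgebra K} {T : Al P → Al P} (h0 : T 0 = 0) {N N' : ℕ} {C : ℝ}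
    (h : CbB T N C) (hN : N' ≤ N) : CbB T N' C := by
  intro X hX η ξ
  let X' : Fin N → Fin N → Al P := fun i j =>
    if hi : (i : ℕ) < N' then if hj : (j : ℕ) < N' then X ⟨i, hi⟩ ⟨j, hj⟩ else 0 else 0
  let pad : (Fin N' → K) → Fin N → K := fun v i => if hi : (i : ℕ) < N' then v ⟨i, hi⟩ else 0
  have hX' : ∀ i j, X' (Fin.castLE hN i) (Fin.castLE hN j) = X i j := fun i j => by simp [X']
  have hp : ∀ v i, pad v (Fin.castLE hN i) = v i := fun v i => by simp [pad]
  have hn : ∀ v, ∑ i, ‖pad v i‖ ^ 2 = ∑ i, ‖v i‖ ^ 2 := fun v => by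
    rw [cb_sum_pad hN _ fun i hi => by simp [pad, hi]]; simp only [hp]
  have hc : Contr fun i j => (X' i j : K →L[ℂ] K) := fun ζ => by
    rw [cb_sum_pad hN _ fun i hi => by simp [X', hi]]
    have e : ∀ i, ∑ j, (X' (Fin.castLE hN i) j : K →L[ℂ] K) (ζ j) =
        ∑ j, (X i j : K →L[ℂ] K) (ζ (Fin.castLE hN j)) := fun i => by
      rw [cb_sum_pad hN _ fun j hj => by simp [X', hj]]; simp only [hX']
    simp only [e]
    refine (hX _).trans ?_
    exact (Finset.sum_map Finset.univ (Fin.castLEEmb hN) fun j => ‖ζ j‖ ^ 2).symm.trans_le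
      (Finset.sum_le_sum_of_subset_of_nonneg (Finset.subset_univ _) fun _ _ _ => by positivity)
  have := h X' hc (pad η) (pad ξ)
  rw [hn, hn, cb_sum_pad hN _ fun i hi => by simp [pad, hi]] at this
  convert this using 3 with i
  rw [cb_sum_pad hN _ fun j hj => by simp [pad, hj]]
  simp only [hX', hp]

section Iso
variable {P : VonNeumannAlgebra K} {z : Al P} {h : ℕ} [NeZero h] {s : Fin h → Al P}

lemma cb_row (hz : CP P z) (hs : ∀ i j, star (s i) * s j = if i = j then z else 0) (a : Fin h)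
    (ζ : Fin h → K) : ‖∑ q, (s (a + q) : K →L[ℂ] K) (ζ q)‖ ^ 2 ≤ ∑ q, ‖ζ q‖ ^ 2 := by
  refine GlueAux.row_le (fun q => (s (a + q) : K →L[ℂ] K)) (fun q => ?_) (fun i j hij => ?_) ζ
  · have h1 := congrArg (fun y : Al P => (y : K →L[ℂ] K)) (hs (a + q) (a + q))
    simp only [if_true, MulMemClass.coe_mul, StarMemClass.coe_star] at h1
    have h2 : ‖(s (a + q) : K →L[ℂ] K)‖ * ‖(s (a + q) : K →L[ℂ] K)‖ ≤ 1 := by
      rw [← CStarRing.norm_star_mul_self, h1]; exact hz.proj.norm_le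
    nlinarith [norm_nonneg (s (a + q) : K →L[ℂ] K)]
  · have h1 := congrArg (fun y : Al P => (y : K →L[ℂ] K)) (hs (a + i) (a + j))
    simpa [hij] using h1

lemma cb_col (hz : CP P z) (hs : ∀ i j, star (s i) * s j = if i = j then z else 0) (a : Fin h)
    (v : K) : ∑ q, ‖star (s (a + q) : K →L[ℂ] K) v‖ ^ 2 ≤ ‖v‖ ^ 2 :=
  GlueAux.col_of_row _ (cb_row hz hs a) v

lemma cb_slot0 (hz : CP P z) (hs : ∀ i j, star (s i) * s j = if i = j then z else 0) (a b : Fin h)
    {X : Fin h → Fin h → Al P} (hX : Contr fun i j => (X i j : K →L[ℂ] K)) (ε ε' : Fin h → Bool) :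
    ‖∑ q, sgn (ε' q) • ∑ p, sgn (ε p) • (s (a + p) * X p q * star (s (b + q)))‖ ≤ 1 := by
  change ‖((∑ q, sgn (ε' q) • ∑ p, sgn (ε p) • (s (a + p) * X p q * star (s (b + q))) : Al P) :
    K →L[ℂ] K)‖ ≤ 1
  refine ContinuousLinearMap.opNorm_le_bound _ zero_le_one fun v => ?_
  rw [one_mul]
  refine (sq_le_sq₀ (norm_nonneg _) (norm_nonneg _)).mp ?_
  have h1 := cb_row hz hs a fun p => sgn (ε p) • ∑ q, (X p q : K →L[ℂ] K)
    (sgn (ε' q) • star (s (b + q) : K →L[ℂ] K) v)
  have h2 := hX fun q => sgn (ε' q) • star (s (b + q) : K →L[ℂ] K) v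
  simp only [norm_smul, cb_norm_sgn, one_mul] at h1 h2
  refine le_trans (le_of_eq ?_) (h1.trans (h2.trans (cb_col hz hs b v)))
  congr 2
  simp only [AddSubmonoidClass.coe_finsetSum, SetLike.val_smul, sum_apply, smul_apply,
    MulMemClass.coe_mul, StarMemClass.coe_star, mul_apply_eq_comp, map_smul, map_sum,
    Finset.smul_sum, smul_smul]
  rw [Finset.sum_comm]
  simp only [mul_comm]

lemma cb_slot (hz : CP P z) (hs : ∀ i j, star (s i) * s j = if i = j then z else 0) (a b : Fin h)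
    (x : Al P) (ε : Fin h → Bool) :
    ‖∑ q, sgn (ε q) • (s (a + q) * x * star (s (b + q)))‖ ≤ ‖x‖ := by
  change ‖((∑ q, sgn (ε q) • (s (a + q) * x * star (s (b + q))) : Al P) : K →L[ℂ] K)‖ ≤
    ‖(x : K →L[ℂ] K)‖
  refine ContinuousLinearMap.opNorm_le_bound _ (norm_nonneg _) fun v => ?_
  refine (sq_le_sq₀ (norm_nonneg _) (by positivity)).mp ?_
  have h1 := cb_row hz hs a fun q => sgn (ε q) • (x : K →L[ℂ] K) (star (s (b + q) : K →L[ℂ] K) v)
  simp only [norm_smul, cb_norm_sgn, one_mul] at h1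
  refine le_trans (le_of_eq ?_) (h1.trans ?_)
  · congr 2
    simp only [AddSubmonoidClass.coe_finsetSum, SetLike.val_smul, sum_apply, smul_apply,
      MulMemClass.coe_mul, StarMemClass.coe_star, mul_apply_eq_comp, map_smul]
  · rw [mul_pow]
    refine le_trans ?_ (mul_le_mul_of_nonneg_left (cb_col hz hs b v) (sq_nonneg _))
    rw [Finset.mul_sum]
    refine Finset.sum_le_sum fun q _ => ?_
    rw [← mul_pow]
    exact pow_le_pow_left₀ (norm_nonneg _) (ContinuousLinearMap.le_opNorm _ _) 2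

lemma cb_vec (hz : CP P z) (hs : ∀ i j, star (s i) * s j = if i = j then z else 0) (a : Fin h)
    (ξ : Fin h → K) (ε : Fin h → Bool) :
    ‖∑ q, sgn (ε q) • (s (a + q) : K →L[ℂ] K) (ξ q)‖ ≤ √(∑ q, ‖ξ q‖ ^ 2) := by
  refine Real.le_sqrt_of_sq_le ?_
  simpa only [norm_smul, cb_norm_sgn, one_mul, map_smul] using
    cb_row hz hs a fun q => sgn (ε q) • ξ q

/-- The estimate for a fixed translation. -/
lemma cb_fixed (hz : CP P z) (hs : ∀ i j, star (s i) * s j = if i = j then z else 0) {n : ℕ}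
    (f : Co (Al P) (n + 1)) (x : Fin n → Al P) (a b c : Fin h) (d e : Fin n → Fin h)
    {X : Fin h → Fin h → Al P} (hX : Contr fun i j => (X i j : K →L[ℂ] K)) (η ξ : Fin h → K) :
    ‖∑ p, ∑ q, ⟪(s (a + p) : K →L[ℂ] K) (η p),
      (f (Fin.cons (s (a + p) * X p q * star (s (b + q)))
        fun i => s (d i + q) * x i * star (s (e i + q))) : K →L[ℂ] K)
          ((s (c + q) : K →L[ℂ] K) (ξ q))⟫_ℂ‖ ≤
      (‖f‖ * ∏ i, ‖x i‖) * √(∑ i, ‖η i‖ ^ 2) * √(∑ j, ‖ξ j‖ ^ 2) := by
  refine cb_diag_le (fun p p' => ∑ q, ⟪(s (a + p) : K →L[ℂ] K) (η p),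
      (f (Fin.cons (s (a + p') * X p' q * star (s (b + q)))
        fun i => s (d i + q) * x i * star (s (e i + q))) : K →L[ℂ] K)
          ((s (c + q) : K →L[ℂ] K) (ξ q))⟫_ℂ) fun ε => ?_
  have h1 := sign_bound (n + 1) f (fun i q => (Fin.cons
      (∑ p, sgn (ε p) • (s (a + p) * X p q * star (s (b + q))))
      (fun i => s (d i + q) * x i * star (s (e i + q))) : Fin (n + 1) → Al P) i)
    (Fin.cons 1 fun i => ‖x i‖) (fun q => (s (c + q) : K →L[ℂ] K) (ξ q)) _
    (fun i ε' => by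
      refine Fin.cases ?_ (fun i => ?_) i
      · simpa only [Fin.cons_zero] using cb_slot0 hz hs a b hX ε ε'
      · simpa only [Fin.cons_succ] using cb_slot hz hs (d i) (e i) (x i) ε')
    (cb_vec hz hs c ξ)
  have h2 := cb_vec hz hs a η ε
  rw [Fin.prod_univ_succ] at h1
  simp only [Fin.cons_zero, Fin.cons_succ, one_mul] at h1
  refine le_trans (le_of_eq ?_) (((norm_inner_le_norm (𝕜 := ℂ) _ _).trans
    (mul_le_mul h2 h1 (norm_nonneg _) (Real.sqrt_nonneg _))).trans (le_of_eq (by ring)))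
  congr 1
  simp only [← ContinuousMultilinearMap.curryLeft_apply, map_sum, map_smul, sum_apply, smul_apply,
    AddSubmonoidClass.coe_finsetSum, SetLike.val_smul, sum_inner, inner_sum, inner_smul_left,
    inner_smul_right, cb_conj_sgn, Finset.mul_sum, smul_eq_mul, mul_assoc]
  rw [Finset.sum_comm]
  refine Eq.trans (Finset.sum_congr rfl fun _ _ => Finset.sum_comm) ?_
  rw [Finset.sum_comm]
  simp only [mul_left_comm]

omit [NeZero h] in
lemma cb_prm_eq (hz : CP P z) (hsz : ∀ i, s i * z = s i) {k : ℕ} (f : Co (Al P) k)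
    (y : Fin k → Al P) :
    z * prm (pa z s) (pb z s) f y = ((h : ℂ)⁻¹ ^ (k + 1)) • ∑ j : Fin (k + 1) → Fin h,
      star (s (j 0)) * f (fun i => s (j i.castSucc) * y i * star (s (j i.succ))) *
        s (j (Fin.last k)) := by
  have hzz : z * z = z := Subtype.ext hz.proj.isIdempotentElem.eq
  have hzs : star z = z := Subtype.ext hz.proj.isSelfAdjoint.star_eq
  have hc : ∀ w : Al P, w * z = z * w := fun w => Subtype.ext (comm_of_mem w.2 hz.com)
  have hzs' : ∀ i, z * star (s i) = star (s i) := fun i => by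
    rw [← hzs, ← star_mul, hsz]
  rw [prm_apply, Finset.mul_sum, Finset.smul_sum]
  symm
  refine Fintype.sum_of_injective (fun j : Fin (k + 1) → Fin h => fun i => some (j i))
    (fun j j' hj => funext fun i => Option.some_injective _ (congrFun hj i)) _ _
    (fun j hj => ?_) fun j => ?_
  · by_contra hne
    refine hj ⟨fun i => (j i).get ?_, funext fun i => Option.some_get _⟩
    induction i using Fin.induction with
    | zero =>
      by_contra h0
      refine hne ?_
      rw [Option.not_isSome_iff_eq_none.mp h0, pa, ← mul_assoc, ← mul_assoc, mul_sub, mul_one, hzz,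
        sub_self, zero_mul, zero_mul]
    | succ i ih =>
      by_contra h0
      obtain ⟨q, hq⟩ := Option.isSome_iff_exists.mp ih
      refine hne ?_
      rw [f.map_coord_zero i, mul_zero, zero_mul, mul_zero]
      rw [Option.not_isSome_iff_eq_none.mp h0, hq, pa, pb, mul_sub, mul_one, mul_assoc, hc,
        ← mul_assoc, hsz, sub_self]
  · simp only [pa, pb, mul_smul_comm, smul_mul_assoc]
    rw [f.map_smul_univ (fun _ => (h : ℂ)⁻¹)]
    simp only [mul_smul_comm, smul_mul_assoc, smul_smul, Finset.prod_const, Finset.card_univ,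
      Fintype.card_fin, ← mul_assoc, hzs', pow_succ']

end Iso

/-- PROOF.  In `z * prm …` only tuples `j = some ∘ j'` survive (`z (1 - z) = 0`, and
`s i * y * (1 - z) = 0` kills a slot; `map_coord_zero`), so
`z * prm (cons m x) = h^{-(n+2)} ∑_{j'} (s j'₀)* f (s j'₀ m (s j'₁)*, s j'₁ x₀ (s j'₂)*, …) s j'_last`.
For fixed `(p, q)` reindex `j' = t + (p, q, q, …, q)`, `t : Fin (n+2) → Fin h` (`Fin h` is a group).  For fixed
`t` and signs `ε`: `∑ₚ ⟪s(p+t₀) ηₚ, f (s(p+t₀) X p q …) …⟫ = 𝔼_ε ⟪∑ εₚ s(p+t₀) ηₚ, f (∑ₚ εₚ s(p+t₀) X p q (s(q+t₁))*, …) …⟫`,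
then `sign_bound` in `q` with `M 0 = 1` (`‖∑ εₚ ε'_q s(p+t₀) X p q (s(q+t₁))*‖ ≤ 1` by `Contr`, `row_le`,
`col_of_row`), `M (i+1) = ‖x i‖`, `M' = √(∑ ‖ξ‖²)`. -/
theorem cb_prm {P : VonNeumannAlgebra K} {z : Al P} (hz : CP P z) {h : ℕ} (hh : 0 < h)
    (s : Fin h → Al P) (hs : ∀ i j, star (s i) * s j = if i = j then z else 0)
    (hsz : ∀ i, s i * z = s i) {n : ℕ} (f : Co (Al P) (n + 1)) (x : Fin n → Al P) :
    CbB (fun m => z * prm (pa z s) (pb z s) f (Fin.cons m x)) h (‖f‖ * ∏ i, ‖x i‖) := by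
  have : NeZero h := ⟨hh.ne'⟩
  intro X hX η ξ
  have e : ∀ p q, ⟪η p, ((z * prm (pa z s) (pb z s) f (Fin.cons (X p q) x) : Al P) : K →L[ℂ] K)
      (ξ q)⟫_ℂ = (h : ℂ)⁻¹ ^ (n + 2) * ∑ t : Fin (n + 2) → Fin h,
        ⟪(s (t 0 + p) : K →L[ℂ] K) (η p),
          (f (Fin.cons (s (t 0 + p) * X p q * star (s (t 1 + q)))
            fun i => s (t i.castSucc.succ + q) * x i * star (s (t i.succ.succ + q))) : K →L[ℂ] K)
              ((s (t (Fin.last n).succ + q) : K →L[ℂ] K) (ξ q))⟫_ℂ := fun p q => by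
    rw [cb_prm_eq hz hsz,
      ← Equiv.sum_comp (Equiv.addRight (Fin.cons p fun _ => q : Fin (n + 2) → Fin h))]
    simp only [AddSubmonoidClass.coe_finsetSum, SetLike.val_smul, sum_apply, smul_apply,
      MulMemClass.coe_mul, StarMemClass.coe_star, mul_apply_eq_comp, inner_smul_right, inner_sum,
      inner_star_right]
    congr 1
    refine Finset.sum_congr rfl fun t _ => ?_
    congr 4
    funext i
    refine Fin.cases ?_ (fun i => ?_) i
    · rfl
    · rfl
  simp only [e, ← Finset.mul_sum]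
  rw [show (∑ p, ∑ q, ∑ t : Fin (n + 2) → Fin h, _) = ∑ t : Fin (n + 2) → Fin h, ∑ p, ∑ q, _ from
    (Finset.sum_congr rfl fun _ _ => Finset.sum_comm).trans Finset.sum_comm]
  rw [norm_mul, norm_pow, norm_inv, Complex.norm_natCast]
  refine (mul_le_mul_of_nonneg_left ((norm_sum_le _ _).trans (Finset.sum_le_sum fun t _ =>
    cb_fixed hz hs f x _ _ _ _ _ hX η ξ)) (by positivity)).trans (le_of_eq ?_)
  have : (h : ℝ) ≠ 0 := by exact_mod_cast hh.ne'
  rw [Finset.sum_const, Finset.card_univ, Fintype.card_fun, Fintype.card_fin, Fintype.card_fin,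
    nsmul_eq_mul, Nat.cast_pow, ← mul_assoc, ← mul_pow, inv_mul_cancel₀ this, one_pow, one_mul]

end Crest.Agent.R121
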