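import Crest.Agent.R121.Defs

/-! Row 121: logarithmic averages of `B (U*ⁿ) (Uⁿ) - B (Uⁿ) (U*ⁿ)` -/

set_option autoImplicit false
set_option linter.unusedSectionVars false

namespace Crest.Agent.R121

open Crest.Agent.R95 Crest.Agent.R124 MeasureTheory Filter Topology
open scoped InnerProductSpace BigOperators ComplexConjugate

lemma rz_pow_sub_one {z : ℂ} (hz : ‖z‖ = 1) (k : ℕ) : ‖z ^ k - 1‖ ≤ k * ‖z - 1‖ := by
  induction k with
  | zero => simp
  | succ k ih =>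
    have h : z ^ (k + 1) - 1 = z * (z ^ k - 1) + (z - 1) := by ring
    rw [h]
    refine (norm_add_le _ _).trans ?_
    rw [norm_mul, hz]
    push_cast
    linarith

lemma rz_block {z : ℂ} (hz : ‖z‖ = 1) {M : ℕ} (hM : 0 < M) :
    (M : ℝ)⁻¹ * ‖∑ n ∈ Finset.range M, (z ^ (n + 1) - conj z ^ (n + 1))‖ ≤
      24 * (2 * M * ‖z - 1‖ / (1 + 2 * M * ‖z - 1‖) - M * ‖z - 1‖ / (1 + M * ‖z - 1‖)) := by
  have hM' : (0 : ℝ) < M := by exact_mod_cast hM
  set t := ‖z - 1‖ with ht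
  have ht0 : 0 ≤ t := norm_nonneg _
  set G := ∑ n ∈ Finset.range M, z ^ (n + 1) with hG
  have hS : ∑ n ∈ Finset.range M, (z ^ (n + 1) - conj z ^ (n + 1)) = G - conj G := by
    simp [hG, Finset.sum_sub_distrib]
  have h1 : t * ‖G‖ ≤ 2 := by
    have h : (z - 1) * G = z ^ (M + 1) - z := by
      rw [hG, Finset.mul_sum, ← sub_add_cancel (z ^ (M + 1) - z) 0]
      have := Finset.sum_range_sub (fun n => z ^ (n + 1)) M
      simp only [zero_add, pow_one, sub_zero, add_zero] at this ⊢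
      rw [← this]
      exact Finset.sum_congr rfl fun n _ => by ring
    rw [ht, ← norm_mul, h]
    refine (norm_sub_le _ _).trans ?_
    rw [norm_pow, hz]; norm_num
  have h2 : ‖G - M‖ ≤ M * (M * t) := by
    have h : G - M = ∑ n ∈ Finset.range M, (z ^ (n + 1) - 1) := by
      simp [hG, Finset.sum_sub_distrib]
    rw [h]
    refine (norm_sum_le _ _).trans ?_
    refine (Finset.sum_le_card_nsmul _ _ (M * t) fun n hn => ?_).trans (by simp)
    refine (rz_pow_sub_one hz _).trans (mul_le_mul_of_nonneg_right ?_ ht0)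
    exact_mod_cast Finset.mem_range.mp hn
  have h3 : ‖G - conj G‖ ≤ 2 * ‖G‖ := by
    refine (norm_sub_le _ _).trans ?_
    rw [Complex.norm_conj]; linarith
  have h4 : ‖G - conj G‖ ≤ 2 * ‖G - M‖ := by
    have h : G - conj G = (G - M) - conj (G - M) := by simp
    rw [h]
    refine (norm_sub_le _ _).trans ?_
    rw [Complex.norm_conj]; linarith
  rw [hS]
  set d := (M : ℝ)⁻¹ * ‖G - conj G‖ with hd
  set x := M * t with hx
  have hx0 : 0 ≤ x := by positivity
  have hd0 : 0 ≤ d := by positivity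
  have hd1 : d ≤ 2 * x := by
    rw [hd, inv_mul_le_iff₀ hM']; linarith
  have hd2 : x * d ≤ 4 := by
    have : x * d = t * ‖G - conj G‖ := by rw [hx, hd]; field_simp
    rw [this]
    nlinarith
  have hE : 2 * M * t / (1 + 2 * M * t) - x / (1 + x) = x / ((1 + x) * (1 + 2 * x)) := by
    rw [mul_assoc, ← hx]; field_simp; ring
  rw [hE, mul_div_assoc', le_div_iff₀ (by positivity)]
  have hd3 : x * d ≤ 4 * x := by
    rcases le_total x 1 with h | h
    · nlinarith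
    · linarith
  nlinarith [mul_le_mul_of_nonneg_left hd2 hx0]

/-- PROOF.  `lam` = average over `r < R` of the uniform distribution on `range (L^r)`; `N = L^R`.
With `t = ‖1 - z‖`, `D_M z = M⁻¹ ∑_{n<M} (z^(n+1) - conj z^(n+1))` satisfies `‖D_M z‖ ≤ 2`,
`≤ 2 M t` (`‖z^k - 1‖ ≤ k t`) and `≤ 4 / (M t)` (geometric sum).  For `L ≥ 8/δ²` (and `L ≥ 2`) at most
one `r` has `δ/2 < L^r t < 4/δ`, so the average is at most `δ + 2/R`.  (Any other construction,
e.g. `lam n = 1/((n+1) H_N)` with Abel summation, is fine.) -/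
theorem exists_weights {ε : ℝ} (hε : 0 < ε) :
    ∃ (N : ℕ) (lam : ℕ → ℝ), (∀ n, 0 ≤ lam n) ∧ ∑ n ∈ Finset.range N, lam n = 1 ∧
      ∀ z : ℂ, ‖z‖ = 1 →
        ‖∑ n ∈ Finset.range N, (lam n : ℂ) * (z ^ (n + 1) - conj z ^ (n + 1))‖ ≤ ε := by
  obtain ⟨R, hR⟩ := exists_nat_gt (24 / ε)
  have hR0 : (0 : ℝ) < R := lt_trans (by positivity) hR
  let lam : ℕ → ℝ := fun n =>
    (R : ℝ)⁻¹ * ∑ r ∈ Finset.range R, if n < 2 ^ r then ((2 ^ r : ℕ) : ℝ)⁻¹ else 0
  have key : ∀ f : ℕ → ℂ, ∑ n ∈ Finset.range (2 ^ R), (lam n : ℂ) * f n =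
      (R : ℂ)⁻¹ * ∑ r ∈ Finset.range R, ((2 ^ r : ℕ) : ℂ)⁻¹ * ∑ n ∈ Finset.range (2 ^ r), f n := by
    intro f
    simp only [lam, Complex.ofReal_mul, Complex.ofReal_sum, Complex.ofReal_inv,
      Complex.ofReal_natCast, mul_assoc, Finset.sum_mul, ← Finset.mul_sum]
    congr 1
    rw [Finset.sum_comm]
    refine Finset.sum_congr rfl fun r hr => ?_
    have hsub : Finset.range (2 ^ r) ⊆ Finset.range (2 ^ R) :=
      Finset.range_subset_range.mpr (Nat.pow_le_pow_right two_pos (Finset.mem_range.mp hr).le)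
    rw [Finset.mul_sum, ← Finset.sum_subset hsub]
    · refine Finset.sum_congr rfl fun n hn => ?_
      rw [if_pos (Finset.mem_range.mp hn)]
      simp
    · intro n _ hn
      rw [if_neg (by simpa using hn)]
      simp
  refine ⟨2 ^ R, lam, fun n => ?_, ?_, fun z hz => ?_⟩
  · refine mul_nonneg (by positivity) (Finset.sum_nonneg fun r _ => ?_)
    split_ifs <;> positivity
  · apply Complex.ofReal_injective
    have h := key fun _ => 1
    have hR' : (R : ℂ) ≠ 0 := by exact_mod_cast hR0.ne'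
    simp only [mul_one] at h
    rw [Complex.ofReal_sum, h]
    simp [hR']
  · rw [key, norm_mul, norm_inv, Complex.norm_natCast, inv_mul_le_iff₀ hR0]
    refine (norm_sum_le _ _).trans ?_
    let φ : ℕ → ℝ := fun r => 24 * ((2 ^ r : ℕ) * ‖z - 1‖ / (1 + (2 ^ r : ℕ) * ‖z - 1‖))
    have h1 : ∀ r ∈ Finset.range R, ‖((2 ^ r : ℕ) : ℂ)⁻¹ *
        ∑ n ∈ Finset.range (2 ^ r), (z ^ (n + 1) - conj z ^ (n + 1))‖ ≤ φ (r + 1) - φ r := by
      intro r _
      rw [norm_mul, norm_inv, Complex.norm_natCast]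
      refine (rz_block hz (by positivity)).trans (le_of_eq ?_)
      simp only [φ]
      push_cast
      ring
    refine (Finset.sum_le_sum h1).trans ?_
    rw [Finset.sum_range_sub]
    have h2 : 0 ≤ φ 0 := by positivity
    have h3 : φ R ≤ 24 := by
      have : ((2 ^ R : ℕ) : ℝ) * ‖z - 1‖ / (1 + (2 ^ R : ℕ) * ‖z - 1‖) ≤ 1 :=
        div_le_one_of_le₀ (by linarith) (by positivity)
      simp only [φ]
      linarith
    rw [div_lt_iff₀ hε] at hR
    linarith

variable {A : Type*} [CStarAlgebra A] [Tr A]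

lemma rz_orth (L : ℕ) (hL : L ≠ 0) : ∃ ζ : ℕ → ℂ, (∀ j, ‖ζ j‖ = 1) ∧ ∀ p < L, ∀ q < L,
    ∑ j ∈ Finset.range L, conj (ζ j) ^ p * ζ j ^ q = if p = q then (L : ℂ) else 0 := by
  have hω := Complex.isPrimitiveRoot_exp L hL
  set ω := Complex.exp (2 * Real.pi * Complex.I / L)
  have h1 : ‖ω‖ = 1 := Complex.norm_eq_one_of_pow_eq_one hω.pow_eq_one hL
  have h2 : conj ω * ω = 1 := by rw [Complex.conj_mul', h1]; simp
  refine ⟨fun j => ω ^ j, fun j => by simp [h1], fun p hp q hq => ?_⟩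
  have h3 : ∀ j, conj (ω ^ j) ^ p * (ω ^ j) ^ q = (conj ω ^ p * ω ^ q) ^ j := fun j => by
    rw [map_pow]; ring
  simp only [h3]
  split_ifs with h
  · subst h
    simp [← mul_pow, h2]
  · have h4 : conj ω ^ p * ω ^ q ≠ 1 := by
      intro h5
      apply h
      refine hω.pow_inj hp hq ?_
      calc ω ^ p = ω ^ p * (conj ω ^ p * ω ^ q) := by rw [h5, mul_one]
        _ = (conj ω * ω) ^ p * ω ^ q := by ring
        _ = ω ^ q := by rw [h2, one_pow, one_mul]
    have h5 : (conj ω ^ p * ω ^ q) ^ L = 1 := by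
      rw [← h3, hω.pow_eq_one]; simp
    rw [geom_sum_eq h4, h5, sub_self, zero_div]

lemma rz_count (m k : ℕ) (hk : k ≤ m) (c : ℂ) :
    ∑ b ∈ Finset.range m, ∑ a ∈ Finset.range m, (if a = b + k then c else 0) = (m - k) * c := by
  simp only [Finset.sum_ite_eq', Finset.mem_range]
  rw [← Finset.sum_filter]
  have : (Finset.range m).filter (fun b => b + k < m) = Finset.range (m - k) := by
    ext b; simp only [Finset.mem_filter, Finset.mem_range]; omega
  rw [this]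
  simp [Nat.cast_sub hk]

lemma rz_avg {L m : ℕ} {ζ : ℕ → ℂ} (hζ : ∀ p < L, ∀ q < L,
      ∑ j ∈ Finset.range L, conj (ζ j) ^ p * ζ j ^ q = if p = q then (L : ℂ) else 0)
    (φ : A →L[ℂ] ℂ) (U : A) (s t : ℕ) (hs : m + s ≤ L) (ht : m + t ≤ L) :
    ∑ j ∈ Finset.range L, conj (ζ j) ^ s * ζ j ^ t *
      φ (star (∑ a ∈ Finset.range m, (ζ j • U) ^ a) * ∑ a ∈ Finset.range m, (ζ j • U) ^ a) =
      L * ∑ b ∈ Finset.range m, ∑ a ∈ Finset.range m,
        if a + s = b + t then φ (star U ^ a * U ^ b) else 0 := by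
  simp only [star_sum, Finset.sum_mul, Finset.mul_sum, map_sum, smul_pow, star_smul, star_pow,
    smul_mul_smul_comm, map_smul, smul_eq_mul]
  rw [Finset.sum_comm]
  refine Finset.sum_congr rfl fun b hb => ?_
  rw [Finset.sum_comm]
  refine Finset.sum_congr rfl fun a ha => ?_
  have h := hζ (a + s) (by have := Finset.mem_range.mp ha; omega) (b + t)
    (by have := Finset.mem_range.mp hb; omega)
  calc _ = (∑ j ∈ Finset.range L, conj (ζ j) ^ (a + s) * ζ j ^ (b + t)) *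
        φ (star U ^ a * U ^ b) := by
        rw [Finset.sum_mul]
        refine Finset.sum_congr rfl fun j _ => ?_
        rw [Complex.star_def]; ring
    _ = _ := by rw [h]; split_ifs <;> simp

lemma rz_pow_unit {U : A} (hU : U ∈ unitary A) (b : ℕ) : star U ^ b * U ^ b = 1 := by
  rw [← star_pow]; exact (pow_mem hU b).1

lemma rz_avg₁ {L m : ℕ} {ζ : ℕ → ℂ} (hζ : ∀ p < L, ∀ q < L,
      ∑ j ∈ Finset.range L, conj (ζ j) ^ p * ζ j ^ q = if p = q then (L : ℂ) else 0)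
    (φ : A →L[ℂ] ℂ) {U : A} (hU : U ∈ unitary A) (k : ℕ) (hk : k ≤ m) (hL : m + m ≤ L) :
    ∑ j ∈ Finset.range L, ζ j ^ k *
      φ (star (∑ a ∈ Finset.range m, (ζ j • U) ^ a) * ∑ a ∈ Finset.range m, (ζ j • U) ^ a) =
      L * ((m - k) * φ (star U ^ k)) := by
  have h := rz_avg (m := m) hζ φ U 0 k (by omega) (by omega)
  simp only [pow_zero, one_mul, add_zero] at h
  rw [h, ← rz_count m k hk]
  congr 1
  refine Finset.sum_congr rfl fun b _ => Finset.sum_congr rfl fun a _ => ?_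
  split_ifs with h'
  · rw [h', add_comm, pow_add, mul_assoc, rz_pow_unit hU, mul_one]
  · rfl

lemma rz_avg₂ {L m : ℕ} {ζ : ℕ → ℂ} (hζ : ∀ p < L, ∀ q < L,
      ∑ j ∈ Finset.range L, conj (ζ j) ^ p * ζ j ^ q = if p = q then (L : ℂ) else 0)
    (φ : A →L[ℂ] ℂ) {U : A} (hU : U ∈ unitary A) (k : ℕ) (hk : k ≤ m) (hL : m + m ≤ L) :
    ∑ j ∈ Finset.range L, conj (ζ j) ^ k *
      φ (star (∑ a ∈ Finset.range m, (ζ j • U) ^ a) * ∑ a ∈ Finset.range m, (ζ j • U) ^ a) =
      L * ((m - k) * φ (U ^ k)) := by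
  have h := rz_avg (m := m) hζ φ U k 0 (by omega) (by omega)
  simp only [pow_zero, mul_one, add_zero] at h
  rw [h, ← rz_count m k hk, Finset.sum_comm]
  congr 1
  refine Finset.sum_congr rfl fun a _ => Finset.sum_congr rfl fun b _ => ?_
  by_cases h' : b = a + k
  · rw [if_pos h'.symm, if_pos h', h', pow_add, ← mul_assoc, rz_pow_unit hU, one_mul]
  · rw [if_neg (Ne.symm h'), if_neg h']

lemma rz_norm {V : A} (hV : V ∈ unitary A) (N : ℕ) (lam : ℕ → ℝ) {κ : ℝ}
    (hk : ∀ z : ℂ, ‖z‖ = 1 →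
      ‖∑ n ∈ Finset.range N, (lam n : ℂ) * (z ^ (n + 1) - conj z ^ (n + 1))‖ ≤ κ) :
    ‖∑ n ∈ Finset.range N, (lam n : ℂ) • (V ^ (n + 1) - star V ^ (n + 1))‖ ≤ κ := by
  have hκ : 0 ≤ κ := (norm_nonneg _).trans (hk 1 norm_one)
  have hn : IsStarNormal V := isStarNormal_of_mem_unitary hV
  have h : ∑ n ∈ Finset.range N, (lam n : ℂ) • (V ^ (n + 1) - star V ^ (n + 1)) =
      cfc (∑ n ∈ Finset.range N, fun z : ℂ => (lam n : ℂ) * (z ^ (n + 1) - star z ^ (n + 1))) V := by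
    rw [cfc_sum _ _ _ (fun _ _ => by fun_prop)]
    refine Finset.sum_congr rfl fun n _ => ?_
    rw [cfc_const_mul _ _ _ (by fun_prop), cfc_sub _ _ _ (by fun_prop) (by fun_prop),
      cfc_pow_id V, cfc_pow (fun z : ℂ => star z) _ V (by fun_prop), cfc_star_id V]
  rw [h]
  refine norm_cfc_le hκ fun z hz => ?_
  rw [Finset.sum_apply]
  exact hk z (by simpa using spectrum.subset_circle_of_unitary hV hz)

/-- PROOF.  For `m ≥ 1`, `L > m + N`, `ζ` an `L`-th root of unity put `V = ζ • U`,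
`h = ∑_{a<m} V^a`, `k = ∑ lam n • (V^(n+1) - (star V)^(n+1))`, `‖k‖ ≤ κ` (`k = cfc _ V`, `norm_cfc_le`,
the spectrum of a unitary lies in the circle).  `‖B (star h * h) k‖ ≤ Λ n2(h)² κ`; averaging over `ζ`,
`𝔼 n2(h)² = m` and `𝔼 B (h* h) k = ∑ lam n * #{(a,b) : a = b + n + 1} * (B U*^(n+1) U^(n+1) - …)`
with `# = m - (n+1)` for `m > N` (`star V^a * V^b` is `ζ^(b-a) • U^(b-a)` resp.
`conj ζ^(a-b) • star U^(a-b)`).  Divide by `m`, `m → ∞`. -/
theorem riesz (B : A →L[ℂ] A →L[ℂ] ℂ) {Λ : ℝ} (hΛ : 0 ≤ Λ)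
    (b1 : ∀ a b c, ‖B (a * b) c‖ ≤ Λ * n2 a * n2 b * ‖c‖) {U : A} (hU : U ∈ unitary A) (N : ℕ)
    (lam : ℕ → ℝ) {κ : ℝ} (hk : ∀ z : ℂ, ‖z‖ = 1 →
      ‖∑ n ∈ Finset.range N, (lam n : ℂ) * (z ^ (n + 1) - conj z ^ (n + 1))‖ ≤ κ) :
    ‖∑ n ∈ Finset.range N, (lam n : ℂ) *
      (B (star U ^ (n + 1)) (U ^ (n + 1)) - B (U ^ (n + 1)) (star U ^ (n + 1)))‖ ≤ Λ * κ := by
  have hκ : 0 ≤ κ := (norm_nonneg _).trans (hk 1 norm_one)
  set D : ℕ → ℂ := fun n =>
    B (star U ^ (n + 1)) (U ^ (n + 1)) - B (U ^ (n + 1)) (star U ^ (n + 1)) with hD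
  have main : ∀ m : ℕ, N < m →
      ‖∑ n ∈ Finset.range N, (lam n : ℂ) * ((m - (n + 1 : ℕ)) * D n)‖ ≤ Λ * κ * m := by
    intro m hm
    obtain ⟨ζ, hζ1, hζ⟩ := rz_orth (m + m) (by omega)
    set L := m + m with hL
    have hL0 : (0 : ℝ) < L := by exact_mod_cast (by omega : 0 < L)
    set h : ℕ → A := fun j => ∑ a ∈ Finset.range m, (ζ j • U) ^ a with hh
    have hV : ∀ j, ζ j • U ∈ unitary A := fun j => by
      have h1 : conj (ζ j) * ζ j = 1 := by rw [Complex.conj_mul', hζ1]; simp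
      constructor
      · rw [star_smul, smul_mul_smul_comm, hU.1, Complex.star_def, h1, one_smul]
      · rw [star_smul, smul_mul_smul_comm, hU.2, Complex.star_def, mul_comm, h1, one_smul]
    have e1 : ∑ j ∈ Finset.range L, n2 (h j) ^ 2 = L * m := by
      apply Complex.ofReal_injective
      have := rz_avg₁ hζ (τ : A →L[ℂ] ℂ) hU 0 (Nat.zero_le m) le_rfl
      simp only [pow_zero, one_mul, τ_one, Nat.cast_zero, sub_zero, mul_one] at this
      rw [Complex.ofReal_sum]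
      simp only [← τ_star_mul_self]
      rw [this]
      simp
    have e2 : ∑ j ∈ Finset.range L, B (star (h j) * h j)
        (∑ n ∈ Finset.range N, (lam n : ℂ) • ((ζ j • U) ^ (n + 1) - star (ζ j • U) ^ (n + 1))) =
        L * ∑ n ∈ Finset.range N, (lam n : ℂ) * ((m - (n + 1 : ℕ)) * D n) := by
      simp only [map_sum, map_smul, map_sub, smul_pow, star_smul, smul_eq_mul, Complex.star_def]
      rw [Finset.sum_comm, Finset.mul_sum]
      refine Finset.sum_congr rfl fun n hn => ?_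
      have hn' : n + 1 ≤ m := by have := Finset.mem_range.mp hn; omega
      have a1 := rz_avg₁ hζ (B.flip (U ^ (n + 1))) hU (n + 1) hn' le_rfl
      have a2 := rz_avg₂ hζ (B.flip (star U ^ (n + 1))) hU (n + 1) hn' le_rfl
      simp only [ContinuousLinearMap.flip_apply] at a1 a2
      rw [← Finset.mul_sum, Finset.sum_sub_distrib, a1, a2, hD]
      ring
    have e3 : ‖(L : ℂ) * ∑ n ∈ Finset.range N, (lam n : ℂ) * ((m - (n + 1 : ℕ)) * D n)‖ ≤
        L * (Λ * κ * m) := by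
      rw [← e2]
      refine (norm_sum_le _ _).trans ?_
      calc _ ≤ ∑ j ∈ Finset.range L, Λ * κ * n2 (h j) ^ 2 := by
            refine Finset.sum_le_sum fun j _ => (b1 _ _ _).trans ?_
            rw [n2_star]
            have := rz_norm (hV j) N lam hk
            have h0 := n2_nonneg (h j)
            calc _ ≤ Λ * n2 (h j) * n2 (h j) * κ := by gcongr
              _ = _ := by ring
        _ = _ := by rw [← Finset.mul_sum, e1]; ring
    rw [norm_mul, Complex.norm_natCast] at e3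
    exact le_of_mul_le_mul_left e3 hL0
  set S := ∑ n ∈ Finset.range N, (lam n : ℂ) * D n with hS
  set C := ∑ n ∈ Finset.range N, (lam n : ℂ) * ((n + 1 : ℕ) * D n) with hC
  have h2 : ∀ m : ℕ, N < m → ‖S‖ ≤ Λ * κ + ‖C‖ / m := by
    intro m hm
    have hm0 : (0 : ℝ) < m := by exact_mod_cast (by omega : 0 < m)
    have h3 : (m : ℂ) * S =
        ∑ n ∈ Finset.range N, (lam n : ℂ) * ((m - (n + 1 : ℕ)) * D n) + C := by
      rw [hS, hC, Finset.mul_sum, ← Finset.sum_add_distrib]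
      exact Finset.sum_congr rfl fun n _ => by ring
    have h4 : (m : ℝ) * ‖S‖ ≤ Λ * κ * m + ‖C‖ := by
      rw [← Complex.norm_natCast, ← norm_mul, h3, Complex.norm_natCast]
      exact (norm_add_le _ _).trans (add_le_add (main m hm) le_rfl)
    rw [add_div' _ _ _ hm0.ne', le_div_iff₀ hm0]
    linarith
  have h5 : Tendsto (fun m : ℕ => Λ * κ + ‖C‖ / m) atTop (𝓝 (Λ * κ + 0)) :=
    tendsto_const_nhds.add (tendsto_const_div_atTop_nhds_zero_nat _)
  rw [add_zero] at h5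
  exact ge_of_tendsto h5 ((eventually_gt_atTop N).mono h2)

end Crest.Agent.R121
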