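import Crest.Agent.R121.Trail
import Crest.Agent.R121.Riesz

/-! Row 121: the core theorem -/

set_option autoImplicit false
set_option linter.unusedSectionVars false

namespace Crest.Agent.R121

open Crest.Agent.R95 Crest.Agent.R124 MeasureTheory Filter Topology
open scoped InnerProductSpace BigOperators ComplexConjugate

variable {A : Type*} [CStarAlgebra A] [Tr A]

lemma core_consts {Λ ρ : ℝ} (hΛ : 0 ≤ Λ) (hρ : 0 < ρ) :
    ∃ ϑ ε : ℝ, 0 < ϑ ∧ 0 < ε ∧ ∀ Λ' : ℝ, ∃ δ : ℝ, 0 < δ ∧ √(ε + Λ' * δ) ≤ ρ ∧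
      √δ * √(ε + Λ') ≤ ρ ∧ Λ * √(2 * ϑ) + √(ε + Λ' * (2 * δ) / ϑ) ≤ ρ ∧ Λ * √√δ ≤ ρ := by
  refine ⟨(ρ / (2 * (Λ + 1))) ^ 2 / 2, (ρ / 4) ^ 2, by positivity, by positivity, fun Λ' => ?_⟩
  set ϑ := (ρ / (2 * (Λ + 1))) ^ 2 / 2 with hϑ
  have hε : √((ρ / 4) ^ 2) = ρ / 4 := Real.sqrt_sq (by positivity)
  have h0 : Λ * √(2 * ϑ) ≤ ρ / 2 := by
    rw [hϑ, mul_div_cancel₀ _ (two_ne_zero), Real.sqrt_sq (by positivity), mul_div_assoc',
      div_le_div_iff₀ (by positivity) (by norm_num)]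
    nlinarith
  have key : ∀ f : ℝ → ℝ, Continuous f → f 0 < ρ → ∀ᶠ δ in 𝓝[>] (0 : ℝ), f δ ≤ ρ :=
    fun f hf h => ((hf.tendsto 0).eventually (Iio_mem_nhds h)).filter_mono nhdsWithin_le_nhds
      |>.mono fun _ h => le_of_lt h
  have h1 := key (fun δ => √((ρ / 4) ^ 2 + Λ' * δ)) (by fun_prop) (by simp only [mul_zero, add_zero, hε]; linarith)
  have h2 := key (fun δ => √δ * √((ρ / 4) ^ 2 + Λ')) (by fun_prop) (by simpa using hρ)
  have h3 := key (fun δ => Λ * √(2 * ϑ) + √((ρ / 4) ^ 2 + Λ' * (2 * δ) / ϑ)) (by fun_prop)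
    (by simp only [mul_zero, zero_div, add_zero, hε]; linarith)
  have h4 := key (fun δ => Λ * √√δ) (by fun_prop) (by simpa using hρ)
  obtain ⟨δ, hδ⟩ := (((h1.and h2).and (h3.and h4)).and self_mem_nhdsWithin).exists
  exact ⟨δ, hδ.2, hδ.1.1.1, hδ.1.1.2, hδ.1.2.1, hδ.1.2.2⟩

/-- PROOF.  `exists_weights` with `κ`, `Λ κ ≤ ε₀/3`; `ρ` with `3 (N+1)² ρ ≤ ε₀/3`; `ϑ, ε` with
`Λ √(2ϑ) ≤ ρ/2`, `√(2ε) ≤ ρ/2`.  Given `Λ'` take `δ₁` so small that `h1`–`h4` of `trail` hold, `δ` from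
`small N δ₁`.  `trail` for `(B, X)` and for `(conjB B X* X X* X, X*)`; the first term of the latter is
`Ex B ((w* X)^(n+1)) ((X* w)^(n+1)) = Ex B (U^(n+1)) (U*^(n+1))` by `Ex_star`
(`X* (X w*)^(n+1) X = (w* X)^(n+1)`); `riesz` pointwise in `w`, `norm_Ex_le`. -/
theorem core {ε₀ Λ : ℝ} (hε₀ : 0 < ε₀) (hΛ : 0 ≤ Λ) :
    ∃ (N : ℕ) (lam : ℕ → ℝ) (ε : ℝ), 0 < ε ∧ (∀ n, 0 ≤ lam n) ∧
      ∑ n ∈ Finset.range N, lam n = 1 ∧ ∀ Λ' : ℝ, 0 ≤ Λ' → ∃ δ : ℝ, 0 < δ ∧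
      ∀ (ι : Type) [Fintype ι] [DecidableEq ι] (e : ι → ι → A) (X : A), MU 1 e → X ∈ unitary A →
        (Fintype.card ι : ℝ)⁻¹ ≤ δ → theta e X ≤ δ → theta e (star X) ≤ δ →
        ∀ B : A →L[ℂ] A →L[ℂ] ℂ, BB B Λ ε Λ' →
          ‖∑ n ∈ Finset.range N, (lam n : ℂ) *
            (Ex e (fun w => FF e fun a b =>
                B (star X * b * star (w * X) ^ n) ((w * X) ^ n * a * X)) -
              Ex e (fun w => FF e fun a b =>
                B (b * star (w * star X) ^ n * X) (star X * (w * star X) ^ n * a)))‖ ≤ ε₀ := by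
  obtain ⟨N, lam, hl0, hl1, hk⟩ := exists_weights (ε := ε₀ / (3 * (Λ + 1))) (by positivity)
  obtain ⟨ϑ, ε, hϑ, hε, hc⟩ := core_consts hΛ (ρ := ε₀ / (9 * (N + 1) ^ 2)) (by positivity)
  set ρ : ℝ := ε₀ / (9 * (N + 1) ^ 2) with hρ
  refine ⟨N, lam, ε, hε, hl0, hl1, fun Λ' _ => ?_⟩
  obtain ⟨δ₁, hδ₁, h1, h2, h3, h4⟩ := hc Λ'
  obtain ⟨δ, hδ, hδle, hs⟩ := small (A := A) N hδ₁
  refine ⟨δ, hδ, fun ι _ _ e X he hX hK hθ hθ' B hB => ?_⟩
  have hS : star X ∈ unitary A := Unitary.star_mem hX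
  obtain ⟨p1, q1⟩ := hs ι e X he hX hK hθ
  obtain ⟨p2, q2⟩ := hs ι e (star X) he hS hK hθ'
  have hρn : ∀ n, n < N → 3 * ((n : ℝ) + 1) ^ 2 * ρ ≤ ε₀ / 3 := by
    intro n hn
    have hn' : (n : ℝ) + 1 ≤ N + 1 := by
      have : (n : ℝ) ≤ N := by exact_mod_cast hn.le
      linarith
    calc 3 * ((n : ℝ) + 1) ^ 2 * ρ ≤ 3 * ((N : ℝ) + 1) ^ 2 * ρ := by gcongr
      _ = ε₀ / 3 := by rw [hρ]; field_simp; norm_num
  have hXX : star X * X = 1 := hX.1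
  have hXX' : ∀ y, star X * (X * y) = y := fun y => by rw [← mul_assoc, hXX, one_mul]
  set a : ℕ → ℂ := fun n => Ex e fun w => B (star (w * X) ^ (n + 1)) ((w * X) ^ (n + 1)) with ha
  set b : ℕ → ℂ := fun n => Ex e fun w => B ((w * X) ^ (n + 1)) (star (w * X) ^ (n + 1)) with hb
  set P : ℕ → ℂ := fun n => Ex e fun w => FF e fun a b =>
    B (star X * b * star (w * X) ^ n) ((w * X) ^ n * a * X) with hP
  set Q : ℕ → ℂ := fun n => Ex e fun w => FF e fun a b =>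
    B (b * star (w * star X) ^ n * X) (star X * (w * star X) ^ n * a) with hQ
  have t1 : ∀ n, n < N → ‖a n - P n‖ ≤ ε₀ / 3 := fun n hn =>
    (trail he hB hX n hϑ (hK.trans hδle) (fun m h h' => p1 m h (by omega))
      (fun m h => q1 m (by omega)) h1 h2 h3 h4).trans (hρn n hn)
  have t2 : ∀ n, n < N → ‖b n - Q n‖ ≤ ε₀ / 3 := by
    intro n hn
    have h := (trail he (hB.conj hS hX hS hX) hS n hϑ (hK.trans hδle)
      (fun m h h' => p2 m h (by omega)) (fun m h => q2 m (by omega)) h1 h2 h3 h4).trans (hρn n hn)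
    refine le_trans (le_of_eq ?_) h
    congr 2
    · simp only [hb]
      rw [← Ex_star he]
      congr 1
      funext w
      simp only [conjB_apply, star_mul, star_star]
      rw [mul_assoc (star X), mul_pow_mul, hXX', ← mul_pow_mul, mul_assoc _ (star X), hXX, mul_one]
    · simp only [hQ, conjB_apply, star_star, mul_assoc, hXX, hXX', mul_one]
  have t3 : ‖∑ n ∈ Finset.range N, (lam n : ℂ) * (a n - b n)‖ ≤ ε₀ / 3 := by
    have h : ∑ n ∈ Finset.range N, (lam n : ℂ) * (a n - b n) =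
        Ex e fun w => ∑ n ∈ Finset.range N, (lam n : ℂ) *
          (B (star (w * X) ^ (n + 1)) ((w * X) ^ (n + 1)) -
            B ((w * X) ^ (n + 1)) (star (w * X) ^ (n + 1))) := by
      rw [Ex_sum e _ fun n => by fun_prop]
      refine Finset.sum_congr rfl fun n _ => ?_
      rw [Ex_mul, Ex_sub e (by fun_prop) (by fun_prop)]
    rw [h]
    refine (norm_Ex_le he (G := fun _ => Λ * (ε₀ / (3 * (Λ + 1)))) continuous_const
      fun w hw => riesz B hΛ hB.b1 (mul_mem hw.1 hX) N lam hk).trans ?_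
    rw [Ex_const, mul_div_assoc', div_le_div_iff₀ (by positivity) (by norm_num)]
    nlinarith
  have t4 : ‖∑ n ∈ Finset.range N, (lam n : ℂ) * ((b n - Q n) - (a n - P n))‖ ≤
      ε₀ / 3 + ε₀ / 3 := by
    refine (norm_sum_le _ _).trans ?_
    calc ∑ n ∈ Finset.range N, ‖(lam n : ℂ) * ((b n - Q n) - (a n - P n))‖
        ≤ ∑ n ∈ Finset.range N, lam n * (ε₀ / 3 + ε₀ / 3) := by
          refine Finset.sum_le_sum fun n hn => ?_
          rw [norm_mul, Complex.norm_of_nonneg (hl0 n)]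
          exact mul_le_mul_of_nonneg_left ((norm_sub_le _ _).trans
            (add_le_add (t2 n (Finset.mem_range.mp hn)) (t1 n (Finset.mem_range.mp hn)))) (hl0 n)
      _ = _ := by rw [← Finset.sum_mul, hl1, one_mul]
  have hE : ∑ n ∈ Finset.range N, (lam n : ℂ) * (P n - Q n) =
      ∑ n ∈ Finset.range N, (lam n : ℂ) * (a n - b n) +
        ∑ n ∈ Finset.range N, (lam n : ℂ) * ((b n - Q n) - (a n - P n)) := by
    rw [← Finset.sum_add_distrib]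
    exact Finset.sum_congr rfl fun n _ => by ring
  calc _ = ‖∑ n ∈ Finset.range N, (lam n : ℂ) * (P n - Q n)‖ := rfl
    _ ≤ ε₀ / 3 + (ε₀ / 3 + ε₀ / 3) := by
        rw [hE]; exact (norm_add_le _ _).trans (add_le_add t3 t4)
    _ = ε₀ := by ring

end Crest.Agent.R121
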