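import Crest.Agent.R121.MUb
import Crest.Agent.R121.LGT

/-! Row 121: the crossing term, moment computations for independent design unitaries -/

set_option autoImplicit false
set_option linter.unusedSectionVars false

namespace Crest.Agent.R121

open Crest.Agent.R95 Crest.Agent.R124 MeasureTheory Filter Topology
open scoped InnerProductSpace BigOperators ComplexConjugate

section Indep
variable {ι D : Type*} [Fintype ι] [DecidableEq ι] [Fintype D] {E : Type*} [AddCommGroup E]
  [Module ℂ E]

lemma cr_resample (α : ι) (Φ : (ι → D) → E) :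
    ∑ ω : ι → D, ∑ d : D, Φ (Function.update ω α d) = (Fintype.card D : ℂ) • ∑ ω, Φ ω := by
  let σ : ((ι → D) × D) ≃ ((ι → D) × D) :=
    Function.Involutive.toPerm (fun p => (Function.update p.1 α p.2, p.1 α)) fun p => by simp
  rw [← Fintype.sum_prod_type', Nat.cast_smul_eq_nsmul]
  have := σ.sum_comp fun p => Φ p.1
  rw [Fintype.sum_prod_type (f := fun p : (ι → D) × D => Φ p.1)] at this
  simp only [Finset.sum_const, Finset.card_univ, ← Finset.smul_sum] at this
  exact this

lemma cr_cond [Nonempty D] (α : ι) {Φ Ψ : (ι → D) → E}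
    (h : ∀ ω, ∑ d : D, Φ (Function.update ω α d) = (Fintype.card D : ℂ) • Ψ ω) :
    ∑ ω, Φ ω = ∑ ω, Ψ ω := by
  have h1 := cr_resample α Φ
  simp only [h, ← Finset.smul_sum] at h1
  have h0 : (Fintype.card D : ℂ) ≠ 0 := by exact_mod_cast Fintype.card_ne_zero
  exact (smul_right_injective E h0 h1).symm

end Indep

variable {A : Type*} [CStarAlgebra A] [Tr A] {ι : Type*} [Fintype ι] [DecidableEq ι]
  {e : ι → ι → A}

lemma cr_bil {E : Type*} [AddCommGroup E] [Module ℂ E] (he : MU 1 e) {G : ι → ι → A → A → E}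
    (hG : ∀ α α', Bil (G α α')) :
    ∑ ω : ι → Des ι, ∑ α, ∑ α', G α α' (du e (ω α)) (star (du e (ω α'))) =
      (Fintype.card (ι → Des ι) : ℂ) • ∑ α, FF e (G α α) := by
  rw [Finset.sum_comm, Finset.smul_sum]
  refine Finset.sum_congr rfl fun α _ => ?_
  rw [Finset.sum_comm, Finset.sum_eq_single α]
  · rw [cr_cond α (Ψ := fun _ => FF e (G α α)) fun ω => ?_]
    · simp only [Finset.sum_const, Finset.card_univ, Nat.cast_smul_eq_nsmul]
    · simpa only [Function.update_self] using sum_du_bil he (hG α α)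
  · intro α' _ hα
    rw [cr_cond α (Ψ := fun _ => 0) fun ω => ?_]
    · simp
    · simp only [Function.update_self, Function.update_of_ne hα, smul_zero]
      have := map_sum (((hG α α').1 (star (du e (ω α')))).mk' _) (fun d => du e d) Finset.univ
      simp only [IsLinearMap.mk'_apply, sum_du] at this
      rw [← this]
      exact ((hG α α').1 _).map_zero
  · simp

/-- The vector `y β`. -/
noncomputable def crY (e : ι → ι → A) (A₀ : A) (β : ι) (ω : ι → Des ι) : A :=
  ∑ α, e α β * A₀ * du e (ω α)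

/-- The vector `z β`. -/
noncomputable def crZ (e : ι → ι → A) (C : A) (β : ι) (ω : ι → Des ι) : A :=
  ∑ α, e β α * C * star (du e (ω α))

lemma cr_B (he : MU 1 e) (B : A →L[ℂ] A →L[ℂ] ℂ) (A₀ C : A) (β : ι) :
    ∑ ω, B (crZ e C β ω) (crY e A₀ β ω) = (Fintype.card (ι → Des ι) : ℂ) •
      ∑ α, FF e fun a' b' => B (e β α * C * b') (e α β * A₀ * a') := by
  rw [← cr_bil he (G := fun α α' a b => B (e β α' * C * b) (e α β * A₀ * a))]
  · refine Finset.sum_congr rfl fun ω _ => ?_
    simp only [crZ, crY, map_sum, sum_apply]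
  · intro α α'
    exact ⟨fun b => ⟨fun x y => by simp [mul_add], fun c x => by simp⟩,
      fun a => ⟨fun x y => by simp [mul_add], fun c x => by simp⟩⟩

lemma cr_e_mul_Z (he : MU 1 e) (C : A) (β : ι) (ω : ι → Des ι) :
    e β β * crZ e C β ω = crZ e C β ω := by
  simp only [crZ, Finset.mul_sum, ← mul_assoc, he.mul, if_true]

lemma cr_Z2 (he : MU 1 e) {C : A} (hC : C ∈ unitary A) (β : ι) :
    ∑ ω, n2 (crZ e C β ω) ^ 2 = Fintype.card (ι → Des ι) := by
  apply Complex.ofReal_injective
  have h := cr_bil he (G := fun α α' a b => τ (b * a * (star C * (e α β * e β α') * C)))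
    fun α α' => ⟨fun b => ⟨fun x y => by simp [mul_add, add_mul], fun c x => by simp⟩,
      fun a => ⟨fun x y => by simp [add_mul], fun c x => by simp⟩⟩
  have h2 : ∀ α, (FF e fun a b => τ (b * a * (star C * (e α β * e β α) * C))) =
      τ (star C * e α α * C) := by
    intro α
    have := (FF_mul_self he (L := fun x => τ (x * (star C * (e α β * e β α) * C)))
      ⟨fun x y => by simp [add_mul], fun c x => by simp⟩).2
    rw [this, one_mul, he.mul, if_pos rfl]
  simp only [h2] at h
  rw [← map_sum, ← Finset.sum_mul, ← Finset.mul_sum, he.sum, mul_one, hC.1, τ_one] at h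
  rw [Complex.ofReal_sum, Complex.ofReal_natCast, ← mul_one (Fintype.card (ι → Des ι) : ℂ),
    ← smul_eq_mul, ← h]
  refine Finset.sum_congr rfl fun ω _ => ?_
  rw [← τ_star_mul_self]
  simp only [crZ, star_sum, Finset.sum_mul, Finset.mul_sum, map_sum, star_mul, star_star, he.star]
  rw [Finset.sum_comm]
  refine Finset.sum_congr rfl fun α _ => Finset.sum_congr rfl fun α' _ => ?_
  rw [← mul_assoc, τ_comm]
  simp only [mul_assoc]

lemma cr_YY (he : MU 1 e) {A₀ : A} (hA : A₀ ∈ unitary A) (β : ι) :
    ∑ ω, crY e A₀ β ω * star (crY e A₀ β ω) = (Fintype.card (ι → Des ι) : ℂ) • (1 : A) := by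
  have h := cr_bil he (G := fun α α' a b => e α β * A₀ * (a * b) * (star A₀ * e β α'))
    fun α α' => ⟨fun b => ⟨fun x y => by simp [mul_add, add_mul], fun c x => by simp⟩,
      fun a => ⟨fun x y => by simp [mul_add, add_mul], fun c x => by simp⟩⟩
  have h2 : ∀ α, (FF e fun a b => e α β * A₀ * (a * b) * (star A₀ * e β α)) = e α α := by
    intro α
    have := (FF_mul_self he (L := fun x => e α β * A₀ * x * (star A₀ * e β α))
      ⟨fun x y => by simp [mul_add, add_mul], fun c x => by simp⟩).1
    rw [this, mul_one, mul_assoc, ← mul_assoc A₀, hA.2, one_mul, he.mul, if_pos rfl]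
  simp only [h2] at h
  rw [he.sum] at h
  rw [← h]
  refine Finset.sum_congr rfl fun ω _ => ?_
  simp only [crY, star_sum, Finset.sum_mul, Finset.mul_sum, star_mul, he.star, mul_assoc]
  rw [Finset.sum_comm]

lemma cr_h (he : MU 1 e) (A₀ : A) (β : ι) (ω : ι → Des ι) :
    star (crY e A₀ β ω) * crY e A₀ β ω =
      ∑ α, star (du e (ω α)) * (star A₀ * e β β * A₀) * du e (ω α) := by
  simp only [crY, star_sum, Finset.sum_mul, star_mul, he.star]
  refine Finset.sum_congr rfl fun α _ => ?_
  rw [Finset.mul_sum, Finset.sum_eq_single α]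
  · have : e β α * e α β = e β β := by rw [he.mul, if_pos rfl]
    rw [← this]
    simp only [mul_assoc]
  · intro α' _ hα
    have : e β α * e α' β = 0 := by rw [he.mul, if_neg hα.symm]
    calc _ = star (du e (ω α)) * (star A₀ * (e β α * e α' β) * A₀) * du e (ω α') := by
          simp only [mul_assoc]
      _ = 0 := by simp [this]
  · simp

lemma cr_sum_h (he : MU 1 e) {A₀ : A} (hA : A₀ ∈ unitary A) (ω : ι → Des ι) :
    ∑ β, star (crY e A₀ β ω) * crY e A₀ β ω = (Fintype.card ι : ℂ) • (1 : A) := by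
  simp only [cr_h he]
  rw [Finset.sum_comm]
  have : ∀ α, ∑ β, star (du e (ω α)) * (star A₀ * e β β * A₀) * du e (ω α) = 1 := by
    intro α
    rw [← Finset.sum_mul, ← Finset.mul_sum, ← Finset.sum_mul, ← Finset.mul_sum, he.sum, mul_one,
      hA.1, mul_one, (du_mem he _).1.1]
  simp only [this, Finset.sum_const, Finset.card_univ, Nat.cast_smul_eq_nsmul]

lemma cr_sum_conj (he : MU 1 e) (g : A) :
    ∑ d : Des ι, star (du e d) * g * du e d = (Fintype.card (Des ι) : ℂ) • EK e g := by
  have := sum_du_bil he (G := fun a b => b * g * a)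
    ⟨fun b => ⟨fun x y => by simp [mul_add], fun c x => by simp⟩,
      fun a => ⟨fun x y => by simp [add_mul], fun c x => by simp⟩⟩
  rw [this, EK_apply, ← FF_swap]

lemma cr_h2 (he : MU 1 e) {A₀ : A} (hA : A₀ ∈ unitary A) (β : ι) :
    ∑ ω, n2 (star (crY e A₀ β ω) * crY e A₀ β ω) ^ 2 ≤ Fintype.card (ι → Des ι) *
      (1 + (Fintype.card ι : ℝ) ^ 2 * n2 (EK e (star A₀ * e β β * A₀)) ^ 2) := by
  set g := star A₀ * e β β * A₀ with hg
  have hgs : star g = g := by simp [hg, he.star, mul_assoc]
  have hK : (0 : ℝ) < Fintype.card ι := by exact_mod_cast MU.card_pos he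
  have hn : n2 g ^ 2 = (Fintype.card ι : ℝ)⁻¹ := by
    rw [hg, n2_mul_unitary hA, n2_unitary_mul (Unitary.star_mem hA), n2_e_sq he]
  let X : Des ι → A := fun d => star (du e d) * g * du e d
  have hX : ∀ d, star (X d) = X d := fun d => by simp [X, hgs, mul_assoc]
  have h1 : ∀ ω : ι → Des ι, n2 (star (crY e A₀ β ω) * crY e A₀ β ω) ^ 2 =
      ∑ α, ∑ α', (τ (X (ω α) * X (ω α'))).re := by
    intro ω
    rw [n2_sq, cr_h he, star_sum, Finset.sum_mul_sum]
    simp only [map_sum, Complex.re_sum]
    refine Finset.sum_congr rfl fun α _ => Finset.sum_congr rfl fun α' _ => ?_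
    rw [hX]
  have h2 : ∀ α α', ∑ ω : ι → Des ι, (τ (X (ω α) * X (ω α'))).re ≤ Fintype.card (ι → Des ι) *
      ((if α' = α then (Fintype.card ι : ℝ)⁻¹ else 0) + n2 (EK e g) ^ 2) := by
    intro α α'
    split_ifs with hα
    · subst hα
      have : ∀ ω : ι → Des ι, (τ (X (ω α') * X (ω α'))).re = (Fintype.card ι : ℝ)⁻¹ := by
        intro ω
        have h3 := n2_sq (X (ω α'))
        rw [hX] at h3
        rw [← h3, n2_mul_unitary (du_mem he _).1, n2_unitary_mul (Unitary.star_mem (du_mem he _).1), hn]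
      simp only [this, Finset.sum_const, Finset.card_univ, nsmul_eq_mul]
      gcongr
      exact le_add_of_nonneg_right (by positivity)
    · have e1 : ∑ ω : ι → Des ι, τ (X (ω α) * X (ω α')) = ∑ ω : ι → Des ι, τ (EK e g * X (ω α')) := by
        refine cr_cond α fun ω => ?_
        simp only [Function.update_self, Function.update_of_ne hα]
        rw [← map_sum, ← Finset.sum_mul, cr_sum_conj he, smul_mul_assoc, map_smul]
      have e2 : ∑ ω : ι → Des ι, τ (EK e g * X (ω α')) = ∑ _ω : ι → Des ι, τ (EK e g * EK e g) := by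
        refine cr_cond α' fun ω => ?_
        simp only [Function.update_self]
        rw [← map_sum, ← Finset.mul_sum, cr_sum_conj he, mul_smul_comm, map_smul]
      have e3 : (τ (EK e g * EK e g)).re = n2 (EK e g) ^ 2 := by
        rw [n2_sq, EK_star he, hgs]
      rw [← Complex.re_sum, e1, e2, Complex.re_sum]
      simp only [e3, Finset.sum_const, Finset.card_univ, nsmul_eq_mul, zero_add, le_refl]
  simp only [h1]
  rw [Finset.sum_comm]
  calc _ ≤ ∑ α : ι, ∑ α' : ι, (Fintype.card (ι → Des ι) : ℝ) *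
      ((if α' = α then (Fintype.card ι : ℝ)⁻¹ else 0) + n2 (EK e g) ^ 2) := by
        refine Finset.sum_le_sum fun α _ => ?_
        rw [Finset.sum_comm]
        exact Finset.sum_le_sum fun α' _ => h2 α α'
    _ = _ := by
        simp only [← Finset.mul_sum, Finset.sum_add_distrib, Finset.sum_ite_eq', Finset.mem_univ,
          if_true, Finset.sum_const, Finset.card_univ, nsmul_eq_mul]
        rw [mul_inv_cancel₀ hK.ne']
        ring

end Crest.Agent.R121
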