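import Crest.Agent.R121.MUb
import Crest.Agent.R121.LGT
import Crest.Agent.R121.CrossAux

/-! Row 121: the crossing term -/

set_option autoImplicit false
set_option linter.unusedSectionVars false

namespace Crest.Agent.R121

open Crest.Agent.R95 Crest.Agent.R124 MeasureTheory Filter Topology
open scoped InnerProductSpace BigOperators ComplexConjugate

variable {A : Type*} [CStarAlgebra A] [Tr A] {ι : Type*} [Fintype ι] [DecidableEq ι]
  {e : ι → ι → A} {B : A →L[ℂ] A →L[ℂ] ℂ} {Λ ε Λ' : ℝ}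

/-- The form `(p, c) ↦ B (Y p R) (L c Z)`. -/
noncomputable def conjB (B : A →L[ℂ] A →L[ℂ] ℂ) (Y R L Z : A) : A →L[ℂ] A →L[ℂ] ℂ :=
  B.bilinearComp (ContinuousLinearMap.mulLeftRight ℂ A Y R) (ContinuousLinearMap.mulLeftRight ℂ A L Z)

@[simp] lemma conjB_apply (B : A →L[ℂ] A →L[ℂ] ℂ) (Y R L Z p c : A) :
    conjB B Y R L Z p c = B (Y * p * R) (L * c * Z) := by
  simp [conjB]

section Order
attribute [local instance] CStarAlgebra.spectralOrder CStarAlgebra.spectralOrderedRing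

lemma cr_star_mul_le_one {L : A} (hL : ‖L‖ ≤ 1) : star L * L ≤ 1 := by
  rw [← CStarAlgebra.norm_le_one_iff_of_nonneg _ (star_mul_self_nonneg L),
    CStarRing.norm_star_mul_self]
  exact mul_le_one₀ hL (norm_nonneg _) hL

lemma cr_col {κ : Type*} [Fintype κ] {c : κ → A} (hc : ∑ i, star (c i) * c i ≤ 1) {L Z : A}
    (hL : ‖L‖ ≤ 1) (hZ : ‖Z‖ ≤ 1) : ∑ i, star (L * c i * Z) * (L * c i * Z) ≤ 1 := by
  calc ∑ i, star (L * c i * Z) * (L * c i * Z)
      = star Z * (∑ i, star (c i) * (star L * L) * c i) * Z := by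
        simp [Finset.mul_sum, Finset.sum_mul, mul_assoc]
    _ ≤ star Z * 1 * Z := star_left_conjugate_le_conjugate (le_trans (Finset.sum_le_sum fun i _ => by
        simpa using star_left_conjugate_le_conjugate (cr_star_mul_le_one hL) (c i)) hc) Z
    _ ≤ 1 := by simpa using cr_star_mul_le_one hZ

lemma Adm.conj {κ : Type*} [Fintype κ] {c : κ → A} (hc : Adm c) {L Z : A} (hL : ‖L‖ ≤ 1)
    (hZ : ‖Z‖ ≤ 1) : Adm fun l => L * c l * Z := by
  rw [adm_iff] at hc ⊢
  refine ⟨cr_col hc.1 hL hZ, ?_⟩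
  have := cr_col (c := fun i => star (c i)) (by simpa using hc.2) (L := star Z) (Z := star L)
    (by simpa using hZ) (by simpa using hL)
  simpa [mul_assoc] using this

end Order

lemma cr_norm_unitary {u : A} (hu : u ∈ unitary A) : ‖u‖ = 1 :=
  have := nontrivial_of_tr A
  CStarRing.norm_of_mem_unitary hu

lemma BB.conj (hB : BB B Λ ε Λ') {Y R L Z : A} (hY : Y ∈ unitary A) (hR : R ∈ unitary A)
    (hL : L ∈ unitary A) (hZ : Z ∈ unitary A) : BB (conjB B Y R L Z) Λ ε Λ' := by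
  refine ⟨hB.h0, hB.h1, hB.h2, fun a b c => ?_, fun n p c hc => ?_⟩
  · have := hB.b1 (Y * a) (b * R) (L * c * Z)
    rw [n2_unitary_mul hY, n2_mul_unitary hR, CStarRing.norm_mul_mem_unitary _ hZ,
      CStarRing.norm_mem_unitary_mul _ hL] at this
    simpa only [conjB_apply, mul_assoc] using this
  · have := hB.b2 n (fun l => Y * p l * R) _
      (hc.conj (cr_norm_unitary hL).le (cr_norm_unitary hZ).le)
    simpa only [conjB_apply, n2_unitary_mul hY, n2_mul_unitary hR, n2_unitary_mul hL,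
      n2_mul_unitary hZ] using this

/-- `b1` with `b = 1`. -/
lemma BB.le_left (hB : BB B Λ ε Λ') (p c : A) : ‖B p c‖ ≤ Λ * n2 p * ‖c‖ := by
  simpa using hB.b1 p 1 c

/-- `b2` for a one-element family. -/
lemma BB.le_right (hB : BB B Λ ε Λ') (p : A) {c : A} (hc : ‖c‖ ≤ 1) :
    ‖B p c‖ ≤ n2 p * √(ε + Λ' * n2 c ^ 2) := by
  have h1 : ‖c‖ * ‖c‖ ≤ 1 := mul_le_one₀ hc (norm_nonneg _) hc
  have := hB.b2 1 (fun _ => p) (fun _ => c) ⟨by simpa [CStarRing.norm_star_mul_self] using h1,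
    by simpa [CStarRing.norm_self_mul_star] using h1⟩
  simpa [Real.sqrt_sq (n2_nonneg p)] using this

/-- `b2` for families with row and column sums bounded by `M`. -/
lemma BB.cr_scaled (hB : BB B Λ ε Λ') {κ : Type*} [Fintype κ] (p c : κ → A) {M : ℝ} (hM : 0 < M)
    (h1 : ‖∑ l, star (c l) * c l‖ ≤ M) (h2 : ‖∑ l, c l * star (c l)‖ ≤ M) :
    M⁻¹ * ‖∑ l, B (p l) (c l)‖ ≤
      √(M⁻¹ * ∑ l, n2 (p l) ^ 2) * √(ε + Λ' * (M⁻¹ * ∑ l, n2 (c l) ^ 2)) := by
  obtain ⟨t, ht0, ht⟩ : ∃ t : ℝ, 0 ≤ t ∧ t * t = M⁻¹ :=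
    ⟨√(M⁻¹), Real.sqrt_nonneg _, Real.mul_self_sqrt (by positivity)⟩
  have htc : (t : ℂ) * t = (M⁻¹ : ℝ) := by rw [← ht]; simp
  have hn : ‖((M⁻¹ : ℝ) : ℂ)‖ = M⁻¹ := by
    rw [Complex.norm_real, Real.norm_of_nonneg (by positivity)]
  have hadm : Adm fun l => (t : ℂ) • c l := by
    constructor
    · simp only [star_smul, smul_mul_smul_comm, RCLike.star_def, Complex.conj_ofReal, htc,
        ← Finset.smul_sum, norm_smul, hn]
      rwa [inv_mul_le_iff₀ hM, mul_one]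
    · simp only [star_smul, smul_mul_smul_comm, RCLike.star_def, Complex.conj_ofReal, htc,
        ← Finset.smul_sum, norm_smul, hn]
      rwa [inv_mul_le_iff₀ hM, mul_one]
  have h := hB.b2' (fun l => (t : ℂ) • p l) _ hadm
  have e1 : ∀ x : A, n2 ((t : ℂ) • x) ^ 2 = M⁻¹ * n2 x ^ 2 := fun x => by
    rw [n2_smul, Complex.norm_real, Real.norm_of_nonneg ht0, mul_pow, sq, ht]
  have e2 : ∀ l, B ((t : ℂ) • p l) ((t : ℂ) • c l) = ((M⁻¹ : ℝ) : ℂ) * B (p l) (c l) := fun l => by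
    rw [← htc]; simp [mul_assoc]
  simpa only [e1, e2, ← Finset.mul_sum, norm_mul, hn] using h

/-- `b2` for the families `K^{-1/2} • q * e i j`, `K^{-1/2} • e j i` (`n2_e_sq`;
`∑ᵢⱼ n2 (q eᵢⱼ)² = K n2 q²`). -/
lemma BB.FF_le (he : MU 1 e) (hB : BB B Λ ε Λ') (q : A) :
    ‖FF e fun a b => B (q * b) a‖ ≤ n2 q * √(ε + Λ') := by
  have := nontrivial_of_tr A
  have hK : (0 : ℝ) < Fintype.card ι := by exact_mod_cast MU.card_pos he
  have s1 : ∑ i : ι, ∑ _j : ι, e i i = (Fintype.card ι : ℂ) • (1 : A) := by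
    rw [Finset.sum_comm]
    simp only [he.sum, Finset.sum_const, Finset.card_univ, Nat.cast_smul_eq_nsmul]
  have h := hB.cr_scaled (fun l : ι × ι => q * e l.1 l.2) (fun l => e l.2 l.1) hK
    (by simp [Fintype.sum_prod_type, he.star, he.mul, -Finset.sum_const, s1, norm_smul])
    (by simp [Fintype.sum_prod_type_right, he.star, he.mul, -Finset.sum_const, s1, norm_smul])
  have e1 : ∑ l : ι × ι, n2 (q * e l.1 l.2) ^ 2 = Fintype.card ι * n2 q ^ 2 := by
    have : ∀ i j, n2 (q * e i j) ^ 2 = (τ (star q * q * e i i)).re := by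
      intro i j
      rw [n2_sq, star_mul, mul_assoc, τ_comm, he.star, mul_assoc, mul_assoc, he.mul, if_pos rfl,
        mul_assoc]
    simp only [Fintype.sum_prod_type, this, ← Complex.re_sum, ← map_sum, ← Finset.mul_sum, s1]
    rw [mul_smul_comm, mul_one, map_smul, τ_star_mul_self]
    simp [-Complex.ofReal_pow]
  have e2 : ∑ l : ι × ι, n2 (e l.2 l.1) ^ 2 = Fintype.card ι := by
    simp only [n2_e_sq he, Finset.sum_const, Finset.card_univ, Fintype.card_prod, nsmul_eq_mul]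
    push_cast
    field_simp
  rw [e1, e2, inv_mul_cancel_left₀ hK.ne', inv_mul_cancel₀ hK.ne', mul_one,
    Real.sqrt_sq (n2_nonneg q)] at h
  simpa [FF, Fintype.sum_prod_type] using h

section Order
attribute [local instance] CStarAlgebra.spectralOrder CStarAlgebra.spectralOrderedRing

/-- The properties of the two pieces `y f`, `y (1 - f)`. -/
lemma cr_split (y : A) {c : ℝ} (hc : 0 < c) : ∃ u r : A, y = u + r ∧ ‖u‖ ^ 2 ≤ 2 * c ∧
    star r * r ≤ star y * y ∧ r * star r ≤ y * star y ∧ n2 r ^ 2 ≤ c⁻¹ * n2 (star y * y) ^ 2 := by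
  have := nontrivial_of_tr A
  have h0 : 0 ≤ star y * y := star_mul_self_nonneg y
  obtain ⟨f, f0, f1, fc, fle, fsq, -⟩ := exists_clamp h0 hc
  have hf : star f = f := f0.isSelfAdjoint.star_eq
  have hf' : star (1 - f) = 1 - f := by simp [hf]
  have g0 : 0 ≤ 1 - f := sub_nonneg.2 f1
  have gsq : (1 - f) * (1 - f) ≤ 1 := by
    have := cr_star_mul_le_one (L := 1 - f)
      ((CStarAlgebra.norm_le_one_iff_of_nonneg _ g0).2 (sub_le_self _ f0))
    rwa [hf'] at this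
  refine ⟨y * f, y * (1 - f), by rw [← mul_add]; simp, ?_, ?_, ?_, ?_⟩
  · rw [sq, ← CStarRing.norm_star_mul_self]
    have e1 : star (y * f) * (y * f) = f * (star y * y) * f := by simp [hf, mul_assoc]
    refine (CStarAlgebra.norm_le_norm_of_nonneg_of_le (star_mul_self_nonneg _)
      (e1.trans_le fle)).trans ?_
    rw [norm_smul, norm_one, mul_one, Real.norm_of_nonneg (by positivity)]
  · have hc1 : Commute (1 - f) (star y * y) := (Commute.one_left _).sub_left fc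
    have e1 : star (y * (1 - f)) * (y * (1 - f)) = star y * y * ((1 - f) * (1 - f)) := by
      rw [star_mul, hf', mul_assoc, ← mul_assoc (star y), ← mul_assoc, hc1.eq, mul_assoc]
    have := Commute.mul_nonneg h0 (sub_nonneg.2 gsq)
      ((Commute.one_right _).sub_right (hc1.symm.mul_right hc1.symm))
    rwa [mul_sub, mul_one, sub_nonneg, ← e1] at this
  · have := star_right_conjugate_le_conjugate gsq y
    simpa [hf, mul_assoc] using this
  · have h1 := τ_re_mono (star_right_conjugate_le_conjugate fsq y)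
    rw [mul_smul_comm, smul_mul_assoc, τ_rsmul, Complex.re_ofReal_mul] at h1
    rw [← n2_star, n2_sq, n2_sq, star_star, star_mul, hf', star_mul, star_star, mul_assoc (star y),
      τ_comm (star y)]
    simpa only [mul_assoc] using h1

end Order

/-- PROOF.  Sample space `Ω = ι → Des ι` (independent design unitaries `s α = du e (ω α)`),
`y β = ∑_α e α β * A₀ * s α`, `z β = ∑_α e β α * C * (s α)*`.  Since `𝔼 s = 0` (`sum_du`) and
`𝔼 G s s* = FF G` (`sum_du_bil`), for bilinear `G` and linear maps `Lα, Lα'`: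
`𝔼_ω G (∑ Lα (s α)) (∑ L'α (s α)*) = ∑_α FF fun a b => G (Lα a) (L'α b)`.
Hence the quantity is `K⁻¹ ∑_β 𝔼_ω B (z β) (y β)`, `𝔼 n2 (z β)² = 1`, `∑_β (y β)* (y β) = K • 1`,
`𝔼 ∑_β (y β) (y β)* = K • 1`.  Let `h = y* y = ∑_α (s α)* g (s α)`, `g = A₀* e β β A₀`,
`𝔼 τ (h²) = K τ g + K (K-1) n2 (EK g)² ≤ 1 + K² n2 (EK g)²`.  `f` from `exists_clamp h (ϑ K)`.
`‖y f‖² ≤ 2 ϑ K`, so `‖B z (y f)‖ = ‖B (e β β * z) (y f)‖ ≤ Λ K^{-1/2} n2 z √(2 ϑ K)` (`b1`), average
`≤ Λ √(2ϑ)`.  For `r = y (1 - f)` use `b2'` with the family indexed by `(β, ω)`,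
`c = (K |Ω|)^{-1/2} • r`, `p = (K |Ω|)^{-1/2} • z`: `r* r ≤ y* y`, `r r* ≤ y y*`,
`n2 r² = τ (y (1-f)² y*) ≤ τ (h²) / (ϑ K)`. -/
theorem cross (he : MU 1 e) (hB : BB B Λ ε Λ') {A₀ C : A} (hA : A₀ ∈ unitary A)
    (hC : C ∈ unitary A) {ϑ : ℝ} (hϑ : 0 < ϑ) :
    ‖FF e fun a b => FF e fun a' b' => B (b * C * b') (a * A₀ * a')‖ ≤
      Λ * √(2 * ϑ) + √(ε + Λ' * ((Fintype.card ι : ℝ)⁻¹ + theta e A₀) / ϑ) := by
  let _ := CStarAlgebra.spectralOrder A
  have _ := CStarAlgebra.spectralOrderedRing A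
  have := nontrivial_of_tr A
  have hK : (0 : ℝ) < Fintype.card ι := by exact_mod_cast MU.card_pos he
  have hN : (0 : ℝ) < Fintype.card (ι → Des ι) := by exact_mod_cast Fintype.card_pos
  set K : ℝ := (Fintype.card ι : ℝ) with hKd
  set N : ℝ := (Fintype.card (ι → Des ι) : ℝ) with hNd
  have hM : 0 < K * N := mul_pos hK hN
  let y : ι × (ι → Des ι) → A := fun p => crY e A₀ p.1 p.2
  let z : ι × (ι → Des ι) → A := fun p => crZ e C p.1 p.2
  choose u r hy hu hr1 hr2 hr3 using fun p => cr_split (y p) (mul_pos hϑ hK)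
  have hQ : ‖FF e fun a b => FF e fun a' b' => B (b * C * b') (a * A₀ * a')‖ =
      (K * N)⁻¹ * ‖∑ p, B (z p) (u p) + ∑ p, B (z p) (r p)‖ := by
    have h1 : ∑ p, B (z p) (u p) + ∑ p, B (z p) (r p) = ∑ p, B (z p) (y p) := by
      rw [← Finset.sum_add_distrib]
      exact Finset.sum_congr rfl fun p _ => by rw [← map_add, ← hy]
    rw [h1, Fintype.sum_prod_type]
    simp only [y, z, cr_B he, ← Finset.smul_sum]
    rw [FF, norm_smul, norm_smul, norm_inv, Complex.norm_natCast, Complex.norm_natCast, ← hKd,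
      ← hNd]
    field_simp
  have hz : ∑ p, n2 (z p) ^ 2 = K * N := by
    rw [Fintype.sum_prod_type]
    simp only [z, cr_Z2 he hC, Finset.sum_const, Finset.card_univ, nsmul_eq_mul]
    rfl
  have hcard : (Fintype.card (ι × (ι → Des ι)) : ℝ) = K * N := by
    rw [Fintype.card_prod, Nat.cast_mul]
  have hΛ := hB.h0
  have hΛ' := hB.h2
  have t1 : ‖∑ p, B (z p) (u p)‖ ≤ K * N * (Λ * √(2 * ϑ)) := by
    have hp : ∀ p, ‖B (z p) (u p)‖ ≤ Λ * √(2 * ϑ) * ((1 + n2 (z p) ^ 2) / 2) := by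
      intro p
      have h1 := hB.b1 (e p.1 p.1) (z p) (u p)
      rw [cr_e_mul_Z he] at h1
      have h2 : n2 (e p.1 p.1) * ‖u p‖ ≤ √(2 * ϑ) := by
        refine Real.le_sqrt_of_sq_le ?_
        rw [mul_pow, n2_e_sq he, ← hKd, inv_mul_le_iff₀ hK]
        linarith [hu p]
      have h3 : n2 (z p) ≤ (1 + n2 (z p) ^ 2) / 2 := by nlinarith [sq_nonneg (n2 (z p) - 1)]
      have h4 := n2_nonneg (z p)
      calc _ ≤ Λ * (n2 (e p.1 p.1) * ‖u p‖) * n2 (z p) := h1.trans_eq (by ring)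
        _ ≤ _ := by gcongr
    refine (norm_sum_le _ _).trans ((Finset.sum_le_sum fun p _ => hp p).trans_eq ?_)
    rw [← Finset.mul_sum, ← Finset.sum_div, Finset.sum_add_distrib, hz, Finset.sum_const,
      Finset.card_univ, nsmul_eq_mul, hcard]
    ring
  have n1 : ‖∑ p, star (r p) * r p‖ ≤ K * N := by
    refine (CStarAlgebra.norm_le_norm_of_nonneg_of_le
      (Finset.sum_nonneg fun p _ => star_mul_self_nonneg _)
      (Finset.sum_le_sum fun p _ => hr1 p)).trans_eq ?_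
    rw [Fintype.sum_prod_type_right]
    simp only [y, cr_sum_h he hA, Finset.sum_const, Finset.card_univ, ← Nat.cast_smul_eq_nsmul ℂ,
      norm_smul, Complex.norm_natCast, norm_one, mul_one]
    exact mul_comm _ _
  have n2' : ‖∑ p, r p * star (r p)‖ ≤ K * N := by
    refine (CStarAlgebra.norm_le_norm_of_nonneg_of_le
      (Finset.sum_nonneg fun p _ => mul_star_self_nonneg _)
      (Finset.sum_le_sum fun p _ => hr2 p)).trans_eq ?_
    rw [Fintype.sum_prod_type]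
    simp only [y, cr_YY he hA, Finset.sum_const, Finset.card_univ, ← Nat.cast_smul_eq_nsmul ℂ,
      norm_smul, Complex.norm_natCast, norm_one, mul_one]
    rfl
  have n3 : (K * N)⁻¹ * ∑ p, n2 (r p) ^ 2 ≤ (K⁻¹ + theta e A₀) / ϑ := by
    have h1 : ∑ p, n2 (r p) ^ 2 ≤ (ϑ * K)⁻¹ * (N * (K + K ^ 2 * theta e A₀)) := by
      refine (Finset.sum_le_sum fun p _ => hr3 p).trans ?_
      rw [← Finset.mul_sum, Fintype.sum_prod_type]
      gcongr
      refine (Finset.sum_le_sum fun β _ => cr_h2 he hA β).trans_eq ?_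
      rw [← Finset.mul_sum, Finset.sum_add_distrib, ← Finset.mul_sum, theta]
      simp [hKd, hNd]
    calc _ ≤ (K * N)⁻¹ * ((ϑ * K)⁻¹ * (N * (K + K ^ 2 * theta e A₀))) := by gcongr
      _ = _ := by field_simp
  have t2 := hB.cr_scaled z r hM n1 n2'
  rw [hz, inv_mul_cancel₀ hM.ne', Real.sqrt_one, one_mul] at t2
  rw [hQ, mul_div_assoc]
  calc _ ≤ (K * N)⁻¹ * (‖∑ p, B (z p) (u p)‖ + ‖∑ p, B (z p) (r p)‖) := by
        gcongr
        exact norm_add_le _ _
    _ ≤ Λ * √(2 * ϑ) + √(ε + Λ' * ((K * N)⁻¹ * ∑ l, n2 (r l) ^ 2)) := by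
        rw [mul_add]
        refine add_le_add ?_ t2
        rwa [inv_mul_le_iff₀ hM]
    _ ≤ _ := by gcongr

end Crest.Agent.R121
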