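import Crest.Agent.R121.Defs
import Crest.Agent.R124.Trace

/-! Row 121: finite / properly infinite decomposition, finite covers -/

set_option autoImplicit false
set_option linter.unusedSectionVars false

namespace Crest.Agent.R121

open Crest.Agent.R95 Crest.Agent.R124 MeasureTheory Filter Topology
open scoped InnerProductSpace BigOperators ComplexConjugate

variable {K : Type*} [NormedAddCommGroup K] [InnerProductSpace ℂ K] [CompleteSpace K]

lemma CP.comm {P : VonNeumannAlgebra K} {z x : K →L[ℂ] K} (hz : CP P z) (hx : x ∈ P) :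
    z * x = x * z := (comm_of_mem hx hz.com).symm

lemma CP.idem {P : VonNeumannAlgebra K} {z : K →L[ℂ] K} (hz : CP P z) : z * z = z :=
  hz.proj.isIdempotentElem

lemma CP.star_eq {P : VonNeumannAlgebra K} {z : K →L[ℂ] K} (hz : CP P z) : star z = z :=
  hz.proj.isSelfAdjoint.star_eq

lemma CP.mul_mul {P : VonNeumannAlgebra K} {z y : K →L[ℂ] K} (hz : CP P z) (hy : y ∈ P)
    (x : K →L[ℂ] K) : x * z * (y * z) = x * y * z := by
  rw [mul_assoc, ← mul_assoc z, hz.comm hy, mul_assoc y, hz.idem, mul_assoc]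

lemma CP.star_mul {P : VonNeumannAlgebra K} {z x : K →L[ℂ] K} (hz : CP P z) (hx : x ∈ P) :
    star (x * z) = star x * z := by
  rw [StarMul.star_mul, hz.star_eq, hz.comm (star_mem hx)]

lemma CP.one_sub {P : VonNeumannAlgebra K} {z : K →L[ℂ] K} (hz : CP P z) : CP P (1 - z) :=
  ⟨sub_mem (one_mem _) hz.mem, sub_mem (one_mem _) hz.com, hz.proj.one_sub⟩

lemma CP.mul {P : VonNeumannAlgebra K} {z z' : K →L[ℂ] K} (hz : CP P z) (hz' : CP P z') :
    CP P (z * z') :=
  ⟨mul_mem hz.mem hz'.mem, mul_mem hz.com hz'.com, hz.proj.mul hz'.proj (hz.comm hz'.mem)⟩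

lemma CP.sub {P : VonNeumannAlgebra K} {z z' : K →L[ℂ] K} (hz : CP P z) (hz' : CP P z')
    (h : z * z' = z') : CP P (z - z') :=
  ⟨sub_mem hz.mem hz'.mem, sub_mem hz.com hz'.com, hz'.proj.sub_of_mul_eq_right hz.proj h⟩

lemma mul_hasSum_eq {ι : Type*} {v : ι → K →L[ℂ] K} {s t t' : K →L[ℂ] K}
    (hs : ∀ ζ, HasSum (fun i => v i ζ) (s ζ)) (h : ∀ i, t * v i = t' * v i) : t * s = t' * s := by
  ext ζ
  refine ((hs ζ).mapL t).unique ?_
  have h3 : (fun j => t (v j ζ)) = fun j => t' (v j ζ) := funext fun j => congr($(h j) ζ)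
  rw [h3]; exact (hs ζ).mapL t'

lemma hasSum_mul_eq {ι : Type*} {v : ι → K →L[ℂ] K} {s t t' : K →L[ℂ] K}
    (hs : ∀ ζ, HasSum (fun i => v i ζ) (s ζ)) (h : ∀ i, v i * t = v i * t') : s * t = s * t' := by
  ext ζ
  refine (hs (t ζ)).unique ?_
  have h3 : (fun j => v j (t ζ)) = fun j => v j (t' ζ) := funext fun j => congr($(h j) ζ)
  rw [h3]; exact hs (t' ζ)

/-- The sum of the final projections of a column. -/
lemma col_proj {R : Type*} [Ring R] [StarRing R] {ι : Type*} [Fintype ι] [DecidableEq ι]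
    (w : ι → R) {g : R} (hw : ∀ i j, star (w i) * w j = if i = j then g else 0)
    (hg : ∀ i, w i * g = w i) :
    IsStarProjection (∑ i, w i * star (w i)) ∧ ∀ j, (∑ i, w i * star (w i)) * w j = w j := by
  have h1 : ∀ j, (∑ i, w i * star (w i)) * w j = w j := fun j => by
    rw [Finset.sum_mul, Finset.sum_eq_single j]
    · rw [mul_assoc, hw, if_pos rfl, hg]
    · intro i _ hi
      rw [mul_assoc, hw, if_neg hi, mul_zero]
    · simp
  refine ⟨⟨?_, ?_⟩, h1⟩
  · rw [IsIdempotentElem]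
    conv_lhs => rw [Finset.mul_sum]
    exact Finset.sum_congr rfl fun j _ => by rw [← mul_assoc, h1]
  · rw [IsSelfAdjoint, star_sum]; simp

/-- Powers of an isometry applied to a wandering element. -/
lemma pow_orth {R : Type*} [Ring R] [StarRing R] {f v g : R} (h1 : star v * v = f)
    (h2 : f * v = v) (hfg : f * g = g) (hgv : star g * v = 0) (i j : ℕ) :
    star (v ^ i * g) * (v ^ j * g) = if i = j then star g * g else 0 := by
  have e1 : ∀ (k : ℕ) (u : R), f * u = u → f * (v ^ k * u) = v ^ k * u := by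
    intro k u hu
    cases k with
    | zero => simpa using hu
    | succ k => rw [pow_succ', mul_assoc, ← mul_assoc f, h2]
  have e2 : ∀ (k : ℕ) (u : R), f * u = u → star (v ^ k) * (v ^ k * u) = u := by
    intro k u hu
    induction k with
    | zero => simp
    | succ k ih =>
      rw [pow_succ', star_mul, mul_assoc, mul_assoc v, ← mul_assoc (star v), h1, e1 k u hu, ih]
  have e3 : ∀ i j : ℕ, i < j → star (v ^ i * g) * (v ^ j * g) = 0 := by
    intro i j hij
    obtain ⟨k, rfl⟩ := Nat.exists_eq_add_of_lt hij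
    rw [star_mul, add_assoc, pow_add, mul_assoc, mul_assoc (v ^ i), e2 i _ (e1 _ _ hfg),
      pow_succ', ← mul_assoc, ← mul_assoc, hgv, zero_mul, zero_mul]
  rcases lt_trichotomy i j with hij | rfl | hij
  · rw [if_neg hij.ne]; exact e3 i j hij
  · rw [if_pos rfl, star_mul, mul_assoc, e2 _ _ hfg]
  · rw [if_neg hij.ne']
    have e4 := congr(star $(e3 j i hij))
    rwa [star_mul, star_star, star_zero] at e4

/-- Doubled projections. -/
def Dbl (P : VonNeumannAlgebra K) (g : K →L[ℂ] K) : Prop :=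
  IsStarProjection g ∧ ∃ a ∈ P, ∃ b ∈ P, star a * a = g ∧ star b * b = g ∧ star a * b = 0 ∧
    g * a = a ∧ g * b = b

lemma Dbl.mem {P : VonNeumannAlgebra K} {g : K →L[ℂ] K} (h : Dbl P g) : g ∈ P := by
  obtain ⟨-, a, ha, -, -, h1, -⟩ := h
  exact h1 ▸ mul_mem (star_mem ha) ha

lemma Dbl.eq_zero {P : VonNeumannAlgebra K} {f g : K →L[ℂ] K} (h : Dbl P g) (hfin : FinP P f)
    (hf : f ∈ P) (hf' : IsStarProjection f) (hfg : f * g = g) : g = 0 := by
  have hg := hfin.sub hf hf' h.mem h.1 hfg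
  obtain ⟨-, a, ha, b, -, h1, h2, h3, h4, h5⟩ := h
  have h6 : b = 0 := by rw [← h5, ← hg a ha h1 h4, mul_assoc, h3, mul_zero]
  rw [← h2, h6, mul_zero]

lemma Dbl.central {P : VonNeumannAlgebra K} {g z : K →L[ℂ] K} (h : Dbl P g) (hz : CP P z) :
    Dbl P (g * z) := by
  have hg := h.mem
  obtain ⟨hp, a, ha, b, hb, h1, h2, h3, h4, h5⟩ := h
  refine ⟨hp.mul hz.proj (hz.comm hg).symm, a * z, mul_mem ha hz.mem, b * z, mul_mem hb hz.mem,
    ?_, ?_, ?_, ?_, ?_⟩
  · rw [hz.star_mul ha, hz.mul_mul ha, h1]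
  · rw [hz.star_mul hb, hz.mul_mul hb, h2]
  · rw [hz.star_mul ha, hz.mul_mul hb, h3, zero_mul]
  · rw [hz.mul_mul ha, h4]
  · rw [hz.mul_mul hb, h5]

lemma Dbl.equiv {P : VonNeumannAlgebra K} {u : K →L[ℂ] K} (hu : u ∈ P) (hu' : PI u)
    (h : Dbl P (u * star u)) : Dbl P (star u * u) := by
  obtain ⟨-, a, ha, b, hb, h1, h2, h3, h4, h5⟩ := h
  have k : ∀ x y : K →L[ℂ] K, u * star u * y = y →
      star (star u * x * u) * (star u * y * u) = star u * (star x * y) * u := fun x y hy => by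
    conv_rhs => rw [← hy]
    simp only [star_mul, star_star, mul_assoc]
  have k2 : star u * (u * star u) * u = star u * u := by rw [mul_assoc, hu']
  have k3 : ∀ x : K →L[ℂ] K, star u * u * (star u * x * u) = star u * x * u := fun x => by
    have := hu'.star
    rw [PI, star_star] at this
    rw [← mul_assoc, ← mul_assoc, this]
  refine ⟨hu'.proj_right, star u * a * u, mul_mem (mul_mem (star_mem hu) ha) hu,
    star u * b * u, mul_mem (mul_mem (star_mem hu) hb) hu, ?_, ?_, ?_, k3 a, k3 b⟩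
  · rw [k a a h4, h1, k2]
  · rw [k b b h5, h2, k2]
  · rw [k a b h5, h3, mul_zero, zero_mul]

/-- An infinite column gives a doubled projection. -/
lemma dbl_of_seq {P : VonNeumannAlgebra K} {e : K →L[ℂ] K} (w : ℕ → K →L[ℂ] K)
    (hwP : ∀ i, w i ∈ P) (hw : ∀ i j, star (w i) * w j = if i = j then e else 0)
    (he : ∀ i, w i * e = w i) :
    ∃ G, Dbl P G ∧ G * w 0 = w 0 ∧ ∀ q : K →L[ℂ] K, (∀ i, q * w i = w i) → q * G = G := by
  have hpi : ∀ i, PI (w i) := fun i => by rw [PI, mul_assoc, hw, if_pos rfl, he]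
  obtain ⟨G, hGP, hG, hGs, -⟩ := exists_sum_proj (P := P) (fun i => w i * star (w i))
    (fun i => mul_mem (hwP i) (star_mem (hwP i))) (fun i => (hpi i).proj_left) (fun i j h => by
      change w i * star (w i) * (w j * star (w j)) = 0
      rw [mul_assoc, ← mul_assoc (star (w i)), hw, if_neg h, zero_mul, mul_zero])
  have hGw : ∀ k, G * w k = w k := fun k => by
    have h1 : star (w k) * G = star (w k) * (w k * star (w k)) :=
      mul_eq_of_hasSum (v := fun i => w i * star (w i)) hGs fun i hi => by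
        rw [← mul_assoc, hw, if_neg hi.symm, zero_mul]
    have h2 := (hpi k).star.mul_right
    rw [star_star] at h2
    rw [h2] at h1
    simpa [hG.isSelfAdjoint.star_eq] using congr(star $h1)
  have hm : ∀ a b c d, star (w a * star (w b)) * (w c * star (w d)) =
      if a = c then w b * star (w d) else 0 := fun a b c d => by
    rw [star_mul, star_star, mul_assoc, ← mul_assoc (star (w a)), hw]
    split_ifs
    · rw [← mul_assoc, he]
    · rw [zero_mul, mul_zero]
  have key : ∀ φ : ℕ → ℕ, Function.Injective φ → ∃ s ∈ P, star s * s = G ∧ G * s = s ∧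
      (∀ ζ, HasSum (fun i => (w (φ i) * star (w i)) ζ) (s ζ)) ∧
      ∀ ζ, HasSum (fun i => star (w (φ i) * star (w i)) ζ) (star s ζ) := fun φ hφ => by
    obtain ⟨s, hsP, -, h1, h2, h3, -⟩ := exists_sum_pi (P := P) (fun i => w (φ i) * star (w i))
      (fun i => mul_mem (hwP _) (star_mem (hwP i)))
      (fun i => by rw [PI, mul_assoc, hm, if_pos rfl, mul_assoc, ← mul_assoc (star (w i)), hw,
        if_pos rfl, ← mul_assoc, he])
      (fun i j h => ⟨by rw [hm, if_neg (hφ.ne h)], by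
        rw [star_mul, star_star, mul_assoc, ← mul_assoc (star (w i)), hw, if_neg h, zero_mul,
          mul_zero]⟩)
    refine ⟨s, hsP, ?_, ?_, h1, h2⟩
    · ext ζ
      refine (h3 ζ).unique ?_
      simp only [hm, if_true]
      exact hGs ζ
    · have := mul_hasSum_eq (t := G) (t' := 1) h1 fun i => by rw [← mul_assoc, hGw, one_mul]
      rwa [one_mul] at this
  obtain ⟨a, ha, a1, a2, -, a4⟩ := key (fun n => 2 * n) fun i j h => by simpa using h
  obtain ⟨b, hb, b1, b2, b3, -⟩ := key (fun n => 2 * n + 1) fun i j h => by simpa using h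
  refine ⟨G, ⟨hG, a, ha, b, hb, a1, b1, ?_, a2, b2⟩, hGw 0, fun q hq => ?_⟩
  · have := hasSum_mul_eq (t := b) (t' := 0) a4 fun i => by
      rw [mul_zero, mul_hasSum_eq (t' := 0) b3 fun j => by
        rw [hm, if_neg (by omega), zero_mul], zero_mul]
    rwa [mul_zero] at this
  · have := mul_hasSum_eq (t := q) (t' := 1) hGs fun i => by rw [← mul_assoc, hq, one_mul]
    rwa [one_mul] at this

/-- A maximal doubled projection. -/
lemma exists_max_dbl (P : VonNeumannAlgebra K) :
    ∃ G, Dbl P G ∧ ∀ p, Dbl P p → G * p = 0 → p = 0 := by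
  obtain ⟨V, hV, hVo, hmax⟩ := exists_maximal_pairwise (Dbl P) (fun g g' => g * g' = 0)
  choose a ha b hb h1 h2 h3 h4 h5 using fun g : V => (hV g g.2).2
  have hp : ∀ g : V, IsStarProjection (g : K →L[ℂ] K) := fun g => (hV g g.2).1
  have ho : Pairwise fun i j : V => (i : K →L[ℂ] K) * j = 0 :=
    fun i j h => hVo i.2 j.2 (fun h' => h (Subtype.ext h'))
  obtain ⟨G, hGP, hG, hGs, -⟩ := exists_sum_proj (P := P) (fun g : V => (g : K →L[ℂ] K))
    (fun g => (hV g g.2).mem) hp ho
  have hGg : ∀ g : V, G * g = g := fun g => by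
    have h6 : (g : K →L[ℂ] K) * G = g * g :=
      mul_eq_of_hasSum (v := fun g : V => (g : K →L[ℂ] K)) hGs fun i hi => ho hi.symm
    rw [(hp g).isIdempotentElem] at h6
    simpa only [(hp g).isSelfAdjoint.star_eq] using mul_star_of_mul hG h6
  have hm : ∀ (c d : V → K →L[ℂ] K), (∀ g : V, (g : K →L[ℂ] K) * c g = c g) →
      (∀ g : V, (g : K →L[ℂ] K) * d g = d g) → ∀ i j, i ≠ j → star (c i) * d j = 0 :=
    fun c d hc hd i j h => by
      rw [← star_mul_of_mul (hp i) (hc i), ← hd j, mul_assoc, ← mul_assoc (i : K →L[ℂ] K), ho h,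
        zero_mul, mul_zero]
  have key : ∀ c : V → K →L[ℂ] K, (∀ g, c g ∈ P) → (∀ g, star (c g) * c g = g) →
      (∀ g : V, (g : K →L[ℂ] K) * c g = c g) → ∃ s ∈ P, star s * s = G ∧ G * s = s ∧
      (∀ ζ, HasSum (fun i => c i ζ) (s ζ)) ∧ ∀ ζ, HasSum (fun i => star (c i) ζ) (star s ζ) := by
    intro c hc k1 k2
    have hpi : ∀ g, PI (c g) := fun g => PI.of_star_mul (k1 g ▸ (hp g).isIdempotentElem)
    have k3 : ∀ g, c g * g = c g := fun g => by
      conv_lhs => rw [← k1]
      exact (hpi g).mul_right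
    obtain ⟨s, hsP, -, s1, s2, s3, -⟩ := exists_sum_pi (P := P) c hc hpi fun i j h =>
      ⟨hm c c k2 k2 i j h, by
        rw [← k3 i, ← mul_star_of_mul (hp j) (k3 j), mul_assoc, ← mul_assoc (i : K →L[ℂ] K), ho h,
          zero_mul, mul_zero]⟩
    refine ⟨s, hsP, ?_, ?_, s1, s2⟩
    · ext ζ
      refine (s3 ζ).unique ?_
      simp only [k1]
      exact hGs ζ
    · have := mul_hasSum_eq (t := G) (t' := 1) s1 fun i => by
        rw [one_mul, ← k2 i, ← mul_assoc, hGg]
      rwa [one_mul] at this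
  obtain ⟨A, hA, a1, a2, -, a4⟩ := key a ha h1 h4
  obtain ⟨B, hB, b1, b2, b3, -⟩ := key b hb h2 h5
  refine ⟨G, ⟨hG, A, hA, B, hB, a1, b1, ?_, a2, b2⟩, fun p hp' h0 => ?_⟩
  · have := hasSum_mul_eq (t := B) (t' := 0) a4 fun i => by
      rw [mul_zero, mul_eq_of_hasSum (j := i) b3 fun j hj => hm a b h4 h5 i j hj.symm, h3]
    rwa [mul_zero] at this
  · have hrel : ∀ g ∈ V, g * p = 0 := fun g hg => by
      have h6 := proj_mul_comm hG (hp ⟨g, hg⟩) (hGg ⟨g, hg⟩)
      simp only at h6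
      rw [← h6, mul_assoc, h0, mul_zero]
    have hmem := hmax p hp' fun g hg => ⟨hrel g hg, by
      simpa [hp'.1.isSelfAdjoint.star_eq, (hV g hg).1.isSelfAdjoint.star_eq] using
        congr(star $(hrel g hg))⟩
    rw [← hp'.1.isIdempotentElem.eq, hrel p hmem]

/-- PROOF.  Call a projection `g ∈ P` doubled if there are `a, b ∈ P` with `a* a = b* b = g`, `a* b = 0`,
`g a = a`, `g b = b`.  Take a maximal orthogonal family of nonzero doubled projections
(`exists_maximal_pairwise`); its sum `g` is doubled (`exists_sum_pi`), and `r = 1 - g` has no nonzero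
doubled subprojection.  `z` = central support of `g`.  `exists_compare (p := r z) (g := g)` gives
`v, z'`: `g z' = v v* z'` is doubled and equivalent to `v* v z' ≤ r`, which is then doubled, so
`g z' = 0`, `z z' = 0`, and `r z = v* v`.  `t = a + b v` has `t* t = z`, `g t = t`; `s₁ = a t`, `s₂ = b t`
are isometries of `z` with orthogonal ranges; `s i = s₂^i s₁`.  Finiteness of `1 - z ≤ r`: if
`v* v = 1 - z`, `g' = 1 - z - v v* ≠ 0`, then `G = ∑ₙ vⁿ g' v*ⁿ` is doubled by `∑ v^(2n) g' v*ⁿ` and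
`∑ v^(2n+1) g' v*ⁿ`. -/
theorem exists_inf_fin (P : VonNeumannAlgebra K) :
    ∃ z, CP P z ∧ FinP P (1 - z) ∧ ∀ h : ℕ, ∃ s : Fin h → K →L[ℂ] K, (∀ i, s i ∈ P) ∧
      (∀ i j, star (s i) * s j = if i = j then z else 0) ∧ ∀ i, s i * z = s i := by
  obtain ⟨G, hG, hmax⟩ := exists_max_dbl P
  have hGP := hG.mem
  have hG' := hG.1
  have hGG : G * G = G := hG'.isIdempotentElem
  obtain ⟨z, hzP, hzc, hz', hzG, hz0⟩ := exists_central_support hGP
  have hz : CP P z := ⟨hzP, hzc, hz'⟩
  have hGz : G * z = G := by rw [← hz.comm hGP, hzG]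
  have hrP : 1 - G ∈ P := sub_mem (one_mem _) hGP
  obtain ⟨v, hv, z', hz'P, hz'c, hz'p, hpi, k1, k2, k3, k4⟩ :=
    exists_compare (mul_mem hrP hzP) hGP (hG'.one_sub.mul hz' (hz.comm hrP).symm) hG'
  have hz' : CP P z' := ⟨hz'P, hz'c, hz'p⟩
  have hvG : v * G = 0 := by
    rw [← k2, mul_assoc, mul_assoc, hzG, hG'.one_sub_mul_self, mul_zero]
  have hGv : G * star v = 0 := by simpa [hG'.isSelfAdjoint.star_eq] using congr(star $hvG)
  have hu : PI (v * z') := by
    rw [PI, hz'.star_mul hv, hz'.mul_mul (star_mem hv), hz'.mul_mul hv, hpi]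
  have h1 : v * z' = 0 := by
    refine (CStarRing.star_mul_self_eq_zero_iff _).mp (hmax _ (Dbl.equiv (mul_mem hv hz'P) hu ?_) ?_)
    · rw [hz'.star_mul hv, hz'.mul_mul (star_mem hv), ← k4]
      exact hG.central hz'
    · rw [hz'.star_mul hv, ← mul_assoc G, ← mul_assoc G, hGv, zero_mul, zero_mul]
  have h2 : G * z' = 0 := by
    rw [k4, mul_assoc, ← hz'.comm (star_mem hv), ← mul_assoc, h1, zero_mul]
  have h3 : z' * z = 0 := hz0 _ fun x hx => by
    rw [hz'.comm hx, mul_assoc, hz'.comm hGP, h2, mul_zero]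
  have h4 : star v * v = (1 - G) * z := by
    rw [mul_sub, mul_sub, mul_one, mul_one, mul_assoc (star v), h1, mul_zero, sub_zero, mul_assoc,
      hz.comm hz'P, h3, mul_zero, sub_zero] at k3
    exact k3.symm
  refine ⟨z, hz, fun y hy y1 y2 => ?_, fun h => ?_⟩
  · have hypi : PI y := PI.of_star_mul (y1 ▸ hz.one_sub.proj.isIdempotentElem)
    have hg := proj_sub_left hz.one_sub.proj hypi y2
    have hgP : 1 - z - y * star y ∈ P := sub_mem hz.one_sub.mem (mul_mem hy (star_mem hy))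
    have hgy : (1 - z - y * star y) * y = 0 := by rw [sub_mul, y2, hypi, sub_self]
    have hfg : (1 - z) * (1 - z - y * star y) = 1 - z - y * star y := by
      rw [mul_sub (1 - z) (1 - z), hz.one_sub.idem, ← mul_assoc, y2]
    suffices h : 1 - z - y * star y = 0 from (sub_eq_zero.mp h).symm
    generalize 1 - z - y * star y = g at hg hgP hgy hfg
    have hgs := hg.isSelfAdjoint.star_eq
    obtain ⟨G', hG1, hG2, hG3⟩ := dbl_of_seq (P := P) (e := g) (fun n => y ^ n * g)
      (fun n => mul_mem (pow_mem hy n) hgP)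
      (fun i j => by
        rw [pow_orth y1 y2 hfg (by rw [hgs, hgy]), hgs, hg.isIdempotentElem])
      (fun i => by rw [mul_assoc, hg.isIdempotentElem])
    have h5 : (1 - z) * G' = G' := hG3 _ fun i => by
      rw [← mul_assoc, hz.one_sub.comm (pow_mem hy i), mul_assoc, hfg]
    have h6 : G' = 0 := hmax _ hG1 (by
      rw [← h5, ← mul_assoc, mul_sub, mul_one, hGz, sub_self, zero_mul])
    simpa [h6] using hG2.symm
  · obtain ⟨-, a, ha, b, hb, a1, a2, a3, a4, a5⟩ := hG
    have a3' : star b * a = 0 := by simpa using congr(star $a3)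
    have ht : star (a + b * v) * (a + b * v) = z := by
      rw [star_add, star_mul, add_mul, mul_add, mul_add, a1, ← mul_assoc, a3, zero_mul,
        mul_assoc, a3', mul_zero, mul_assoc, ← mul_assoc (star b), a2, k1, h4, sub_mul, one_mul,
        hGz]
      abel
    have hGt : G * (a + b * v) = a + b * v := by rw [mul_add, ← mul_assoc, a4, a5]
    have htP : a + b * v ∈ P := add_mem ha (mul_mem hb hv)
    generalize a + b * v = t at ht hGt htP
    have m : ∀ x y : K →L[ℂ] K, star (x * t) * (y * t) = star t * (star x * y) * t := fun x y => by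
      simp only [star_mul, mul_assoc]
    have s1 : star (a * t) * (a * t) = z := by rw [m, a1, mul_assoc, hGt, ht]
    have s2 : star (b * t) * (b * t) = z := by rw [m, a2, mul_assoc, hGt, ht]
    have s3 : star (a * t) * (b * t) = 0 := by rw [m, a3, mul_zero, zero_mul]
    have s4 : z * (a * t) = a * t := by rw [← a4, ← mul_assoc, ← mul_assoc, hzG]
    have s5 : z * (b * t) = b * t := by rw [← a5, ← mul_assoc, ← mul_assoc, hzG]
    refine ⟨fun i => (b * t) ^ (i : ℕ) * (a * t),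
      fun i => mul_mem (pow_mem (mul_mem hb htP) _) (mul_mem ha htP), fun i j => ?_, fun i => ?_⟩
    · rw [pow_orth s2 s5 s4 s3, s1]
      simp only [Fin.val_inj]
    · rw [mul_assoc, ← hz.comm (mul_mem ha htP), s4]

/-- PROOF.  Maximal family `V` of `w ∈ P` with `w* w = e`, `z₀ w = w`, pairwise `w* w' = 0`; it is
nonempty, and finite: for a sequence `wₙ` of distinct members, `u = ∑ w_{n+1} wₙ* + (z₀ - ∑ wₙ wₙ*)`
has `u* u = z₀`, `u u* = z₀ - w₀ w₀*`.  `R = z₀ - ∑ w w*`, `exists_compare (p := R) (g := e)` gives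
`v, z'`.  If `e (1 - z') = 0` then `v* z'` extends `V`.  Take `z = z₀ (1 - z')`, `v i = wᵢ z`,
`r = v* z`. -/
theorem exists_cover {P : VonNeumannAlgebra K} {z₀ e : K →L[ℂ] K} (hz₀ : CP P z₀)
    (hfin : FinP P z₀) (he : e ∈ P) (he' : IsStarProjection e) (he0 : e ≠ 0) (hze : z₀ * e = e) :
    ∃ z, CP P z ∧ z₀ * z = z ∧ z * e ≠ 0 ∧ ∃ (n : ℕ) (v : Fin (n + 1) → K →L[ℂ] K) (r : K →L[ℂ] K),
      (∀ i, v i ∈ P) ∧ r ∈ P ∧ PI r ∧ (∀ i j, star (v i) * v j = if i = j then z * e else 0) ∧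
      (∀ i, v i * (z * e) = v i) ∧ (∀ i, star r * v i = 0) ∧ r * (z * e) = r ∧
      ∑ i, v i * star (v i) + r * star r = z := by
  classical
  obtain ⟨V, hV, hVo, hmax⟩ := exists_maximal_pairwise
    (fun w : K →L[ℂ] K => w ∈ P ∧ star w * w = e ∧ z₀ * w = w) (fun w w' => star w * w' = 0)
  have hes := he'.isSelfAdjoint.star_eq
  have hee : e * e = e := he'.isIdempotentElem
  have hwe : ∀ w ∈ V, w * e = w := fun w hw => by
    have h1 := (hV w hw).2.1
    have := (PI.of_star_mul (v := w) (h1 ▸ he'.isIdempotentElem)).mul_right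
    rwa [h1] at this
  have hcol : ∀ {ι : Type} [DecidableEq ι] (W : ι → K →L[ℂ] K), (∀ i, W i ∈ V) →
      Function.Injective W → ∀ i j, star (W i) * W j = if i = j then e else 0 := by
    intro ι _ W hW hi i j
    split_ifs with h
    · rw [h, (hV _ (hW j)).2.1]
    · exact hVo (hW i) (hW j) (hi.ne h)
  have hfinV : V.Finite := by
    by_contra hinf
    let W := Set.Infinite.natEmbedding V hinf
    obtain ⟨G, hG1, hG2, hG3⟩ := dbl_of_seq (P := P) (e := e) (fun n => (W n : K →L[ℂ] K))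
      (fun n => (hV _ (W n).2).1)
      (hcol _ (fun n => (W n).2) (Subtype.val_injective.comp W.injective))
      (fun n => hwe _ (W n).2)
    have h1 := hG1.eq_zero hfin hz₀.mem hz₀.proj (hG3 _ fun n => (hV _ (W n).2).2.2)
    rw [h1, zero_mul] at hG2
    exact he0 (by rw [← (hV _ (W 0).2).2.1, ← hG2, mul_zero])
  have hneV : V.Nonempty := by
    by_contra hne
    exact hne ⟨e, hmax e ⟨he, by rw [hes, hee], hze⟩ fun v hv => absurd ⟨v, hv⟩ hne⟩
  obtain ⟨n, W, hWi, hWr⟩ : ∃ (n : ℕ) (W : Fin (n + 1) → K →L[ℂ] K), Function.Injective W ∧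
      Set.range W = V := by
    obtain ⟨n, W, hWi, hWr⟩ := hfinV.fin_param
    cases n with
    | zero => rw [← hWr] at hneV; obtain ⟨_, i, -⟩ := hneV; exact i.elim0
    | succ n => exact ⟨n, W, hWi, hWr⟩
  have hWV : ∀ i, W i ∈ V := fun i => hWr ▸ ⟨i, rfl⟩
  have hWP : ∀ i, W i ∈ P := fun i => (hV _ (hWV i)).1
  have hWW := hcol W hWV hWi
  obtain ⟨hE, hEW⟩ := col_proj W hWW fun i => hwe _ (hWV i)
  set E := ∑ i, W i * star (W i) with hEdef
  have hEP : E ∈ P := sum_mem fun i _ => mul_mem (hWP i) (star_mem (hWP i))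
  have hzE : z₀ * E = E := by
    rw [hEdef, Finset.mul_sum]
    exact Finset.sum_congr rfl fun i _ => by rw [← mul_assoc, (hV _ (hWV i)).2.2]
  have hR : IsStarProjection (z₀ - E) := hE.sub_of_mul_eq_right hz₀.proj hzE
  have hRP : z₀ - E ∈ P := sub_mem hz₀.mem hEP
  have hRW : ∀ i, (z₀ - E) * W i = 0 := fun i => by
    rw [sub_mul, hEW, (hV _ (hWV i)).2.2, sub_self]
  obtain ⟨v, hv, z', hz'P, hz'c, hz'p, hpi, k1, k2, k3, k4⟩ := exists_compare hRP he hR he'
  have hz' : CP P z' := ⟨hz'P, hz'c, hz'p⟩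
  have hvW : ∀ i, v * W i = 0 := fun i => by rw [← k2, mul_assoc, hRW, mul_zero]
  have hvz : v * z₀ = v := by
    rw [← k2, mul_assoc, ← hz₀.comm hRP, mul_sub, hz₀.idem, hzE]
  have hz : CP P (z₀ * (1 - z')) := hz₀.mul hz'.one_sub
  have hze' : z₀ * (1 - z') * e = e * (1 - z') := by
    rw [mul_assoc, hz'.one_sub.comm he, ← mul_assoc, hze]
  have hne : z₀ * (1 - z') * e ≠ 0 := by
    rw [hze', mul_sub, mul_one, sub_ne_zero]
    intro h0
    have h1 : star (star v * z') * (star v * z') = e := by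
      rw [hz'.star_mul (star_mem hv), hz'.mul_mul (star_mem hv), star_star, ← k4, ← h0]
    have hrel : ∀ w ∈ V, star (star v * z') * w = 0 := by
      rintro w hw
      rw [← hWr] at hw
      obtain ⟨i, rfl⟩ := hw
      rw [star_mul, star_star, mul_assoc, hvW, mul_zero]
    have hmem := hmax (star v * z') ⟨mul_mem (star_mem hv) hz'P, h1, by
        rw [← mul_assoc, mul_star_of_mul hz₀.proj hvz]⟩
      fun w hw => ⟨by simpa using congr(star $(hrel w hw)), hrel w hw⟩
    exact he0 (by rw [← h1, hrel _ hmem])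
  have hzz : z₀ * (z₀ * (1 - z')) = z₀ * (1 - z') := by rw [← mul_assoc, hz₀.idem]
  have k5 : star v * v * (z₀ * (1 - z')) = (z₀ - E) * (z₀ * (1 - z')) := by
    rw [hz₀.comm hz'.one_sub.mem, ← mul_assoc, ← mul_assoc, k3]
  generalize z₀ * (1 - z') = z at hz hne hzz k5
  have hze : z * e = e * z := hz.comm he
  refine ⟨z, hz, hzz, hne, n, fun i => W i * z, star v * z, fun i => mul_mem (hWP i) hz.mem,
    mul_mem (star_mem hv) hz.mem, ?_, fun i j => ?_, fun i => ?_, fun i => ?_, ?_, ?_⟩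
  · rw [PI, hz.star_mul (star_mem hv), hz.mul_mul (star_mem (star_mem hv)),
      hz.mul_mul (star_mem hv), hpi.star]
  · rw [hz.star_mul (hWP i), hz.mul_mul (hWP j), hWW, hze]
    split_ifs <;> simp
  · rw [hze, hz.mul_mul he, hwe _ (hWV i)]
  · rw [hz.star_mul (star_mem hv), hz.mul_mul (hWP i), star_star, hvW, zero_mul]
  · rw [hze, hz.mul_mul he, star_mul_of_mul he' k1]
  · simp only [hz.star_mul (hWP _), hz.mul_mul (star_mem (hWP _))]
    rw [hz.star_mul (star_mem hv), star_star, hz.mul_mul hv, k5, ← Finset.sum_mul, ← add_mul,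
      add_sub_cancel, hzz]

end Crest.Agent.R121
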