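import Crest.Agent.R121.TypeII
import Crest.Agent.R121.Types

/-! Row 121: central corners -/

set_option autoImplicit false
set_option linter.unusedSectionVars false
set_option linter.deprecated false

namespace Crest.Agent.R121

open Crest.Agent.R95 Crest.Agent.R124 MeasureTheory Filter Topology
open scoped InnerProductSpace BigOperators ComplexConjugate

universe u
variable {K : Type u} [NormedAddCommGroup K] [InnerProductSpace ℂ K] [CompleteSpace K]

section Crn
variable {K' : Type*} [NormedAddCommGroup K'] [InnerProductSpace ℂ K'] [CompleteSpace K']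

/-- `i` is an isometry onto the range of `z` with adjoint `j`. -/
structure Crn (z : K →L[ℂ] K) (i : K' →L[ℂ] K) (j : K →L[ℂ] K') : Prop where
  adj : ∀ u v, ⟪i u, v⟫_ℂ = ⟪u, j v⟫_ℂ
  ji : ∀ u, j (i u) = u
  ij : ∀ v, i (j v) = z v

/-- From the corner to the whole space. -/
noncomputable def up (i : K' →L[ℂ] K) (j : K →L[ℂ] K') (a : K' →L[ℂ] K') : K →L[ℂ] K :=
  i.comp (a.comp j)

/-- Compression to the corner. -/
noncomputable def dn (i : K' →L[ℂ] K) (j : K →L[ℂ] K') (x : K →L[ℂ] K) : K' →L[ℂ] K' :=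
  j.comp (x.comp i)

variable {z : K →L[ℂ] K} {i : K' →L[ℂ] K} {j : K →L[ℂ] K'}

lemma up_apply (a : K' →L[ℂ] K') (v : K) : up i j a v = i (a (j v)) := rfl

lemma dn_apply (x : K →L[ℂ] K) (u : K') : dn i j x u = j (x (i u)) := rfl

namespace Crn
variable (h : Crn z i j)
include h

lemma adj' (u : K') (v : K) : ⟪v, i u⟫_ℂ = ⟪j v, u⟫_ℂ := by
  rw [← inner_conj_symm, h.adj, inner_conj_symm]

lemma z_i (u : K') : z (i u) = i u := by rw [← h.ij, h.ji]

lemma j_z (v : K) : j (z v) = j v := by rw [← h.ij, h.ji]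

lemma norm_i (u : K') : ‖i u‖ = ‖u‖ := by
  rw [@norm_eq_sqrt_re_inner ℂ, h.adj, h.ji, ← @norm_eq_sqrt_re_inner ℂ]

lemma norm_j (hz : IsStarProjection z) (v : K) : ‖j v‖ ≤ ‖v‖ := by
  rw [← h.norm_i, h.ij]
  exact (z.le_opNorm v).trans (mul_le_of_le_one_left (norm_nonneg _) hz.norm_le)

lemma norm_up (hz : IsStarProjection z) (a : K' →L[ℂ] K') : ‖up i j a‖ ≤ ‖a‖ :=
  ContinuousLinearMap.opNorm_le_bound _ (norm_nonneg _) fun v => by
    rw [up_apply, h.norm_i]
    exact (a.le_opNorm _).trans (mul_le_mul_of_nonneg_left (h.norm_j hz v) (norm_nonneg _))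

lemma norm_dn (hz : IsStarProjection z) (x : K →L[ℂ] K) : ‖dn i j x‖ ≤ ‖x‖ :=
  ContinuousLinearMap.opNorm_le_bound _ (norm_nonneg _) fun u => by
    rw [dn_apply, ← h.norm_i u]
    exact (h.norm_j hz _).trans (x.le_opNorm _)

lemma star_dn (x : K →L[ℂ] K) : star (dn i j x) = dn i j (star x) := by
  ext u
  refine ext_inner_left ℂ fun w => ?_
  rw [inner_star_right, dn_apply, dn_apply, ← h.adj', ← h.adj, inner_star_right]

lemma star_up (a : K' →L[ℂ] K') : star (up i j a) = up i j (star a) := by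
  ext u
  refine ext_inner_left ℂ fun w => ?_
  rw [inner_star_right, up_apply, up_apply, h.adj', h.adj, inner_star_right]

lemma dn_up (a : K' →L[ℂ] K') : dn i j (up i j a) = a := by
  ext u; rw [dn_apply, up_apply, h.ji, h.ji]

lemma up_dn (x : K →L[ℂ] K) : up i j (dn i j x) = z * x * z := by
  ext v; rw [up_apply, dn_apply, h.ij, h.ij]; rfl

lemma up_mul (a b : K' →L[ℂ] K') : up i j (a * b) = up i j a * up i j b := by
  ext v
  change i (a (b (j v))) = i (a (j (i (b (j v)))))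
  rw [h.ji]

lemma z_mul_up (a : K' →L[ℂ] K') : z * up i j a = up i j a := by
  ext v; exact h.z_i _

lemma up_mul_z (a : K' →L[ℂ] K') : up i j a * z = up i j a := by
  ext v
  change i (a (j (z v))) = i (a (j v))
  rw [h.j_z]

lemma dn_mul (x : K →L[ℂ] K) {y : K →L[ℂ] K} (hy : z * y = y * z) :
    dn i j (x * y) = dn i j x * dn i j y := by
  ext u
  change j (x (y (i u))) = j (x (i (j (y (i u)))))
  have h1 : z (y (i u)) = y (z (i u)) := congr($hy (i u))
  rw [h.ij, h1, h.z_i]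

lemma up_mul_dn (a : K' →L[ℂ] K') {x : K →L[ℂ] K} (hx : z * x = x * z) :
    up i j (a * dn i j x) = up i j a * x := by
  rw [h.up_mul, h.up_dn, mul_assoc, ← hx, ← mul_assoc, ← mul_assoc, h.up_mul_z,
    h.up_mul_z]

lemma up_dn_mul (a : K' →L[ℂ] K') {x : K →L[ℂ] K} (hx : z * x = x * z) :
    up i j (dn i j x * a) = x * up i j a := by
  rw [h.up_mul, h.up_dn, hx, mul_assoc, mul_assoc, h.z_mul_up, h.z_mul_up]

lemma exists_vn {P : VonNeumannAlgebra K} (hz : z ∈ P) :
    ∃ Q : VonNeumannAlgebra K', (∀ a ∈ Q, up i j a ∈ P) ∧ ∀ x ∈ P, dn i j x ∈ Q := by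
  have hc : ∀ y ∈ P.commutant, z * y = y * z := fun y hy => comm_of_mem hz hy
  refine ⟨cent (dn i j '' (P.commutant : Set (K →L[ℂ] K))), fun a ha => mem_of_comm fun y hy => ?_,
    fun x hx => ?_⟩
  · rw [← h.up_dn_mul a (hc y hy), ← h.up_mul_dn a (hc y hy), (mem_cent.mp ha _ ⟨y, hy, rfl⟩).1]
  · have key : ∀ y ∈ P.commutant, dn i j y * dn i j x = dn i j x * dn i j y := fun y hy => by
      rw [← h.dn_mul x (hc y hy), comm_of_mem hx hy]
      ext u
      change j (y (i (j (x (i u))))) = j (y (x (i u)))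
      have h1 : z (y (x (i u))) = y (z (x (i u))) := congr($(hc y hy) (x (i u)))
      rw [h.ij, ← h1, h.j_z]
    refine mem_cent.mpr ?_
    rintro _ ⟨y, hy, rfl⟩
    exact ⟨key y hy, by rw [h.star_dn]; exact key _ (star_mem hy)⟩

end Crn

end Crn

/-- The reduced algebra on the range of `z` (copy the first half of `R124.coreP_of_trace_aux` and
`coreP_of_trace`: `K' = ker (1 - z)`, `Q = cent (j ∘ P' ∘ i)`). -/
theorem exists_corner {P : VonNeumannAlgebra K} {z : K →L[ℂ] K} (hz : z ∈ P)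
    (hz' : IsStarProjection z) :
    ∃ (K' : Type u) (_ : NormedAddCommGroup K') (_ : InnerProductSpace ℂ K') (_ : CompleteSpace K')
      (Q : VonNeumannAlgebra K') (i : K' →L[ℂ] K) (j : K →L[ℂ] K'),
      (∀ u v, ⟪i u, v⟫_ℂ = ⟪u, j v⟫_ℂ) ∧ (∀ u, j (i u) = u) ∧ (∀ v, i (j v) = z v) ∧
      (∀ a ∈ Q, i.comp (a.comp j) ∈ P) ∧ ∀ x ∈ P, j.comp (x.comp i) ∈ Q := by
  let W : Submodule ℂ K := (1 - z).ker
  have hW : ∀ v, v ∈ W ↔ z v = v := fun v => by
    change v - z v = 0 ↔ _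
    rw [sub_eq_zero, eq_comm]
  have hee : ∀ v, z (z v) = z v := fun v => congr($(hz'.isIdempotentElem.eq) v)
  have : CompleteSpace W := (1 - z).isClosed_ker.completeSpace_coe
  have h : Crn z W.subtypeL (z.codRestrict W fun v => (hW _).mpr (hee v)) :=
    ⟨fun u v => by
      change ⟪(u : K), v⟫_ℂ = ⟪(u : K), z v⟫_ℂ
      rw [← inner_star_left, hz'.isSelfAdjoint.star_eq, (hW _).mp u.2],
    fun u => Subtype.ext ((hW _).mp u.2), fun v => rfl⟩
  obtain ⟨Q, h1, h2⟩ := h.exists_vn hz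
  exact ⟨W, inferInstance, inferInstance, this, Q, _, _, h.adj, h.ji, h.ij, h1, h2⟩

/-- `𝒜 T = up (𝒜' (dn ∘ T ∘ up))` with `up a = i a j`, `dn x = j x i` (contractions);
`up a * x = up (a * dn x)`, `x * up a = up (dn x * a)`, `dn (x y) = dn x * dn y` because `z` is central. -/
theorem avg_of_corner {K' : Type*} [NormedAddCommGroup K'] [InnerProductSpace ℂ K'] [CompleteSpace K']
    {P : VonNeumannAlgebra K} {Q : VonNeumannAlgebra K'} {z : Al P} (hz : CP P z)
    (i : K' →L[ℂ] K) (j : K →L[ℂ] K') (hadj : ∀ u v, ⟪i u, v⟫_ℂ = ⟪u, j v⟫_ℂ)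
    (hji : ∀ u, j (i u) = u) (hij : ∀ v, i (j v) = (z : K →L[ℂ] K) v)
    (hup : ∀ a ∈ Q, i.comp (a.comp j) ∈ P) (hdn : ∀ x ∈ P, j.comp (x.comp i) ∈ Q)
    (h : Avg (1 : Al Q)) : Avg z := by
  have hc : Crn (z : K →L[ℂ] K) i j := ⟨hadj, hji, hij⟩
  obtain ⟨𝒜, h𝒜⟩ := h
  let U : Al Q →L[ℂ] Al P := LinearMap.mkContinuous
    { toFun := fun a => ⟨up i j a, hup a a.2⟩
      map_add' := fun a b => Subtype.ext (by ext v; simp [up])
      map_smul' := fun c a => Subtype.ext (by ext v; simp [up]) } 1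
    fun a => by rw [one_mul]; exact hc.norm_up hz.proj _
  let D : Al P →L[ℂ] Al Q := LinearMap.mkContinuous
    { toFun := fun x => ⟨dn i j x, hdn x x.2⟩
      map_add' := fun a b => Subtype.ext (by ext v; simp [dn])
      map_smul' := fun c a => Subtype.ext (by ext v; simp [dn]) } 1
    fun a => by rw [one_mul]; exact hc.norm_dn hz.proj _
  have hU : ∀ a, ‖U a‖ ≤ ‖a‖ := fun a => hc.norm_up hz.proj _
  have hD : ∀ a, ‖D a‖ ≤ ‖a‖ := fun a => hc.norm_dn hz.proj _
  have h1 : ∀ x y, D (x * y) = D x * D y := fun x y =>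
    Subtype.ext (hc.dn_mul _ (hz.comm y.2))
  have h2 : ∀ a x, U (a * D x) = U a * x := fun a x =>
    Subtype.ext (hc.up_mul_dn _ (hz.comm x.2))
  have h3 : ∀ a x, U (D x * a) = x * U a := fun a x =>
    Subtype.ext (hc.up_dn_mul _ (hz.comm x.2))
  refine ⟨{ toFun := fun T => U (𝒜 (D.comp (T.comp U)))
            map_add' := fun S T => by
              rw [ContinuousLinearMap.add_comp, ContinuousLinearMap.comp_add, map_add, map_add]
            map_smul' := fun c T => by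
              rw [ContinuousLinearMap.smul_comp, ContinuousLinearMap.comp_smul, map_smul, map_smul]
              rfl }, fun T => ?_, fun T b => ?_, fun T x => ?_, ?_⟩
  · refine (hU _).trans ((h𝒜.norm_le _).trans (mul_le_mul_of_nonneg_left ?_ zero_le_two))
    refine ContinuousLinearMap.opNorm_le_bound _ (norm_nonneg _) fun a => (hD _).trans ?_
    exact (T.le_opNorm _).trans (mul_le_mul_of_nonneg_left (hU a) (norm_nonneg _))
  · have : D.comp (((rmul b).comp T).comp U) = (rmul (D b)).comp (D.comp (T.comp U)) :=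
      ContinuousLinearMap.ext fun a => h1 _ _
    change U (𝒜 _) = U (𝒜 _) * b
    rw [this, h𝒜.right, h2]
  · have : D.comp ((T.comp (rmul x)).comp U) = (D.comp (T.comp U)).comp (rmul (D x)) :=
      ContinuousLinearMap.ext fun a => congrArg (fun y => D (T y)) (h2 a x).symm
    change U (𝒜 _) = x * U (𝒜 _)
    rw [this, h𝒜.left, h3]
  · have : D.comp ((ContinuousLinearMap.id ℂ (Al P)).comp U) = ContinuousLinearMap.id ℂ (Al Q) :=
      ContinuousLinearMap.ext fun a => Subtype.ext (hc.dn_up _)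
    change U (𝒜 _) = z
    rw [this, h𝒜.id]
    exact Subtype.ext (ContinuousLinearMap.ext hij)

/-- PROOF.  `exists_approx_trace` gives `e ≤ z₀, ξ₀, κ`; `exists_cover` gives `z, v, r`; let
`u = (v i, r)`, `∑ u u* = z`, `u e = u`, `ξ k = u k ξ₀`.  For `x = z x`:
`∑ₖ ‖x ξₖ‖² = ∑ₖₗ ‖uₗ* x uₖ ξ₀‖² ≤ κ ∑ ‖uₖ* x* uₗ ξ₀‖² = κ ∑ ‖x* ξₗ‖²`; if all `x ξₖ = 0` then
`x uₖ y ξ₀ = 0` for `y ∈ P'`, so `x uₖ e = 0`, `x z = 0`.  Pass to the corner (`exists_corner`, vectors
`j ξₖ`; an abelian projection of `Q` lifts to one of `P`), `avg_II`, `avg_of_corner`. -/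
theorem avg_II_loc {P : VonNeumannAlgebra K} {z₀ : K →L[ℂ] K} (hz₀ : CP P z₀) (hfin : FinP P z₀)
    (h0 : z₀ ≠ 0) (hna : ∀ p ∈ P, IsStarProjection p → p ≠ 0 → z₀ * p = p → ¬ Ab P p) :
    ∃ z : Al P, CP P z ∧ z ≠ 0 ∧ z₀ * z = z ∧ Avg z := by
  obtain ⟨e, he, he', he0, hze, ξ₀, κ, -, htr, hd⟩ := exists_approx_trace hz₀.mem hz₀.proj h0 hfin
  obtain ⟨z, hz, hzz, hne, n, v, r, hvP, hrP, -, -, hve, -, hre, hsum⟩ :=
    exists_cover hz₀ hfin he he' he0 hze
  have hz0 : z ≠ 0 := fun h => hne (by rw [h, zero_mul])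
  let u : Option (Fin (n + 1)) → K →L[ℂ] K := fun o => o.elim r v
  have huP : ∀ k, u k ∈ P := by rintro (_ | k); exacts [hrP, hvP k]
  have hue : ∀ k, u k * e = u k := fun k => by
    have : u k * (z * e) = u k := by rcases k with _ | k; exacts [hre, hve k]
    rw [← this, mul_assoc, mul_assoc, he'.isIdempotentElem]
  have hus : ∑ k, u k * star (u k) = z := by rw [Fintype.sum_option, add_comm]; exact hsum
  have hn : ∀ η, ∑ k, ‖star (u k) η‖ ^ 2 = ‖z η‖ ^ 2 := fun η => by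
    simp only [norm_sq_eq_inner, star_star]
    rw [← Complex.re_sum, ← inner_sum, ← ContinuousLinearMap.sum_apply, hus, hz.star_eq, hz.idem]
  have key : ∀ x ∈ P, ∑ k, ‖z (x (u k ξ₀))‖ ^ 2 ≤ κ * ∑ k, ‖z (star x (u k ξ₀))‖ ^ 2 := by
    intro x hx
    simp only [← hn]
    rw [Finset.sum_comm, Finset.mul_sum]
    refine Finset.sum_le_sum fun l _ => ?_
    rw [Finset.mul_sum]
    refine Finset.sum_le_sum fun k _ => ?_
    have := htr (star (u l) * x * u k) (mul_mem (mul_mem (star_mem (huP l)) hx) (huP k)) (by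
      rw [mul_assoc, mul_assoc _ (u k), hue, ← mul_assoc, ← mul_assoc, mul_star_of_mul he' (hue l)])
    simpa using this
  have hsep : ∀ x ∈ P, (∀ k, x (u k ξ₀) = 0) → x * z = 0 := by
    intro x hx h
    rw [← hus, Finset.mul_sum]
    refine Finset.sum_eq_zero fun k _ => ?_
    suffices h1 : x * u k * e = 0 by
      rw [mul_assoc, hue] at h1
      rw [← mul_assoc, h1, zero_mul]
    ext ζ
    have h2 : Set.EqOn (x * u k : K →L[ℂ] K) (0 : K →L[ℂ] K)
        {v | ∃ y ∈ P.commutant, v = y ξ₀} := by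
      rintro _ ⟨y, hy, rfl⟩
      have h3 : (x * u k) (y ξ₀) = y (x (u k ξ₀)) :=
        congr($(comm_of_mem (mul_mem hx (huP k)) hy) ξ₀)
      rw [h3, h, map_zero, ContinuousLinearMap.zero_apply]
    exact h2.closure (x * u k).continuous (0 : K →L[ℂ] K).continuous
      (hd (e ζ) congr($(he'.isIdempotentElem.eq) ζ))
  obtain ⟨K', _, _, _, Q, i, j, hadj, hji, hij, hup, hdn⟩ := exists_corner hz.mem hz.proj
  have hc : Crn z i j := ⟨hadj, hji, hij⟩
  have hsep' : ∀ a ∈ Q, (∀ k, a (j (u k ξ₀)) = 0) → a = 0 := by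
    intro a ha h
    have h1 := hsep (up i j a) (hup a ha) fun k => by rw [up_apply, h, map_zero]
    rw [hc.up_mul_z] at h1
    rw [← hc.dn_up a, h1]
    ext w; simp [dn]
  refine ⟨⟨z, hz.mem⟩, hz, fun h => hz0 congr(($h).1), hzz,
    avg_of_corner (z := ⟨z, hz.mem⟩) hz i j hadj hji hij hup hdn
      (avg_II Q ?_ (fun k => j (u k ξ₀)) κ (fun a ha => ?_) hsep' ?_)⟩
  · intro p hp hp' hp0 hab
    have hq : IsStarProjection (up i j p) :=
      ⟨by rw [IsIdempotentElem, ← hc.up_mul, hp'.isIdempotentElem],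
        by rw [IsSelfAdjoint, hc.star_up, hp'.isSelfAdjoint.star_eq]⟩
    refine hna (up i j p) (hup p hp) hq (fun h => hp0 ?_)
      (by rw [← hc.z_mul_up, ← mul_assoc, hzz]) fun q hq1 hq2 hq3 x hx => ?_
    · rw [← hc.dn_up p, h]
      ext w; simp [dn]
    · have hzq : z * q = q := by rw [← hq3, ← mul_assoc, hc.z_mul_up]
      have hyP : up i j p - q ∈ P := sub_mem (hup p hp) hq1
      have h1 := hab (dn i j q) (hdn q hq1)
        ⟨by rw [IsIdempotentElem, ← hc.dn_mul _ (hz.comm hq1), hq2.isIdempotentElem],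
          by rw [IsSelfAdjoint, hc.star_dn, hq2.isSelfAdjoint.star_eq]⟩
        (by conv_rhs => rw [← hq3, hc.dn_mul _ (hz.comm hq1), hc.dn_up]) (dn i j x) (hdn x hx)
      have h2 : p - dn i j q = dn i j (up i j p - q) := by
        conv_lhs => rw [← hc.dn_up p]
        ext w; simp [dn]
      rw [h2, ← hc.dn_mul _ (hz.comm hx), ← hc.dn_mul _ (hz.comm hyP)] at h1
      have h3 := hc.up_dn (q * x * (up i j p - q))
      rw [h1, mul_assoc, ← hz.comm (mul_mem (mul_mem hq1 hx) hyP), ← mul_assoc, hz.idem,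
        ← mul_assoc, ← mul_assoc, hzq] at h3
      rw [← h3]
      ext w; simp [up]
  · have := key (up i j a) (hup a ha)
    simpa only [hc.star_up, up_apply, hc.z_i, hc.norm_i] using this
  · by_contra h
    push Not at h
    have h1 := hsep' 1 (one_mem _) fun k => h k
    refine hz0 (ContinuousLinearMap.ext fun w => ?_)
    have h2 : j w = 0 := congr($h1 (j w))
    rw [← hij, h2, map_zero, ContinuousLinearMap.zero_apply]

end Crest.Agent.R121
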