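import Crest.Agent.R95.Basic
import Crest.Agent.R124.Defs

/-! Row 121 (Kadison–Ringrose): definitions and elementary lemmas.

Conventions.  `Tr A`, `τ`, `n2`, `L2`, `toL2` come from `R95/Basic.lean` (faithful tracial state and
the whole `n2` API); `MU`, `PI`, `Ab`, `FinP`, `Contr` from `R124/Defs.lean`.  Statements are
order-free; inside proofs use
`attribute [local instance] CStarAlgebra.spectralOrder CStarAlgebra.spectralOrderedRing`. -/

set_option autoImplicit false
set_option linter.unusedSectionVars false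

namespace Crest.Agent.R121

open Crest.Agent.R95 Crest.Agent.R124 MeasureTheory
open scoped InnerProductSpace BigOperators ComplexConjugate

section Alg
variable {A : Type*} [CStarAlgebra A]

/-- Admissible families: column and row sums are contractive. -/
def Adm {ι : Type*} [Fintype ι] (c : ι → A) : Prop :=
  ‖∑ i, star (c i) * c i‖ ≤ 1 ∧ ‖∑ i, c i * star (c i)‖ ≤ 1

lemma Adm.comp_equiv {ι κ : Type*} [Fintype ι] [Fintype κ] {c : ι → A} (h : Adm c) (E : κ ≃ ι) :
    Adm fun k => c (E k) := by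
  unfold Adm at *
  rwa [E.sum_comp fun i => star (c i) * c i, E.sum_comp fun i => c i * star (c i)]

section Order
attribute [local instance] CStarAlgebra.spectralOrder CStarAlgebra.spectralOrderedRing

lemma adm_iff {ι : Type*} [Fintype ι] {c : ι → A} :
    Adm c ↔ ∑ i, star (c i) * c i ≤ 1 ∧ ∑ i, c i * star (c i) ≤ 1 := by
  unfold Adm
  rw [CStarAlgebra.norm_le_one_iff_of_nonneg _
      (Finset.sum_nonneg fun i _ => star_mul_self_nonneg _),
    CStarAlgebra.norm_le_one_iff_of_nonneg _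
      (Finset.sum_nonneg fun i _ => mul_star_self_nonneg _)]

end Order

/-- Right multiplication `m ↦ m * x`. -/
noncomputable def rmul (x : A) : A →L[ℂ] A := (ContinuousLinearMap.mul ℂ A).flip x

@[simp] lemma rmul_apply (x m : A) : rmul x m = m * x := rfl

/-- An invariant averaging operator on all bounded maps, normalised by `z`. -/
structure IsAvg (𝒜 : (A →L[ℂ] A) →ₗ[ℂ] A) (z : A) : Prop where
  norm_le : ∀ T, ‖𝒜 T‖ ≤ 2 * ‖T‖
  right : ∀ T b, 𝒜 ((rmul b).comp T) = 𝒜 T * b
  left : ∀ T x, 𝒜 (T.comp (rmul x)) = x * 𝒜 T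
  id : 𝒜 (ContinuousLinearMap.id ℂ A) = z

/-- Existence of an averaging operator. -/
def Avg (z : A) : Prop := ∃ 𝒜 : (A →L[ℂ] A) →ₗ[ℂ] A, IsAvg 𝒜 z

/-- What is used about a type II₁ von Neumann algebra (besides the trace). -/
structure II (A : Type*) [CStarAlgebra A] : Prop where
  half : ∀ p : A, IsStarProjection p → ∃ v : A, PI v ∧ v * v = 0 ∧ star v * v + v * star v = p
  cut : ∀ h : A, IsSelfAdjoint h → ‖h‖ ≤ 1 → ∃ s : A, IsSelfAdjoint s ∧ s * s = 1 ∧
    ‖(2 : ℂ) • h - s‖ ≤ 1 ∧ ∀ y, Commute h y → Commute s y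

/-- Bilinear functions. -/
def Bil {E : Type*} [AddCommMonoid E] [Module ℂ E] (G : A → A → E) : Prop :=
  (∀ b, IsLinearMap ℂ fun a => G a b) ∧ ∀ a, IsLinearMap ℂ fun b => G a b

variable {ι : Type*} [Fintype ι] [DecidableEq ι]

/-- The flip average `K⁻¹ ∑ G (e j i) (e i j)`. -/
noncomputable def FF {E : Type*} [AddCommMonoid E] [Module ℂ E] (e : ι → ι → A) (G : A → A → E) :
    E := (Fintype.card ι : ℂ)⁻¹ • ∑ i, ∑ j, G (e j i) (e i j)

/-- The conditional expectation onto the commutant of the matrix units. -/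
noncomputable def EK (e : ι → ι → A) : A →L[ℂ] A :=
  (Fintype.card ι : ℂ)⁻¹ • ∑ i, ∑ j, ContinuousLinearMap.mulLeftRight ℂ A (e j i) (e i j)

lemma EK_apply (e : ι → ι → A) (y : A) : EK e y = FF e fun a b => a * y * b := by
  simp [EK, FF]

/-- The span of the matrix units. -/
noncomputable def Sp (e : ι → ι → A) : Submodule ℂ A :=
  Submodule.span ℂ (Set.range fun p : ι × ι => e p.1 p.2)

/-- The unitaries in the span of the matrix units. -/
def Ue (e : ι → ι → A) : Set A := {w | w ∈ unitary A ∧ w ∈ Sp e}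

/-- A sign. -/
def sgn (b : Bool) : ℂ := if b then 1 else -1

/-- The finite design: signed permutations. -/
abbrev Des (ι : Type*) := Equiv.Perm ι × (ι → Bool)

/-- The signed permutation unitary. -/
noncomputable def du (e : ι → ι → A) (d : Des ι) : A := ∑ i, sgn (d.2 i) • e (d.1 i) i

/-- The diagonal sign unitary. -/
noncomputable def sg (e : ι → ι → A) (s : ι → Bool) : A := ∑ i, sgn (s i) • e i i

/-- The scalar matrix `m` written in the matrix units. -/
noncomputable def emb (e : ι → ι → A) (m : Matrix ι ι ℂ) : A := ∑ i, ∑ j, m i j • e i j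

instance compactU : CompactSpace (Matrix.unitaryGroup ι ℂ) := by
  refine isCompact_iff_compactSpace.mp ?_
  have h1 : IsCompact (Set.pi Set.univ fun _ : ι => Set.pi Set.univ fun _ : ι =>
      Metric.closedBall (0 : ℂ) 1) :=
    isCompact_univ_pi fun _ => isCompact_univ_pi fun _ => isCompact_closedBall _ _
  refine h1.of_isClosed_subset (isClosed_unitary (R := Matrix ι ι ℂ)) fun m hm i _ j _ => ?_
  simpa using entry_norm_bound_of_unitary hm i j

noncomputable instance measU : MeasurableSpace (Matrix.unitaryGroup ι ℂ) := borel _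
instance borelU : BorelSpace (Matrix.unitaryGroup ι ℂ) := ⟨rfl⟩

/-- Haar probability measure on the unitary group. -/
noncomputable def haarU (ι : Type*) [Fintype ι] [DecidableEq ι] :
    Measure (Matrix.unitaryGroup ι ℂ) := Measure.haarMeasure ⊤

/-- Expectation over a Haar unitary in the span of the matrix units. -/
noncomputable def Ex {E : Type*} [NormedAddCommGroup E] [NormedSpace ℝ E] (e : ι → ι → A)
    (F : A → E) : E := ∫ w : Matrix.unitaryGroup ι ℂ, F (emb e w) ∂haarU ι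

variable [Tr A]

/-- `toL2` as a continuous linear map. -/
noncomputable def v2 : A →L[ℂ] L2 A :=
  (toL2 (A := A)).toLinearMap.mkContinuous 1 fun x => by
    rw [one_mul]; exact n2_le_norm x

@[simp] lemma norm_v2 (x : A) : ‖v2 x‖ = n2 x := rfl

@[fun_prop] lemma continuous_n2 : Continuous (n2 : A → ℝ) := (v2 (A := A)).continuous.norm

/-- `θ(Y) = ∑_β ‖E(Y* e_ββ Y)‖₂²`. -/
noncomputable def theta (e : ι → ι → A) (Y : A) : ℝ := ∑ β, n2 (EK e (star Y * e β β * Y)) ^ 2

/-- `η(Y) = K⁻¹ ∑ᵢⱼ ‖E(Y* eᵢⱼ Y)‖₂²`. -/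
noncomputable def eta (e : ι → ι → A) (Y : A) : ℝ :=
  (Fintype.card ι : ℝ)⁻¹ * ∑ i, ∑ j, n2 (EK e (star Y * e i j * Y)) ^ 2

@[fun_prop] lemma continuous_theta (e : ι → ι → A) : Continuous (theta e) := by
  unfold theta; fun_prop

@[fun_prop] lemma continuous_eta (e : ι → ι → A) : Continuous (eta e) := by
  unfold eta; fun_prop

lemma theta_nonneg (e : ι → ι → A) (Y : A) : 0 ≤ theta e Y := by unfold theta; positivity

lemma eta_nonneg (e : ι → ι → A) (Y : A) : 0 ≤ eta e Y := by unfold eta; positivity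

/-- `π_m = 𝔼 ‖E(U^m)‖₂²`, `U = w X`. -/
noncomputable def piM (e : ι → ι → A) (X : A) (m : ℕ) : ℝ :=
  Ex e fun w => n2 (EK e ((w * X) ^ m)) ^ 2

/-- `θ_m = 𝔼 θ(X U^m)`, `U = w X`. -/
noncomputable def thM (e : ι → ι → A) (X : A) (m : ℕ) : ℝ :=
  Ex e fun w => theta e (X * (w * X) ^ m)

/-- The two bounds satisfied by the bilinear forms `B p c = τ (y p T c)`. -/
structure BB (B : A →L[ℂ] A →L[ℂ] ℂ) (Λ ε Λ' : ℝ) : Prop where
  h0 : 0 ≤ Λ
  h1 : 0 ≤ ε
  h2 : 0 ≤ Λ'
  b1 : ∀ a b c, ‖B (a * b) c‖ ≤ Λ * n2 a * n2 b * ‖c‖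
  b2 : ∀ (n : ℕ) (p c : Fin n → A), Adm c →
    ‖∑ l, B (p l) (c l)‖ ≤ √(∑ l, n2 (p l) ^ 2) * √(ε + Λ' * ∑ l, n2 (c l) ^ 2)

/-- `b2` for an arbitrary finite index type. -/
lemma BB.b2' {B : A →L[ℂ] A →L[ℂ] ℂ} {Λ ε Λ' : ℝ} (h : BB B Λ ε Λ') {κ : Type*} [Fintype κ]
    (p c : κ → A) (hc : Adm c) :
    ‖∑ l, B (p l) (c l)‖ ≤ √(∑ l, n2 (p l) ^ 2) * √(ε + Λ' * ∑ l, n2 (c l) ^ 2) := by
  let E := (Fintype.equivFin κ).symm
  have := h.b2 _ (fun l => p (E l)) (fun l => c (E l)) (hc.comp_equiv E)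
  rwa [E.sum_comp fun l => B (p l) (c l), E.sum_comp fun l => n2 (p l) ^ 2,
    E.sum_comp fun l => n2 (c l) ^ 2] at this

end Alg

section VN
variable {K : Type*} [NormedAddCommGroup K] [InnerProductSpace ℂ K] [CompleteSpace K]

/-- A von Neumann algebra as a type. -/
abbrev Al (P : VonNeumannAlgebra K) := ↥P.toStarSubalgebra

instance isClosed_al (P : VonNeumannAlgebra K) :
    IsClosed (P.toStarSubalgebra : Set (K →L[ℂ] K)) := isClosed_vn P

noncomputable example (P : VonNeumannAlgebra K) : CStarAlgebra (Al P) := inferInstance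

/-- Central projections. -/
structure CP (P : VonNeumannAlgebra K) (z : K →L[ℂ] K) : Prop where
  mem : z ∈ P
  com : z ∈ P.commutant
  proj : IsStarProjection z

/-- `T` is bounded by `C` on `N × N` matrices. -/
def CbB {P : VonNeumannAlgebra K} (T : Al P → Al P) (N : ℕ) (C : ℝ) : Prop :=
  ∀ X : Fin N → Fin N → Al P, Contr (fun i j => (X i j : K →L[ℂ] K)) → ∀ η ξ : Fin N → K,
    ‖∑ i, ∑ j, ⟪η i, (T (X i j) : K →L[ℂ] K) (ξ j)⟫_ℂ‖ ≤
      C * √(∑ i, ‖η i‖ ^ 2) * √(∑ j, ‖ξ j‖ ^ 2)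

/-- `T` is completely bounded with bound `C`. -/
def IsCb {P : VonNeumannAlgebra K} (T : Al P → Al P) (C : ℝ) : Prop := ∀ N, CbB T N C

end VN

section Hoch
variable {A : Type*} [CStarAlgebra A]

/-- Bounded cochains. -/
abbrev Co (A : Type*) [CStarAlgebra A] (n : ℕ) := ContinuousMultilinearMap ℂ (fun _ : Fin n => A) A

/-- The slice `m ↦ f (m, x)` of a cochain. -/
noncomputable def sl {n : ℕ} (f : Co A (n + 1)) (x : Fin n → A) : A →L[ℂ] A :=
  (ContinuousMultilinearMap.apply ℂ (fun _ : Fin n => A) A x).comp f.curryLeft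

@[simp] lemma sl_apply {n : ℕ} (f : Co A (n + 1)) (x : Fin n → A) (m : A) :
    sl f x m = f (Fin.cons m x) := rfl

/-- The cochain `∑ a_{j₀} f (b_{j₀} x₁ a_{j₁}, …, b_{j_{k-1}} x_k a_{j_k}) b_{j_k}`. -/
noncomputable def prm {J : Type*} [Fintype J] (a b : J → A) {k : ℕ} (f : Co A k) : Co A k :=
  ∑ j : Fin (k + 1) → J,
    (ContinuousLinearMap.mulLeftRight ℂ A (a (j 0)) (b (j (Fin.last k)))).compContinuousMultilinearMap
      (f.compContinuousLinearMap fun i =>
        ContinuousLinearMap.mulLeftRight ℂ A (b (j i.castSucc)) (a (j i.succ)))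

lemma prm_apply {J : Type*} [Fintype J] (a b : J → A) {k : ℕ} (f : Co A k) (x : Fin k → A) :
    prm a b f x = ∑ j : Fin (k + 1) → J,
      a (j 0) * f (fun i => b (j i.castSucc) * x i * a (j i.succ)) * b (j (Fin.last k)) := by
  simp [prm]

/-- The left factors of the resolution `∑ a j * b j = 1`. -/
noncomputable def pa {h : ℕ} (z : A) (s : Fin h → A) : Option (Fin h) → A
  | none => 1 - z
  | some j => (h : ℂ)⁻¹ • star (s j)

/-- The right factors of the resolution `∑ a j * b j = 1`. -/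
noncomputable def pb {h : ℕ} (z : A) (s : Fin h → A) : Option (Fin h) → A
  | none => 1 - z
  | some j => s j

end Hoch

end Crest.Agent.R121
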