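import Crest.Agent.R121.Hoch

/-! Row 121: the prism homotopy -/

set_option autoImplicit false
set_option linter.unusedSectionVars false

namespace Crest.Agent.R121

open Crest.Agent.R95 Crest.Agent.R124 MeasureTheory Filter Topology
open scoped InnerProductSpace BigOperators ComplexConjugate

open Crest.OpAlg

section Ring
variable {R : Type*} [Ring R] {J : Type*} [Fintype J] (a b : J → R)

/-- The homotopy. -/
def HH' : (k : ℕ) → ((Fin (k + 1) → R) → R) → J → (Fin k → R) → R
  | 0, Φ, j, x => Φ (Fin.cons (b j) x)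
  | k + 1, Φ, j, x => Φ (Fin.cons (b j) x) -
      ∑ m, HH' k (fun v => Φ (Fin.cons (b j * x 0 * a m) v)) m (Fin.tail x)

/-- The transformed cochain. -/
def PR : (k : ℕ) → ((Fin k → R) → R) → J → (Fin k → R) → R
  | 0, Φ, j, x => Φ x * b j
  | k + 1, Φ, j, x => ∑ m, PR k (fun v => Φ (Fin.cons (b j * x 0 * a m) v)) m (Fin.tail x)

lemma HH'_add : ∀ (k : ℕ) (Φ Ψ : (Fin (k + 1) → R) → R) (j : J) (x : Fin k → R),
    HH' a b k (fun v => Φ v + Ψ v) j x = HH' a b k Φ j x + HH' a b k Ψ j x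
  | 0, _, _, _, _ => rfl
  | k + 1, Φ, Ψ, j, x => by
    simp only [HH', HH'_add k, Finset.sum_add_distrib]
    abel

lemma HH'_map (φ : R →+ R) : ∀ (k : ℕ) (Φ : (Fin (k + 1) → R) → R) (j : J) (x : Fin k → R),
    HH' a b k (fun v => φ (Φ v)) j x = φ (HH' a b k Φ j x)
  | 0, _, _, _ => rfl
  | k + 1, Φ, j, x => by
    simp only [HH', map_sub, map_sum]
    congr 1
    exact Finset.sum_congr rfl fun m _ =>
      HH'_map φ k (fun v => Φ (Fin.cons (b j * x 0 * a m) v)) m _

lemma HH'_neg (k : ℕ) (Φ : (Fin (k + 1) → R) → R) (j : J) (x : Fin k → R) :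
    HH' a b k (fun v => -Φ v) j x = -HH' a b k Φ j x :=
  HH'_map a b (-AddMonoidHom.id R) k Φ j x

lemma HH'_mul (c : R) (k : ℕ) (Φ : (Fin (k + 1) → R) → R) (j : J) (x : Fin k → R) :
    HH' a b k (fun v => c * Φ v) j x = c * HH' a b k Φ j x :=
  HH'_map a b (AddMonoidHom.mulLeft c) k Φ j x

lemma HH'_sub (k : ℕ) (Φ Ψ : (Fin (k + 1) → R) → R) (j : J) (x : Fin k → R) :
    HH' a b k (fun v => Φ v - Ψ v) j x = HH' a b k Φ j x - HH' a b k Ψ j x := by
  simp only [sub_eq_add_neg, HH'_add, HH'_neg]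

lemma HH'_sum {ι : Type*} (s : Finset ι) (k : ℕ) (Φ : ι → (Fin (k + 1) → R) → R) (j : J)
    (x : Fin k → R) :
    HH' a b k (fun v => ∑ i ∈ s, Φ i v) j x = ∑ i ∈ s, HH' a b k (Φ i) j x := by
  have := map_sum (AddMonoidHom.mk' (fun Φ : (Fin (k + 1) → R) → R => HH' a b k Φ j x)
    fun Φ Ψ => HH'_add a b k Φ Ψ j x) Φ s
  rw [Finset.sum_fn] at this
  exact this

lemma DD_add' : ∀ (k : ℕ) (Φ Ψ : (Fin k → R) → R) (x : Fin (k + 1) → R),
    DD k (fun v => Φ v + Ψ v) x = DD k Φ x + DD k Ψ x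
  | 0, _, _, _ => by simp only [DD, add_mul, neg_add]
  | k + 1, Φ, Ψ, x => by
    simp only [DD, DD_add' k]
    abel

lemma DD_mul' (c : R) : ∀ (k : ℕ) (Φ : (Fin k → R) → R) (x : Fin (k + 1) → R),
    DD k (fun v => c * Φ v) x = c * DD k Φ x
  | 0, _, _ => by simp only [DD, mul_neg, mul_assoc]
  | k + 1, Φ, x => by simp only [DD, DD_mul' c k, mul_sub, mul_neg]

lemma DD_sub' (k : ℕ) (Φ Ψ : (Fin k → R) → R) (x : Fin (k + 1) → R) :
    DD k (fun v => Φ v - Ψ v) x = DD k Φ x - DD k Ψ x :=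
  map_sub (AddMonoidHom.mk' (fun Φ : (Fin k → R) → R => DD k Φ x)
    fun Φ Ψ => DD_add' k Φ Ψ x) Φ Ψ

lemma DD_sum' {ι : Type*} (s : Finset ι) (k : ℕ) (Φ : ι → (Fin k → R) → R)
    (x : Fin (k + 1) → R) : DD k (fun v => ∑ i ∈ s, Φ i v) x = ∑ i ∈ s, DD k (Φ i) x := by
  have := map_sum (AddMonoidHom.mk' (fun Φ : (Fin k → R) → R => DD k Φ x)
    fun Φ Ψ => DD_add' k Φ Ψ x) Φ s
  rw [Finset.sum_fn] at this
  exact this

/-- What is used of multilinearity. -/
def Res : (k : ℕ) → ((Fin k → R) → R) → Prop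
  | 0, _ => True
  | k + 1, Φ => (∀ c d v, ∑ m, Φ (Fin.cons (c * a m * (b m * d)) v) = Φ (Fin.cons (c * d) v)) ∧
      ∀ c, Res k fun v => Φ (Fin.cons c v)

lemma homotopy : ∀ (k : ℕ) (Φ : (Fin (k + 1) → R) → R) (_ : Res a b (k + 1) Φ) (j : J)
    (x : Fin (k + 1) → R),
    HH' a b (k + 1) (DD (k + 1) Φ) j x + DD k (HH' a b k Φ j) x = -PR a b (k + 1) Φ j x
  | 0, Φ, h, j, x => by
    have h1 := h.1 (b j * x 0) 1 Fin.elim0
    have e : (Fin.tail x : Fin 0 → R) = Fin.elim0 := Subsingleton.elim _ _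
    simp only [mul_one] at h1
    simp only [HH', DD, PR, Fin.cons_zero, Fin.cons_one, Fin.tail_cons, Finset.sum_sub_distrib,
      Finset.sum_neg_distrib, e, h1]
    abel
  | k + 1, Φ, h, j, x => by
    have ih := fun m => homotopy k (fun v => Φ (Fin.cons (b j * x 0 * a m) v)) (h.2 _) m
      (Fin.tail x)
    have h1 := h.1 (b j * x 0) 1 (Fin.tail x)
    simp only [mul_one] at h1
    have h2 : ∀ m' : J, ∑ m, HH' a b k
        (fun v => Φ (Fin.cons (b j * x 0 * a m * (b m * Fin.tail x 0 * a m')) v)) m'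
          (Fin.tail (Fin.tail x)) =
        HH' a b k (fun v => Φ (Fin.cons (b j * (x 0 * x 1) * a m') v)) m'
          (Fin.tail (Fin.tail x)) := by
      intro m'
      rw [← HH'_sum]
      congr 1
      funext v
      have := h.1 (b j * x 0) (x 1 * a m') v
      simp only [mul_assoc] at this ⊢
      exact this
    have e1 : ∀ m, HH' a b (k + 1)
        (fun v => DD (k + 1 + 1) Φ (Fin.cons (b j * x 0 * a m) v)) m (Fin.tail x) =
        -(Φ (Fin.cons (b j * x 0 * a m * b m) (Fin.tail x)) -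
          ∑ m', HH' a b k
            (fun v => Φ (Fin.cons (b j * x 0 * a m * (b m * Fin.tail x 0 * a m')) v)) m'
              (Fin.tail (Fin.tail x))) -
        HH' a b (k + 1) (DD (k + 1) fun v => Φ (Fin.cons (b j * x 0 * a m) v)) m (Fin.tail x) := by
      intro m
      have : (fun v => DD (k + 1 + 1) Φ (Fin.cons (b j * x 0 * a m) v)) = fun v =>
          -Φ (Fin.cons (b j * x 0 * a m * v 0) (Fin.tail v)) -
            DD (k + 1) (fun v => Φ (Fin.cons (b j * x 0 * a m) v)) v := by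
        funext v
        rw [DD]
        simp only [Fin.cons_zero, Fin.cons_one, Fin.tail_cons]
      rw [this, HH'_sub, HH'_neg]
      congr 2
    have e2 : DD (k + 1) (HH' a b (k + 1) Φ j) x =
        -(Φ (Fin.cons (b j) (Fin.cons (x 0 * x 1) (Fin.tail (Fin.tail x)))) -
          ∑ m', HH' a b k (fun v => Φ (Fin.cons (b j * (x 0 * x 1) * a m') v)) m'
            (Fin.tail (Fin.tail x))) -
        (DD k (fun v => Φ (Fin.cons (b j) (Fin.cons (x 0) v))) (Fin.tail x) -
          ∑ m, DD k (HH' a b k (fun v => Φ (Fin.cons (b j * x 0 * a m) v)) m) (Fin.tail x)) := by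
      rw [← DD_sum', ← DD_sub', DD]
      simp only [HH', Fin.cons_zero, Fin.tail_cons]
    have e3 : DD (k + 1 + 1) Φ (Fin.cons (b j) x) = -Φ (Fin.cons (b j * x 0) (Fin.tail x)) -
        (-Φ (Fin.cons (b j) (Fin.cons (x 0 * x 1) (Fin.tail (Fin.tail x)))) -
          DD k (fun v => Φ (Fin.cons (b j) (Fin.cons (x 0) v))) (Fin.tail x)) := by
      rw [DD, DD]
      simp only [Fin.cons_zero, Fin.cons_one, Fin.tail_cons]
    rw [HH', e2, e3, PR]
    simp only [e1, eq_sub_of_add_eq (ih _), Finset.sum_sub_distrib, Finset.sum_neg_distrib, h1]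
    rw [Finset.sum_comm]
    simp only [h2]
    abel

lemma PR_eq : ∀ (k : ℕ) (Φ : (Fin k → R) → R) (j : J) (x : Fin k → R),
    PR a b k Φ j x = ∑ jj : Fin k → J,
      Φ (fun i => b ((Fin.cons j jj : Fin (k + 1) → J) i.castSucc) * x i *
        a ((Fin.cons j jj : Fin (k + 1) → J) i.succ)) *
        b ((Fin.cons j jj : Fin (k + 1) → J) (Fin.last k))
  | 0, Φ, j, x => by
    rw [PR, Fintype.sum_unique]
    congr 2
    exact Subsingleton.elim _ _
  | k + 1, Φ, j, x => by
    rw [PR, ← (Fin.consEquiv fun _ : Fin (k + 1) => J).sum_comp, Fintype.sum_prod_type]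
    refine Finset.sum_congr rfl fun m _ => ?_
    rw [PR_eq k]
    refine Finset.sum_congr rfl fun jj _ => ?_
    congr 2
    funext i
    refine Fin.cases ?_ (fun i => ?_) i
    · simp [Fin.consEquiv]
    · simp [Fin.consEquiv, Fin.tail]

lemma prism_alg (hab : ∑ j, a j * b j = 1) {n : ℕ} (f : (Fin (n + 1) → R) → R)
    (hR : Res a b (n + 1) f) (hf : ∀ x, hochschildDiff f x = 0) (x : Fin (n + 1) → R) :
    hochschildDiff (fun v => ∑ j, a j * HH' a b n f j v) x =
      f x - ∑ j, a j * PR a b (n + 1) f j x := by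
  have h1 : DD (n + 1) f = fun v => -(v 0 * f (Fin.tail v)) := by
    funext v
    exact eq_neg_of_add_eq_zero_right (by rw [← hoch_eq, hf])
  have h2 : ∀ j, DD n (HH' a b n f j) x = b j * f x -
      b j * (x 0 * ∑ m, a m * HH' a b n f m (Fin.tail x)) - PR a b (n + 1) f j x := by
    intro j
    have := homotopy a b n f hR j x
    rw [h1, HH'] at this
    simp only [Fin.cons_zero, Fin.tail_cons, HH'_neg, HH'_mul, Finset.sum_neg_distrib] at this
    rw [eq_sub_of_add_eq' this]
    simp only [Finset.mul_sum, mul_assoc]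
    abel
  rw [hoch_eq, DD_sum']
  simp only [DD_mul', h2, mul_sub, Finset.sum_sub_distrib, ← mul_assoc, ← Finset.sum_mul, hab,
    one_mul]
  abel

end Ring

variable {A : Type*} [CStarAlgebra A]

section
variable {J : Type*} [Fintype J] {a b : J → A}

lemma res_co (hab : ∑ j, a j * b j = 1) : ∀ (k : ℕ) (f : Co A k), Res a b k f
  | 0, _ => trivial
  | k + 1, f => by
    refine ⟨fun c d v => ?_, fun c => res_co hab k (f.curryLeft c)⟩
    have : c * d = ∑ m, c * a m * (b m * d) := by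
      conv_lhs => rw [← mul_one c, ← hab]
      simp only [Finset.mul_sum, Finset.sum_mul, mul_assoc]
    rw [this]
    exact (map_sum (sl f v) _ _).symm

lemma norm_curry_le {k : ℕ} (f : Co A (k + 1)) (c : A) : ‖f.curryLeft c‖ ≤ ‖f‖ * ‖c‖ := by
  have := f.curryLeft.le_opNorm c
  rwa [ContinuousMultilinearMap.curryLeft_norm] at this

lemma exists_HH (ha : ∑ j, ‖a j‖ ≤ 2) (hb : ∀ j, ‖b j‖ ≤ 1) : ∀ (k : ℕ) (j : J)
    (f : Co A (k + 1)), ∃ g : Co A k, ‖g‖ ≤ 3 ^ k * ‖f‖ ∧ ∀ x, g x = HH' a b k f j x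
  | 0, j, f => ⟨f.curryLeft (b j), by
      rw [pow_zero, one_mul]
      exact (norm_curry_le f _).trans (mul_le_of_le_one_right (norm_nonneg _) (hb j)),
      fun _ => rfl⟩
  | k + 1, j, f => by
    choose G hG1 hG2 using exists_HH ha hb k
    have hT : ∀ m, ∃ T : A →L[ℂ] Co A k, ‖T‖ ≤ 3 ^ k * ‖f‖ * ‖a m‖ ∧
        ∀ y, T y = G m (f.curryLeft (b j * y * a m)) := by
      intro m
      let T : A →ₗ[ℂ] Co A k :=
        { toFun := fun y => G m (f.curryLeft (b j * y * a m))
          map_add' := fun y z => by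
            ext x
            rw [add_apply, hG2, hG2, hG2, ← HH'_add, mul_add, add_mul,
              map_add]
            rfl
          map_smul' := fun c y => by
            ext x
            rw [smul_apply, hG2, hG2, mul_smul_comm, smul_mul_assoc,
              map_smul]
            exact HH'_map a b (DistribSMul.toAddMonoidHom A c) k _ m x }
      have hb' : ∀ y, ‖T y‖ ≤ 3 ^ k * ‖f‖ * ‖a m‖ * ‖y‖ := by
        intro y
        refine (hG1 m _).trans ?_
        have h1 : ‖b j * y * a m‖ ≤ ‖a m‖ * ‖y‖ := by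
          refine (norm_mul_le _ _).trans ?_
          rw [mul_comm]
          exact mul_le_mul_of_nonneg_left ((norm_mul_le _ _).trans
            (mul_le_of_le_one_left (norm_nonneg _) (hb j))) (norm_nonneg _)
        exact (mul_le_mul_of_nonneg_left ((norm_curry_le f _).trans
          (mul_le_mul_of_nonneg_left h1 (norm_nonneg _))) (by positivity)).trans_eq (by ring)
      exact ⟨T.mkContinuous _ hb', T.mkContinuous_norm_le (by positivity) hb', fun _ => rfl⟩
    choose T hT1 hT2 using hT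
    refine ⟨f.curryLeft (b j) - ∑ m, ContinuousLinearMap.uncurryLeft (Ei := fun _ => A) (T m),
      ?_, fun x => ?_⟩
    · refine (norm_sub_le _ _).trans ?_
      have h1 : ‖f.curryLeft (b j)‖ ≤ ‖f‖ :=
        (norm_curry_le f _).trans (mul_le_of_le_one_right (norm_nonneg _) (hb j))
      have h2 : ‖∑ m, ContinuousLinearMap.uncurryLeft (Ei := fun _ => A) (T m)‖ ≤
          3 ^ k * ‖f‖ * 2 := by
        refine (norm_sum_le_of_le _ (n := fun m => 3 ^ k * ‖f‖ * ‖a m‖) fun m _ => ?_).trans ?_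
        · rw [ContinuousLinearMap.uncurryLeft_norm]
          exact hT1 m
        · rw [← Finset.mul_sum]
          exact mul_le_mul_of_nonneg_left ha (by positivity)
      have h3 : ‖f‖ ≤ 3 ^ k * ‖f‖ :=
        le_mul_of_one_le_left (norm_nonneg _) (one_le_pow₀ (by norm_num))
      rw [pow_succ]
      linarith
    · rw [sub_apply, sum_apply, HH']
      congr 1
      refine Finset.sum_congr rfl fun m _ => ?_
      rw [ContinuousLinearMap.uncurryLeft_apply, hT2, hG2]
      rfl

lemma norm_prm_le (ha : ∑ j, ‖a j‖ ≤ 2) (hb : ∀ j, ‖b j‖ ≤ 1) {k : ℕ} (f : Co A k) :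
    ‖prm a b f‖ ≤ 2 ^ (k + 1) * ‖f‖ := by
  classical
  refine ContinuousMultilinearMap.opNorm_le_bound (by positivity) fun x => ?_
  rw [prm_apply]
  refine (norm_sum_le_of_le _ (n := fun j => (∏ i, ‖a (j i)‖) * (‖f‖ * ∏ i, ‖x i‖))
    fun j _ => ?_).trans ?_
  · have h1 : ‖f fun i => b (j i.castSucc) * x i * a (j i.succ)‖ ≤
        ‖f‖ * ∏ i, (‖x i‖ * ‖a (j i.succ)‖) := by
      refine (f.le_opNorm _).trans (mul_le_mul_of_nonneg_left
        (Finset.prod_le_prod (fun _ _ => norm_nonneg _) fun i _ => ?_) (norm_nonneg _))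
      exact (norm_mul_le _ _).trans (mul_le_mul_of_nonneg_right ((norm_mul_le _ _).trans
        (mul_le_of_le_one_left (norm_nonneg _) (hb _))) (norm_nonneg _))
    refine (norm_mul_le _ _).trans ((mul_le_of_le_one_right (norm_nonneg _) (hb _)).trans
      ((norm_mul_le _ _).trans ((mul_le_mul_of_nonneg_left h1 (norm_nonneg _)).trans_eq ?_)))
    rw [Fin.prod_univ_succ, Finset.prod_mul_distrib]
    ring
  · rw [← Finset.sum_mul, mul_assoc]
    refine mul_le_mul_of_nonneg_right ?_ (by positivity)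
    rw [← Fintype.piFinset_univ, ← Finset.prod_univ_sum (fun _ => Finset.univ) fun _ j => ‖a j‖,
      Finset.prod_const, Finset.card_univ, Fintype.card_fin]
    exact pow_le_pow_left₀ (by positivity) ha _

end

/-- PROOF.  For `Φ` additive in each variable (e.g. a `MultilinearMap ℤ`/`ℂ`, stable under
`curryLeft`), induction on `k` gives
`HH' (k+1) (DD (k+1) Φ) j x + DD k (HH' k Φ j) x = -PR (k+1) Φ j x`; it uses that `HH'` and `DD` are additive
in `Φ` and `∑ₘ (c * a m) * b m = c`.  For a cocycle `DD Φ v = -(v 0 * Φ (tail v))` (`hoch_eq`), `HH'`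
and `DD` commute with left multiplication, so `κ = ∑ⱼ a j * HH' n f j` has `d κ = f - ∑ⱼ a j * PR f j`,
and the last sum is `prm a b f` (induction, `Fin.consEquiv` / `Fintype.sum_prod_type`).  `HH' k · j` is
given by a continuous linear map `Co A (k+1) →L Co A k` of norm `≤ C k`, `C 0 = 1`,
`C (k+1) = 1 + 2 C k` (`continuousMultilinearCurryLeftEquiv`, `ContinuousLinearMap.uncurryLeft`);
alternatively prove multilinearity and the bound of `x ↦ HH' k f j x` directly by induction. -/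
theorem prism (n : ℕ) : ∃ C : ℝ, 0 ≤ C ∧ ∀ (J : Type) [Fintype J] (a b : J → A),
    ∑ j, a j * b j = 1 → ∑ j, ‖a j‖ ≤ 2 → (∀ j, ‖b j‖ ≤ 1) →
    ∀ f : Co A (n + 1), (∀ x, hochschildDiff f x = 0) →
      ‖prm a b f‖ ≤ C * ‖f‖ ∧
      ∃ κ : Co A n, ‖κ‖ ≤ C * ‖f‖ ∧ ∀ x, hochschildDiff κ x = f x - prm a b f x := by
  refine ⟨4 * 3 ^ n, by positivity, fun J _ a b hab ha hb f hf => ⟨?_, ?_⟩⟩
  · refine (norm_prm_le ha hb f).trans (mul_le_mul_of_nonneg_right ?_ (norm_nonneg _))
    have : (2 : ℝ) ^ n ≤ 3 ^ n := pow_le_pow_left₀ (by norm_num) (by norm_num) _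
    rw [pow_succ, pow_succ]
    linarith
  · choose G hG1 hG2 using fun j => exists_HH ha hb n j f
    refine ⟨∑ j, (ContinuousLinearMap.mul ℂ A (a j)).compContinuousMultilinearMap (G j), ?_,
      fun x => ?_⟩
    · refine (norm_sum_le_of_le _ (n := fun j => ‖a j‖ * (3 ^ n * ‖f‖)) fun j _ => ?_).trans ?_
      · exact (ContinuousLinearMap.norm_compContinuousMultilinearMap_le _ _).trans
          (mul_le_mul (ContinuousLinearMap.opNorm_mul_apply_le ℂ A _) (hG1 j) (norm_nonneg _)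
            (norm_nonneg _))
      · rw [← Finset.sum_mul]
        have h0 : 0 ≤ 3 ^ n * ‖f‖ := by positivity
        nlinarith
    · have h1 : ⇑(∑ j, (ContinuousLinearMap.mul ℂ A (a j)).compContinuousMultilinearMap (G j)) =
          fun v => ∑ j, a j * HH' a b n f j v := by
        funext v
        simp [hG2]
      rw [h1, prism_alg a b hab f (res_co hab _ f) hf, prm_apply,
        ← (Fin.consEquiv fun _ : Fin (n + 1 + 1) => J).sum_comp, Fintype.sum_prod_type]
      congr 1
      refine Finset.sum_congr rfl fun j _ => ?_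
      rw [PR_eq, Finset.mul_sum]
      refine Finset.sum_congr rfl fun jj _ => ?_
      rw [mul_assoc]
      rfl

end Crest.Agent.R121
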