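import Crest.Agent.R121.Glue
import Crest.Agent.R121.CB
import Crest.Agent.R121.CbEst
import Crest.Agent.R121.Prism

/-! Row 121: assembly -/

set_option autoImplicit false
set_option linter.unusedSectionVars false

namespace Crest.Agent.R121

open Crest.Agent.R95 Crest.Agent.R124 MeasureTheory Filter Topology
open scoped InnerProductSpace BigOperators ComplexConjugate

open Crest.OpAlg

variable {K : Type*} [NormedAddCommGroup K] [InnerProductSpace ℂ K] [CompleteSpace K]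

lemma WT.hoch {P : VonNeumannAlgebra K} {I : Type*} {l : Filter I} {k : ℕ}
    {g : I → (Fin k → Al P) → Al P} {g' : (Fin k → Al P) → Al P}
    (h : ∀ x, WT l (fun i => g i x) (g' x)) (a : Fin (k + 1) → Al P) :
    WT l (fun i => hochschildDiff (g i) a) (hochschildDiff g' a) :=
  (((h _).mul_left _).add (WT.sum _ fun _ => (h _).zsmul _)).add (((h _).mul_right _).zsmul _)

lemma CbB.lim {P : VonNeumannAlgebra K} {I : Type*} {l : Filter I} [l.NeBot]
    {T : I → Al P → Al P} {T' : Al P → Al P} (h : ∀ m, WT l (fun i => T i m) (T' m)) {N : ℕ}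
    {C : ℝ} (hT : ∀ᶠ i in l, CbB (T i) N C) : CbB T' N C := by
  intro X hX η ξ
  refine le_of_tendsto (f := fun t => ‖∑ i, ∑ j, ⟪η i, (T t (X i j) : K →L[ℂ] K) (ξ j)⟫_ℂ‖)
    (x := l) (Tendsto.norm ?_) (hT.mono fun t ht => ht X hX η ξ)
  exact tendsto_finsetSum _ fun i _ => tendsto_finsetSum _ fun j _ => h _ _ _

lemma pa_pb {A : Type*} [CStarAlgebra A] {z : A} (hz : IsStarProjection z) {h : ℕ} (hh : 0 < h)
    {s : Fin h → A} (hs : ∀ i, star (s i) * s i = z) :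
    ∑ j, pa z s j * pb z s j = 1 ∧ ∑ j, ‖pa z s j‖ ≤ 2 ∧ ∀ j, ‖pb z s j‖ ≤ 1 := by
  have hh' : (h : ℂ) ≠ 0 := by exact_mod_cast hh.ne'
  have hh'' : (0 : ℝ) < h := by exact_mod_cast hh
  have h1 : ∀ i, ‖s i‖ ≤ 1 := fun i => by
    have h2 : ‖s i‖ * ‖s i‖ ≤ 1 := by
      rw [← CStarRing.norm_star_mul_self, hs]; exact hz.norm_le
    nlinarith [norm_nonneg (s i)]
  refine ⟨?_, ?_, ?_⟩
  · simp only [Fintype.sum_option, pa, pb, smul_mul_assoc, hs, Finset.sum_const, Finset.card_univ,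
      Fintype.card_fin, hz.one_sub.isIdempotentElem.eq]
    rw [← Nat.cast_smul_eq_nsmul ℂ, smul_smul, mul_inv_cancel₀ hh', one_smul, sub_add_cancel]
  · rw [Fintype.sum_option]
    have h2 : ∑ j, ‖pa z s (some j)‖ ≤ ∑ _j : Fin h, (h : ℝ)⁻¹ := Finset.sum_le_sum fun j _ => by
      rw [pa, norm_smul, norm_star, norm_inv, Complex.norm_natCast]
      exact mul_le_of_le_one_right (by positivity) (h1 j)
    rw [Finset.sum_const, Finset.card_univ, Fintype.card_fin, nsmul_eq_mul,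
      mul_inv_cancel₀ hh''.ne'] at h2
    have h3 : ‖pa z s none‖ ≤ 1 := hz.one_sub.norm_le
    linarith
  · rintro (_ | j)
    · exact hz.one_sub.norm_le
    · exact h1 j

/-- PROOF.  `z, s` from `exists_inf_fin`; for `h = i + 1`: `prism` with `pa z s, pb z s` gives `κ i`,
`φ i = prm … f`.  Ultralimits `κ'`, `φ'` (`exists_wt_co`, `U ≤ atTop`), `d κ' = f - φ'` (`WT.unique`),
`φ'` is a cocycle (`hoch_sub`, `hoch_hoch`), `z * φ' (·, x)` is completely bounded (`cb_prm`,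
`CbB.mono`, limits).  `𝒜 T = 𝒜_B (rmul z ∘ T) + 𝒜_f T` (`avg_cb`, `avg_fin` for `1 - z`),
`cobound_of_avg` for `φ'`; `g = κ' + g'`. -/
theorem final (P : VonNeumannAlgebra K) (n : ℕ) (f : Co (Al P) (n + 1))
    (hf : ∀ a, hochschildDiff f a = 0) : ∃ g : Co (Al P) n, ∀ a, hochschildDiff g a = f a := by
  obtain ⟨z, hz, hfin, hs⟩ := exists_inf_fin P
  choose s hsP hss hsz using hs
  let Z : Al P := ⟨z, hz.mem⟩
  have hZ : IsStarProjection Z :=
    ⟨Subtype.ext hz.idem, Subtype.ext hz.star_eq⟩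
  have hZc : ∀ y : Al P, Z * y = y * Z := fun y => Subtype.ext (hz.comm y.2)
  let S : ∀ h : ℕ, Fin h → Al P := fun h j => ⟨s h j, hsP h j⟩
  have hSS : ∀ h i j, star (S h i) * S h j = if i = j then Z else 0 := fun h i j => by
    refine Subtype.ext ?_
    have := hss h i j
    split_ifs at this ⊢ <;> exact this
  have hSZ : ∀ h i, S h i * Z = S h i := fun h i => Subtype.ext (hsz h i)
  obtain ⟨C, -, hC⟩ := prism (A := Al P) n
  have key : ∀ i : ℕ, ‖prm (pa Z (S (i + 1))) (pb Z (S (i + 1))) f‖ ≤ C * ‖f‖ ∧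
      ∃ κ : Co (Al P) n, ‖κ‖ ≤ C * ‖f‖ ∧ ∀ x, hochschildDiff κ x =
        f x - prm (pa Z (S (i + 1))) (pb Z (S (i + 1))) f x := fun i => by
    obtain ⟨h1, h2, h3⟩ := pa_pb hZ (Nat.succ_pos i) (s := S (i + 1))
      fun j => by rw [hSS, if_pos rfl]
    exact hC _ _ _ h1 h2 h3 f hf
  choose hφ κ hκ hdκ using key
  let U : Ultrafilter ℕ := Ultrafilter.of atTop
  have hU : U.toFilter ≤ atTop := Ultrafilter.of_le _
  obtain ⟨κ', -, hκ'⟩ := exists_wt_co U κ hκ
  obtain ⟨φ', -, hφ'⟩ := exists_wt_co U _ hφ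
  have hd : ∀ x, hochschildDiff κ' x = f x - φ' x := fun x =>
    (WT.hoch (g := fun i => κ i) hκ' x).unique (by
      simp only [hdκ]
      exact (WT.const _).sub (hφ' x))
  have hφc : ∀ a, hochschildDiff φ' a = 0 := fun a => by
    have e : (φ' : _ → Al P) = fun x => f x - hochschildDiff κ' x := funext fun x => by
      rw [hd, sub_sub_cancel]
    rw [e, hoch_sub, hf, hoch_hoch, sub_zero]
  have hcb : ∀ x, IsCb ((rmul Z).comp (sl φ' x)) (‖f‖ * ∏ i, ‖x i‖) := fun x N => by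
    refine CbB.lim (l := U.toFilter)
      (T := fun i m => Z * prm (pa Z (S (i + 1))) (pb Z (S (i + 1))) f (Fin.cons m x))
      (fun m => ?_) (hU ?_)
    · have := (hφ' (Fin.cons m x)).mul_left Z
      rwa [hZc (φ' _)] at this
    · filter_upwards [eventually_ge_atTop N] with i hi
      refine CbB.mono ?_ (cb_prm (z := Z) hz (Nat.succ_pos i) (S (i + 1)) (hSS _) (hSZ _) f x)
        (by omega)
      rw [ContinuousMultilinearMap.map_coord_zero _ 0 rfl, mul_zero]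
  obtain ⟨𝒜B, hB, hBid⟩ := avg_cb P
  obtain ⟨𝒜f, hF⟩ := avg_fin (P := P) (z₀ := 1 - Z) hz.one_sub hfin
  let 𝒜 : (Al P →L[ℂ] Al P) →ₗ[ℂ] Al P :=
    𝒜B.comp (ContinuousLinearMap.compL ℂ (Al P) (Al P) (Al P) (rmul Z)).toLinearMap + 𝒜f
  have h𝒜 : ∀ T, 𝒜 T = 𝒜B ((rmul Z).comp T) + 𝒜f T := fun _ => rfl
  have hp : ∀ x : Fin n → Al P, 0 ≤ ∏ i, ‖x i‖ := fun x =>
    Finset.prod_nonneg fun _ _ => norm_nonneg _
  have hB' := fun x => hB _ _ (mul_nonneg (norm_nonneg f) (hp x)) (hcb x)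
  refine (cobound_of_avg φ' hφc 𝒜 (C := ‖f‖ + 2 * ‖φ'‖) (fun x => ?_) (fun x b => ?_)
    (fun x y => ?_) (fun b => ?_)).elim fun g' hg' => ⟨κ' + g', fun a => ?_⟩
  · have h1 : ‖sl φ' x‖ ≤ ‖φ'‖ * ∏ i, ‖x i‖ :=
      ContinuousLinearMap.opNorm_le_bound _ (mul_nonneg (norm_nonneg _) (hp x)) fun m => by
        rw [sl_apply]
        refine (φ'.le_opNorm _).trans (le_of_eq ?_)
        rw [Fin.prod_univ_succ]
        simp only [Fin.cons_zero, Fin.cons_succ]
        ring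
    have h2 := hF.norm_le (sl φ' x)
    have h3 := (hB' x).1
    rw [h𝒜]
    refine (norm_add_le _ _).trans ?_
    linarith
  · have e : (rmul Z).comp ((rmul b).comp (sl φ' x)) = (rmul b).comp ((rmul Z).comp (sl φ' x)) :=
      ContinuousLinearMap.ext fun m => by
        simp only [ContinuousLinearMap.comp_apply, rmul_apply, mul_assoc, hZc]
    rw [h𝒜, h𝒜, e, (hB' x).2.1, hF.right, add_mul]
  · rw [h𝒜, h𝒜, ← ContinuousLinearMap.comp_assoc, (hB' x).2.2, hF.left, mul_add]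
  · have e : (rmul Z).comp (rmul b) = (rmul (b * Z)).comp (ContinuousLinearMap.id ℂ (Al P)) :=
      ContinuousLinearMap.ext fun m => mul_assoc _ _ _
    have e' : rmul b = (rmul b).comp (ContinuousLinearMap.id ℂ (Al P)) := rfl
    rw [h𝒜, e, (hB _ 1 zero_le_one isCb_id).2.1, hBid, e', hF.right, hF.id, one_mul, sub_mul,
      one_mul, hZc, add_sub_cancel]
  · have e : (⇑(κ' + g') : _ → Al P) = fun x => κ' x + g' x := rfl
    rw [e, hoch_add, hd, hg', sub_add_cancel]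

end Crest.Agent.R121
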