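import Crest.Agent.R121.WL
import Crest.Agent.R121.Types
import Crest.Agent.R124.Easy

/-! Row 121: finite type I summands -/

set_option autoImplicit false
set_option linter.unusedSectionVars false
set_option linter.deprecated false

namespace Crest.Agent.R121

open Crest.Agent.R95 Crest.Agent.R124 MeasureTheory Filter Topology
open scoped InnerProductSpace BigOperators ComplexConjugate

variable {K : Type*} [NormedAddCommGroup K] [InnerProductSpace ℂ K] [CompleteSpace K]

/-- A homogeneous summand.  PROOF.  `exists_cover`; `q = r* r ≤ z e`; its central support `c` satisfies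
`c e = q` (`hab`: `q x (e - q) = 0`, take adjoints) and `z c = c`.  If `q = 0` (so `r = 0`) use `z` and the
column `v`; otherwise use `c`, `p = c e` and the column `(v i * c, r)`. -/
theorem exists_homog {P : VonNeumannAlgebra K} {z₀ e : K →L[ℂ] K} (hz₀ : CP P z₀)
    (hfin : FinP P z₀) (he : e ∈ P) (he' : IsStarProjection e) (he0 : e ≠ 0) (hze : z₀ * e = e)
    (hab : Ab P e) :
    ∃ z, CP P z ∧ z ≠ 0 ∧ z₀ * z = z ∧ ∃ (n : ℕ) (w : Fin (n + 1) → K →L[ℂ] K), (∀ i, w i ∈ P) ∧
      (∀ i j, star (w i) * w j = if i = j then z * e else 0) ∧ (∀ i, w i * (z * e) = w i) ∧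
      ∑ i, w i * star (w i) = z := by
  obtain ⟨z, hz, hzz, hne, n, v, r, hvP, hrP, hr, hvv, hve, hrv, hre, hsum⟩ :=
    exists_cover hz₀ hfin he he' he0 hze
  by_cases hr0 : r = 0
  · refine ⟨z, hz, fun h => hne (by rw [h, zero_mul]), hzz, n, v, hvP, hvv, hve, ?_⟩
    rwa [hr0, zero_mul, add_zero] at hsum
  have hee : e * e = e := he'.isIdempotentElem
  have hre' : r * e = r := by rw [← hre, mul_assoc, mul_assoc, hee]
  have hrz : r * z = r := by rw [← hre, hz.comm he, ← mul_assoc, mul_assoc _ z, hz.idem]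
  have hve' : ∀ i, v i * e = v i := fun i => by rw [← hve i, mul_assoc, mul_assoc, hee]
  have hqP : star r * r ∈ P := mul_mem (star_mem hrP) hrP
  have hq := hr.proj_right
  have heq : e * (star r * r) = star r * r := by rw [← mul_assoc, mul_star_of_mul he' hre']
  obtain ⟨c, hcP, hcc, hc', hcq, hc0⟩ := exists_central_support hqP
  have hc : CP P c := ⟨hcP, hcc, hc'⟩
  have hrc : r * c = r := by
    rw [← hr.mul_right, mul_assoc, ← hc.comm hqP, hcq]
  have h1 : e * c = star r * r := by
    have := hc0 (e - star r * r) fun x hx => by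
      have h2 := congr(star $(hab _ hqP hq heq (star x) (star_mem hx)))
      rwa [star_mul, star_mul (star r * r), star_sub, star_star, hq.isSelfAdjoint.star_eq,
        he'.isSelfAdjoint.star_eq, star_zero, ← mul_assoc] at h2
    rwa [sub_mul, mul_assoc, hrc, sub_eq_zero] at this
  have h2 : z * c = c := by
    have := hc0 (1 - z) fun x hx => by
      rw [hz.one_sub.comm hx, mul_assoc, hz.one_sub.comm hqP, mul_sub, mul_one, mul_assoc, hrz,
        sub_self, mul_zero]
    rwa [sub_mul, one_mul, sub_eq_zero, eq_comm] at this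
  refine ⟨c, hc, fun h => hr0 (by rw [← hrc, h, mul_zero]), by rw [← h2, ← mul_assoc, hzz], n + 1,
    Fin.cons r fun i => v i * c, fun i => ?_, fun i j => ?_, fun i => ?_, ?_⟩
  · exact Fin.cases hrP (fun i => mul_mem (hvP i) hcP) i
  · rw [hc.comm he]
    refine Fin.cases ?_ (fun i => ?_) i <;> refine Fin.cases ?_ (fun j => ?_) j
    · simp [h1]
    · simp only [Fin.cons_zero, Fin.cons_succ]
      rw [← mul_assoc, hrv, zero_mul, if_neg (Fin.succ_ne_zero j).symm]
    · simp only [Fin.cons_zero, Fin.cons_succ]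
      have h3 : star (v i) * r = 0 := by simpa using congr(star $(hrv i))
      rw [star_mul, mul_assoc, h3, mul_zero, if_neg (Fin.succ_ne_zero i)]
    · simp only [Fin.cons_succ, Fin.succ_inj]
      rw [hc.star_mul (hvP i), hc.mul_mul (hvP j), hvv]
      split_ifs
      · rw [hz.comm he, mul_assoc, h2]
      · rw [zero_mul]
  · rw [hc.comm he]
    refine Fin.cases ?_ (fun i => ?_) i
    · simp only [Fin.cons_zero]; rw [h1, hr.mul_right]
    · simp only [Fin.cons_succ]; rw [hc.mul_mul he, hve']
  · rw [Fin.sum_univ_succ]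
    simp only [Fin.cons_zero, Fin.cons_succ, hc.star_mul (hvP _), hc.mul_mul (star_mem (hvP _))]
    have h3 : r * star r = r * star r * c := by
      rw [mul_assoc, ← hc.comm (star_mem hrP), ← mul_assoc, hrc]
    rw [h3, ← Finset.sum_mul, ← add_mul, add_comm, hsum, h2]

lemma star_mul_of_mul' {A : Type*} [Ring A] [StarRing A] {ι : Type*} [DecidableEq ι] {W : ι → A}
    {p : A} (hW : ∀ i j, star (W i) * W j = if i = j then p else 0) (hWp : ∀ i, W i * p = W i)
    (j : ι) : star (W j) = p * star (W j) := by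
  have h1 : star p = p := by
    have := hW j j
    rw [if_pos rfl] at this
    rw [← this, star_mul, star_star]
  conv_lhs => rw [← hWp j, star_mul, h1]

/-- An exactly invariant admissible family for finitely many commuting projections. -/
lemma exact_family {A : Type*} [CStarAlgebra A] {ι τ : Type*} [Fintype ι] [DecidableEq ι]
    [Nonempty ι] [Fintype τ] (W : ι → A) (p z : A) (a : τ → A)
    (hW : ∀ i j, star (W i) * W j = if i = j then p else 0) (hWp : ∀ i, W i * p = W i)
    (hz : ∑ i, W i * star (W i) = z) (ha : ∀ t, IsStarProjection (a t)) (hsum : ∑ t, a t = 1)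
    (hpa : ∀ t, p * a t = a t * p) :
    ∃ m : ι × ι × τ → A, ∑ l, star (m l) * m l = z ∧ ∑ l, m l * star (m l) = z ∧
      (∀ l, m l * z = m l) ∧ ∀ (T : A →L[ℂ] A) (a' b' : ι) (q : A), star q = q →
        (∀ t, q * a t = a t ∨ q * a t = 0) →
        ∑ l, star (m l) * T (m l * (W a' * q * star (W b'))) =
          W a' * q * star (W b') * ∑ l, star (m l) * T (m l) := by
  classical
  let u : ι → ι → τ → A := fun i j t => W j * a t * star (W i)
  have hus : ∀ i j t, star (u i j t) = u j i t := fun i j t => by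
    simp only [u, star_mul, star_star, (ha t).isSelfAdjoint.star_eq, mul_assoc]
  have hum : ∀ i j t k y, u i j t * (W k * y) = if i = k then W j * a t * y else 0 :=
    fun i j t k y => by
      simp only [u]
      rw [mul_assoc, ← mul_assoc (star (W i)), hW]
      split_ifs
      · rw [← mul_assoc, mul_assoc (W j), ← hpa, ← mul_assoc, hWp]
      · rw [zero_mul, mul_zero]
  have huu : ∀ i j t, u j i t * u i j t = W i * a t * star (W i) := fun i j t => by
    change _ * (W j * a t * star (W i)) = _
    rw [mul_assoc (W j), hum, if_pos rfl, ← mul_assoc, mul_assoc (W i), (ha t).isIdempotentElem]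
  have hWa : ∀ i, ∑ t, W i * a t * star (W i) = W i * star (W i) := fun i => by
    rw [← Finset.sum_mul, ← Finset.mul_sum, hsum, mul_one]
  let c : ℝ := (√(Fintype.card ι : ℝ))⁻¹
  have hN : (0 : ℝ) < Fintype.card ι := by exact_mod_cast Fintype.card_pos
  have hc : (Fintype.card ι : ℝ) * (c * c) = 1 := by
    rw [← mul_inv, Real.mul_self_sqrt hN.le, mul_inv_cancel₀ hN.ne']
  refine ⟨fun l => c • u l.1 l.2.1 l.2.2, ?_, ?_, fun l => ?_, fun T a' b' q hq hqa => ?_⟩
  · simp only [star_smul, star_trivial, smul_mul_smul_comm, hus, huu, Fintype.sum_prod_type,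
      ← Finset.smul_sum, hWa, Finset.sum_const, Finset.card_univ]
    rw [hz, ← Nat.cast_smul_eq_nsmul ℝ, smul_smul, mul_comm, hc, one_smul]
  · simp only [star_smul, star_trivial, smul_mul_smul_comm, hus, huu, Fintype.sum_prod_type,
      ← Finset.smul_sum, hWa, Finset.sum_const, Finset.card_univ]
    rw [hz, ← Nat.cast_smul_eq_nsmul ℝ, smul_smul, mul_comm, hc, one_smul]
  · rw [smul_mul_assoc, ← hz, Finset.mul_sum]
    simp [hum, u]
  · let χ : τ → ℝ := fun t => if q * a t = a t then 1 else 0
    have h1 : ∀ t, q * a t = χ t • a t := fun t => by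
      simp only [χ]
      split_ifs with h
      · rw [h, one_smul]
      · rw [(hqa t).resolve_left h, zero_smul]
    have h2 : ∀ t, a t * q = χ t • a t := fun t => by
      simpa [hq, (ha t).isSelfAdjoint.star_eq] using congr(star $(h1 t))
    have h3 : ∀ i j t, u i j t * (W a' * q * star (W b')) =
        if i = a' then χ t • u b' j t else 0 := fun i j t => by
      rw [mul_assoc (W a'), hum]
      split_ifs
      · simp only [u]
        rw [← mul_assoc, mul_assoc (W j), h2, mul_smul_comm, smul_mul_assoc]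
      · rfl
    have h4 : ∀ i j t, W a' * q * star (W b') * u j i t =
        if i = b' then χ t • u j a' t else 0 := fun i j t => by
      simp only [u]
      rw [mul_assoc, mul_assoc (W i), ← mul_assoc (star (W b')), hW]
      by_cases h : i = b'
      · rw [if_pos h, if_pos h.symm, ← mul_assoc p, hpa, mul_assoc (a t),
          ← star_mul_of_mul' hW hWp j, mul_assoc, ← mul_assoc q, h1, smul_mul_assoc, mul_smul_comm,
          mul_assoc]
      · rw [if_neg h, if_neg (Ne.symm h), zero_mul, mul_zero]
    simp only [star_smul, star_trivial, hus, smul_mul_assoc, Finset.mul_sum, mul_smul_comm,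
      ← mul_assoc _ (u _ _ _), h3, h4, Fintype.sum_prod_type]
    rw [Finset.sum_eq_single a', eq_comm, Finset.sum_eq_single b']
    · simp only [if_true, ContinuousLinearMap.map_smul_of_tower, mul_smul_comm, smul_mul_assoc]
    all_goals simp +contextual

/-- PROOF.  `exists_homog`, `p = z e`, `k = n + 1`.  `avg_of_app` with all vector functionals
(`Λ = K × K`) and `S = {w a * q * (w b)* | q ∈ SubP P p} ∪ {(1 - z) x}`; the span is dense because
`x = (1 - z) x + ∑ w a ((w a)* x w b) (w b)*` and `corner_mem`.  Given finitely many `q`'s (they commute: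
`sub_comm'` for `e`), take atoms `aₗ` (`exists_atoms`) and `m (i, j, l) = k^{-1/2} • w j * (p aₗ) * (w i)*`:
row and column sums are `z`, and both identities hold exactly (`q aₗ = aₗ` or `0`). -/
theorem avg_I {P : VonNeumannAlgebra K} {z₀ e : K →L[ℂ] K} (hz₀ : CP P z₀)
    (hfin : FinP P z₀) (he : e ∈ P) (he' : IsStarProjection e) (he0 : e ≠ 0) (hze : z₀ * e = e)
    (hab : Ab P e) :
    ∃ z : Al P, CP P z ∧ z ≠ 0 ∧ z₀ * z = z ∧ Avg z := by
  classical
  obtain ⟨z, hz, hz0, hzz, n, w, hwP, hww, hwe, hsum⟩ := exists_homog hz₀ hfin he he' he0 hze hab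
  let Z : Al P := ⟨z, hz.mem⟩
  let W : Fin (n + 1) → Al P := fun i => ⟨w i, hwP i⟩
  let p : Al P := ⟨z * e, mul_mem hz.mem he⟩
  have hZ : IsStarProjection Z := ⟨Subtype.ext hz.idem, Subtype.ext hz.star_eq⟩
  have hWW : ∀ i j, star (W i) * W j = if i = j then p else 0 := fun i j => Subtype.ext (by
    change star (w i) * w j = _
    rw [hww]; split_ifs <;> rfl)
  have hWp : ∀ i, W i * p = W i := fun i => Subtype.ext (hwe i)
  have hWs : ∑ i, W i * star (W i) = Z := Subtype.ext (by
    rw [AddSubmonoidClass.coe_finset_sum]; exact hsum)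
  have hwe' : ∀ i, w i * e = w i := fun i => by
    rw [← hwe i, mul_assoc, mul_assoc, he'.isIdempotentElem]
  let S : Set (Al P) := {x | ∃ q : Al P, (q : K →L[ℂ] K) ∈ Ez.SubP P e ∧
    ((∃ a b, x = W a * q * star (W b)) ∨ Z * x = 0)}
  have heS : e ∈ Ez.SubP P e := ⟨he, he', he'.isIdempotentElem⟩
  refine ⟨Z, hz, fun h => hz0 congr(($h).1), hzz, avg_of_app Z
    (fun (l : K × K) a => ⟪l.1, (a : K →L[ℂ] K) l.2⟫_ℂ)
    (fun l => ⟨1, fun _ => l.1, fun _ => l.2, fun a => by simp⟩)
    (fun a h => Subtype.ext (ContinuousLinearMap.ext fun ξ =>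
      ext_inner_left ℂ fun η => by simpa using h (η, ξ))) S
    ⟨0, ⟨e, he⟩, heS, Or.inr (mul_zero _)⟩ (fun x => ?_) fun k T x l hx ε hε => ?_⟩
  · have h1 : x = (1 - Z) * x + ∑ a, ∑ b, W a * (star (W a) * x * W b) * star (W b) := by
      have h2 : ∑ a, ∑ b, W a * (star (W a) * x * W b) * star (W b) = Z * x * Z := by
        rw [← hWs, Finset.sum_mul, Finset.sum_mul]
        refine Finset.sum_congr rfl fun a _ => ?_
        rw [Finset.mul_sum]
        exact Finset.sum_congr rfl fun b _ => by simp only [mul_assoc]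
      have h3 : x * Z = Z * x := Subtype.ext (hz.comm x.2).symm
      rw [h2, mul_assoc, h3, ← mul_assoc, hZ.isIdempotentElem, sub_mul, one_mul, sub_add_cancel]
    change x ∈ (Submodule.span ℂ S).topologicalClosure
    rw [h1]
    refine add_mem (Submodule.le_topologicalClosure _ (Submodule.subset_span
      ⟨⟨e, he⟩, heS, Or.inr (by rw [← mul_assoc, hZ.mul_one_sub_self, zero_mul])⟩))
      (sum_mem fun a _ => sum_mem fun b _ => ?_)
    have h2 := Ez.corner_mem he he' (star (W a) * x * W b).2 (by
      change e * (star (w a) * x * w b) * e = star (w a) * x * w b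
      rw [mul_assoc, mul_assoc _ (w b), hwe', ← mul_assoc, ← mul_assoc,
        mul_star_of_mul he' (hwe' a)])
    refine closure_subtype.mpr (map_mem_closure (f := fun y => w a * y * star (w b))
      (by fun_prop) h2 fun y hy => ?_)
    induction hy using Submodule.span_induction with
    | mem y hy =>
      exact ⟨W a * ⟨y, hy.1⟩ * star (W b), Submodule.subset_span ⟨⟨y, hy.1⟩, hy, Or.inl ⟨a, b, rfl⟩⟩,
        rfl⟩
    | zero => exact ⟨0, zero_mem _, by simp⟩
    | add u v _ _ hu hv =>
      obtain ⟨u', hu1, hu2⟩ := hu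
      obtain ⟨v', hv1, hv2⟩ := hv
      exact ⟨u' + v', add_mem hu1 hv1, by simp [hu2, hv2, mul_add, add_mul]⟩
    | smul c v _ hv =>
      obtain ⟨v', hv1, hv2⟩ := hv
      exact ⟨c • v', Submodule.smul_mem _ c hv1, by simp [hv2]⟩
  · choose q hq1 hq2 using hx
    have hqp : ∀ k, IsStarProjection (q k) := fun k =>
      ⟨Subtype.ext (hq1 k).2.1.isIdempotentElem, Subtype.ext (hq1 k).2.1.isSelfAdjoint.star_eq⟩
    obtain ⟨N, a, ha1, -, ha3, ha4, ha5⟩ := exists_atoms q hqp
      fun k k' => Subtype.ext (Ez.sub_comm' he' hab (hq1 k) (hq1 k')).eq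
    have hpa : ∀ t, p * a t = a t * p := fun t => by
      refine (Subring.closure_le (t := Subring.centralizer {p})).2 ?_ (ha4 t) p rfl
      rintro _ ⟨k, rfl⟩ _ rfl
      refine Subtype.ext ?_
      change z * e * q k = q k * (z * e)
      rw [mul_assoc, (hq1 k).2.2, ← mul_assoc, ← hz.comm (q k).2, mul_assoc,
        proj_mul_comm he' (hq1 k).2.1 (hq1 k).2.2]
    obtain ⟨m, m1, m2, m3, m4⟩ := exact_family W p Z a hWW hWp hWs ha1 ha3 hpa
    let E := (Fintype.equivFin (Fin (n + 1) × Fin (n + 1) × Fin N)).symm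
    have hadm : Adm m := ⟨by rw [m1]; exact hZ.norm_le, by rw [m2]; exact hZ.norm_le⟩
    refine ⟨_, fun i => m (E i), hadm.comp_equiv E, fun k => ?_⟩
    rw [E.sum_comp fun i => star (m i) * T k (m i * x k), E.sum_comp fun i => star (m i) * T k (m i),
      E.sum_comp fun i => star (m i) * m i, m1, sub_self]
    have h1 : ∑ i, star (m i) * T k (m i * x k) = x k * ∑ i, star (m i) * T k (m i) := by
      rcases hq2 k with ⟨a', b', h⟩ | h
      · rw [h]
        exact m4 (T k) a' b' (q k) (hqp k).isSelfAdjoint.star_eq (ha5 k)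
      · have h3 : x k * Z = 0 := by rw [← h]; exact Subtype.ext (hz.comm (x k).2).symm
        rw [Finset.mul_sum]
        refine Finset.sum_congr rfl fun i _ => ?_
        rw [← m3 i, mul_assoc, h, mul_zero, map_zero, mul_zero, star_mul, hZ.isSelfAdjoint.star_eq,
          ← mul_assoc, ← mul_assoc, h3, zero_mul, zero_mul]
    rw [h1, sub_self]
    simp [hε.le]

end Crest.Agent.R121
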