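import Crest.Agent.R121.Cut
import Crest.Agent.R121.TypeI

/-! Row 121: the finite part -/

set_option autoImplicit false
set_option linter.unusedSectionVars false
set_option linter.deprecated false

namespace Crest.Agent.R121

open Crest.Agent.R95 Crest.Agent.R124 MeasureTheory Filter Topology
open scoped InnerProductSpace BigOperators ComplexConjugate

variable {K : Type*} [NormedAddCommGroup K] [InnerProductSpace ℂ K] [CompleteSpace K]

/-- PROOF.  Maximal orthogonal family `Z` of nonzero central projections `z ≤ z₀` with `Avg z`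
(`exists_maximal_pairwise`); its sum (`exists_sum_proj`) is central, and equals `z₀`: otherwise apply
`avg_I` or `avg_II_loc` to the remainder (`FinP.sub`).  For a finset `F ⊆ Z` put
`𝒜_F T = ∑_{z ∈ F} z * 𝒜_z T`, `‖𝒜_F T‖ ≤ 2‖T‖` (orthogonal central summands:
`‖∑ z a_z ζ‖² = ∑ ‖a_z z ζ‖²`); `exists_wt_lin` along an ultrafilter refining `atTop`. -/
theorem avg_fin {P : VonNeumannAlgebra K} {z₀ : Al P} (hz₀ : CP P z₀) (hfin : FinP P z₀) :
    Avg z₀ := by
  classical
  obtain ⟨V, hV, hVo, hmax⟩ := exists_maximal_pairwise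
    (fun z : Al P => CP P z ∧ (z₀ : K →L[ℂ] K) * z = z ∧ Avg z) (fun z z' => z * z' = 0)
  let p : V → K →L[ℂ] K := fun z => ((z : Al P) : K →L[ℂ] K)
  have hp : ∀ z : V, CP P (p z) := fun z => (hV z z.2).1
  have ho : Pairwise fun i j : V => p i * p j = 0 :=
    fun i j h => congr(($(hVo i.2 j.2 (fun h' => h (Subtype.ext h')))).1)
  obtain ⟨G, hGP, hG, hGs, -⟩ := exists_sum_proj (P := P) p (fun z => (hp z).mem)
    (fun z => (hp z).proj) ho
  have hGc : CP P G := ⟨hGP, mem_of_hasSum (fun z => (hp z).com) hGs, hG⟩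
  have hzG : (z₀ : K →L[ℂ] K) * G = G := by
    have := mul_hasSum_eq (t := (z₀ : K →L[ℂ] K)) (t' := 1) hGs fun i => by
      rw [one_mul]; exact (hV i i.2).2.1
    rwa [one_mul] at this
  have hGz : G = z₀ := by
    by_contra hne
    have hr := hz₀.sub hGc hzG
    have hzr : (z₀ : K →L[ℂ] K) * (z₀ - G) = z₀ - G := by rw [mul_sub, hz₀.idem, hzG]
    have hrfin := hfin.sub hz₀.mem hz₀.proj hr.mem hr.proj hzr
    obtain ⟨z, h1, h2, h3, h4⟩ : ∃ z : Al P, CP P z ∧ z ≠ 0 ∧ ((z₀ : K →L[ℂ] K) - G) * z = z ∧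
        Avg z := by
      by_cases hab : ∃ e ∈ P, IsStarProjection e ∧ e ≠ 0 ∧ ((z₀ : K →L[ℂ] K) - G) * e = e ∧ Ab P e
      · obtain ⟨e, he, he', he0, hre, hab⟩ := hab
        exact avg_I hr hrfin he he' he0 hre hab
      · exact avg_II_loc hr hrfin (fun h => hne (sub_eq_zero.mp h).symm)
          fun e he he' he0 hre hab' => hab ⟨e, he, he', he0, hre, hab'⟩
    have hrel : ∀ v ∈ V, v * z = 0 := fun v hv => Subtype.ext (by
      have h5 : p ⟨v, hv⟩ * G = p ⟨v, hv⟩ * p ⟨v, hv⟩ :=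
        mul_eq_of_hasSum hGs fun i hi => ho hi.symm
      have h6 : p ⟨v, hv⟩ * z₀ = p ⟨v, hv⟩ := by
        rw [← hz₀.comm (hp _).mem]; exact (hV v hv).2.1
      change p ⟨v, hv⟩ * z = 0
      rw [← h3, ← mul_assoc, mul_sub, h5, h6, (hp _).idem, sub_self, zero_mul])
    have hmem := hmax z ⟨h1, by rw [← h3, ← mul_assoc, hzr], h4⟩ fun v hv => ⟨hrel v hv, by
      rw [← hrel v hv]; exact Subtype.ext (h1.comm v.2)⟩
    exact h2 (by rw [← hrel z hmem]; exact Subtype.ext h1.idem.symm)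
  choose 𝒜 h𝒜 using fun z : V => (hV z z.2).2.2
  let ℬ : Finset V → (Al P →L[ℂ] Al P) →ₗ[ℂ] Al P := fun F =>
    ∑ z ∈ F, (LinearMap.mulLeft ℂ (z : Al P)).comp (𝒜 z)
  have hℬ : ∀ F T, ℬ F T = ∑ z ∈ F, (z : Al P) * 𝒜 z T := fun F T => by simp [ℬ]
  have hn : ∀ F T, ‖ℬ F T‖ ≤ 2 * ‖T‖ := fun F T => by
    rw [hℬ]
    change ‖((∑ z ∈ F, (z : Al P) * 𝒜 z T : Al P) : K →L[ℂ] K)‖ ≤ _
    rw [AddSubmonoidClass.coe_finset_sum]
    refine ContinuousLinearMap.opNorm_le_bound _ (by positivity) fun ζ => ?_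
    refine le_of_sq_le_sq ?_ (by positivity)
    have hpp : ∀ i j : V, i ≠ j → star (p i) * p j = 0 := fun i j h => by
      rw [(hp i).star_eq, ho h]
    have h1 := norm_sq_sum_of_orth (fun z : V => p z * (𝒜 z T : K →L[ℂ] K)) (fun i j h => by
      change star (p i * _) * (p j * _) = 0
      rw [star_mul, mul_assoc, ← mul_assoc (star (p i)), hpp i j h, zero_mul, mul_zero]) F ζ
    have h2 := norm_sq_sum_of_orth p hpp F ζ
    have h3 : ‖∑ i ∈ F, p i ζ‖ ≤ ‖ζ‖ := by
      rw [← ContinuousLinearMap.sum_apply]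
      refine (ContinuousLinearMap.le_of_opNorm_le _ (PI.finset_sum p
        (fun i => PI.of_proj (hp i).proj) (fun i j h => ⟨hpp i j h, ?_⟩) F).norm_le ζ).trans
        (one_mul _).le
      rw [(hp j).star_eq, ho h]
    rw [ContinuousLinearMap.sum_apply]
    refine h1.trans_le ?_
    calc _ ≤ ∑ i ∈ F, (2 * ‖T‖) ^ 2 * ‖p i ζ‖ ^ 2 := by
          refine Finset.sum_le_sum fun i _ => ?_
          rw [(hp i).comm (𝒜 i T).2, ← mul_pow]
          exact pow_le_pow_left₀ (norm_nonneg _)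
            (ContinuousLinearMap.le_of_opNorm_le _ ((h𝒜 i).norm_le T) _) 2
      _ ≤ _ := by
          rw [← Finset.mul_sum, ← h2, mul_pow (2 * ‖T‖)]
          gcongr
  let U : Ultrafilter (Finset V) := Ultrafilter.of atTop
  obtain ⟨𝒞, h1, h2⟩ := exists_wt_lin U ℬ hn
  refine ⟨𝒞, h1, fun T b => ?_, fun T x => ?_, ?_⟩
  · refine (h2 _).unique (((h2 T).mul_right b).congr' (Eventually.of_forall fun F => ?_))
    simp only [hℬ, Finset.sum_mul, (h𝒜 _).right, mul_assoc]
  · refine (h2 _).unique (((h2 T).mul_left x).congr' (Eventually.of_forall fun F => ?_))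
    simp only [hℬ, Finset.mul_sum, (h𝒜 _).left, ← mul_assoc]
    refine Finset.sum_congr rfl fun z _ => ?_
    have : x * (z : Al P) = z * x := Subtype.ext ((hp z).comm x.2).symm
    rw [this]
  · refine (h2 _).unique fun η ξ => ?_
    have h3 : ∀ F, ((ℬ F (ContinuousLinearMap.id ℂ (Al P)) : Al P) : K →L[ℂ] K) ξ =
        ∑ z ∈ F, p z ξ := fun F => by
      rw [hℬ, AddSubmonoidClass.coe_finset_sum, ContinuousLinearMap.sum_apply]
      refine Finset.sum_congr rfl fun z _ => ?_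
      rw [(h𝒜 z).id]
      exact congr($((hp z).idem) ξ)
    simp only [h3, ← hGz]
    exact (Tendsto.inner tendsto_const_nhds (hGs ξ)).mono_left (Ultrafilter.of_le _)

end Crest.Agent.R121
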