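import Crest.Agent.R121.MUa

/-! Row 121: Haar expectation and the Schwinger–Dyson equation -/

set_option autoImplicit false
set_option linter.unusedSectionVars false

namespace Crest.Agent.R121

open Crest.Agent.R95 Crest.Agent.R124 MeasureTheory Filter Topology
open scoped InnerProductSpace BigOperators ComplexConjugate

variable {A : Type*} [CStarAlgebra A] {ι : Type*} [Fintype ι] [DecidableEq ι] {e : ι → ι → A}
  {E : Type*} [NormedAddCommGroup E] [NormedSpace ℝ E] [CompleteSpace E]

instance : IsProbabilityMeasure (haarU ι) := by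
  refine ⟨?_⟩
  have := Measure.haarMeasure_self (G := Matrix.unitaryGroup ι ℂ) (K₀ := ⊤)
  rwa [TopologicalSpace.PositiveCompacts.coe_top] at this

instance : (haarU ι).IsHaarMeasure := by unfold haarU; infer_instance

/-- Right translates and the inverse of a Haar probability measure on a compact group are Haar
probability measures (`isHaarMeasure_eq_of_isProbabilityMeasure`). -/
instance : (haarU ι).IsInvInvariant := by
  have h1 : (haarU ι).IsMulRightInvariant := ⟨fun g => by
    have : IsProbabilityMeasure ((haarU ι).map (· * g)) :=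
      Measure.isProbabilityMeasure_map (measurable_mul_const g).aemeasurable
    exact Measure.isHaarMeasure_eq_of_isProbabilityMeasure _ _⟩
  have h2 : IsProbabilityMeasure (haarU ι).inv :=
    Measure.isProbabilityMeasure_map measurable_inv.aemeasurable
  have h3 : (haarU ι).inv.IsHaarMeasure := {}
  exact ⟨Measure.isHaarMeasure_eq_of_isProbabilityMeasure _ _⟩

lemma continuous_emb (e : ι → ι → A) :
    Continuous fun w : Matrix.unitaryGroup ι ℂ => emb e w := by
  unfold emb
  refine continuous_finsetSum _ fun i _ => continuous_finsetSum _ fun j _ => ?_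
  exact (continuous_subtype_val.matrix_elem i j).smul continuous_const

lemma emb_mul (he : MU 1 e) (m m' : Matrix ι ι ℂ) : emb e (m * m') = emb e m * emb e m' := by
  simp only [emb, Matrix.mul_apply, Finset.sum_mul, Finset.sum_smul]
  refine Finset.sum_congr rfl fun i _ => ?_
  rw [Finset.sum_comm]
  refine Finset.sum_congr rfl fun k _ => ?_
  simp only [Finset.mul_sum, smul_mul_smul_comm, he.mul, smul_ite, smul_zero]
  rw [Finset.sum_comm]
  simp

lemma emb_star (he : MU 1 e) (m : Matrix ι ι ℂ) : emb e (star m) = star (emb e m) := by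
  simp only [emb, star_sum, star_smul, he.star, Matrix.star_apply]
  exact Finset.sum_comm

lemma emb_one (he : MU 1 e) : emb e 1 = 1 := by
  simp only [emb, Matrix.one_apply, ite_smul, one_smul, zero_smul, Finset.sum_ite_eq,
    Finset.mem_univ, if_true]
  exact he.sum

lemma emb_add (e : ι → ι → A) (m m' : Matrix ι ι ℂ) : emb e (m + m') = emb e m + emb e m' := by
  simp only [emb, Matrix.add_apply, add_smul, Finset.sum_add_distrib]

lemma emb_smul (e : ι → ι → A) (c : ℂ) (m : Matrix ι ι ℂ) : emb e (c • m) = c • emb e m := by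
  simp only [emb, Matrix.smul_apply, smul_eq_mul, mul_smul, Finset.smul_sum]

lemma emb_single (e : ι → ι → A) (i j : ι) : emb e (Matrix.single i j 1) = e i j := by
  simp [emb, Matrix.single_apply, ite_and]

lemma emb_mem_Ue (he : MU 1 e) (w : Matrix.unitaryGroup ι ℂ) : emb e w ∈ Ue e := by
  refine ⟨⟨?_, ?_⟩, emb_mem_Sp e _⟩
  · rw [← emb_star he, ← emb_mul he, w.2.1, emb_one he]
  · rw [← emb_star he, ← emb_mul he, w.2.2, emb_one he]

lemma Ex_integrable (e : ι → ι → A) {F : A → E} (hF : Continuous F) :
    Integrable (fun w : Matrix.unitaryGroup ι ℂ => F (emb e w)) (haarU ι) := by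
  exact (hF.comp (continuous_emb e)).integrable_of_hasCompactSupport
    (HasCompactSupport.of_compactSpace _)

lemma Ex_const (e : ι → ι → A) (c : E) : Ex e (fun _ => c) = c := by
  simp [Ex]

lemma Ex_add (e : ι → ι → A) {F G : A → E} (hF : Continuous F) (hG : Continuous G) :
    Ex e (fun w => F w + G w) = Ex e F + Ex e G := by
  exact integral_add (Ex_integrable e hF) (Ex_integrable e hG)

lemma Ex_sub (e : ι → ι → A) {F G : A → E} (hF : Continuous F) (hG : Continuous G) :
    Ex e (fun w => F w - G w) = Ex e F - Ex e G := by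
  exact integral_sub (Ex_integrable e hF) (Ex_integrable e hG)

lemma Ex_neg (e : ι → ι → A) (F : A → E) : Ex e (fun w => -F w) = -Ex e F := by
  exact integral_neg _

lemma Ex_sum {κ : Type*} (e : ι → ι → A) (s : Finset κ) {F : κ → A → E}
    (hF : ∀ k, Continuous (F k)) : Ex e (fun w => ∑ k ∈ s, F k w) = ∑ k ∈ s, Ex e (F k) := by
  exact integral_finsetSum s fun k _ => Ex_integrable e (hF k)

lemma Ex_mul (e : ι → ι → A) (c : ℂ) (F : A → ℂ) : Ex e (fun w => c * F w) = c * Ex e F := by
  exact integral_const_mul _ _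

lemma Ex_rmul (e : ι → ι → A) (c : ℝ) (F : A → ℝ) : Ex e (fun w => c * F w) = c * Ex e F := by
  exact integral_const_mul _ _

lemma Ex_ofReal (e : ι → ι → A) (F : A → ℝ) :
    Ex e (fun w => (F w : ℂ)) = ((Ex e F : ℝ) : ℂ) := by
  exact integral_ofReal

lemma Ex_clm {E' : Type*} [NormedAddCommGroup E'] [NormedSpace ℝ E'] [CompleteSpace E']
    (e : ι → ι → A) (L : E →L[ℝ] E') {F : A → E} (hF : Continuous F) :
    L (Ex e F) = Ex e fun w => L (F w) := by
  exact (L.integral_comp_comm (Ex_integrable e hF)).symm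

lemma Ex_FF (e : ι → ι → A) {G : A → A → A → ℂ} (hG : ∀ a b, Continuous fun w => G w a b) :
    Ex e (fun w => FF e (G w)) = FF e fun a b => Ex e fun w => G w a b := by
  simp only [FF, smul_eq_mul]
  rw [Ex_mul, Ex_sum e _ fun i => continuous_finsetSum _ fun j _ => hG _ _]
  congr 1
  exact Finset.sum_congr rfl fun i _ => Ex_sum e _ fun j => hG _ _

lemma continuous_FF {X : Type*} [TopologicalSpace X] (e : ι → ι → A) {G : X → A → A → ℂ}
    (hG : ∀ a b, Continuous fun w => G w a b) : Continuous fun w => FF e (G w) := by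
  unfold FF
  simp only [smul_eq_mul]
  exact continuous_const.mul
    (continuous_finsetSum _ fun i _ => continuous_finsetSum _ fun j _ => hG _ _)

lemma Ex_congr (he : MU 1 e) {F G : A → E} (h : ∀ w ∈ Ue e, F w = G w) : Ex e F = Ex e G := by
  exact integral_congr_ae (ae_of_all _ fun w => h _ (emb_mem_Ue he w))

lemma Ex_mono (he : MU 1 e) {F G : A → ℝ} (hF : Continuous F) (hG : Continuous G)
    (h : ∀ w ∈ Ue e, F w ≤ G w) : Ex e F ≤ Ex e G := by
  exact integral_mono (Ex_integrable e hF) (Ex_integrable e hG) fun w => h _ (emb_mem_Ue he w)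

lemma Ex_nonneg (he : MU 1 e) {F : A → ℝ} (h : ∀ w ∈ Ue e, 0 ≤ F w) : 0 ≤ Ex e F := by
  exact integral_nonneg fun w => h _ (emb_mem_Ue he w)

lemma norm_Ex_le (he : MU 1 e) {F : A → E} {G : A → ℝ} (hG : Continuous G)
    (h : ∀ w ∈ Ue e, ‖F w‖ ≤ G w) : ‖Ex e F‖ ≤ Ex e G := by
  exact norm_integral_le_of_norm_le (Ex_integrable e hG)
    (ae_of_all _ fun w => h _ (emb_mem_Ue he w))

/-- Jensen (or `√x ≤ (x/t + t)/2`). -/
lemma Ex_sqrt_le (he : MU 1 e) {F : A → ℝ} (hF : Continuous F) (h : ∀ w ∈ Ue e, 0 ≤ F w) :
    Ex e (fun w => √(F w)) ≤ √(Ex e F) := by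
  have h1 : Integrable (fun w : Matrix.unitaryGroup ι ℂ => √(F (emb e w))) (haarU ι) :=
    Ex_integrable e (F := fun w => √(F w)) hF.sqrt
  have h2 := Real.strictConcaveOn_sqrt.concaveOn.le_map_integral (μ := haarU ι)
    (f := fun w : Matrix.unitaryGroup ι ℂ => F (emb e w)) Real.continuous_sqrt.continuousOn
    isClosed_Ici (ae_of_all _ fun w => h _ (emb_mem_Ue he w)) (Ex_integrable e hF) h1
  exact h2

lemma Ex_star (he : MU 1 e) (F : A → E) : Ex e (fun w => F (star w)) = Ex e F := by
  unfold Ex
  rw [← integral_inv_eq_self (fun w : Matrix.unitaryGroup ι ℂ => F (emb e w)) (haarU ι)]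
  simp only [← emb_star he]
  rfl

/-- `Convex.integral_mem`. -/
lemma Ex_mem (he : MU 1 e) {F : A → E} (hF : Continuous F) {S : Set E} (hS : Convex ℝ S)
    (hS' : IsClosed S) (h : ∀ w ∈ Ue e, F w ∈ S) : Ex e F ∈ S := by
  exact hS.integral_mem hS' (ae_of_all _ fun w => h _ (emb_mem_Ue he w)) (Ex_integrable e hF)

section SD
variable {V : Type*} [NormedAddCommGroup V] [NormedSpace ℂ V]

/-- `f' a U` is the derivative of `f` at `U` in the direction `U ↦ a U`, `U* ↦ -U* a`
(complex linear in `a`). -/
structure HasD (f : A → V) (f' : A → A → V) : Prop where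
  cont : Continuous f
  cont' : ∀ a, Continuous (f' a)
  lin : ∀ U, IsLinearMap ℂ fun a => f' a U
  der : ∀ (γ : ℝ → A) (t : ℝ) (h : A), IsSelfAdjoint h →
    HasDerivAt γ (Complex.I • (h * γ t)) t →
    HasDerivAt (fun s => f (γ s)) (Complex.I • f' h (γ t)) t

lemma HasD.congr {f : A → V} {f' g' : A → A → V} (h : HasD f f') (hg : ∀ a U, g' a U = f' a U) :
    HasD f g' := by
  have : g' = f' := by funext a U; exact hg a U
  rwa [this]

lemma HasD.const (c : V) : HasD (fun _ : A => c) fun _ _ => 0 := by
  exact ⟨continuous_const, fun _ => continuous_const, fun _ => ⟨by simp, by simp⟩,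
    fun γ t h _ _ => by simpa using hasDerivAt_const t c⟩

lemma HasD.id : HasD (fun U : A => U) fun a U => a * U := by
  exact ⟨continuous_id, fun _ => continuous_const.mul continuous_id,
    fun U => ⟨fun a b => add_mul a b U, fun c a => smul_mul_assoc c a U⟩, fun γ t h _ hγ => hγ⟩

lemma HasD.star : HasD (fun U : A => star U) fun a U => -(star U * a) := by
  refine ⟨continuous_star, fun _ => (continuous_star.mul continuous_const).neg,
    fun U => ⟨fun a b => by rw [mul_add, neg_add], fun c a => by rw [mul_smul_comm, smul_neg]⟩,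
    fun γ t h hh hγ => ?_⟩
  have h1 := (starL' ℝ (A := A)).toContinuousLinearMap.hasFDerivAt.comp_hasDerivAt t hγ
  refine HasDerivAt.congr_deriv h1 ?_
  show Star.star (Complex.I • (h * γ t)) = _
  simp [hh.star_eq]

private lemma HasD.bil' {f g : A → A} {f' g' : A → A → A} (hf : HasD f f') (hg : HasD g g')
    (B : A →L[ℂ] A →L[ℂ] V) :
    HasD (fun U => B (f U) (g U)) fun a U => B (f' a U) (g U) + B (f U) (g' a U) := by
  refine ⟨(B.continuous.comp hf.cont).clm_apply hg.cont, fun a =>
    ((B.continuous.comp (hf.cont' a)).clm_apply hg.cont).add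
      ((B.continuous.comp hf.cont).clm_apply (hg.cont' a)), fun U => ⟨fun a b => ?_, fun c a => ?_⟩,
    fun γ t h hh hγ => ?_⟩
  · simp only [(hf.lin U).map_add, (hg.lin U).map_add, map_add, add_apply]
    abel
  · simp only [(hf.lin U).map_smul, (hg.lin U).map_smul, map_smul, smul_apply,
      smul_add]
  · have h1 := (B.bilinearRestrictScalars ℝ).hasDerivAt_of_bilinear (fun _ => hf.der γ t h hh hγ)
      (fun _ => hg.der γ t h hh hγ)
    refine HasDerivAt.congr_deriv h1 ?_
    simp [add_comm]

private lemma HasD.mul' {f g : A → A} {f' g' : A → A → A} (hf : HasD f f') (hg : HasD g g') :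
    HasD (fun U => f U * g U) fun a U => f' a U * g U + f U * g' a U :=
  HasD.bil' hf hg (ContinuousLinearMap.mul ℂ A)

/-- `HasDerivAt.fun_pow'` (reflect the sum) or induction. -/
lemma HasD.pow (m : ℕ) :
    HasD (fun U : A => U ^ m) fun a U => ∑ i ∈ Finset.range m, U ^ i * a * U ^ (m - i) := by
  induction m with
  | zero => simpa using HasD.const (1 : A)
  | succ m ih =>
    have h := HasD.mul' ih HasD.id
    simp only [← pow_succ] at h
    refine h.congr fun a U => ?_
    rw [Finset.sum_range_succ, Finset.sum_mul, Nat.add_sub_cancel_left, pow_one, mul_assoc]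
    congr 1
    refine Finset.sum_congr rfl fun i hi => ?_
    have : m + 1 - i = m - i + 1 := by have := Finset.mem_range.1 hi; omega
    rw [this, pow_succ, ← mul_assoc]

lemma HasD.star_pow (m : ℕ) :
    HasD (fun U : A => Star.star U ^ m) fun a U =>
      -∑ i ∈ Finset.range m, Star.star U ^ (i + 1) * a * Star.star U ^ (m - 1 - i) := by
  induction m with
  | zero => simpa using HasD.const (1 : A)
  | succ m ih =>
    have h := HasD.mul' ih HasD.star
    simp only [← pow_succ] at h
    refine h.congr fun a U => ?_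
    rw [Finset.sum_range_succ, neg_add, neg_mul, Finset.sum_mul, Nat.add_sub_cancel,
      Nat.sub_self, pow_zero, mul_one, mul_neg, ← mul_assoc, ← pow_succ]
    congr 2
    refine Finset.sum_congr rfl fun i hi => ?_
    have : m - i = m - 1 - i + 1 := by have := Finset.mem_range.1 hi; omega
    rw [this, pow_succ _ (m - 1 - i), ← mul_assoc]

lemma HasD.mul {f g : A → A} {f' g' : A → A → A} (hf : HasD f f') (hg : HasD g g') :
    HasD (fun U => f U * g U) fun a U => f' a U * g U + f U * g' a U := by
  exact HasD.mul' hf hg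

lemma HasD.mul_const {f : A → A} {f' : A → A → A} (hf : HasD f f') (c : A) :
    HasD (fun U => f U * c) fun a U => f' a U * c := by
  exact (hf.mul (HasD.const c)).congr fun a U => by simp

lemma HasD.const_mul {f : A → A} {f' : A → A → A} (hf : HasD f f') (c : A) :
    HasD (fun U => c * f U) fun a U => c * f' a U := by
  exact ((HasD.const c).mul hf).congr fun a U => by simp

lemma HasD.clm {f : A → A} {f' : A → A → A} (hf : HasD f f') (L : A →L[ℂ] V) :
    HasD (fun U => L (f U)) fun a U => L (f' a U) := by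
  refine ⟨L.continuous.comp hf.cont, fun a => L.continuous.comp (hf.cont' a), fun U =>
    ⟨fun a b => by rw [(hf.lin U).map_add, map_add], fun c a => by
      rw [(hf.lin U).map_smul, map_smul]⟩, fun γ t h hh hγ => ?_⟩
  have h1 := (L.restrictScalars ℝ).hasFDerivAt.comp_hasDerivAt t (hf.der γ t h hh hγ)
  refine HasDerivAt.congr_deriv h1 ?_
  simp

lemma HasD.bil {f g : A → A} {f' g' : A → A → A} (hf : HasD f f') (hg : HasD g g')
    (B : A →L[ℂ] A →L[ℂ] V) :
    HasD (fun U => B (f U) (g U)) fun a U => B (f' a U) (g U) + B (f U) (g' a U) := by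
  exact HasD.bil' hf hg B

private lemma sd_proj (he : MU 1 e) {f : A → ℂ} {f' : A → A → ℂ} (hf : HasD f f') (X : A)
    {p : Matrix ι ι ℂ} (hp : star p = p) (hpp : p * p = p) :
    Ex e (fun w => f' (emb e p) (w * X)) = 0 := by
  let c : ℝ → ℂ := fun t => Complex.exp (t * Complex.I) - 1
  have hc : ∀ t, c t + conj (c t) + c t * conj (c t) = 0 := fun t => by
    have h1 : Complex.exp (t * Complex.I) * conj (Complex.exp (t * Complex.I)) = 1 := by
      rw [Complex.mul_conj, Complex.normSq_eq_norm_sq, Complex.norm_exp_ofReal_mul_I]; simp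
    simp only [c, map_sub, map_one]; linear_combination h1
  have hu : ∀ s s' : ℂ, s + s' + s * s' = 0 → (1 + s • p) * (1 + s' • p) = 1 := fun s s' h => by
    have : (1 + s • p) * (1 + s' • p) = 1 + (s + s' + s * s') • p := by
      simp only [add_mul, mul_add, one_mul, mul_one, smul_mul_smul_comm, hpp]; module
    rw [this, h, zero_smul, add_zero]
  let g : ℝ → Matrix.unitaryGroup ι ℂ := fun t => ⟨1 + c t • p, by
    have hs : star (1 + c t • p) = 1 + conj (c t) • p := by
      rw [star_add, star_one, star_smul, hp]; rfl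
    rw [Unitary.mem_iff, hs]
    exact ⟨hu _ _ (by linear_combination hc t), hu _ _ (hc t)⟩⟩
  obtain ⟨P, hP⟩ : ∃ P, P = emb e p := ⟨_, rfl⟩
  have hPs : IsSelfAdjoint P := by rw [hP, IsSelfAdjoint, ← emb_star he, hp]
  have hPP : P * P = P := by rw [hP, ← emb_mul he, hpp]
  rw [← hP]
  let γ : ℝ → Matrix.unitaryGroup ι ℂ → A := fun t w => (1 + c t • P) * (emb e w * X)
  have hγ : ∀ t w, γ t w = emb e (g t * w : Matrix.unitaryGroup ι ℂ) * X := fun t w => by
    show _ = emb e ((1 + c t • p) * w) * X
    rw [emb_mul he, emb_add, emb_one he, emb_smul, ← hP, mul_assoc]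
  have hcd : ∀ t : ℝ, HasDerivAt c (Complex.exp (t * Complex.I) * Complex.I) t := fun t => by
    have h1 : HasDerivAt (fun s : ℝ => (s : ℂ) * Complex.I) (1 * Complex.I) t :=
      (Complex.ofRealCLM.hasDerivAt (x := t)).mul_const Complex.I
    exact HasDerivAt.congr_deriv (h1.cexp.sub_const 1) (by rw [one_mul])
  have hγd : ∀ w t, HasDerivAt (fun t => γ t w) (Complex.I • (P * γ t w)) t := fun w t => by
    have h1 := (((hcd t).smul_const P).const_add 1).mul_const (emb e w * X)
    convert h1 using 1
    simp only [γ, c, ← mul_assoc, mul_add, mul_one, mul_smul_comm, hPP, ← smul_mul_assoc]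
    congr 2
    module
  have hcc : Continuous c := continuous_iff_continuousAt.2 fun t => (hcd t).continuousAt
  have hγc : Continuous fun q : ℝ × Matrix.unitaryGroup ι ℂ => γ q.1 q.2 :=
    (continuous_const.add ((hcc.comp continuous_fst).smul continuous_const)).mul
      (((continuous_emb e).comp continuous_snd).mul continuous_const)
  have hF' : Continuous fun q : ℝ × Matrix.unitaryGroup ι ℂ => Complex.I • f' P (γ q.1 q.2) :=
    continuous_const.mul ((hf.cont' P).comp hγc)
  obtain ⟨C, hC⟩ := ((isCompact_Icc (a := (-1 : ℝ)) (b := 1)).prod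
    (isCompact_univ (X := Matrix.unitaryGroup ι ℂ))).exists_bound_of_continuousOn hF'.continuousOn
  have hsec : ∀ t, Continuous fun w => γ t w := fun t => hγc.comp (Continuous.prodMk_right t)
  have h1 := (hasDerivAt_integral_of_dominated_loc_of_deriv_le (μ := haarU ι)
    (F := fun t w => f (γ t w)) (F' := fun t w => Complex.I • f' P (γ t w)) (x₀ := (0 : ℝ))
    (bound := fun _ => C) (s := Set.Icc (-1) 1) (Icc_mem_nhds (by norm_num) (by norm_num))
    (Eventually.of_forall fun t => (hf.cont.comp (hsec t)).aestronglyMeasurable)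
    ((hf.cont.comp (hsec 0)).integrable_of_hasCompactSupport (HasCompactSupport.of_compactSpace _))
    (hF'.comp (Continuous.prodMk_right 0)).aestronglyMeasurable
    (ae_of_all _ fun w t ht => hC (t, w) ⟨ht, trivial⟩) (integrable_const C)
    (ae_of_all _ fun w t _ => hf.der _ t P hPs (hγd w t))).2
  have h2 : (fun t => ∫ w, f (γ t w) ∂haarU ι) = fun _ => Ex e fun w => f (w * X) := by
    funext t
    simp only [hγ]
    exact integral_mul_left_eq_self (fun w : Matrix.unitaryGroup ι ℂ => f (emb e w * X)) (g t)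
  rw [h2] at h1
  have h3 := h1.unique (hasDerivAt_const _ _)
  have h4 : ∀ w, γ 0 w = emb e w * X := fun w => by simp [γ, c]
  simp only [h4, integral_smul, smul_eq_zero, Complex.I_ne_zero, false_or] at h3
  exact h3

/-- Schwinger–Dyson.  PROOF.  For a self-adjoint idempotent matrix `p`, `P = emb e p`,
`g t = 1 + (exp (i t) - 1) • p` is a unitary matrix, so `t ↦ Ex (fun w => f (emb (g t) * w * X))` is
constant (`integral_mul_left_eq_self`, `emb_mul`); `γ t = emb (g t) * w * X` has derivative
`I • (P * γ t)`; differentiate under the integral at `0`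
(`hasDerivAt_integral_of_dominated_loc_of_deriv_le`, the derivative is continuous on the compact set
`[-1,1] × U(ι)`).  Then use `lin`: `e i j` is a complex combination of the projections `e i i`,
`(eᵢᵢ + eⱼⱼ + eᵢⱼ + eⱼᵢ)/2`, `(eᵢᵢ + eⱼⱼ + I eᵢⱼ - I eⱼᵢ)/2`; `span_induction`. -/
theorem sd (he : MU 1 e) {f : A → ℂ} {f' : A → A → ℂ} (hf : HasD f f') (X : A) {a : A}
    (ha : a ∈ Sp e) : Ex e (fun w => f' a (w * X)) = 0 := by
  have hc : ∀ a, Continuous fun w : A => f' a (w * X) := fun a =>
    (hf.cont' a).comp (continuous_id.mul continuous_const)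
  let Λ : A →ₗ[ℂ] ℂ :=
    { toFun := fun a => Ex e fun w => f' a (w * X)
      map_add' := fun a b => by
        simp only [fun U => (hf.lin U).map_add a b]; exact Ex_add e (hc a) (hc b)
      map_smul' := fun c a => by
        simp only [fun U => (hf.lin U).map_smul c a, smul_eq_mul, RingHom.id_apply]
        exact Ex_mul e c _ }
  have hd : ∀ i, Λ (e i i) = 0 := fun i => by
    rw [← emb_single e i i]
    exact sd_proj he hf X (by simp [Matrix.star_eq_conjTranspose]) (by simp)
  suffices h : Sp e ≤ LinearMap.ker Λ from h ha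
  refine Submodule.span_le.2 ?_
  rintro _ ⟨⟨i, j⟩, rfl⟩
  show Λ (e i j) = 0
  by_cases hij : i = j
  · rw [hij]; exact hd j
  have key : ∀ z : ℂ, z * conj z = 1 → z * Λ (e i j) + conj z * Λ (e j i) = 0 := fun z hz => by
    have hz' : conj z * z = 1 := by rw [mul_comm, hz]
    have h1 : Λ (emb e ((2 : ℂ)⁻¹ • (Matrix.single i i 1 + Matrix.single j j 1 +
        z • Matrix.single i j 1 + conj z • Matrix.single j i 1))) = 0 := by
      refine sd_proj he hf X ?_ ?_
      · simp only [Matrix.star_eq_conjTranspose, Matrix.conjTranspose_smul,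
          Matrix.conjTranspose_add, Matrix.conjTranspose_single, star_one, Complex.star_def,
          map_inv₀, Complex.conj_conj, map_ofNat]
        congr 1; abel
      · have n1 : ∀ k l : ι, Matrix.single k i (1 : ℂ) * Matrix.single j l (1 : ℂ) = 0 :=
          fun k l => Matrix.single_mul_single_of_ne _ k i j hij _
        have n2 : ∀ k l : ι, Matrix.single k j (1 : ℂ) * Matrix.single i l (1 : ℂ) = 0 :=
          fun k l => Matrix.single_mul_single_of_ne _ k j i (Ne.symm hij) _
        rw [smul_mul_smul_comm]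
        simp only [add_mul, mul_add, smul_mul_assoc, mul_smul_comm,
          Matrix.single_mul_single_same, n1, n2, mul_one, smul_add, smul_zero, smul_smul]
        match_scalars <;> first | ring1 | linear_combination (1 / 4) * hz
    simp only [emb_smul, emb_add, emb_single, map_smul, map_add, hd, smul_eq_mul] at h1
    linear_combination 2 * h1
  have h1 := key 1 (by simp)
  have h2 := key Complex.I (by simp)
  simp only [map_one, Complex.conj_I] at h1 h2
  linear_combination (1 / 2) * h1 - (Complex.I / 2) * h2 +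
    (Λ (e i j) - Λ (e j i)) / 2 * Complex.I_sq

/-- The form in which `sd` is used: `f b` is the function with `b` inserted at the chosen slot. -/
theorem sd_FF (he : MU 1 e) {f : A → A → ℂ} {f' : A → A → A → ℂ} (hf : ∀ b, HasD (f b) (f' b))
    (X : A) : Ex e (fun w => FF e fun a b => f' b a (w * X)) = 0 := by
  rw [Ex_FF e (G := fun w a b => f' b a (w * X)) fun a b =>
    ((hf b).cont' a).comp (continuous_id.mul continuous_const)]
  simp only [FF, fun i j => sd he (hf (e i j)) X (e_mem_Sp e j i), Finset.sum_const_zero,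
    smul_zero]

end SD

end Crest.Agent.R121
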