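import Crest.Agent.R121.Defs
import Crest.Prelude.Def_Hochschild

/-! Row 121: the Hochschild differential -/

set_option autoImplicit false
set_option linter.unusedSectionVars false

namespace Crest.Agent.R121

open Crest.Agent.R95 Crest.Agent.R124 MeasureTheory Filter Topology
open scoped InnerProductSpace BigOperators ComplexConjugate

open Crest.OpAlg

section Ring
variable {R : Type*} [Ring R]

/-- The differential without its first term, by recursion on the number of arguments. -/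
def DD : (k : ℕ) → ((Fin k → R) → R) → (Fin (k + 1) → R) → R
  | 0, Φ, a => -(Φ Fin.elim0 * a 0)
  | k + 1, Φ, a => -Φ (Fin.cons (a 0 * a 1) (Fin.tail (Fin.tail a))) -
      DD k (fun v => Φ (Fin.cons (a 0) v)) (Fin.tail a)

lemma merge_zero {k : ℕ} (a : Fin (k + 2) → R) :
    mergeArgs (0 : Fin (k + 1)) a = Fin.cons (a 0 * a 1) (Fin.tail (Fin.tail a)) := by
  funext i
  refine Fin.cases ?_ (fun i => ?_) i
  · simp [mergeArgs]
  · simp [mergeArgs, Fin.tail]

lemma merge_succ {k : ℕ} (j : Fin k) (a : Fin (k + 2) → R) :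
    mergeArgs j.succ a = Fin.cons (a 0) (mergeArgs j (Fin.tail a)) := by
  funext i
  refine Fin.cases ?_ (fun i => ?_) i
  · simp [mergeArgs]
  · simp [mergeArgs, Fin.tail]

lemma DD_eq : ∀ (k : ℕ) (Φ : (Fin k → R) → R) (a : Fin (k + 1) → R),
    DD k Φ a = (∑ j : Fin k, ((-1 : ℤ) ^ (j.val + 1)) • Φ (mergeArgs j a)) +
      ((-1 : ℤ) ^ (k + 1)) • (Φ (fun i => a i.castSucc) * a (Fin.last k))
  | 0, Φ, a => by
    have e : (fun i : Fin 0 => a i.castSucc) = Fin.elim0 := Subsingleton.elim _ _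
    simp [DD, e]
  | k + 1, Φ, a => by
    have e : (fun i : Fin (k + 1) => a i.castSucc) =
        Fin.cons (a 0) fun i : Fin k => Fin.tail a i.castSucc := by
      funext i
      refine Fin.cases ?_ (fun i => ?_) i
      · simp
      · simp [Fin.tail]
    have e' : Fin.tail a (Fin.last k) = a (Fin.last (k + 1)) := rfl
    rw [DD, DD_eq k, Fin.sum_univ_succ, merge_zero, e, e']
    simp only [merge_succ, Fin.val_succ, Fin.val_zero, pow_succ (-1 : ℤ) (_ + 1), mul_neg_one,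
      neg_smul, Finset.sum_neg_distrib, zero_add, pow_one, one_smul]
    abel

/-- Induction on `k`, `Fin.sum_univ_succ`; `mergeArgs 0 a = cons (a 0 * a 1) (tail (tail a))`,
`mergeArgs (succ j) a = cons (a 0) (mergeArgs j (tail a))`. -/
theorem hoch_eq {k : ℕ} (Φ : (Fin k → R) → R) (a : Fin (k + 1) → R) :
    hochschildDiff Φ a = a 0 * Φ (Fin.tail a) + DD k Φ a := by
  rw [DD_eq, hochschildDiff, add_assoc]
  rfl

lemma hoch_add {k : ℕ} (Φ Ψ : (Fin k → R) → R) (a : Fin (k + 1) → R) :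
    hochschildDiff (fun x => Φ x + Ψ x) a = hochschildDiff Φ a + hochschildDiff Ψ a := by
  simp only [hochschildDiff, mul_add, add_mul, smul_add, Finset.sum_add_distrib]
  abel

lemma hoch_sub {k : ℕ} (Φ Ψ : (Fin k → R) → R) (a : Fin (k + 1) → R) :
    hochschildDiff (fun x => Φ x - Ψ x) a = hochschildDiff Φ a - hochschildDiff Ψ a := by
  simp only [hochschildDiff, mul_sub, sub_mul, smul_sub, Finset.sum_sub_distrib]
  abel

lemma DD_add (k : ℕ) (Φ Ψ : (Fin k → R) → R) (a : Fin (k + 1) → R) :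
    DD k (fun v => Φ v + Ψ v) a = DD k Φ a + DD k Ψ a := by
  simp only [DD_eq, add_mul, smul_add, Finset.sum_add_distrib]
  abel

lemma DD_neg_sub (k : ℕ) (Φ Ψ : (Fin k → R) → R) (a : Fin (k + 1) → R) :
    DD k (fun v => -Φ v - Ψ v) a = -DD k Φ a - DD k Ψ a := by
  simp only [DD_eq, sub_mul, neg_mul, smul_sub, smul_neg, Finset.sum_sub_distrib,
    Finset.sum_neg_distrib]
  abel

lemma DD_mul (c : R) (k : ℕ) (Φ : (Fin k → R) → R) (a : Fin (k + 1) → R) :
    DD k (fun v => c * Φ v) a = c * DD k Φ a := by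
  simp only [DD_eq, mul_add, Finset.mul_sum, mul_smul_comm, mul_assoc]

lemma DD_cons (k : ℕ) (Φ : (Fin (k + 1) → R) → R) (c : R) (v : Fin (k + 1) → R) :
    DD (k + 1) Φ (Fin.cons c v) =
      -Φ (Fin.cons (c * v 0) (Fin.tail v)) - DD k (fun w => Φ (Fin.cons c w)) v := by
  rw [DD]
  simp only [Fin.cons_zero, Fin.cons_one, Fin.tail_cons]

lemma DD_DD : ∀ (k : ℕ) (Φ : (Fin k → R) → R) (a : Fin (k + 2) → R),
    DD (k + 1) (DD k Φ) a = 0
  | 0, Φ, a => by
    have e : Fin.tail a 0 = a 1 := rfl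
    simp [DD, mul_assoc, e]
  | k + 1, Φ, a => by
    have ih := DD_DD k (fun w => Φ (Fin.cons (a 0) w)) (Fin.tail a)
    have e : Fin.tail a 0 = a 1 := rfl
    have e' : Fin.tail (Fin.tail a) 0 = Fin.tail a 1 := rfl
    rw [DD]
    simp only [DD_cons]
    rw [DD_neg_sub, ih, DD]
    simp only [Fin.cons_zero, Fin.tail_cons, e, e', mul_assoc]
    abel

/-- PROOF.  `DD` is additive in `Φ` and commutes with left multiplication.  `DD (DD Φ) = 0` by induction
(`DD (DD Φ) (a :: v) = DD (DD (Φ (a :: ·))) v`), and for `Ψ v = v 0 * Φ (tail v)`: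
`DD Ψ (a :: v) = -a * hochschildDiff Φ v`. -/
theorem hoch_hoch {k : ℕ} (Φ : (Fin k → R) → R) (a : Fin (k + 2) → R) :
    hochschildDiff (hochschildDiff Φ) a = 0 := by
  have h : hochschildDiff Φ = fun v => v 0 * Φ (Fin.tail v) + DD k Φ v := funext (hoch_eq Φ)
  have e : Fin.tail a 0 = a 1 := rfl
  rw [hoch_eq, h, DD_add, DD_DD, DD]
  simp only [Fin.cons_zero, Fin.tail_cons, DD_mul, e, mul_add, mul_assoc]
  abel

end Ring

variable {A : Type*} [CStarAlgebra A]

lemma exists_DD_map (𝒜 : (A →L[ℂ] A) →ₗ[ℂ] A) : ∀ (k : ℕ) (F : (Fin k → A) → A →L[ℂ] A)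
    (_ : ∀ x b, 𝒜 ((rmul b).comp (F x)) = 𝒜 (F x) * b) (a : Fin (k + 1) → A),
    ∃ T : A →L[ℂ] A, (∀ m, T m = DD k (fun v => F v m) a) ∧ 𝒜 T = DD k (fun v => 𝒜 (F v)) a
  | 0, F, h, a => ⟨-(rmul (a 0)).comp (F Fin.elim0), fun m => by simp [DD], by
      rw [map_neg, h, DD]⟩
  | k + 1, F, h, a => by
    obtain ⟨T, h1, h2⟩ := exists_DD_map 𝒜 k (fun v => F (Fin.cons (a 0) v)) (fun x b => h _ b)
      (Fin.tail a)
    refine ⟨-F (Fin.cons (a 0 * a 1) (Fin.tail (Fin.tail a))) - T, fun m => ?_, ?_⟩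
    · rw [DD, ← h1]; rfl
    · rw [DD, ← h2, map_sub, map_neg]

/-- PROOF.  `g x = 𝒜 (sl f x)` is multilinear (`x ↦ sl f x` is `f.curryLeft.flipMultilinear`) and
bounded.  The cocycle identity at `cons m a` says, as maps of `m`,
`0 = rmul (f a) - (sl f (tail a)) ∘ rmul (a 0) + ∑ⱼ (-1)^j sl f (mergeArgs j a)
+ (-1)^n rmul (a last) ∘ sl f (init a)`; apply `𝒜`. -/
theorem cobound_of_avg {n : ℕ} (f : Co A (n + 1)) (hf : ∀ a, hochschildDiff f a = 0)
    (𝒜 : (A →L[ℂ] A) →ₗ[ℂ] A) {C : ℝ} (hb : ∀ x, ‖𝒜 (sl f x)‖ ≤ C * ∏ i, ‖x i‖)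
    (hr : ∀ x b, 𝒜 ((rmul b).comp (sl f x)) = 𝒜 (sl f x) * b)
    (hl : ∀ x y, 𝒜 ((sl f x).comp (rmul y)) = y * 𝒜 (sl f x)) (hid : ∀ b, 𝒜 (rmul b) = b) :
    ∃ g : Co A n, ∀ a, hochschildDiff g a = f a := by
  let G : MultilinearMap ℂ (fun _ : Fin n => A) A :=
    { toFun := fun x => 𝒜 (sl f x)
      map_update_add' := fun x i y y' => by
        rw [← map_add]
        congr 1
        exact ContinuousLinearMap.ext fun m => (f.curryLeft m).map_update_add x i y y'
      map_update_smul' := fun x i c y => by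
        rw [← map_smul]
        congr 1
        exact ContinuousLinearMap.ext fun m => (f.curryLeft m).map_update_smul x i c y }
  refine ⟨G.mkContinuous C hb, fun a => ?_⟩
  obtain ⟨T, h1, h2⟩ := exists_DD_map 𝒜 n (sl f) hr a
  have h3 : rmul (f a) = (sl f (Fin.tail a)).comp (rmul (a 0)) + T := by
    refine ContinuousLinearMap.ext fun m => ?_
    have := hf (Fin.cons m a)
    rw [hoch_eq, DD_cons, Fin.cons_zero, Fin.tail_cons] at this
    change m * f a = f (Fin.cons (m * a 0) (Fin.tail a)) + T m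
    rw [h1]
    simp only [sl_apply]
    linear_combination (norm := abel1) this
  rw [hoch_eq, ← hid (f a), h3, map_add, hl, h2]
  rfl

end Crest.Agent.R121
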