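import Crest.Agent.R121.MUa

/-! Row 121: the quantities `θ` and `η` -/

set_option autoImplicit false
set_option linter.unusedSectionVars false

namespace Crest.Agent.R121

open Crest.Agent.R95 Crest.Agent.R124 MeasureTheory Filter Topology
open scoped InnerProductSpace BigOperators ComplexConjugate

variable {A : Type*} [CStarAlgebra A] [Tr A] {ι : Type*} [Fintype ι] [DecidableEq ι]
  {e : ι → ι → A}

lemma mub_lin (e : ι → ι → A) (P R : A) : IsLinearMap ℂ fun x => EK e (P * x * R) :=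
  ⟨fun x y => by simp [mul_add, add_mul], fun c x => by simp⟩

lemma mub_cs (f g : ι → ι → ℝ) {c : ℝ} (hc : 0 ≤ c) :
    c * ∑ i, ∑ j, f i j * g i j ≤ √(c * ∑ i, ∑ j, f i j ^ 2) * √(c * ∑ i, ∑ j, g i j ^ 2) := by
  have h := Real.sum_mul_le_sqrt_mul_sqrt Finset.univ (fun p : ι × ι => f p.1 p.2)
    fun p => g p.1 p.2
  simp only [Fintype.sum_prod_type] at h
  rw [Real.sqrt_mul hc, Real.sqrt_mul hc, mul_mul_mul_comm, Real.mul_self_sqrt hc]
  exact mul_le_mul_of_nonneg_left h hc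

lemma mub_norm_FF (e : ι → ι → A) (G : A → A → ℂ) {f : ι → ι → ℝ}
    (h : ∀ i j, ‖G (e j i) (e i j)‖ ≤ f i j) :
    ‖FF e G‖ ≤ (Fintype.card ι : ℝ)⁻¹ * ∑ i, ∑ j, f i j := by
  rw [FF, norm_smul, norm_inv, Complex.norm_natCast]
  gcongr
  exact (norm_sum_le _ _).trans (Finset.sum_le_sum fun i _ =>
    (norm_sum_le _ _).trans (Finset.sum_le_sum fun j _ => h i j))

lemma mub_term (he : MU 1 e) (P R x : A) :
    ((n2 (EK e (star P * x * R)) ^ 2 : ℝ) : ℂ) =
      FF e fun a b => τ (star x * (P * a * star P) * x * (R * b * star R)) := by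
  rw [n2_EK_sq he]
  congr 1
  funext a b
  simp only [star_mul, star_star, mul_assoc]
  rw [τ_comm (star R)]
  simp only [mul_assoc]

lemma mub_diag (he : MU 1 e) (P : A) (i : ι) :
    n2 (EK e (star P * e i i * P)) ^ 2 = (Fintype.card ι : ℝ)⁻¹ *
      ∑ k, ∑ l, n2 (e i i * (P * e k l * star P) * e i i) ^ 2 := by
  have h1 : e i i * e i i = e i i := by rw [he.mul, if_pos rfl]
  have h2 : ∀ y, e i i * (e i i * y) = e i i * y := fun y => by rw [← mul_assoc, h1]
  apply Complex.ofReal_injective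
  rw [mub_term he, FF]
  simp only [Complex.ofReal_mul, Complex.ofReal_inv, Complex.ofReal_natCast, Complex.ofReal_sum,
    smul_eq_mul, ← τ_star_mul_self]
  congr 1
  refine Finset.sum_congr rfl fun k _ => Finset.sum_congr rfl fun l _ => ?_
  rw [← mul_assoc (star _) _ (e i i), τ_comm _ (e i i)]
  simp only [star_mul, star_star, he.star, mul_assoc, h2]

lemma mub_key (he : MU 1 e) (P R : A) (i j : ι) :
    n2 (EK e (star P * e i j * R)) ^ 2 ≤
      n2 (EK e (star P * e i i * P)) * n2 (EK e (star R * e j j * R)) := by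
  have h0 : ‖((n2 (EK e (star P * e i j * R)) ^ 2 : ℝ) : ℂ)‖ = n2 (EK e (star P * e i j * R)) ^ 2 :=
    Complex.norm_of_nonneg (by positivity)
  rw [← h0, mub_term he, ← Real.sqrt_sq (n2_nonneg (EK e (star P * e i i * P))),
    ← Real.sqrt_sq (n2_nonneg (EK e (star R * e j j * R))), mub_diag he, mub_diag he]
  refine le_trans (mub_norm_FF e _ fun k l => ?_) (mub_cs _ _ (by positivity))
  have h1 : ∀ y, e j i * (e i i * y) = e j i * y := fun y => by
    rw [← mul_assoc, he.mul, if_pos rfl]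
  have h2 : ∀ y, e i i * (e i j * y) = e i j * y := fun y => by
    rw [← mul_assoc, he.mul, if_pos rfl]
  have h3 : ∀ y, e i j * (e j j * y) = e i j * y := fun y => by
    rw [← mul_assoc, he.mul, if_pos rfl]
  have h4 : ∀ y, e j j * (e j i * y) = e j i * y := fun y => by
    rw [← mul_assoc, he.mul, if_pos rfl]
  have h5 : τ (star (e i j) * (P * e l k * star P) * e i j * (R * e k l * star R)) =
      τ ((e j i * star (e i i * (P * e k l * star P) * e i i) * e i j) *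
        (e j j * (R * e k l * star R) * e j j)) := by
    rw [← mul_assoc _ _ (e j j), τ_comm _ (e j j)]
    simp only [star_mul, star_star, he.star, mul_assoc, h1, h2, h3, h4]
  rw [h5]
  refine (norm_τ_mul_le _ _).trans (mul_le_mul_of_nonneg_right ?_ (n2_nonneg _))
  refine (n2_mul_le_right _ _).trans ((mul_le_of_le_one_right (n2_nonneg _)
    (MU.norm_le he _ _)).trans ((n2_mul_le_left _ _).trans ?_))
  rw [n2_star]
  exact mul_le_of_le_one_left (n2_nonneg _) (MU.norm_le he _ _)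

lemma mub_FF (he : MU 1 e) (P R : A) :
    (((Fintype.card ι : ℝ)⁻¹ * ∑ i, ∑ j, n2 (EK e (P * e i j * R)) ^ 2 : ℝ) : ℂ) =
      FF e fun a b => τ (EK e (star R * a * star P) * EK e (P * b * R)) := by
  simp only [FF, Complex.ofReal_mul, Complex.ofReal_inv, Complex.ofReal_natCast, Complex.ofReal_sum,
    smul_eq_mul, ← τ_star_mul_self, EK_star he, star_mul, he.star, mul_assoc]

lemma mub_n2_le (he : MU 1 e) {Y u : A} (hY : Y ∈ unitary A) (hu : u ∈ unitary A) :
    n2 (EK e (star Y * u * Y)) ^ 2 ≤ 1 := by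
  have h := n2_EK_le he (star Y * u * Y)
  rw [n2_unitary (mul_mem (mul_mem (Unitary.star_mem hY) hu) hY)] at h
  exact pow_le_one₀ (n2_nonneg _) h

lemma theta_one (he : MU 1 e) : theta e 1 = (Fintype.card ι : ℝ)⁻¹ := by
  have hK : (Fintype.card ι : ℝ) ≠ 0 := by exact_mod_cast (MU.card_pos he).ne'
  simp only [theta, star_one, one_mul, mul_one, EK_e he, if_true, n2_smul, n2_one, norm_inv,
    Complex.norm_natCast, Finset.sum_const, Finset.card_univ, nsmul_eq_mul]
  field_simp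

/-- `θ(Y) = 𝔼_s n2 (EK (Y* s Y))² ≤ 1` (`expect_sg_n2`). -/
lemma theta_le_one (he : MU 1 e) {Y : A} (hY : Y ∈ unitary A) : theta e Y ≤ 1 := by
  rw [theta, ← expect_sg_n2 he (mub_lin e (star Y) Y)]
  exact Finset.expect_le Finset.univ_nonempty fun s _ => mub_n2_le he hY (sg_mem he s).1

/-- `η(Y) = 𝔼_d n2 (EK (Y* u Y))² ≤ 1` (`expect_du_n2`). -/
lemma eta_le_one (he : MU 1 e) {Y : A} (hY : Y ∈ unitary A) : eta e Y ≤ 1 := by
  rw [eta, ← (expect_du_n2 he (mub_lin e (star Y) Y)).1]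
  exact Finset.expect_le Finset.univ_nonempty fun s _ => mub_n2_le he hY (du_mem he s).1

/-- By `n2_EK_sq`, `expect_du`: `n2 (EK (Y* eᵢⱼ Y))² = 𝔼_v τ (eⱼᵢ W eᵢⱼ W*)` with `W = Y v Y*`, and
`τ (eⱼᵢ W eᵢⱼ W*) = τ ((eⱼᵢ W eᵢⱼ) (eⱼⱼ W* eⱼⱼ))`, of modulus at most
`n2 (eᵢᵢ W eᵢᵢ) n2 (eⱼⱼ W eⱼⱼ) ≤ (τ (eᵢᵢ W eᵢᵢ W*) + τ (eⱼⱼ W eⱼⱼ W*))/2`. -/
lemma eta_le_theta (he : MU 1 e) (Y : A) : eta e Y ≤ theta e Y := by
  have hK : (0 : ℝ) < Fintype.card ι := by exact_mod_cast MU.card_pos he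
  rw [eta, inv_mul_le_iff₀ hK, theta]
  refine le_trans (Finset.sum_le_sum fun i _ => Finset.sum_le_sum fun j _ => mub_key he Y Y i j) ?_
  rw [← Finset.sum_mul_sum, ← sq]
  exact sq_sum_le_card_mul_sum_sq

/-- `FF`-invariance: `η(Y)` is `FF` of the bilinear function
`(a, b) ↦ τ (EK (Y* a Y) * EK (Y* b Y))`; use `FF_flip_left`, `FF_flip_right`. -/
lemma eta_mul (he : MU 1 e) {w : A} (hw : w ∈ Ue e) (Y : A) : eta e (w * Y) = eta e Y := by
  apply Complex.ofReal_injective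
  rw [eta, eta, mub_FF he, mub_FF he, star_star, star_star]
  have hG : Bil fun a b => τ (EK e (star Y * a * Y) * EK e (star Y * b * Y)) :=
    ⟨fun _ => ⟨fun x y => by simp [mul_add, add_mul], fun c x => by simp⟩,
      fun _ => ⟨fun x y => by simp [mul_add, add_mul], fun c x => by simp⟩⟩
  have hH : Bil fun a b =>
      τ (EK e (star Y * (star w * a) * Y) * EK e (star Y * (b * star (star w)) * Y)) :=
    ⟨fun _ => ⟨fun x y => by simp [mul_add, add_mul], fun c x => by simp⟩,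
      fun _ => ⟨fun x y => by simp [mul_add, add_mul], fun c x => by simp⟩⟩
  rw [← FF_flip_left he hG (Ue.star he hw), ← FF_flip_right he hH hw]
  simp only [star_mul, star_star, mul_assoc]

/-- `K⁻¹ ∑ n2 (EK (P eᵢⱼ R))² = FF_{a,b} FF_{a',b'} τ (R* a P* a' P b R b')
= FF_{a',b'} τ (EK (P* a' P) * EK (R b' R*))` (`FF_comm`, trace property, `τ_EK_mul_EK`);
Cauchy–Schwarz in `τ` and in the sum. -/
lemma cl1 (he : MU 1 e) (P R : A) :
    (Fintype.card ι : ℝ)⁻¹ * ∑ i, ∑ j, n2 (EK e (P * e i j * R)) ^ 2 ≤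
      √(eta e P) * √(eta e (star R)) := by
  have h0 : ‖(((Fintype.card ι : ℝ)⁻¹ * ∑ i, ∑ j, n2 (EK e (P * e i j * R)) ^ 2 : ℝ) : ℂ)‖ =
      (Fintype.card ι : ℝ)⁻¹ * ∑ i, ∑ j, n2 (EK e (P * e i j * R)) ^ 2 :=
    Complex.norm_of_nonneg (by positivity)
  have hl : ∀ p q : A, IsLinearMap ℂ fun x => τ (p * x * q) := fun p q =>
    ⟨fun x y => by simp [mul_add, add_mul], fun c x => by simp⟩
  have h1 : (FF e fun a b => τ (EK e (star R * a * star P) * EK e (P * b * R))) =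
      FF e fun a' b' => τ (EK e (star P * a' * P) * EK e (R * b' * star R)) := by
    have h2 : ∀ a b, τ (EK e (star R * a * star P) * EK e (P * b * R)) =
        FF e fun a' b' => τ (1 * (a * (star P * a' * P) * b) * (R * b' * star R)) := by
      intro a b
      rw [τ_EK_mul_EK he, ← mul_one (_ * EK e _), EK_apply, map_FF e (hl _ 1)]
      congr 1
      funext a' b'
      simp only [mul_one, one_mul, mul_assoc]
      rw [τ_comm (star R)]
      simp only [mul_assoc]
    simp only [h2]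
    rw [FF_comm]
    congr 1
    funext a' b'
    rw [← map_FF e (hl 1 (R * b' * star R)), ← EK_apply, one_mul, τ_EK_mul_EK he, τ_mul_EK he]
  rw [← h0, mub_FF he, h1]
  refine le_trans (mub_norm_FF e _ fun i j => norm_τ_mul_le _ _) ?_
  refine (mub_cs (fun i j => n2 (EK e (star P * e j i * P)))
    (fun i j => n2 (EK e (R * e i j * star R))) (by positivity)).trans (le_of_eq ?_)
  rw [eta, eta, star_star, Finset.sum_comm]

/-- `∑_β n2 (EK (P* e_ββ R))² = ∑_β 𝔼_v τ (e_ββ (P v P*) e_ββ (R v* R*))`; Cauchy–Schwarz, and the case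
`P = R` identifies `∑_β 𝔼_v n2 (e_ββ (P v P*) e_ββ)²` with `θ(P)`. -/
lemma cl2 (he : MU 1 e) (P R : A) :
    ∑ β, n2 (EK e (star P * e β β * R)) ^ 2 ≤ √(theta e P) * √(theta e R) := by
  exact le_trans (Finset.sum_le_sum fun β _ => mub_key he P R β β)
    (Real.sum_mul_le_sqrt_mul_sqrt _ _ _)

end Crest.Agent.R121
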