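import Crest.Agent.R121.LGT

/-! Row 121: uniform integrability after a small compression -/

set_option autoImplicit false
set_option linter.unusedSectionVars false

namespace Crest.Agent.R121

open Crest.Agent.R95 Crest.Agent.R124 MeasureTheory Filter Topology
open scoped InnerProductSpace BigOperators ComplexConjugate

variable {A : Type*} [CStarAlgebra A] [Tr A]

section Order
attribute [local instance] CStarAlgebra.spectralOrder CStarAlgebra.spectralOrderedRing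

lemma ui_compress {ι : Type*} [Fintype ι] {c : ι → A} {e₁ e₂ : A} (h₁ : IsSelfAdjoint e₁)
    (h₂ : IsSelfAdjoint e₂) (h22 : e₂ * e₂ ≤ 1) (hc : ∑ i, star (c i) * c i ≤ 1) :
    ∑ i, star (e₂ * c i * e₁) * (e₂ * c i * e₁) ≤ e₁ * e₁ := by
  have h := star_left_conjugate_le_conjugate hc e₁
  rw [mul_one, h₁.star_eq, Finset.mul_sum, Finset.sum_mul] at h
  refine le_trans (Finset.sum_le_sum fun i _ => ?_) h
  have := star_left_conjugate_le_conjugate h22 (c i * e₁)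
  simpa only [star_mul, h₁.star_eq, h₂.star_eq, mul_assoc, one_mul] using this

lemma ui_sq_le {e : A} (h0 : 0 ≤ e) (h1 : e ≤ 1) : ‖e‖ ≤ 1 ∧ e * e ≤ 1 := by
  have hn : ‖e‖ ≤ 1 := (CStarAlgebra.norm_le_one_iff_of_nonneg _ h0).mpr h1
  refine ⟨hn, (CStarAlgebra.norm_le_one_iff_of_nonneg _ h0.isSelfAdjoint.mul_self_nonneg).mp ?_⟩
  exact (norm_mul_le _ _).trans (mul_le_one₀ hn (norm_nonneg _) hn)

lemma ui_n2 {ι : Type*} [Fintype ι] {c : ι → A} {e : A} (h0 : 0 ≤ e) {k γ : ℝ} (hk : 0 < k)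
    (hγ : 0 < γ) (h : (1 - e) * (1 - e) ≤ k⁻¹ • ∑ i, star (c i) * c i)
    (hc : ∑ i, n2 (c i) ^ 2 ≤ k * γ ^ 2) : n2 (1 - e) ≤ γ := by
  have h1 := τ_re_mono h
  have hs : star (1 - e) = 1 - e := by rw [star_sub, star_one, h0.isSelfAdjoint.star_eq]
  rw [τ_rsmul, map_sum, Complex.re_ofReal_mul, Complex.re_sum] at h1
  simp only [← n2_sq] at h1
  refine (sq_le_sq₀ (n2_nonneg _) hγ.le).mp ?_
  rw [n2_sq, hs]
  refine h1.trans ?_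
  rwa [inv_mul_le_iff₀ hk]

/-- The compression attached to an admissible family with small `2`-norm. -/
lemma ui_join {ι : Type*} [Fintype ι] {c₀ : ι → A} (hc₀ : Adm c₀) {k γ : ℝ} (hk : 0 < k)
    (hγ : 0 < γ) (hn : ∑ i, n2 (c₀ i) ^ 2 ≤ k * γ ^ 2) :
    ∃ e₁ e₂ : A, IsSelfAdjoint e₁ ∧ IsSelfAdjoint e₂ ∧
      ‖e₁‖ ≤ 1 ∧ ‖e₂‖ ≤ 1 ∧ n2 (1 - e₁) ≤ γ ∧ n2 (1 - e₂) ≤ γ ∧
      ∀ (n : ℕ) (c : Fin n → A), Adm c → Adm (fun l => e₂ * c l * e₁) ∧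
        ‖∑ i, star (Sum.elim c₀ (fun l => e₂ * c l * e₁) i) *
          Sum.elim c₀ (fun l => e₂ * c l * e₁) i‖ ≤ 1 + 2 * k ∧
        ‖∑ i, Sum.elim c₀ (fun l => e₂ * c l * e₁) i *
          star (Sum.elim c₀ (fun l => e₂ * c l * e₁) i)‖ ≤ 1 + 2 * k := by
  obtain ⟨a1, a2⟩ := adm_iff.mp hc₀
  obtain ⟨e₁, p0, p1, -, -, p2, p3⟩ := exists_clamp (h := ∑ i, star (c₀ i) * c₀ i)
    (Finset.sum_nonneg fun i _ => star_mul_self_nonneg _) hk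
  obtain ⟨e₂, q0, q1, -, -, q2, q3⟩ := exists_clamp (h := ∑ i, c₀ i * star (c₀ i))
    (Finset.sum_nonneg fun i _ => mul_star_self_nonneg _) hk
  obtain ⟨n1, s1⟩ := ui_sq_le p0 p1
  obtain ⟨n2', s2⟩ := ui_sq_le q0 q1
  have sa1 := p0.isSelfAdjoint
  have sa2 := q0.isSelfAdjoint
  refine ⟨e₁, e₂, sa1, sa2, n1, n2', ui_n2 p0 hk hγ p2 hn,
    ui_n2 (c := fun i => star (c₀ i)) q0 hk hγ (by simpa only [star_star] using q2)
      (by simpa only [n2_star] using hn), fun n c hc => ?_⟩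
  obtain ⟨b1, b2⟩ := adm_iff.mp hc
  have k1 := ui_compress sa1 sa2 s2 b1
  have k2 : ∑ i, (e₂ * c i * e₁) * star (e₂ * c i * e₁) ≤ e₂ * e₂ := by
    have := ui_compress (c := fun i => star (c i)) sa2 sa1 s1 (by simpa only [star_star] using b2)
    simpa only [star_mul, star_star, sa1.star_eq, sa2.star_eq, mul_assoc] using this
  have hk' : 0 ≤ 1 + 2 * k := by positivity
  refine ⟨adm_iff.mpr ⟨k1.trans s1, k2.trans s2⟩, ?_, ?_⟩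
  · rw [CStarAlgebra.norm_le_iff_le_algebraMap _ hk'
      (Finset.sum_nonneg fun i _ => star_mul_self_nonneg _), Algebra.algebraMap_eq_smul_one,
      Fintype.sum_sum_type]
    exact (add_le_add le_rfl k1).trans (p3 a1)
  · rw [CStarAlgebra.norm_le_iff_le_algebraMap _ hk'
      (Finset.sum_nonneg fun i _ => mul_star_self_nonneg _), Algebra.algebraMap_eq_smul_one,
      Fintype.sum_sum_type]
    exact (add_le_add le_rfl k2).trans (q3 a2)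

end Order

section Sup
variable {E : Type*} [NormedAddCommGroup E] [InnerProductSpace ℂ E]

/-- The values of `∑ ‖S cᵢ‖²` on admissible families of `2`-norm at most `δ`. -/
def uiSet (S : A →L[ℂ] E) (δ : ℝ) : Set ℝ :=
  {r | ∃ (n : ℕ) (c : Fin n → A), Adm c ∧ ∑ l, n2 (c l) ^ 2 ≤ δ ∧ r = ∑ l, ‖S (c l)‖ ^ 2}

lemma uiSet_zero (S : A →L[ℂ] E) {δ : ℝ} (hδ : 0 ≤ δ) : (0 : ℝ) ∈ uiSet S δ :=
  ⟨0, fun _ => 0, by simp [Adm], by simpa using hδ, by simp⟩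

lemma uiSet_le (S : A →L[ℂ] E) {δ r : ℝ} (h : r ∈ uiSet S δ) : r ≤ 4 * ‖S‖ ^ 2 := by
  obtain ⟨n, c, hc, -, rfl⟩ := h
  exact lgt S hc

lemma uiSet_bdd (S : A →L[ℂ] E) (δ : ℝ) : BddAbove (uiSet S δ) := ⟨_, fun _ h => uiSet_le S h⟩

lemma ui_le_sup (S : A →L[ℂ] E) {δ T : ℝ} (hT : 1 ≤ T) {κ : Type*} [Fintype κ] {c : κ → A}
    (h1 : ‖∑ i, star (c i) * c i‖ ≤ T) (h2 : ‖∑ i, c i * star (c i)‖ ≤ T)
    (h3 : ∑ i, n2 (c i) ^ 2 ≤ δ) : ∑ i, ‖S (c i)‖ ^ 2 ≤ T * sSup (uiSet S δ) := by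
  have hT0 : 0 < T := by linarith
  set s : ℝ := (√T)⁻¹ with hs
  have hss : s ^ 2 = T⁻¹ := by rw [hs, inv_pow, Real.sq_sqrt hT0.le]
  have hc : Adm fun i => (s : ℂ) • c i := by
    have e : ‖star (s : ℂ) * s‖ = T⁻¹ := by rw [← hss]; simp [sq]
    have e' : ‖(s : ℂ) * star (s : ℂ)‖ = T⁻¹ := by rw [mul_comm, e]
    constructor
    · simp only [star_smul, smul_mul_smul_comm, ← Finset.smul_sum, norm_smul, e]
      rwa [inv_mul_le_iff₀ hT0, mul_one]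
    · simp only [star_smul, smul_mul_smul_comm, ← Finset.smul_sum, norm_smul, e']
      rwa [inv_mul_le_iff₀ hT0, mul_one]
  let Eq := (Fintype.equivFin κ).symm
  have hm : ∑ i, ‖S ((s : ℂ) • c i)‖ ^ 2 ∈ uiSet S δ := by
    refine ⟨_, _, hc.comp_equiv Eq, ?_, (Eq.sum_comp fun i => ‖S ((s : ℂ) • c i)‖ ^ 2).symm⟩
    rw [Eq.sum_comp fun i => n2 ((s : ℂ) • c i) ^ 2]
    simp only [n2_smul, mul_pow, Complex.norm_real, Real.norm_eq_abs, sq_abs, hss,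
      ← Finset.mul_sum]
    exact (mul_le_of_le_one_left (by positivity) (inv_le_one_of_one_le₀ hT)).trans h3
  have := le_csSup (uiSet_bdd S δ) hm
  simp only [map_smul, norm_smul, mul_pow, Complex.norm_real, Real.norm_eq_abs, sq_abs, hss,
    ← Finset.mul_sum] at this
  rwa [inv_mul_le_iff₀ hT0] at this

end Sup

/-- PROOF.  `β c = ‖S c‖²`, `N = ‖S‖`.  For `δ > 0` let `Σ(δ) = sup ∑ β (cᵢ)` over admissible families
(`n`, `c : Fin n → A`) with `∑ n2 (cᵢ)² ≤ δ`; `0 ≤ Σ(δ) ≤ 4N²` (`lgt`), monotone; `Σ₀ = inf_δ Σ(δ)`.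
Choose `ε', c > 0` with `2ε' + 2c (4N²) ≤ ε` and `δ` with `Σ(δ) ≤ Σ₀ + ε'`; `Λ' = 8 N² / δ`.
Given `γ`, take `δ' ≤ min (δ/2) (c γ²)` and an admissible `c⁰` with `∑ n2² ≤ δ'`,
`∑ β (c⁰) ≥ Σ(δ') - ε' ≥ Σ₀ - ε'`.  `h₁ = ∑ c⁰* c⁰`, `h₂ = ∑ c⁰ c⁰*`, `eᵢ` from `exists_clamp hᵢ c`:
`n2 (1 - eᵢ)² ≤ τ hᵢ / c ≤ γ²`.  If `c` is admissible with `∑ n2² ≤ δ/2`, the family
`(1 + 2c)^{-1/2} • (c⁰ ∪ e₂ c e₁)` is admissible (`h₁ + e₁ (∑ c* e₂² c) e₁ ≤ h₁ + e₁²`) with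
`∑ n2² ≤ δ`, so `∑ β(e₂ c e₁) ≤ (1 + 2c) Σ(δ) - Σ₀ + ε' ≤ 2ε' + 8 c N²`.  If `∑ n2² > δ/2` use
`lgt` for `e₂ c e₁`: `4N² ≤ Λ' ∑ n2²`. -/
theorem ui {E : Type*} [NormedAddCommGroup E] [InnerProductSpace ℂ E] (S : A →L[ℂ] E) {ε : ℝ}
    (hε : 0 < ε) :
    ∃ Λ' : ℝ, 0 ≤ Λ' ∧ ∀ γ : ℝ, 0 < γ → ∃ e₁ e₂ : A, IsSelfAdjoint e₁ ∧ IsSelfAdjoint e₂ ∧
      ‖e₁‖ ≤ 1 ∧ ‖e₂‖ ≤ 1 ∧ n2 (1 - e₁) ≤ γ ∧ n2 (1 - e₂) ≤ γ ∧
      ∀ (n : ℕ) (c : Fin n → A), Adm c →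
        ∑ l, ‖S (e₂ * c l * e₁)‖ ^ 2 ≤ ε + Λ' * ∑ l, n2 (c l) ^ 2 := by
  set N : ℝ := 4 * ‖S‖ ^ 2 with hN
  have hN0 : 0 ≤ N := by positivity
  set k : ℝ := ε / (4 * (N + 1)) with hk
  have hk0 : 0 < k := by positivity
  have hkN : 2 * k * N ≤ ε / 2 := by
    have : k * (4 * (N + 1)) = ε := by rw [hk]; field_simp
    nlinarith
  set T : Set ℝ := {r | ∃ δ : ℝ, 0 < δ ∧ r = sSup (uiSet S δ)} with hT
  have hTb : BddBelow T := ⟨0, by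
    rintro _ ⟨δ, hδ, rfl⟩
    exact le_csSup (uiSet_bdd S δ) (uiSet_zero S hδ.le)⟩
  obtain ⟨_, ⟨δ, hδ, rfl⟩, hδ2⟩ := exists_lt_of_csInf_lt (s := T) ⟨_, 1, one_pos, rfl⟩
    (show sInf T < sInf T + ε / 4 by linarith)
  have hδN : sSup (uiSet S δ) ≤ N := csSup_le ⟨_, uiSet_zero S hδ.le⟩ fun _ h => uiSet_le S h
  refine ⟨2 * N / δ, by positivity, fun γ hγ => ?_⟩
  have hδ' : 0 < min (δ / 2) (k * γ ^ 2) := by positivity
  have h0 : sInf T ≤ sSup (uiSet S (min (δ / 2) (k * γ ^ 2))) := csInf_le hTb ⟨_, hδ', rfl⟩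
  obtain ⟨_, ⟨n₀, c₀, hc₀, hn₀, rfl⟩, hb⟩ := exists_lt_of_lt_csSup ⟨_, uiSet_zero S hδ'.le⟩
    (show sInf T - ε / 4 < sSup (uiSet S (min (δ / 2) (k * γ ^ 2))) by linarith)
  obtain ⟨e₁, e₂, s1, s2, n1, n2', m1, m2, H⟩ := ui_join hc₀ hk0 hγ (hn₀.trans (min_le_right _ _))
  refine ⟨e₁, e₂, s1, s2, n1, n2', m1, m2, fun n c hc => ?_⟩
  obtain ⟨H1, H2, H3⟩ := H n c hc
  have hs0 : 0 ≤ ∑ l, n2 (c l) ^ 2 := by positivity
  rcases le_or_gt (∑ l, n2 (c l) ^ 2) (δ / 2) with h | h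
  · have h4 : ∑ l, n2 (e₂ * c l * e₁) ^ 2 ≤ ∑ l, n2 (c l) ^ 2 :=
      Finset.sum_le_sum fun l _ => pow_le_pow_left₀ (n2_nonneg _)
        ((n2_mul_le_right _ _).trans ((mul_le_of_le_one_right (n2_nonneg _) n1).trans
          ((n2_mul_le_left _ _).trans (mul_le_of_le_one_left (n2_nonneg _) n2')))) 2
    have h5 := ui_le_sup S (δ := δ) (by linarith) H2 H3 (by
      rw [Fintype.sum_sum_type]
      have := hn₀.trans (min_le_left _ _)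
      simp only [Sum.elim_inl, Sum.elim_inr]
      linarith)
    rw [Fintype.sum_sum_type] at h5
    simp only [Sum.elim_inl, Sum.elim_inr] at h5
    have h6 : 2 * k * sSup (uiSet S δ) ≤ 2 * k * N := mul_le_mul_of_nonneg_left hδN (by positivity)
    have h7 : 0 ≤ 2 * N / δ * ∑ l, n2 (c l) ^ 2 := by positivity
    linarith
  · have h4 := lgt S H1
    have h5 : 2 * N / δ * (δ / 2) ≤ 2 * N / δ * ∑ l, n2 (c l) ^ 2 :=
      mul_le_mul_of_nonneg_left h.le (by positivity)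
    have h6 : 2 * N / δ * (δ / 2) = N := by field_simp
    linarith

end Crest.Agent.R121
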