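import Crest.Agent.R121.Amp
import Crest.Agent.R121.UI

/-! Row 121: approximate invariance in type II₁ -/

set_option autoImplicit false
set_option linter.unusedSectionVars false

namespace Crest.Agent.R121

open Crest.Agent.R95 Crest.Agent.R124 MeasureTheory Filter Topology
open scoped InnerProductSpace BigOperators ComplexConjugate

variable {A : Type*} [CStarAlgebra A] [Tr A]

/-- Cauchy–Schwarz for `τ (w u* ∑ a* t)`. -/
lemma t2_cs {ι : Type*} [Fintype ι] (a t : ι → A) (w : A) {u : A} (hu : u ∈ unitary A) {α β : ℝ}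
    (hα : 0 ≤ α) (hβ : 0 ≤ β) (ha : ∑ l, n2 (a l) ^ 2 ≤ α ^ 2)
    (ht : ∑ l, n2 (t l * w) ^ 2 ≤ β ^ 2) :
    ‖τ (w * (star u * ∑ l, star (a l) * t l))‖ ≤ α * β := by
  rw [Finset.mul_sum, Finset.mul_sum, map_sum]
  refine (norm_sum_le _ _).trans ((Finset.sum_le_sum
    (g := fun l => n2 (a l) * n2 (t l * w)) fun l _ => ?_).trans ?_)
  · have e : star u * (star (a l) * t l) * w = star (a l * u) * (t l * w) := by
      simp only [star_mul, mul_assoc]
    rw [τ_comm, e]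
    refine (norm_τ_mul_le _ _).trans ?_
    rw [n2_star, n2_mul_unitary hu]
  · refine (Real.sum_mul_le_sqrt_mul_sqrt _ _ _).trans ?_
    exact mul_le_mul (Real.sqrt_le_iff.2 ⟨hα, ha⟩) (Real.sqrt_le_iff.2 ⟨hβ, ht⟩)
      (Real.sqrt_nonneg _) hα

lemma t2_sum_right {ι : Type*} [Fintype ι] {m : ι → A} (hm : ∑ l, star (m l) * m l = 1) (b : A) :
    ∑ l, n2 (m l * b) ^ 2 = n2 b ^ 2 := by
  have e : star b * b = ∑ l, star (m l * b) * (m l * b) := by
    calc star b * b = star b * (∑ l, star (m l) * m l) * b := by rw [hm, mul_one]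
      _ = _ := by simp only [Finset.mul_sum, Finset.sum_mul, star_mul, mul_assoc]
  rw [n2_sq b, e, map_sum, Complex.re_sum]
  simp only [n2_sq]

lemma t2_sum_left {ι : Type*} [Fintype ι] {m : ι → A} (hm : ∑ l, m l * star (m l) = 1) (b : A) :
    ∑ l, n2 (b * m l) ^ 2 = n2 b ^ 2 := by
  have := t2_sum_right (m := fun l => star (m l)) (by simpa using hm) (star b)
  simpa only [← star_mul, n2_star] using this

lemma t2_lgt {E : Type*} [NormedAddCommGroup E] [InnerProductSpace ℂ E] (S : A →L[ℂ] E)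
    {ι : Type*} [Fintype ι] {c : ι → A} (hc : Adm c) {L g : A} (hL : ‖L‖ ≤ 1) {r N : ℝ}
    (hr : 0 < r) (hg : ‖g‖ ≤ r) (hS : ‖S‖ ≤ N) :
    ∑ l, ‖S (L * c l * g)‖ ^ 2 ≤ (2 * r * N) ^ 2 := by
  have h1 : ‖((r⁻¹ : ℝ) : ℂ) • g‖ ≤ 1 := by
    rw [norm_smul, Complex.norm_real, Real.norm_eq_abs, abs_of_pos (inv_pos.2 hr),
      inv_mul_le_iff₀ hr, mul_one]
    exact hg
  have h2 := lgt S (hc.conj hL h1)
  have e : ∀ l, ‖S (L * c l * g)‖ ^ 2 = r ^ 2 * ‖S (L * c l * ((r⁻¹ : ℝ) : ℂ) • g)‖ ^ 2 := by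
    intro l
    rw [mul_smul_comm, map_smul, norm_smul, Complex.norm_real, Real.norm_eq_abs,
      abs_of_pos (inv_pos.2 hr)]
    field_simp
  simp only [e]
  rw [← Finset.mul_sum]
  have h3 : ‖S‖ ^ 2 ≤ N ^ 2 := pow_le_pow_left₀ (norm_nonneg _) hS 2
  calc _ ≤ r ^ 2 * (4 * N ^ 2) := by
        refine mul_le_mul_of_nonneg_left (h2.trans ?_) (sq_nonneg _)
        linarith
    _ = _ := by ring

section Order
attribute [local instance] CStarAlgebra.spectralOrder CStarAlgebra.spectralOrderedRing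

/-- the right cut-off `e'` -/
lemma t2_clamp {J : Type*} [Fintype J] {x : J → A} (hx : ∀ j, x j ∈ unitary A) (f : A) {r : ℝ}
    (hr : 0 < r) : ∃ e : A, ‖e‖ ≤ 1 ∧ ‖e - 1‖ ≤ 1 ∧ (∀ j, ‖e * x j * f‖ ≤ r) ∧
      n2 (e - 1) ^ 2 ≤ 2 / r ^ 2 * (Fintype.card J * n2 f ^ 2) := by
  have hnn : ∀ j, 0 ≤ (x j * f) * star (x j * f) := fun j => mul_star_self_nonneg _
  obtain ⟨e, he0, he1, -, h1, h2, -⟩ := exists_clamp (h := ∑ j, (x j * f) * star (x j * f))
    (Finset.sum_nonneg fun j _ => hnn j) (c := r ^ 2 / 2) (by positivity)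
  have hsa : star e = e := (IsSelfAdjoint.of_nonneg he0).star_eq
  refine ⟨e, (CStarAlgebra.norm_le_one_iff_of_nonneg e he0).2 he1, ?_, fun j => ?_, ?_⟩
  · rw [norm_sub_rev]
    exact (CStarAlgebra.norm_le_one_iff_of_nonneg _ (sub_nonneg.2 he1)).2 (sub_le_self _ he0)
  · have h3 : (e * x j * f) * star (e * x j * f) ≤ algebraMap ℝ A (r ^ 2) := by
      have h4 := star_right_conjugate_le_conjugate
        (Finset.single_le_sum (fun j _ => hnn j) (Finset.mem_univ j)) e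
      rw [hsa] at h4
      have e1 : (e * x j * f) * star (e * x j * f) = e * ((x j * f) * star (x j * f)) * e := by
        simp only [star_mul, hsa, mul_assoc]
      rw [e1, Algebra.algebraMap_eq_smul_one, show r ^ 2 = 2 * (r ^ 2 / 2) by ring]
      exact h4.trans h1
    have h5 := (CStarAlgebra.norm_le_iff_le_algebraMap _ (sq_nonneg r)
      (mul_star_self_nonneg (e * x j * f))).2 h3
    rw [CStarRing.norm_self_mul_star, ← sq] at h5
    exact (sq_le_sq₀ (norm_nonneg _) hr.le).1 h5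
  · have h3 := τ_re_mono h2
    have e1 : (1 - e) * (1 - e) = star (e - 1) * (e - 1) := by
      rw [star_sub, hsa, star_one]; noncomm_ring
    rw [e1, ← n2_sq, τ_rsmul, Complex.re_ofReal_mul, map_sum, Complex.re_sum] at h3
    have e2 : ∀ j, (τ (x j * f * star (x j * f))).re = n2 f ^ 2 := fun j => by
      rw [τ_comm, ← n2_sq, n2_unitary_mul (hx j)]
    simp only [e2, Finset.sum_const, Finset.card_univ, nsmul_eq_mul] at h3
    refine h3.trans (le_of_eq ?_)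
    rw [inv_div]

end Order

/-- `c ↦ v2 (T c * y)` -/
noncomputable def t2S (T : A →L[ℂ] A) (y : A) : A →L[ℂ] L2 A := v2.comp ((rmul y).comp T)

lemma norm_t2S_apply (T : A →L[ℂ] A) (y c : A) : ‖t2S T y c‖ = n2 (T c * y) := rfl

lemma norm_t2S_le (T : A →L[ℂ] A) (y : A) : ‖t2S T y‖ ≤ ‖T‖ * ‖y‖ := by
  refine ContinuousLinearMap.opNorm_le_bound _ (by positivity) fun c => ?_
  rw [norm_t2S_apply]
  refine (n2_le_norm _).trans ((norm_mul_le _ _).trans ?_)
  calc ‖T c‖ * ‖y‖ ≤ ‖T‖ * ‖c‖ * ‖y‖ := by gcongr; exact T.le_opNorm c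
    _ = _ := by ring

/-- `ui` for finitely many maps at once -/
lemma t2_ui {κ : Type} [Fintype κ] (T : κ → A →L[ℂ] A) (y : κ → A) {ε : ℝ} (hε : 0 < ε) :
    ∃ Λ' : ℝ, 0 ≤ Λ' ∧ ∀ γ : ℝ, 0 < γ → ∃ e₁ e₂ : A, ‖e₁‖ ≤ 1 ∧ ‖e₂‖ ≤ 1 ∧
      n2 (1 - e₁) ≤ γ ∧ n2 (1 - e₂) ≤ γ ∧ ∀ k (n : ℕ) (c : Fin n → A), Adm c →
        ∑ l, n2 (T k (e₂ * c l * e₁) * y k) ^ 2 ≤ ε + Λ' * ∑ l, n2 (c l) ^ 2 := by
  let S : A →L[ℂ] PiLp 2 fun _ : κ => L2 A :=
    (PiLp.continuousLinearEquiv 2 ℂ fun _ : κ => L2 A).symm.toContinuousLinearMap.comp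
      (ContinuousLinearMap.pi fun k => t2S (T k) (y k))
  obtain ⟨Λ', h0, h⟩ := ui S hε
  refine ⟨Λ', h0, fun γ hγ => ?_⟩
  obtain ⟨e₁, e₂, -, -, h1, h2, h3, h4, h5⟩ := h γ hγ
  refine ⟨e₁, e₂, h1, h2, h3, h4, fun k n c hc => le_trans ?_ (h5 n c hc)⟩
  refine Finset.sum_le_sum fun l _ => pow_le_pow_left₀ (n2_nonneg _) ?_ 2
  exact PiLp.norm_apply_le (S (e₂ * c l * e₁)) k

/-- PROOF.  `J = Option κ`, `x' none = 1`, `x' (some k) = x k`, `y' k = y k * x k`,
`Λ₀ ≥ ‖T k‖, ‖y k‖`.  `amp_inv` gives `ε₁`; `ui` for `S c = (v2 (T k c * y' k))ₖ ∈ PiLp 2` with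
`ε₂ = min ε₁ (small)` gives `Λ'`; choose `c > 0` small, then `γ` small; `e₁, e₂` from `ui`;
`T~ k a = T k (e₂ a e₁)`; `𝔪` from `amp_inv`.  `h = ∑ⱼ x' j (1 - e₁)² (x' j)*`, `e'` from
`exists_clamp h c`: `‖e' x' j (1 - e₁)‖² ≤ 2c`, `n2 (1 - e')² ≤ card J γ² / c`; `m = e₂ 𝔪 e'`
(`Adm.conj`).  For `u ∈ {1, x k}`:
`m* T (m u) - 𝔪* T~ (𝔪 u) = (m - 𝔪)* T (m u) + 𝔪* T (e₂ 𝔪 e' u (1 - e₁)) + 𝔪* T~ (𝔪 (e' - 1) u)`,
and `‖τ (y' u* ∑ a* t)‖ ≤ √(∑ n2 a²) √(∑ n2 (t y')²)`.  First term: `∑ n2 (m - 𝔪)² ≤ 2 n2 (1-e₂)² + 2 n2 (1-e')²`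
and `lgt`; second: `lgt'` with `t = 2c`; third: the bound of `ui`.  Finally
`1 - ∑ m* m = ∑ (𝔪 - m)* 𝔪 + ∑ m* (𝔪 - m)`. -/
theorem thmII (hA : II A) {κ : Type} [Fintype κ] (T : κ → A →L[ℂ] A) (y x : κ → A)
    (hx : ∀ k, x k ∈ unitary A) {ε : ℝ} (hε : 0 < ε) :
    ∃ (n : ℕ) (m : Fin n → A), Adm m ∧ ∀ k,
      ‖τ (y k * (∑ l, star (m l) * T k (m l * x k) - x k * ∑ l, star (m l) * T k (m l)))‖ ≤ ε ∧
      ‖τ (y k * (1 - ∑ l, star (m l) * m l))‖ ≤ ε := by
  classical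
  -- constants
  set Λ : ℝ := 1 + ∑ k, (‖T k‖ + ‖y k‖) with hΛ
  have hsum : ∀ k, ‖T k‖ + ‖y k‖ ≤ ∑ k, (‖T k‖ + ‖y k‖) := fun k =>
    Finset.single_le_sum (f := fun k => ‖T k‖ + ‖y k‖) (fun k _ => by positivity)
      (Finset.mem_univ k)
  have hΛ1 : 1 ≤ Λ := le_add_of_nonneg_right (Finset.sum_nonneg fun k _ => by positivity)
  have hT : ∀ k, ‖T k‖ ≤ Λ := fun k => by linarith [hsum k, norm_nonneg (y k)]
  have hy : ∀ k, ‖y k‖ ≤ Λ := fun k => by linarith [hsum k, norm_nonneg (T k)]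
  have hy' : ∀ k, ‖y k * x k‖ ≤ Λ := fun k => by
    rw [CStarRing.norm_mul_mem_unitary _ (hx k)]; exact hy k
  set N : ℝ := Λ * Λ with hN
  have hN1 : Λ ≤ N := le_mul_of_one_le_right (by linarith) hΛ1
  have hN0 : 0 < N := by linarith
  have hS : ∀ k, ‖t2S (T k) (y k * x k)‖ ≤ N := fun k =>
    (norm_t2S_le _ _).trans (mul_le_mul (hT k) (hy' k) (norm_nonneg _) (by linarith))
  set η : ℝ := ε / 8 with hη
  have hη0 : 0 < η := by positivity
  set r : ℝ := η / (2 * N) with hr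
  have hr0 : 0 < r := by positivity
  have hrN : 2 * r * N = η := by rw [hr]; field_simp
  let x' : Option κ → A := fun j => j.elim 1 x
  have hx' : ∀ j, x' j ∈ unitary A := fun j => by
    cases j with
    | none => exact one_mem _
    | some k => exact hx k
  obtain ⟨ε₁, hε₁, hamp⟩ := amp_inv (κ := κ) hA x' hx' none rfl (Λ₀ := Λ) (ε₀ := ε / 4)
    (by linarith) (by positivity)
  obtain ⟨Λ', hΛ', hui⟩ := t2_ui T (fun k => y k * x k) (ε := min ε₁ (η ^ 2 / 2))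
    (lt_min hε₁ (by positivity))
  set H : ℝ := 2 / r ^ 2 * Fintype.card (Option κ) with hH
  have hH0 : 0 ≤ H := by positivity
  obtain ⟨γ, hγ, hγ1, hγ2⟩ : ∃ γ : ℝ, 0 < γ ∧ 2 * γ ^ 2 + 2 * (H * γ ^ 2) ≤ r ^ 2 ∧
      Λ' * (H * γ ^ 2) ≤ η ^ 2 / 2 := by
    have hM : 0 < 2 + 2 * H + Λ' * H := by positivity
    have hρ : 0 < min (r ^ 2) (η ^ 2 / 2) := lt_min (by positivity) (by positivity)
    refine ⟨√(min (r ^ 2) (η ^ 2 / 2) / (2 + 2 * H + Λ' * H)), Real.sqrt_pos.2 (by positivity), ?_⟩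
    rw [Real.sq_sqrt (by positivity)]
    set g := min (r ^ 2) (η ^ 2 / 2) / (2 + 2 * H + Λ' * H) with hg
    have hg0 : 0 ≤ g := by positivity
    have e : g * (2 + 2 * H + Λ' * H) = min (r ^ 2) (η ^ 2 / 2) := by rw [hg]; field_simp
    have h1 := min_le_left (r ^ 2) (η ^ 2 / 2)
    have h2 := min_le_right (r ^ 2) (η ^ 2 / 2)
    have h3 : 0 ≤ H * g := by positivity
    have h4 : 0 ≤ Λ' * (H * g) := by positivity
    constructor <;> nlinarith
  obtain ⟨e₁, e₂, he₁, he₂, hn₁, hn₂, hb⟩ := hui γ hγ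
  let T' : κ → A →L[ℂ] A := fun k => (T k).comp (ContinuousLinearMap.mulLeftRight ℂ A e₂ e₁)
  have hT'a : ∀ k a, T' k a = T k (e₂ * a * e₁) := fun k a => rfl
  have hT' : ∀ k, ‖T' k‖ ≤ Λ := fun k => by
    refine ContinuousLinearMap.opNorm_le_bound _ (by linarith) fun a => ?_
    rw [hT'a]
    refine ((T k).le_opNorm _).trans (mul_le_mul (hT k) ?_ (norm_nonneg _) (by linarith))
    calc ‖e₂ * a * e₁‖ ≤ ‖e₂‖ * ‖a‖ * ‖e₁‖ :=
          (norm_mul_le _ _).trans (mul_le_mul_of_nonneg_right (norm_mul_le _ _) (norm_nonneg _))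
      _ ≤ 1 * ‖a‖ * 1 := by gcongr
      _ = ‖a‖ := by ring
  obtain ⟨n, M, hM1, hM2, hinv⟩ := hamp Λ' hΛ' T' (fun k => y k * x k) hT' hy' fun k n c hc =>
    (hb k n c hc).trans (by gcongr; exact min_le_left _ _)
  have := nontrivial_of_tr A
  have hM : Adm M := ⟨by rw [hM1, norm_one], by rw [hM2, norm_one]⟩
  obtain ⟨e', he', he'1, hg, hρ⟩ := t2_clamp hx' (1 - e₁) hr0
  have hρ' : n2 (e' - 1) ^ 2 ≤ H * γ ^ 2 := by
    refine hρ.trans ?_
    rw [hH, mul_assoc]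
    have := n2_nonneg (1 - e₁)
    gcongr
  have hm : Adm fun l => e₂ * M l * e' := hM.conj he₂ he'
  have hM3 : ∑ l, n2 (M l) ^ 2 ≤ 1 ^ 2 := by
    have := t2_sum_right hM1 1
    simpa using this.le
  have hdiff : ∑ l, n2 (e₂ * M l * e' - M l) ^ 2 ≤ r ^ 2 := by
    have h1 : ∀ l, n2 (e₂ * M l * e' - M l) ^ 2 ≤
        2 * n2 ((e₂ - 1) * M l) ^ 2 + 2 * n2 (M l * (e' - 1)) ^ 2 := fun l => by
      have e : e₂ * M l * e' - M l = (e₂ - 1) * M l * e' + M l * (e' - 1) := by noncomm_ring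
      have h2 : n2 ((e₂ - 1) * M l * e') ≤ n2 ((e₂ - 1) * M l) :=
        (n2_mul_le_right _ _).trans (mul_le_of_le_one_right (n2_nonneg _) he')
      have h3 : n2 (e₂ * M l * e' - M l) ≤ n2 ((e₂ - 1) * M l) + n2 (M l * (e' - 1)) := by
        rw [e]; exact (n2_add_le _ _).trans (by linarith)
      have h4 := pow_le_pow_left₀ (n2_nonneg _) h3 2
      nlinarith [sq_nonneg (n2 ((e₂ - 1) * M l) - n2 (M l * (e' - 1)))]
    refine (Finset.sum_le_sum fun l _ => h1 l).trans ?_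
    rw [Finset.sum_add_distrib, ← Finset.mul_sum, ← Finset.mul_sum, t2_sum_left hM2,
      t2_sum_right hM1, n2_sub_comm e₂]
    have := pow_le_pow_left₀ (n2_nonneg _) hn₂ 2
    linarith
  -- comparison of the two averages
  have hcmp : ∀ k j, ‖τ (y k * x k * (star (x' j) *
        ∑ l, star (e₂ * M l * e') * T k (e₂ * M l * e' * x' j))) -
      τ (y k * x k * (star (x' j) * ∑ l, star (M l) * T' k (M l * x' j)))‖ ≤ 3 * η := by
    intro k j
    have hu : ‖x' j‖ ≤ 1 := (cr_norm_unitary (hx' j)).le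
    have e : ∑ l, star (e₂ * M l * e') * T k (e₂ * M l * e' * x' j) =
        ∑ l, star (M l) * T' k (M l * x' j) +
        (∑ l, star (e₂ * M l * e' - M l) * T k (1 * (e₂ * M l * e') * x' j) +
        ∑ l, star (M l) * T k (e₂ * M l * (e' * x' j * (1 - e₁))) +
        ∑ l, star (M l) * T k (e₂ * (1 * M l * ((e' - 1) * x' j)) * e₁)) := by
      simp only [← Finset.sum_add_distrib]
      refine Finset.sum_congr rfl fun l _ => ?_
      have e1 : e₂ * M l * e' * x' j = e₂ * (M l * x' j) * e₁ +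
          (e₂ * M l * (e' * x' j * (1 - e₁)) + e₂ * (1 * M l * ((e' - 1) * x' j)) * e₁) := by
        noncomm_ring
      have e2 : T k (e₂ * M l * e' * x' j) = T' k (M l * x' j) +
          (T k (e₂ * M l * (e' * x' j * (1 - e₁))) +
            T k (e₂ * (1 * M l * ((e' - 1) * x' j)) * e₁)) := by
        rw [hT'a, ← map_add, ← map_add, ← e1]
      rw [one_mul (e₂ * M l * e'), star_sub, sub_mul, e2]
      noncomm_ring
    rw [e, mul_add, mul_add, map_add, add_sub_cancel_left, mul_add, mul_add, mul_add, mul_add,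
      map_add, map_add]
    have b1 := t2_cs (fun l => e₂ * M l * e' - M l)
      (fun l => T k (1 * (e₂ * M l * e') * x' j)) (y k * x k) (hx' j) hr0.le
      (β := 2 * 1 * N) (by positivity) hdiff
      (t2_lgt (t2S (T k) (y k * x k)) hm norm_one.le one_pos hu (hS k))
    have b2 := t2_cs M (fun l => T k (e₂ * M l * (e' * x' j * (1 - e₁)))) (y k * x k) (hx' j)
      zero_le_one (β := 2 * r * N) (by positivity) hM3
      (t2_lgt (t2S (T k) (y k * x k)) hM he₂ hr0 (hg j) (hS k))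
    have hc : Adm fun l => 1 * M l * ((e' - 1) * x' j) :=
      hM.conj norm_one.le ((norm_mul_le _ _).trans (mul_le_one₀ he'1 (norm_nonneg _) hu))
    have b3 := t2_cs M (fun l => T k (e₂ * (1 * M l * ((e' - 1) * x' j)) * e₁)) (y k * x k)
      (hx' j) zero_le_one hη0.le hM3 ((hb k n _ hc).trans (by
        simp only [one_mul]
        rw [t2_sum_right hM1, n2_mul_unitary (hx' j)]
        have h1 := min_le_right ε₁ (η ^ 2 / 2)
        have h2 := mul_le_mul_of_nonneg_left hρ' hΛ'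
        linarith))
    refine (norm_add₃_le).trans ?_
    nlinarith
  refine ⟨n, fun l => e₂ * M l * e', hm, fun k => ⟨?_, ?_⟩⟩
  · have h1 := hcmp k (some k)
    have h2 := hcmp k none
    have h3 := hinv k (some k)
    simp only [x', Option.elim, star_one, one_mul, mul_one] at h1 h2 h3
    have e : y k * (∑ l, star (e₂ * M l * e') * T k (e₂ * M l * e' * x k) -
        x k * ∑ l, star (e₂ * M l * e') * T k (e₂ * M l * e')) =
        y k * x k * (star (x k) * ∑ l, star (e₂ * M l * e') * T k (e₂ * M l * e' * x k)) -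
          y k * x k * ∑ l, star (e₂ * M l * e') * T k (e₂ * M l * e') := by
      rw [mul_assoc (y k), ← mul_assoc (x k), (hx k).2, one_mul, mul_assoc (y k), mul_sub]
    rw [e, map_sub]
    refine (norm_sub_le_norm_sub_add_norm_sub _ _ _).trans (le_trans (add_le_add h1
      ((norm_sub_le_norm_sub_add_norm_sub _ _ _).trans
        (add_le_add h3 ((norm_sub_rev _ _).le.trans h2)))) ?_)
    linarith
  · have e : 1 - ∑ l, star (e₂ * M l * e') * (e₂ * M l * e') =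
        -(star 1 * ∑ l, star (e₂ * M l * e' - M l) * M l) -
          star 1 * ∑ l, star (e₂ * M l * e') * (e₂ * M l * e' - M l) := by
      rw [star_one, one_mul, one_mul, ← hM1, ← Finset.sum_neg_distrib, ← Finset.sum_sub_distrib,
        ← Finset.sum_sub_distrib]
      refine Finset.sum_congr rfl fun l _ => ?_
      rw [star_sub]
      noncomm_ring
    have hyk : n2 (y k) ≤ N := (n2_le_norm _).trans ((hy k).trans hN1)
    have b1 := t2_cs (fun l => e₂ * M l * e' - M l) M (y k) (one_mem (unitary A)) hr0.le hN0.le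
      hdiff (by rw [t2_sum_right hM1]; exact pow_le_pow_left₀ (n2_nonneg _) hyk 2)
    have b2 := t2_cs (fun l => e₂ * M l * e') (fun l => e₂ * M l * e' - M l) (y k)
      (one_mem (unitary A)) zero_le_one (β := r * N) (by positivity)
      (le_trans (Finset.sum_le_sum fun l _ => pow_le_pow_left₀ (n2_nonneg _) (by
        refine (n2_mul_le_right _ _).trans ((mul_le_of_le_one_right (n2_nonneg _) he').trans ?_)
        exact (n2_mul_le_left _ _).trans (mul_le_of_le_one_left (n2_nonneg _) he₂)) 2) hM3)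
      (by
        rw [mul_pow]
        refine le_trans ?_ (mul_le_mul_of_nonneg_right hdiff (sq_nonneg N))
        rw [Finset.sum_mul]
        refine Finset.sum_le_sum fun l _ => ?_
        rw [← mul_pow]
        exact pow_le_pow_left₀ (n2_nonneg _) ((n2_mul_le_right _ _).trans
          (mul_le_mul_of_nonneg_left ((hy k).trans hN1) (n2_nonneg _))) 2)
    rw [e, mul_sub, mul_neg, map_sub, map_neg]
    refine (norm_sub_le _ _).trans ?_
    rw [norm_neg]
    nlinarith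

end Crest.Agent.R121
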