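import Crest.Agent.R121.Defs
import Crest.Agent.R124.Amp

/-! Row 121: a trace from an approximate trace -/

set_option autoImplicit false
set_option linter.unusedSectionVars false

namespace Crest.Agent.R121

open Crest.Agent.R95 Crest.Agent.R124 MeasureTheory Filter Topology
open scoped InnerProductSpace BigOperators ComplexConjugate

/-- Fixed points of uniformly bounded group representations.  PROOF.  `N a = sup_g ‖π g a‖` is
invariant, `‖a‖ ≤ N a ≤ c ‖a‖`, and by the parallelogram law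
`N ((a+b)/2)² + c⁻² ‖(a-b)/2‖² ≤ (N a² + N b²)/2` (as `‖a - b‖ ≤ c ‖π g (a - b)‖`).  A minimising sequence
in `C` is Cauchy; the minimiser is unique, hence fixed. -/
theorem exists_fixed {G H : Type*} [Group G] [NormedAddCommGroup H] [InnerProductSpace ℂ H]
    [CompleteSpace H] (π : G →* (H →L[ℂ] H)) {c : ℝ} (hc : ∀ g, ‖π g‖ ≤ c) {C : Set H}
    (h0 : C.Nonempty) (hcl : IsClosed C) (hcv : Convex ℝ C) (hinv : ∀ g, ∀ a ∈ C, π g a ∈ C) :
    ∃ a ∈ C, ∀ g, π g a = a := by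
  obtain ⟨d, hd0, hd⟩ : ∃ d : ℝ, 0 < d ∧ ∀ g, ‖π g‖ ≤ d :=
    ⟨max c 1, lt_max_of_lt_right one_pos, fun g => (hc g).trans (le_max_left _ _)⟩
  have hup : ∀ g a, ‖π g a‖ ≤ d * ‖a‖ := fun g a => (π g).le_of_opNorm_le (hd g) a
  have hlow : ∀ g a, ‖a‖ ≤ d * ‖π g a‖ := fun g a => by
    have := hup g⁻¹ (π g a)
    rwa [← mul_apply_eq_comp, ← map_mul, inv_mul_cancel, map_one, one_apply_eq_self] at this
  let S : Set ℝ := {t | ∃ a ∈ C, ∀ g, ‖π g a‖ ^ 2 ≤ t}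
  have hS0 : S.Nonempty := by
    obtain ⟨a, ha⟩ := h0
    exact ⟨(d * ‖a‖) ^ 2, a, ha, fun g => by gcongr; exact hup g a⟩
  have hSb : BddBelow S := ⟨0, fun t ⟨a, _, ha⟩ => le_trans (by positivity) (ha 1)⟩
  have key : ∀ a ∈ C, ∀ b ∈ C, ∀ s : ℝ, (∀ g, ‖π g a‖ ^ 2 ≤ s) → (∀ g, ‖π g b‖ ^ 2 ≤ s) →
      ‖a - b‖ ^ 2 ≤ 4 * d ^ 2 * (s - sInf S) := by
    intro a ha b hb s hs ht
    have hm : (1 / 2 : ℝ) • a + (1 / 2 : ℝ) • b ∈ C :=
      hcv ha hb (by norm_num) (by norm_num) (by norm_num)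
    have h1 : sInf S ≤ s - ‖a - b‖ ^ 2 / (4 * d ^ 2) := by
      refine csInf_le hSb ⟨_, hm, fun g => ?_⟩
      have h2 := parallelogram_law_with_norm ℂ (π g a) (π g b)
      have h3 : ‖a - b‖ ^ 2 ≤ (d * ‖π g a - π g b‖) ^ 2 := by
        rw [← map_sub]; gcongr; exact hlow g _
      have h4 : ‖a - b‖ ^ 2 / (4 * d ^ 2) ≤ ‖π g a - π g b‖ ^ 2 / 4 := by
        rw [div_le_div_iff₀ (by positivity) (by positivity)]; nlinarith
      rw [← smul_add, ContinuousLinearMap.map_smul_of_tower, map_add, norm_smul]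
      have := hs g
      have := ht g
      norm_num
      nlinarith
    have h5 : ‖a - b‖ ^ 2 / (4 * d ^ 2) ≤ s - sInf S := by linarith
    rwa [div_le_iff₀' (by positivity)] at h5
  have hex : ∀ n : ℕ, ∃ a ∈ C, ∀ g, ‖π g a‖ ^ 2 ≤ sInf S + 1 / ((n : ℝ) + 1) := by
    intro n
    obtain ⟨t, ⟨a, ha, hat⟩, ht⟩ := exists_lt_of_csInf_lt hS0
      (lt_add_of_pos_right (sInf S) (by positivity : 0 < 1 / ((n : ℝ) + 1)))
    exact ⟨a, ha, fun g => (hat g).trans ht.le⟩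
  choose x hx hxs using hex
  have hδ : Tendsto (fun n : ℕ => 1 / ((n : ℝ) + 1)) atTop (𝓝 0) :=
    tendsto_one_div_add_atTop_nhds_zero_nat
  have hcau : CauchySeq x := by
    refine cauchySeq_of_le_tendsto_0' (fun n : ℕ => √(4 * d ^ 2 * (1 / ((n : ℝ) + 1))))
      (fun n m hnm => ?_) ?_
    · rw [dist_eq_norm]
      refine Real.le_sqrt_of_sq_le ?_
      have := key _ (hx n) _ (hx m) _ (hxs n) fun g => (hxs m g).trans (by gcongr)
      simpa using this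
    · simpa using (hδ.const_mul (4 * d ^ 2)).sqrt
  obtain ⟨a, ha⟩ := cauchySeq_tendsto_of_complete hcau
  have haC : a ∈ C := hcl.mem_of_tendsto ha (Eventually.of_forall hx)
  have has : ∀ g, ‖π g a‖ ^ 2 ≤ sInf S := fun g => by
    have h1 : Tendsto (fun n => ‖π g (x n)‖ ^ 2) atTop (𝓝 (‖π g a‖ ^ 2)) :=
      (((π g).continuous.tendsto a).comp ha).norm.pow 2
    simpa using le_of_tendsto_of_tendsto' h1 (hδ.const_add (sInf S)) fun n => hxs n g
  refine ⟨a, haC, fun g => ?_⟩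
  have := key _ (hinv g a haC) _ haC _ (fun g' => by
    rw [← mul_apply_eq_comp, ← map_mul]; exact has _) has
  rw [sub_self, mul_zero] at this
  exact sub_eq_zero.1 (norm_eq_zero.1 (pow_eq_zero_iff two_ne_zero |>.1
    (le_antisymm this (by positivity))))

/-- The abstract form of `exists_trace`, for a cyclic vector. -/
theorem tex_abstract {A H : Type*} [CStarAlgebra A] [NormedAddCommGroup H] [InnerProductSpace ℂ H]
    [CompleteSpace H] (e : A →ₗ[ℂ] H) (hd : DenseRange e)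
    (hg : ∀ x y, ⟪e x, e y⟫_ℂ = ⟪e 1, e (star x * y)⟫_ℂ) {κ : ℝ} (hκ : 0 < κ)
    (h : ∀ x, ‖e x‖ ≤ κ * ‖e (star x)‖) :
    ∃ ζ : H, (∀ x y, ⟪ζ, e (x * y)⟫_ℂ = ⟪ζ, e (y * x)⟫_ℂ) ∧
      (∀ x, ⟪ζ, e (star x)⟫_ℂ = conj ⟪ζ, e x⟫_ℂ) ∧
      ∀ x, ‖e x‖ ^ 2 ≤ κ ^ 4 * (⟪ζ, e (star x * x)⟫_ℂ).re := by
  have hn : ∀ x, ‖e x‖ ^ 2 = (⟪e 1, e (star x * x)⟫_ℂ).re := fun x => by
    rw [← hg, inner_self_eq_norm_sq_to_K]; norm_cast
  have hl : ∀ (u : unitary A) x, ‖e (star (u : A) * x)‖ = ‖e x‖ := fun u x => by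
    rw [← sq_eq_sq₀ (norm_nonneg _) (norm_nonneg _), hn, hn, star_mul, star_star, mul_assoc,
      ← mul_assoc (u : A), u.2.2, one_mul]
  have hr : ∀ (u : unitary A) x, ‖e (x * u)‖ ≤ κ ^ 2 * ‖e x‖ := fun u x => by
    have h1 := h (x * u)
    have h2 := h (star x)
    rw [star_mul, hl] at h1
    rw [star_star] at h2
    calc _ ≤ κ * (κ * ‖e x‖) := h1.trans (by gcongr)
      _ = _ := by ring
  let f : unitary A → A →ₗ[ℂ] H := fun u => e ∘ₗ LinearMap.mulLeftRight ℂ (star (u : A), (u : A))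
  have hf : ∀ u x, ‖f u x‖ ≤ κ ^ 2 * ‖e x‖ := fun u x => by
    simp only [f, LinearMap.comp_apply, LinearMap.mulLeftRight_apply, mul_assoc, hl]
    exact hr u x
  let ρ : unitary A → H →L[ℂ] H := fun u => (f u).extendOfNorm e
  have hρ : ∀ u x, ρ u (e x) = e (star (u : A) * x * u) := fun u x =>
    LinearMap.extendOfNorm_eq hd ⟨_, hf u⟩ x
  have hext : ∀ S T : H →L[ℂ] H, (∀ x, S (e x) = T (e x)) → S = T := fun S T hST =>
    DFunLike.coe_injective (hd.equalizer S.continuous T.continuous (funext hST))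
  let π : unitary A →* (H →L[ℂ] H) :=
    { toFun := fun u => star (ρ u)
      map_one' := by
        rw [hext (ρ 1) 1 fun x => by simp [hρ], star_one]
      map_mul' := fun u v => by
        rw [← star_mul, hext (ρ (u * v)) (ρ v * ρ u) fun x => by simp [hρ, mul_assoc]] }
  have hπ : ∀ u ζ x, ⟪π u ζ, e x⟫_ℂ = ⟪ζ, e (star (u : A) * x * u)⟫_ℂ := fun u ζ x => by
    rw [← hρ]; exact inner_star_left _ _ _
  have hπn : ∀ u, ‖π u‖ ≤ κ ^ 2 := fun u => by
    have : ‖ρ u‖ ≤ κ ^ 2 := LinearMap.opNorm_extendOfNorm_le hd (by positivity) (hf u)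
    exact (norm_star (ρ u)).trans_le this
  let C : Set H := {ζ | (∀ x, ⟪ζ, e (star x)⟫_ℂ = conj ⟪ζ, e x⟫_ℂ) ∧
    ∀ (x : A) (u : unitary A), ‖e (x * u)‖ ^ 2 ≤ κ ^ 4 * (⟪ζ, e (star x * x)⟫_ℂ).re}
  obtain ⟨ζ, hζ, hfix⟩ := exists_fixed π hπn (C := C)
    ⟨e 1, fun x => by
      have := hg x 1
      rw [mul_one] at this
      rw [← this, inner_conj_symm], fun x u => by
      rw [← hn]
      calc _ ≤ (κ ^ 2 * ‖e x‖) ^ 2 := by gcongr; exact hr u x
        _ = _ := by ring⟩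
    (by
      simp only [C, Set.ofPred_and, Set.ofPred_forall]
      refine (isClosed_iInter fun x => isClosed_eq (by fun_prop) (by fun_prop)).inter
        (isClosed_iInter fun x => isClosed_iInter fun u => isClosed_le (by fun_prop) (by fun_prop)))
    (by
      intro ζ hζ ζ' hζ' a b ha hb hab
      refine ⟨fun x => ?_, fun x u => ?_⟩
      · simp only [← Complex.coe_smul, inner_add_left, inner_smul_left, hζ.1, hζ'.1, map_add,
          map_mul, Complex.conj_ofReal]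
      · simp only [← Complex.coe_smul, inner_add_left, inner_smul_left, Complex.conj_ofReal,
          Complex.add_re, Complex.re_ofReal_mul]
        have h1 := mul_le_mul_of_nonneg_left (hζ.2 x u) ha
        have h2 := mul_le_mul_of_nonneg_left (hζ'.2 x u) hb
        calc _ = (a + b) * ‖e (x * u)‖ ^ 2 := by rw [hab, one_mul]
          _ ≤ _ := by linarith)
    (by
      intro v ζ hζ
      refine ⟨fun x => ?_, fun x u => ?_⟩
      · rw [hπ, hπ, ← hζ.1]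
        simp [mul_assoc]
      · have := hζ.2 (x * v) (star v * u)
        rw [hπ]
        simpa [mul_assoc, ← mul_assoc (v : A), v.2.2] using this)
  refine ⟨ζ, fun x y => ?_, hζ.1, fun x => by simpa using hζ.2 x 1⟩
  have hx : x ∈ Submodule.span ℂ (unitary A : Set A) := by
    rw [CStarAlgebra.span_unitary]; trivial
  induction hx using Submodule.span_induction with
  | mem u hu =>
    have := hπ ⟨u, hu⟩ ζ (u * y)
    rwa [hfix, ← mul_assoc, hu.1, one_mul] at this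
  | zero => simp
  | add x x' _ _ hx hx' => simp [add_mul, mul_add, hx, hx']
  | smul a x _ hx => simp [hx]

variable {K : Type*} [NormedAddCommGroup K] [InnerProductSpace ℂ K] [CompleteSpace K]

/-- PROOF.  WLOG `κ ≥ 1`.  `ω x = ∑ ⟪ξ i, x (ξ i)⟫`, `H₀` = closure of `{(x ξᵢ)ᵢ | x ∈ P}` in `HH ι K`.
For a unitary `u ∈ P`, `ω ((x u)* (x u)) ≤ κ ω (x x*) ≤ κ² ω (x* x)`, so `x ξ ↦ u* x u ξ` extends to an
operator `ρ u` on `H₀` of norm `≤ κ` (`LinearMap.extendOfNorm`); `ρ (u v) = ρ v ρ u`, so `π u = (ρ u)*`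
is a representation of `unitary (Al P)`.  `C` = closure of the convex hull of the orbit of `ξ`; every
`ζ ∈ C` satisfies `⟪ζ, x* ξ⟫ = conj ⟪ζ, x ξ⟫` and `κ⁻² ω (x* x) ≤ re ⟪ζ, x* x ξ⟫` (closed convex
conditions -- or take these two conditions, for all conjugates, as the definition of `C`).
`exists_fixed`; `CStarAlgebra.span_unitary`. -/
theorem exists_trace (P : VonNeumannAlgebra K) {ι : Type*} [Fintype ι] (ξ : ι → K) (κ : ℝ)
    (h : ∀ x ∈ P, ∑ i, ‖x (ξ i)‖ ^ 2 ≤ κ * ∑ i, ‖star x (ξ i)‖ ^ 2) :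
    ∃ (ζ : ι → K) (c : ℝ), 0 < c ∧
      (∀ x ∈ P, ∀ y ∈ P, ∑ i, ⟪ζ i, (x * y) (ξ i)⟫_ℂ = ∑ i, ⟪ζ i, (y * x) (ξ i)⟫_ℂ) ∧
      (∀ x ∈ P, ∑ i, ⟪ζ i, star x (ξ i)⟫_ℂ = conj (∑ i, ⟪ζ i, x (ξ i)⟫_ℂ)) ∧
      ∀ x ∈ P, c * ∑ i, ‖x (ξ i)‖ ^ 2 ≤ (∑ i, ⟪ζ i, (star x * x) (ξ i)⟫_ℂ).re := by
  let Λ : Al P →ₗ[ℂ] HH ι K :=
    { toFun := fun x => WithLp.toLp 2 fun i => (x : K →L[ℂ] K) (ξ i)
      map_add' := fun x y => by ext i; simp
      map_smul' := fun c x => by ext i; simp }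
  have hΛ : ∀ x i, Λ x i = (x : K →L[ℂ] K) (ξ i) := fun x i => rfl
  let H₀ : Submodule ℂ (HH ι K) := (LinearMap.range Λ).topologicalClosure
  have : CompleteSpace H₀ := (Submodule.isClosed_topologicalClosure _).completeSpace_coe
  let e : Al P →ₗ[ℂ] H₀ := Λ.codRestrict H₀ fun x =>
    Submodule.le_topologicalClosure _ (LinearMap.mem_range_self Λ x)
  have hd : DenseRange e := by
    rw [DenseRange, Subtype.dense_iff]
    refine closure_mono ?_
    rintro _ ⟨x, rfl⟩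
    exact ⟨e x, ⟨x, rfl⟩, rfl⟩
  have hin : ∀ (ζ : H₀) (x : Al P),
      ⟪ζ, e x⟫_ℂ = ∑ i, ⟪(ζ : HH ι K) i, (x : K →L[ℂ] K) (ξ i)⟫_ℂ := fun ζ x => rfl
  have hn : ∀ x : Al P, ‖e x‖ ^ 2 = ∑ i, ‖(x : K →L[ℂ] K) (ξ i)‖ ^ 2 := fun x =>
    PiLp.norm_sq_eq_of_L2 _ (Λ x)
  obtain ⟨ζ, h1, h2, h3⟩ := tex_abstract e hd (fun x y => by
      rw [hin, hin]
      refine Finset.sum_congr rfl fun i _ => ?_
      exact (inner_star_right (x : K →L[ℂ] K) (ξ i) _).symm)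
    (κ := max κ 1) (lt_max_of_lt_right one_pos) fun x => by
      have h4 := h x x.2
      have h5 : κ ≤ max κ 1 ^ 2 := by
        have := le_max_left κ 1
        have := le_max_right κ 1
        nlinarith
      refine (sq_le_sq₀ (norm_nonneg _) (by positivity)).1 ?_
      rw [mul_pow, hn, hn]
      exact h4.trans (mul_le_mul_of_nonneg_right h5 (by positivity))
  refine ⟨fun i => (ζ : HH ι K) i, (max κ 1 ^ 4)⁻¹, by positivity, fun x hx y hy => ?_,
    fun x hx => ?_, fun x hx => ?_⟩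
  · exact h1 ⟨x, hx⟩ ⟨y, hy⟩
  · exact h2 ⟨x, hx⟩
  · rw [inv_mul_le_iff₀ (by positivity)]
    have := h3 ⟨x, hx⟩
    rwa [hn] at this

end Crest.Agent.R121
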