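import Crest.Agent.R121.MUb
import Crest.Agent.R121.Haar

/-! Row 121: the moments `π_m`, `θ_m` are small -/

set_option autoImplicit false
set_option linter.unusedSectionVars false

namespace Crest.Agent.R121

open Crest.Agent.R95 Crest.Agent.R124 MeasureTheory Filter Topology
open scoped InnerProductSpace BigOperators ComplexConjugate

variable {A : Type*} [CStarAlgebra A] [Tr A]

section
variable {ι : Type*} [Fintype ι] [DecidableEq ι] {e : ι → ι → A}

lemma piM_nonneg (he : MU 1 e) (X : A) (m : ℕ) : 0 ≤ piM e X m := Ex_nonneg he fun _ _ => by positivity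

lemma thM_nonneg (he : MU 1 e) (X : A) (m : ℕ) : 0 ≤ thM e X m :=
  Ex_nonneg he fun _ _ => theta_nonneg _ _

lemma thM_zero (e : ι → ι → A) (X : A) : thM e X 0 = theta e X := by
  simp [thM, Ex_const]

lemma FF_neg' (e : ι → ι → A) (G : A → A → ℂ) : FF e (fun a b => -G a b) = -FF e G :=
  (map_FF e (L := fun x : ℂ => -x) ⟨fun x y => neg_add x y, fun c x => (smul_neg c x).symm⟩ G).symm

lemma close_ab (e : ι → ι → A) (P Z R : A) :
    FF e (fun a b => τ (P * a * Z * b * R)) = τ (P * EK e Z * R) := by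
  rw [EK_apply, map_FF e (L := fun x : A => τ (P * x * R))
    ⟨fun x y => by simp [mul_add, add_mul], fun c x => by simp⟩]
  simp only [mul_assoc]

lemma close_ba (e : ι → ι → A) (P Z R : A) :
    FF e (fun a b => τ (P * b * Z * a * R)) = τ (P * EK e Z * R) := by
  rw [← close_ab]
  exact FF_swap e fun a b => τ (P * a * Z * b * R)

lemma norm_close {P R : A} (hP : P ∈ unitary A) (hR : R ∈ unitary A) (Y : A) :
    ‖τ (P * Y * R)‖ ≤ n2 Y := by
  refine (norm_τ_le_n2 _).trans (le_of_eq ?_)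
  rw [n2_mul_unitary hR, n2_unitary_mul hP]

lemma Ex_expect_c {D : Type*} [Fintype D] (e : ι → ι → A) {F : D → A → ℂ}
    (hF : ∀ d, Continuous (F d)) : Ex e (fun w => 𝔼 d, F d w) = 𝔼 d, Ex e (F d) := by
  simp only [Finset.expect_eq_sum_div_card, div_eq_inv_mul]
  rw [Ex_mul, Ex_sum e _ hF]

lemma Ex_expect_r {D : Type*} [Fintype D] (e : ι → ι → A) {F : D → A → ℝ}
    (hF : ∀ d, Continuous (F d)) : Ex e (fun w => 𝔼 d, F d w) = 𝔼 d, Ex e (F d) := by
  simp only [Finset.expect_eq_sum_div_card, div_eq_inv_mul]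
  rw [Ex_rmul, Ex_sum e _ hF]

lemma sd_bound (he : MU 1 e) {f : A → A → ℂ} {f' : A → A → A → ℂ} (hf : ∀ b, HasD (f b) (f' b))
    (X : A) {φ ρ : A → ℂ} {ψ : A → ℝ} (hφ : Continuous φ) (hρ : Continuous ρ) (hψ : Continuous ψ)
    (h1 : ∀ w ∈ Ue e, (FF e fun a b => f' b a (w * X)) = φ w - ρ w)
    (h2 : ∀ w ∈ Ue e, ‖ρ w‖ ≤ ψ w) : ‖Ex e φ‖ ≤ Ex e ψ := by
  have h := sd_FF he hf X
  rw [Ex_congr he h1, Ex_sub e hφ hρ, sub_eq_zero] at h
  rw [h]
  exact norm_Ex_le he hψ h2

lemma avg_bound (he : MU 1 e) {D : Type*} [Fintype D] {Φ Ψ : A → ℝ} {φ : D → A → ℂ}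
    {ψ : D → A → ℝ} (hφ : ∀ d, Continuous (φ d)) (hψ : ∀ d, Continuous (ψ d))
    (hΨ : Continuous Ψ) (h1 : ∀ w ∈ Ue e, (Φ w : ℂ) = 𝔼 d, φ d w)
    (h2 : ∀ d, ‖Ex e (φ d)‖ ≤ Ex e (ψ d)) (h3 : ∀ w ∈ Ue e, 𝔼 d, ψ d w ≤ Ψ w) :
    Ex e Φ ≤ Ex e Ψ := by
  have e1 : ((Ex e Φ : ℝ) : ℂ) = 𝔼 d, Ex e (φ d) := by
    rw [← Ex_ofReal, Ex_congr he h1, Ex_expect_c e hφ]
  calc Ex e Φ ≤ ‖((Ex e Φ : ℝ) : ℂ)‖ := by rw [Complex.norm_real]; exact le_abs_self _
    _ ≤ 𝔼 d, ‖Ex e (φ d)‖ := by rw [e1]; exact RCLike.norm_expect_le (K := ℂ)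
    _ ≤ 𝔼 d, Ex e (ψ d) := Finset.expect_le_expect fun d _ => h2 d
    _ = Ex e (fun w => 𝔼 d, ψ d w) := (Ex_expect_r e hψ).symm
    _ ≤ Ex e Ψ := by
      refine Ex_mono he ?_ hΨ h3
      simp only [Finset.expect_eq_sum_div_card]
      fun_prop

lemma lin_EK (e : ι → ι → A) (P R : A) : IsLinearMap ℂ fun z => EK e (P * z * R) :=
  ⟨fun x y => by simp [mul_add, add_mul], fun c x => by simp⟩

lemma n2_EK_expect (he : MU 1 e) (y : A) :
    ((n2 (EK e y) ^ 2 : ℝ) : ℂ) = 𝔼 d : Des ι, τ (star y * du e d * y * star (du e d)) := by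
  rw [n2_EK_sq he, ← expect_du he (G := fun a b => τ (star y * a * y * b))]
  exact ⟨fun b => ⟨fun x y => by simp [mul_add, add_mul], fun c x => by simp⟩,
    fun a => ⟨fun x y => by simp [mul_add], fun c x => by simp⟩⟩

lemma expect_du_left (he : MU 1 e) {P : A} (hP : P ∈ unitary A) :
    𝔼 d : Des ι, n2 (EK e (P * du e d)) ≤ (Fintype.card ι : ℝ)⁻¹ := by
  refine (expect_le_sqrt _).trans ?_
  have := (expect_du_n2 he (lin_EK e P 1)).1
  simp only [mul_one] at this
  rw [this, parseval he, n2_unitary hP, one_pow, mul_one, Real.sqrt_mul_self (by positivity)]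

lemma expect_du_mid (he : MU 1 e) {w X R : A} (hw : w ∈ Ue e) (hR : R ∈ unitary A) :
    𝔼 d : Des ι, n2 (EK e (w * X * du e d * R)) ≤ √√(theta e X) := by
  refine (expect_le_sqrt _).trans (Real.sqrt_le_sqrt ?_)
  rw [(expect_du_n2 he (lin_EK e (w * X) R)).1]
  refine (cl1 he _ _).trans ?_
  rw [eta_mul he hw]
  have h1 : √(eta e (star R)) ≤ 1 := Real.sqrt_le_one.2 (eta_le_one he (Unitary.star_mem hR))
  exact (mul_le_of_le_one_right (Real.sqrt_nonneg _) h1).trans
    (Real.sqrt_le_sqrt (eta_le_theta he X))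

lemma expect_sg_mid (he : MU 1 e) {P : A} (hP : P ∈ unitary A) (R : A) :
    𝔼 s : ι → Bool, n2 (EK e (star P * sg e s * R)) ≤ √√(theta e R) := by
  refine (expect_le_sqrt _).trans (Real.sqrt_le_sqrt ?_)
  rw [expect_sg_n2 he (lin_EK e (star P) R)]
  refine (cl2 he _ _).trans ?_
  exact mul_le_of_le_one_left (Real.sqrt_nonneg _) (Real.sqrt_le_one.2 (theta_le_one he hP))

lemma Ex_n2_le (he : MU 1 e) (X : A) (m : ℕ) :
    Ex e (fun w => n2 (EK e ((w * X) ^ m))) ≤ √(piM e X m) := by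
  have := Ex_sqrt_le he (F := fun w => n2 (EK e ((w * X) ^ m)) ^ 2) (by fun_prop)
    fun _ _ => by positivity
  rw [piM]
  simpa only [Real.sqrt_sq (n2_nonneg _)] using this

lemma pi_step (he : MU 1 e) {X : A} (hX : X ∈ unitary A) (m : ℕ) {u : A} (hu : u ∈ unitary A) :
    ‖Ex e fun w => τ (star ((w * X) ^ (m + 1)) * u * (w * X) ^ (m + 1) * star u)‖ ≤
      Ex e fun w => ∑ i ∈ Finset.range (m + 1), n2 (EK e (star (w * X) ^ (m + 1 - 1 - i) * u)) +
        ∑ i ∈ Finset.range m, n2 (EK e ((w * X) ^ (i + 1))) := by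
  have hf : ∀ b : A, HasD (fun U => τ (star U ^ (m + 1) * (u * b) * U ^ (m + 1) * star u))
      fun a U => -∑ i ∈ Finset.range (m + 1),
          τ (star U ^ (i + 1) * a * (star U ^ (m + 1 - 1 - i) * u) * b * (U ^ (m + 1) * star u)) +
        ∑ i ∈ Finset.range (m + 1),
          τ (star U ^ (m + 1) * u * b * U ^ i * a * (U ^ (m + 1 - i) * star u)) := by
    intro b
    refine (((((HasD.star_pow (m + 1)).mul_const (u * b)).mul (HasD.pow (m + 1))).mul_const
      (star u)).clm τ).congr fun a U => ?_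
    simp only [add_mul, Finset.mul_sum, Finset.sum_mul, map_add, map_neg, map_sum,
      mul_assoc, neg_mul]
  refine sd_bound he hf X (ρ := fun w => ∑ i ∈ Finset.range (m + 1),
      τ (star (w * X) ^ (i + 1) * EK e (star (w * X) ^ (m + 1 - 1 - i) * u) *
        ((w * X) ^ (m + 1) * star u)) -
      ∑ i ∈ Finset.range m, τ (star (w * X) ^ (m + 1) * u * EK e ((w * X) ^ (i + 1)) *
        ((w * X) ^ (m + 1 - (i + 1)) * star u))) (by fun_prop) (by fun_prop) (by fun_prop)
    (fun w _ => ?_) fun w hw => ?_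
  · rw [FF_add, FF_neg', FF_sum, FF_sum]
    simp only [close_ab, close_ba]
    rw [Finset.sum_range_succ' (n := m) fun i => τ (star (w * X) ^ (m + 1) * u *
      EK e ((w * X) ^ i) * ((w * X) ^ (m + 1 - i) * star u))]
    simp only [pow_zero, EK_one he, mul_one, Nat.sub_zero, star_pow, mul_assoc]
    ring
  · have hU : w * X ∈ unitary A := mul_mem hw.1 hX
    have hU' := Unitary.star_mem hU
    have hu' := Unitary.star_mem hu
    refine (norm_sub_le _ _).trans (add_le_add ?_ ?_)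
    · exact norm_sum_le_of_le _ fun i _ => norm_close (pow_mem hU' _) (mul_mem (pow_mem hU _) hu') _
    · exact norm_sum_le_of_le _ fun i _ =>
        norm_close (mul_mem (pow_mem hU' _) hu) (mul_mem (pow_mem hU _) hu') _

/-- PROOF.  `U = w X`, `M = m + 1`.  `n2 (EK (U^M))² = 𝔼_d τ (U*^M u U^M u*)`, `u = du e d`
(`n2_EK_sq`, `expect_du`).  Fix `u`; apply `sd_FF` to `f b U = τ (U*^M u b U^M u*)`:
`f' b a U = -∑_{i<M} τ (U*^(i+1) a U*^(M-1-i) u b U^M u*) + ∑_{i<M} τ (U*^M u b U^i a U^(M-i) u*)`.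
The term `i = 0` of the second sum gives the quantity itself (`FF_mul_self`).  `FF` of the others
(`FF_swap`, `EK_apply`, `map_FF`): `τ (U*^(i+1) EK (U*^(M-1-i) u) U^M u*)`, modulus
`≤ n2 (EK (U*^(M-1-i) u))`, whose `𝔼_d` is `≤ √(K⁻¹ K⁻¹) = K⁻¹` (`expect_du_n2`, `parseval`), and
`τ (U*^M u EK (U^i) U^(M-i) u*)`, modulus `≤ n2 (EK (U^i))`, `1 ≤ i ≤ m`; `Ex_sqrt_le`. -/
theorem pi_le (he : MU 1 e) {X : A} (hX : X ∈ unitary A) (m : ℕ) :
    piM e X (m + 1) ≤ (m + 1) * (Fintype.card ι : ℝ)⁻¹ +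
      ∑ i ∈ Finset.range m, √(piM e X (i + 1)) := by
  have h := avg_bound he (D := Des ι) (Φ := fun w => n2 (EK e ((w * X) ^ (m + 1))) ^ 2)
    (Ψ := fun w => (m + 1) * (Fintype.card ι : ℝ)⁻¹ +
      ∑ i ∈ Finset.range m, n2 (EK e ((w * X) ^ (i + 1))))
    (fun d => by fun_prop) (fun d => by fun_prop) (by fun_prop)
    (fun w _ => n2_EK_expect he _) (fun d => pi_step he hX m (du_mem he d).1) fun w hw => ?_
  · refine h.trans ?_
    rw [Ex_add e (by fun_prop) (by fun_prop), Ex_const, Ex_sum e _ (by fun_prop)]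
    exact add_le_add le_rfl (Finset.sum_le_sum fun i _ => Ex_n2_le he X _)
  · have hU : w * X ∈ unitary A := mul_mem hw.1 hX
    rw [Finset.expect_add_distrib, Finset.expect_const Finset.univ_nonempty,
      Finset.expect_sum_comm]
    refine add_le_add ?_ le_rfl
    refine (Finset.sum_le_card_nsmul _ _ _ fun i _ =>
      expect_du_left he (pow_mem (Unitary.star_mem hU) _)).trans ?_
    simp

lemma th_step (he : MU 1 e) {X : A} (hX : X ∈ unitary A) (m : ℕ) {S v : A} (hS : S ∈ unitary A)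
    (hv : v ∈ unitary A) :
    ‖Ex e fun w => τ (star (w * X) ^ (m + 1) * S * (w * X) ^ (m + 1) * v *
        (star (w * X) ^ (m + 1) * S * (w * X) ^ (m + 1)) * star v)‖ ≤
      Ex e fun w =>
        ∑ i ∈ Finset.range (m + 1), n2 (EK e (star (w * X) ^ (m + 1 - 1 - i) * S * (w * X) ^ m)) +
        ∑ i ∈ Finset.range m, n2 (EK e ((w * X) ^ (m - i))) +
        ∑ i ∈ Finset.range (m + 1), n2 (EK e (w * X * v * star (w * X) ^ (i + 1))) +
        ∑ i ∈ Finset.range (m + 1),
          n2 (EK e (w * X * v * (star (w * X) ^ (m + 1) * S * (w * X) ^ i))) := by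
  have hf : ∀ b : A, HasD (fun U => τ (star U ^ (m + 1) * S * U ^ m * b * U * v *
        star U ^ (m + 1) * S * U ^ (m + 1) * star v))
      fun a U => -∑ i ∈ Finset.range (m + 1),
          τ (star U ^ (i + 1) * a * (star U ^ (m + 1 - 1 - i) * S * U ^ m) * b *
            (U * v * star U ^ (m + 1) * S * U ^ (m + 1) * star v)) +
        ∑ i ∈ Finset.range m,
          τ (star U ^ (m + 1) * S * U ^ i * a * U ^ (m - i) * b *
            (U * v * star U ^ (m + 1) * S * U ^ (m + 1) * star v)) +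
        τ (star U ^ (m + 1) * S * U ^ m * b * 1 * a *
            (U * v * star U ^ (m + 1) * S * U ^ (m + 1) * star v)) +
        -∑ i ∈ Finset.range (m + 1),
          τ (star U ^ (m + 1) * S * U ^ m * b * (U * v * star U ^ (i + 1)) * a *
            (star U ^ (m + 1 - 1 - i) * S * U ^ (m + 1) * star v)) +
        ∑ i ∈ Finset.range (m + 1),
          τ (star U ^ (m + 1) * S * U ^ m * b * (U * v * (star U ^ (m + 1) * S * U ^ i)) * a *
            (U ^ (m + 1 - i) * star v)) := by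
    intro b
    refine (((((((((((HasD.star_pow (m + 1)).mul_const S).mul (HasD.pow m)).mul_const b).mul
      HasD.id).mul_const v).mul (HasD.star_pow (m + 1))).mul_const S).mul
      (HasD.pow (m + 1))).mul_const (star v)).clm τ).congr fun a U => ?_
    simp only [add_mul, Finset.mul_sum, Finset.sum_mul, map_add, map_neg, map_sum,
      mul_assoc, neg_mul, mul_neg, one_mul]
  refine sd_bound he hf X (ρ := fun w => ∑ i ∈ Finset.range (m + 1),
          τ (star (w * X) ^ (i + 1) * EK e (star (w * X) ^ (m + 1 - 1 - i) * S * (w * X) ^ m) *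
            (w * X * v * star (w * X) ^ (m + 1) * S * (w * X) ^ (m + 1) * star v)) -
        ∑ i ∈ Finset.range m,
          τ (star (w * X) ^ (m + 1) * S * (w * X) ^ i * EK e ((w * X) ^ (m - i)) *
            (w * X * v * star (w * X) ^ (m + 1) * S * (w * X) ^ (m + 1) * star v)) +
        ∑ i ∈ Finset.range (m + 1),
          τ (star (w * X) ^ (m + 1) * S * (w * X) ^ m * EK e (w * X * v * star (w * X) ^ (i + 1)) *
            (star (w * X) ^ (m + 1 - 1 - i) * S * (w * X) ^ (m + 1) * star v)) -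
        ∑ i ∈ Finset.range (m + 1),
          τ (star (w * X) ^ (m + 1) * S * (w * X) ^ m *
            EK e (w * X * v * (star (w * X) ^ (m + 1) * S * (w * X) ^ i)) *
            ((w * X) ^ (m + 1 - i) * star v))) (by fun_prop) (by fun_prop) (by fun_prop)
    (fun w _ => ?_) fun w hw => ?_
  · rw [FF_add, FF_add, FF_add, FF_add, FF_neg', FF_neg', FF_sum, FF_sum, FF_sum, FF_sum]
    simp only [close_ab, close_ba]
    rw [EK_one he, mul_one]
    have : star (w * X) ^ (m + 1) * S * (w * X) ^ (m + 1) * v *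
        (star (w * X) ^ (m + 1) * S * (w * X) ^ (m + 1)) * star v =
        star (w * X) ^ (m + 1) * S * (w * X) ^ m *
          (w * X * v * star (w * X) ^ (m + 1) * S * (w * X) ^ (m + 1) * star v) := by
      generalize w * X = U
      rw [show star U ^ (m + 1) * S * U ^ (m + 1) * v = star U ^ (m + 1) * S * (U ^ m * U) * v by
        rw [← pow_succ]]
      simp only [mul_assoc]
    rw [this]
    ring
  · have hU : w * X ∈ unitary A := mul_mem hw.1 hX
    have hU' := Unitary.star_mem hU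
    have hv' := Unitary.star_mem hv
    have hR : w * X * v * star (w * X) ^ (m + 1) * S * (w * X) ^ (m + 1) * star v ∈ unitary A :=
      mul_mem (mul_mem (mul_mem (mul_mem (mul_mem hU hv) (pow_mem hU' _)) hS) (pow_mem hU _)) hv'
    have hP : ∀ i, star (w * X) ^ (m + 1) * S * (w * X) ^ i ∈ unitary A := fun i =>
      mul_mem (mul_mem (pow_mem hU' _) hS) (pow_mem hU _)
    refine (norm_sub_le _ _).trans (add_le_add ((norm_add_le _ _).trans (add_le_add
      ((norm_sub_le _ _).trans (add_le_add ?_ ?_)) ?_)) ?_)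
    · exact norm_sum_le_of_le _ fun i _ => norm_close (pow_mem hU' _) hR _
    · exact norm_sum_le_of_le _ fun i _ => norm_close (hP _) hR _
    · exact norm_sum_le_of_le _ fun i _ => norm_close (hP _)
        (mul_mem (mul_mem (mul_mem (pow_mem hU' _) hS) (pow_mem hU _)) hv') _
    · exact norm_sum_le_of_le _ fun i _ => norm_close (hP _) (mul_mem (pow_mem hU _) hv') _

/-- PROOF.  `M = m + 1`, `Y = X U^M`.
`θ(Y) = 𝔼_s 𝔼_d τ (U*^M X* s X U^M v U*^M X* s X U^M v*)`, `s = sg e _`, `v = du e d`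
(`expect_sg_n2`, `n2_EK_sq`, `expect_du`).  Fix `s, v`; `sd_FF` for
`f b U = τ (U*^M X* s X U^m b U v U*^M X* s X U^M v*)` (chosen slot: the last `U` before `v`;
`b * a` appears for that slot, `FF_mul_self`).  Every other term closes to `τ (unitary * EK Z * unitary)`,
of modulus `≤ n2 (EK Z)`:
* first `U*^M`, `U*^(i+1) a U*^(m-i)`: `Z = U*^(m-i) X* s X U^m = (X U^(m-i))* s (X U^m)`;
  `𝔼_s n2² ≤ √θ(X U^m)` (`expect_sg_n2`, `cl2`, `theta_le_one`), contributes `≤ √√θ_m` (`Ex_sqrt_le`);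
* `U^m = U^i a U^(m-i)`, `i < m`: `Z = U^(m-i)`, contributes `√π_(m-i)`;
* second `U*^M`: `Z = U v U*^(i+1)`; last `U^M`: `Z = U v (U*^M X* s X U^i)`;
  `𝔼_d n2² ≤ √η(U) = √η(X) ≤ √θ(X)` (`expect_du_n2`, `cl1`, `eta_le_one`, `eta_mul`, `eta_le_theta`). -/
theorem th_le (he : MU 1 e) {X : A} (hX : X ∈ unitary A) (m : ℕ) :
    thM e X (m + 1) ≤ 2 * (m + 1) * √√(theta e X) + (m + 1) * √√(thM e X m) +
      ∑ i ∈ Finset.range m, √(piM e X (i + 1)) := by
  have hS : ∀ s, star X * sg e s * X ∈ unitary A := fun s =>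
    mul_mem (mul_mem (Unitary.star_mem hX) (sg_mem he s).1) hX
  have h := avg_bound he (D := (ι → Bool) × Des ι)
    (Φ := fun w => theta e (X * (w * X) ^ (m + 1)))
    (Ψ := fun w => (m + 1) * √√(theta e (X * (w * X) ^ m)) +
      ∑ i ∈ Finset.range m, n2 (EK e ((w * X) ^ (i + 1))) + 2 * (m + 1) * √√(theta e X))
    (fun d => by fun_prop) (fun d => by fun_prop) (by fun_prop)
    (fun w _ => ?_) (fun d => th_step he hX m (hS d.1) (du_mem he d.2).1) fun w hw => ?_
  · refine h.trans ?_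
    rw [Ex_add e (by fun_prop) (by fun_prop), Ex_add e (by fun_prop) (by fun_prop), Ex_const,
      Ex_sum e _ (by fun_prop), Ex_rmul]
    have h1 : Ex e (fun w => √√(theta e (X * (w * X) ^ m))) ≤ √√(thM e X m) :=
      (Ex_sqrt_le he (F := fun w => √(theta e (X * (w * X) ^ m))) (by fun_prop)
        fun _ _ => Real.sqrt_nonneg _).trans (Real.sqrt_le_sqrt
          (Ex_sqrt_le he (F := fun w => theta e (X * (w * X) ^ m)) (by fun_prop)
            fun _ _ => theta_nonneg _ _))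
    have h2 := Finset.sum_le_sum fun i (_ : i ∈ Finset.range m) => Ex_n2_le he X (i + 1)
    have h3 := mul_le_mul_of_nonneg_left h1 (show (0 : ℝ) ≤ m + 1 by positivity)
    linarith
  · rw [theta, ← expect_sg_n2 he (lin_EK e _ _), ← Finset.univ_product_univ,
      Finset.expect_product, Complex.ofReal_expect]
    refine Finset.expect_congr rfl fun s _ => ?_
    rw [n2_EK_expect he]
    refine Finset.expect_congr rfl fun d _ => ?_
    simp only [star_mul, star_pow, star_star, star_sg he, mul_assoc]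
  · have hU : w * X ∈ unitary A := mul_mem hw.1 hX
    have hU' := Unitary.star_mem hU
    rw [Finset.expect_add_distrib, Finset.expect_add_distrib, Finset.expect_add_distrib,
      Finset.expect_const Finset.univ_nonempty, Finset.expect_sum_comm, Finset.expect_sum_comm,
      Finset.expect_sum_comm]
    have h1 : ∑ i ∈ Finset.range (m + 1), 𝔼 d : (ι → Bool) × Des ι,
        n2 (EK e (star (w * X) ^ (m + 1 - 1 - i) * (star X * sg e d.1 * X) * (w * X) ^ m)) ≤
        (m + 1) * √√(theta e (X * (w * X) ^ m)) := by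
      refine (Finset.sum_le_card_nsmul _ _ (√√(theta e (X * (w * X) ^ m))) fun i _ => ?_).trans
        (by simp)
      rw [← Finset.univ_product_univ, Finset.expect_product]
      simp only [Finset.expect_const Finset.univ_nonempty]
      have := expect_sg_mid he (mul_mem hX (pow_mem hU (m + 1 - 1 - i))) (X * (w * X) ^ m)
      simpa only [star_mul X, star_pow, mul_assoc] using this
    have h2 : ∑ i ∈ Finset.range m, n2 (EK e ((w * X) ^ (m - i))) =
        ∑ i ∈ Finset.range m, n2 (EK e ((w * X) ^ (i + 1))) := by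
      rw [← Finset.sum_range_reflect (fun i => n2 (EK e ((w * X) ^ (i + 1))))]
      refine Finset.sum_congr rfl fun i hi => ?_
      rw [Finset.mem_range] at hi
      rw [show m - 1 - i + 1 = m - i by omega]
    have h3 : ∑ i ∈ Finset.range (m + 1), 𝔼 d : (ι → Bool) × Des ι,
        n2 (EK e (w * X * du e d.2 * star (w * X) ^ (i + 1))) ≤ (m + 1) * √√(theta e X) := by
      refine (Finset.sum_le_card_nsmul _ _ (√√(theta e X)) fun i _ => ?_).trans (by simp)
      rw [← Finset.univ_product_univ, Finset.expect_product]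
      exact Finset.expect_le Finset.univ_nonempty fun s _ =>
        expect_du_mid he hw (pow_mem hU' _)
    have h4 : ∑ i ∈ Finset.range (m + 1), 𝔼 d : (ι → Bool) × Des ι,
        n2 (EK e (w * X * du e d.2 *
          (star (w * X) ^ (m + 1) * (star X * sg e d.1 * X) * (w * X) ^ i))) ≤
        (m + 1) * √√(theta e X) := by
      refine (Finset.sum_le_card_nsmul _ _ (√√(theta e X)) fun i _ => ?_).trans (by simp)
      rw [← Finset.univ_product_univ, Finset.expect_product]
      refine Finset.expect_le Finset.univ_nonempty fun s _ => ?_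
      exact expect_du_mid he (X := X)
        (R := star (w * X) ^ (m + 1) * (star X * sg e s * X) * (w * X) ^ i) hw
        (mul_mem (mul_mem (pow_mem hU' _) (hS s)) (pow_mem hU _))
    rw [h2]
    linarith

end

/-- Induction on `N`: choose `δ₂ ≤ min 1 δ₁` with `4 (N+1) √√δ₂ ≤ δ₁`, apply the hypothesis to `δ₂`. -/
theorem small (N : ℕ) {δ₁ : ℝ} (hδ₁ : 0 < δ₁) :
    ∃ δ : ℝ, 0 < δ ∧ δ ≤ δ₁ ∧ ∀ (ι : Type) [Fintype ι] [DecidableEq ι] (e : ι → ι → A) (X : A),
      MU 1 e → X ∈ unitary A → (Fintype.card ι : ℝ)⁻¹ ≤ δ → theta e X ≤ δ →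
      (∀ m, 1 ≤ m → m ≤ N → piM e X m ≤ δ₁) ∧ ∀ m, m ≤ N → thM e X m ≤ δ₁ := by
  induction N generalizing δ₁ with
  | zero =>
    refine ⟨δ₁, hδ₁, le_rfl, fun ι _ _ e X _ _ _ hθ => ⟨fun m h1 h2 => by omega, fun m hm => ?_⟩⟩
    rw [Nat.le_zero.1 hm, thM_zero]
    exact hθ
  | succ N ih =>
    set t : ℝ := min 1 (δ₁ / (4 * (N + 1))) with ht
    have hN : (0 : ℝ) < 4 * (N + 1) := by positivity
    have ht0 : 0 < t := lt_min one_pos (by positivity)
    have ht1 : t ≤ 1 := min_le_left _ _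
    have ht2 : 4 * (N + 1) * t ≤ δ₁ := by
      have := min_le_right 1 (δ₁ / (4 * (N + 1)))
      rwa [← ht, le_div_iff₀ hN, mul_comm] at this
    have hN0 : (0 : ℝ) ≤ N := Nat.cast_nonneg N
    have h42 : t ^ 4 ≤ t ^ 2 := pow_le_pow_of_le_one ht0.le ht1 (by norm_num)
    have h21 : t ^ 2 ≤ t := by simpa using pow_le_pow_of_le_one ht0.le ht1 (show 1 ≤ 2 by norm_num)
    have htδ : t ≤ δ₁ := by nlinarith
    have s1 : ∀ x : ℝ, x ≤ t ^ 4 → √x ≤ t ^ 2 := fun x hx =>
      Real.sqrt_le_iff.2 ⟨by positivity, by rw [← pow_mul]; exact hx⟩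
    have s2 : ∀ x : ℝ, x ≤ t ^ 4 → √√x ≤ t := fun x hx =>
      Real.sqrt_le_iff.2 ⟨ht0.le, s1 x hx⟩
    obtain ⟨δ, hδ, hδ2, H⟩ := ih (δ₁ := t ^ 4) (by positivity)
    refine ⟨δ, hδ, by linarith, fun ι _ _ e X he hX hK hθ => ?_⟩
    obtain ⟨H1, H2⟩ := H ι e X he hX hK hθ
    have hsum : ∑ i ∈ Finset.range N, √(piM e X (i + 1)) ≤ N * t := by
      refine (Finset.sum_le_card_nsmul _ _ t fun i hi => ?_).trans (by simp)
      rw [Finset.mem_range] at hi
      exact (s1 _ (H1 _ (by omega) (by omega))).trans h21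
    refine ⟨fun m h1 h2 => ?_, fun m h2 => ?_⟩
    · rcases h2.lt_or_eq with h | rfl
      · exact (H1 m h1 (by omega)).trans (by linarith)
      · have h3 := pi_le he hX N
        have h4 : (N + 1) * (Fintype.card ι : ℝ)⁻¹ ≤ (N + 1) * t :=
          mul_le_mul_of_nonneg_left (by linarith) (by positivity)
        nlinarith
    · rcases h2.lt_or_eq with h | rfl
      · exact (H2 m (by omega)).trans (by linarith)
      · have h3 := th_le he hX N
        have h4 : 2 * (N + 1) * √√(theta e X) ≤ 2 * (N + 1) * t :=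
          mul_le_mul_of_nonneg_left (s2 _ (by linarith)) (by positivity)
        have h5 : (N + 1) * √√(thM e X N) ≤ (N + 1) * t :=
          mul_le_mul_of_nonneg_left (s2 _ (H2 N le_rfl)) (by positivity)
        nlinarith

end Crest.Agent.R121
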