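import Crest.Agent.R121.Cross
import Crest.Agent.R121.Words

/-! Row 121: the trailing lemma -/

set_option autoImplicit false
set_option linter.unusedSectionVars false

namespace Crest.Agent.R121

open Crest.Agent.R95 Crest.Agent.R124 MeasureTheory Filter Topology
open scoped InnerProductSpace BigOperators ComplexConjugate

variable {A : Type*} [CStarAlgebra A] [Tr A] {ι : Type*} [Fintype ι] [DecidableEq ι]
  {e : ι → ι → A} {B : A →L[ℂ] A →L[ℂ] ℂ} {Λ ε Λ' : ℝ}

lemma tr_FF_congr {E : Type*} [AddCommMonoid E] [Module ℂ E] {G G' : A → A → E}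
    (h : ∀ a ∈ Sp e, ∀ b ∈ Sp e, G a b = G' a b) : FF e G = FF e G' := by
  unfold FF
  congr 1
  exact Finset.sum_congr rfl fun i _ => Finset.sum_congr rfl fun j _ =>
    h _ (e_mem_Sp e _ _) _ (e_mem_Sp e _ _)

lemma tr_FF_sub {E : Type*} [AddCommGroup E] [Module ℂ E] (e : ι → ι → A) (G G' : A → A → E) :
    FF e (fun a b => G a b - G' a b) = FF e G - FF e G' := by
  simp [FF, Finset.sum_sub_distrib, smul_sub]

lemma tr_FF_zero' (e : ι → ι → A) : FF e (fun _ _ => (0 : ℂ)) = 0 := by simp [FF]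

lemma tr_FF_EK {L : A → ℂ} (hL : IsLinearMap ℂ L) (y : A) :
    FF e (fun a b => L (a * y * b)) = L (EK e y) := by
  rw [EK_apply, map_FF e hL]

lemma tr_FF_EK' {L : A → ℂ} (hL : IsLinearMap ℂ L) (y : A) :
    FF e (fun a b => L (b * y * a)) = L (EK e y) := by
  rw [← tr_FF_EK (e := e) hL y]
  exact FF_swap e fun a b => L (a * y * b)

lemma tr_lin_left (B : A →L[ℂ] A →L[ℂ] ℂ) (P Q c : A) : IsLinearMap ℂ fun x => B (P * x * Q) c :=
  ⟨fun x y => by simp [mul_add, add_mul], fun c x => by simp⟩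

lemma tr_lin_right (B : A →L[ℂ] A →L[ℂ] ℂ) (p P Q : A) : IsLinearMap ℂ fun x => B p (P * x * Q) :=
  ⟨fun x y => by simp [mul_add, add_mul], fun c x => by simp⟩

lemma tr_bil_B (B : A →L[ℂ] A →L[ℂ] ℂ) (P Q R S : A) :
    Bil fun a b => B (P * b * Q) (R * a * S) :=
  ⟨fun _ => tr_lin_right B _ R S, fun _ => tr_lin_left B P Q _⟩

/-- Continuous functions with a bound on the expectation. -/
structure TrEB (e : ι → ι → A) (F : A → ℂ) (ρ : ℝ) : Prop where
  cont : Continuous F
  le : ‖Ex e F‖ ≤ ρ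

lemma TrEB.mono {F : A → ℂ} {ρ ρ' : ℝ} (h : TrEB e F ρ) (h' : ρ ≤ ρ') : TrEB e F ρ' :=
  ⟨h.cont, h.le.trans h'⟩

lemma TrEB.add {F G : A → ℂ} {ρ ρ' : ℝ} (h : TrEB e F ρ) (h' : TrEB e G ρ') :
    TrEB e (fun w => F w + G w) (ρ + ρ') :=
  ⟨h.cont.add h'.cont, by
    rw [Ex_add e h.cont h'.cont]
    exact (norm_add_le _ _).trans (add_le_add h.le h'.le)⟩

lemma TrEB.sub {F G : A → ℂ} {ρ ρ' : ℝ} (h : TrEB e F ρ) (h' : TrEB e G ρ') :
    TrEB e (fun w => F w - G w) (ρ + ρ') :=
  ⟨h.cont.sub h'.cont, by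
    rw [Ex_sub e h.cont h'.cont]
    exact (norm_sub_le _ _).trans (add_le_add h.le h'.le)⟩

lemma TrEB.sum {F : ℕ → A → ℂ} {ρ : ℝ} (m : ℕ) (h : ∀ k < m, TrEB e (F k) ρ) :
    TrEB e (fun w => ∑ k ∈ Finset.range m, F k w) (m * ρ) := by
  induction m with
  | zero => exact ⟨by simpa using continuous_const, by simp [Ex_const]⟩
  | succ m ih =>
    have h1 := (ih fun k hk => h k (by omega)).add (h m (by omega))
    simp only [Finset.sum_range_succ]
    exact h1.mono (le_of_eq (by push_cast; ring))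

lemma TrEB.of_sqrt (he : MU 1 e) {F : A → ℂ} (hF : Continuous F) {G : A → ℝ} (hG : Continuous G)
    (hG0 : ∀ w ∈ Ue e, 0 ≤ G w) {c C : ℝ} (hC : 0 ≤ C)
    (h : ∀ w ∈ Ue e, ‖F w‖ ≤ c + C * √(G w)) : TrEB e F (c + C * √(Ex e G)) := by
  refine ⟨hF, (norm_Ex_le he (G := fun w => c + C * √(G w)) (by fun_prop) h).trans ?_⟩
  rw [Ex_add e (F := fun _ => c) (G := fun w => C * √(G w)) continuous_const (by fun_prop),
    Ex_const, Ex_rmul]
  gcongr
  exact Ex_sqrt_le he hG hG0

lemma tr_Ex_affine (e : ι → ι → A) (c C : ℝ) {G : A → ℝ} (hG : Continuous G) :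
    Ex e (fun w => c + C * G w) = c + C * Ex e G := by
  rw [Ex_add e (F := fun _ => c) (G := fun w => C * G w) continuous_const (by fun_prop),
    Ex_const, Ex_rmul]

lemma tr_norm_unitary_le {u : A} (hu : u ∈ unitary A) : ‖u‖ ≤ 1 := by
  have := nontrivial_of_tr A
  exact (CStarRing.norm_of_mem_unitary hu).le

lemma tr_n2_EK_star_pow (he : MU 1 e) (U : A) (m : ℕ) :
    n2 (EK e (star U ^ m)) = n2 (EK e (U ^ m)) := by
  rw [← star_pow, ← EK_star he, n2_star]

/-- Terms closed by a conditional expectation of a power. -/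
lemma TrEB_pi (he : MU 1 e) (hB : BB B Λ ε Λ') {X : A} (hX : X ∈ unitary A) {δ ρ : ℝ} {m : ℕ}
    (hπ : piM e X m ≤ δ) (h2 : √δ * √(ε + Λ') ≤ ρ) (l j n : ℕ) :
    TrEB e (fun w => FF e fun a b =>
      B (star (w * X) * (EK e (star (w * X) ^ m) * star (w * X) ^ l * b) * star (w * X) ^ j)
        ((w * X) ^ n * a * (w * X))) ρ := by
  refine (TrEB.of_sqrt he (continuous_FF e fun a b => by fun_prop)
    (G := fun w => n2 (EK e ((w * X) ^ m)) ^ 2) (by fun_prop) (fun _ _ => by positivity)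
    (c := 0) (C := √(ε + Λ')) (Real.sqrt_nonneg _) fun w hw => ?_).mono ?_
  · have hU : w * X ∈ unitary A := mul_mem hw.1 hX
    have hS : star (w * X) ∈ unitary A := Unitary.star_mem hU
    have h := (hB.conj hS (pow_mem hS j) (pow_mem hU n) hU).FF_le he
      (EK e (star (w * X) ^ m) * star (w * X) ^ l)
    simp only [conjB_apply] at h
    rw [n2_mul_unitary (pow_mem hS l), tr_n2_EK_star_pow he] at h
    rw [zero_add, Real.sqrt_sq (n2_nonneg _), mul_comm]
    exact h
  · rw [zero_add, mul_comm]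
    refine le_trans ?_ h2
    gcongr
    exact hπ

/-- Slots in the last power of `U*`. -/
lemma TrEB_eta (he : MU 1 e) (hB : BB B Λ ε Λ') {X : A} (hX : X ∈ unitary A) {δ ρ : ℝ} {k : ℕ}
    (hθ : thM e X k ≤ δ) (h4 : Λ * √√δ ≤ ρ) (i l n : ℕ) :
    TrEB e (fun w => FF e fun a b =>
      B (star (w * X) * EK e (star (w * X) ^ i * b * star (w * X) ^ (k + 1)) * star (w * X) ^ l)
        ((w * X) ^ n * a * (w * X))) ρ := by
  refine (TrEB.of_sqrt he (continuous_FF e fun a b => by fun_prop)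
    (G := fun w => √(theta e (X * (w * X) ^ k))) (by fun_prop) (fun _ _ => by positivity)
    (c := 0) (C := Λ) hB.h0 fun w hw => ?_).mono ?_
  · have hU : w * X ∈ unitary A := mul_mem hw.1 hX
    have hS : star (w * X) ∈ unitary A := Unitary.star_mem hU
    have hE : eta e ((w * X) ^ (k + 1)) ≤ theta e (X * (w * X) ^ k) := by
      rw [pow_succ', mul_assoc, eta_mul he hw]
      exact eta_le_theta he _
    generalize w * X = U at *
    have hL : IsLinearMap ℂ fun b => EK e (star U ^ i * b * star U ^ (k + 1)) :=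
      ⟨fun x y => by simp [mul_add, add_mul], fun c x => by simp⟩
    have h := norm_FF_le he (G := fun a b =>
      B (star U * EK e (star U ^ i * b * star U ^ (k + 1)) * star U ^ l) (U ^ n * a * U))
      ⟨fun _ => tr_lin_right B _ _ _,
        fun _ => ⟨fun x y => by simp [mul_add, add_mul], fun c x => by simp⟩⟩ hL hB.h0
      (Or.inr fun u hu => by
        refine (hB.le_left _ _).trans ?_
        rw [n2_mul_unitary (pow_mem hS l), n2_unitary_mul hS]
        exact mul_le_of_le_one_right (mul_nonneg hB.h0 (n2_nonneg _))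
          (tr_norm_unitary_le (mul_mem (mul_mem (pow_mem hU n) hu.1) hU)))
    rw [zero_add]
    refine h.trans (mul_le_mul_of_nonneg_left (Real.sqrt_le_sqrt ?_) hB.h0)
    refine (cl1 he _ _).trans ?_
    rw [star_pow, star_star]
    have h1 : √(eta e (star U ^ i)) ≤ 1 := Real.sqrt_le_one.mpr (eta_le_one he (pow_mem hS i))
    calc √(eta e (star U ^ i)) * √(eta e (U ^ (k + 1))) ≤ 1 * √(theta e (X * U ^ k)) := by
          gcongr
      _ = _ := one_mul _
  · rw [zero_add]
    refine le_trans (mul_le_mul_of_nonneg_left (Real.sqrt_le_sqrt ?_) hB.h0) h4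
    refine (Ex_sqrt_le he (F := fun w => theta e (X * (w * X) ^ k)) (by fun_prop)
      fun _ _ => theta_nonneg _ _).trans ?_
    exact Real.sqrt_le_sqrt hθ

/-- The genuinely crossing terms. -/
lemma TrEB_cross (he : MU 1 e) (hB : BB B Λ ε Λ') {X : A} (hX : X ∈ unitary A) {δ ϑ ρ : ℝ} {m : ℕ}
    (hϑ : 0 < ϑ) (hK : (Fintype.card ι : ℝ)⁻¹ ≤ δ) (hθ : thM e X m ≤ δ)
    (h3 : Λ * √(2 * ϑ) + √(ε + Λ' * (2 * δ) / ϑ) ≤ ρ) (i j k : ℕ) :
    TrEB e (fun w => FF e fun a b => FF e fun a' b' =>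
      B (star (w * X) * b' * star (w * X) ^ i * b * star (w * X) ^ j)
        ((w * X) ^ k * a' * (w * X) ^ (m + 1) * a * (w * X))) ρ := by
  have h1 := hB.h1
  have h2 := hB.h2
  refine (TrEB.of_sqrt he (continuous_FF e fun a b => continuous_FF e fun a' b' => by fun_prop)
    (G := fun w => (ε + Λ' * (Fintype.card ι : ℝ)⁻¹ / ϑ) + Λ' / ϑ * theta e (X * (w * X) ^ m))
    (by fun_prop) (fun w _ => by have := theta_nonneg e (X * (w * X) ^ m); positivity)
    (c := Λ * √(2 * ϑ)) (C := 1) zero_le_one fun w hw => ?_).mono ?_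
  · have hU : w * X ∈ unitary A := mul_mem hw.1 hX
    have hS : star (w * X) ∈ unitary A := Unitary.star_mem hU
    have h := cross he (hB.conj (Unitary.star_mem hX) (pow_mem hS j) (pow_mem hU k) hU)
      (mul_mem hX (pow_mem hU m)) (pow_mem hS i) hϑ
    simp only [conjB_apply] at h
    rw [FF_comm] at h
    have hE : (FF e fun a b => FF e fun a' b' =>
        B (star (w * X) * b' * star (w * X) ^ i * b * star (w * X) ^ j)
          ((w * X) ^ k * a' * (w * X) ^ (m + 1) * a * (w * X))) =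
        FF e fun a' b' => FF e fun a b =>
          B (star X * (b * star (w * X) ^ i * b') * star (w * X) ^ j)
            ((w * X) ^ k * (a * (X * (w * X) ^ m) * a') * (w * X)) := by
      refine tr_FF_congr fun a _ b _ => ?_
      have h' := FF_flip_right he (tr_bil_B B (star X) (star (w * X) ^ i * b * star (w * X) ^ j)
        ((w * X) ^ k) (X * (w * X) ^ m * a * (w * X))) hw
      simp only [pow_succ', star_mul, mul_assoc] at h' ⊢
      exact h'
    rw [hE, one_mul]
    refine h.trans (le_of_eq ?_)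
    congr 2
    ring
  · rw [tr_Ex_affine e _ _ (G := fun w => theta e (X * (w * X) ^ m)) (by fun_prop), one_mul]
    refine le_trans (add_le_add le_rfl (Real.sqrt_le_sqrt ?_)) h3
    have h5 : Ex e (fun w => theta e (X * (w * X) ^ m)) ≤ δ := hθ
    calc ε + Λ' * (Fintype.card ι : ℝ)⁻¹ / ϑ + Λ' / ϑ * Ex e (fun w => theta e (X * (w * X) ^ m))
        ≤ ε + Λ' * δ / ϑ + Λ' / ϑ * δ := by gcongr
      _ = _ := by ring

/-- The crossing terms.  PROOF.  `U = w X`.  Apply `sd_FF` to
`f b' U = FF_{a,b} B (U* b' U*^i b U*^j) (U^n a U)` -- or to each pair `(a, b)` separately --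
(chosen slot: the first `U*`; it gives `-U* a' b'`, `FF_mul_self`).  The other terms:
* `B (U* b' U*^i b U*^j) (U^n a a' U)`: write `FF_{a',b'} = 𝔼_d` with `(a', b') = (v, v*)`, use
  `FF_mul_right` (move `v` from `a` to `b`), average back: `FF_{a,b} B (U* EK(U*^i) b U*^j) (U^n a U)`;
  `BB.conj`, `BB.FF_le`: `≤ n2 (EK (U^i)) √(ε + Λ')`  (uses `h2`);
* `B (U* b' U*^i b U*^j) (U^k a' U^(n-k) a U)`, `k < n`: `U^(n-k) = w * (X U^(n-k-1))`, absorb `w` by
  `FF_flip_right` (`(a', b') ↦ (a' w*, w b')`), then `cross` for `conjB B (U* w) (U*^j) (U^k) U` with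
  `A₀ = X U^(n-k-1)`, `C = U*^i`; `Ex_sqrt_le`  (uses `h3`);
* slots in `U*^i`: `B (U* EK(U*^(k+1)) U*^(i-1-k) b U*^j) (U^n a U)`, `BB.FF_le`  (uses `h2`);
* slots in `U*^j`: `B (U* EK(U*^i b U*^(k+1)) U*^(j-1-k)) (U^n a U)`; `norm_FF_le` with `BB.le_left`,
  `cl1`, `eta_le_one`, `η(U^(k+1)) = η(X U^k) ≤ θ(X U^k)`  (uses `h4`). -/
theorem trail_cross (he : MU 1 e) (hB : BB B Λ ε Λ') {X : A} (hX : X ∈ unitary A) (n : ℕ)
    {δ ϑ ρ : ℝ} (hϑ : 0 < ϑ) (hK : (Fintype.card ι : ℝ)⁻¹ ≤ δ)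
    (hπ : ∀ m, 1 ≤ m → m ≤ n → piM e X m ≤ δ) (hθ : ∀ m, m ≤ n → thM e X m ≤ δ)
    (h2 : √δ * √(ε + Λ') ≤ ρ) (h3 : Λ * √(2 * ϑ) + √(ε + Λ' * (2 * δ) / ϑ) ≤ ρ)
    (h4 : Λ * √√δ ≤ ρ) {i j : ℕ} (hi : 1 ≤ i) (hij : i + j = n) :
    ‖Ex e fun w => FF e fun a b =>
      B (star (w * X) ^ (i + 1) * b * star (w * X) ^ j) ((w * X) ^ n * a * (w * X))‖ ≤
      (2 * n + 1) * ρ := by
  -- the derivative
  let g : A → A → A → A → ℂ := fun a b b' U =>
    B (star U * b' * star U ^ i * b * star U ^ j) (U ^ n * a * U)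
  let g' : A → A → A → A → A → ℂ := fun a b b' a' U =>
    (∑ k ∈ Finset.range n,
        B (star U * b' * star U ^ i * b * star U ^ j) (U ^ k * a' * U ^ (n - k) * a * U) +
      B (star U * b' * star U ^ i * b * star U ^ j) (U ^ n * (a * a') * U)) -
    (B (star U * (a' * b') * (star U ^ i * b * star U ^ j)) (U ^ n * a * U) +
      ∑ k ∈ Finset.range i,
        B (star U * (b' * star U ^ (k + 1) * a') * (star U ^ (i - 1 - k) * b * star U ^ j))
          (U ^ n * a * U) +
      ∑ k ∈ Finset.range j,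
        B (star U * (b' * (star U ^ i * b * star U ^ (k + 1)) * a') * star U ^ (j - 1 - k))
          (U ^ n * a * U))
  have hD : ∀ a b b', HasD (g a b b') (g' a b b') := by
    intro a b b'
    refine ((((((HasD.star.mul_const b').mul (HasD.star_pow i)).mul_const b).mul
      (HasD.star_pow j))).bil (((HasD.pow n).mul_const a).mul HasD.id) B).congr fun a' U => ?_
    simp only [g', mul_add, add_mul, mul_neg, neg_mul, Finset.mul_sum, Finset.sum_mul, map_add,
      map_neg, map_sum, add_apply, neg_apply,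
      sum_apply, mul_assoc]
    ring
  have h0 : Ex e (fun w => FF e fun a b => FF e fun a' b' => g' a b b' a' (w * X)) = 0 := by
    rw [Ex_FF e (G := fun w a b => FF e fun a' b' => g' a b b' a' (w * X)) fun a b =>
      continuous_FF e fun a' b' => ((hD a b b').cont' a').comp (by fun_prop)]
    simp only [fun a b => sd_FF he (hD a b) X]
    exact tr_FF_zero' e
  -- the bounds
  have b1 := TrEB.sum (e := e) (ρ := ρ) i (F := fun k w => FF e fun a b =>
    B (star (w * X) * (EK e (star (w * X) ^ (k + 1)) * star (w * X) ^ (i - 1 - k) * b) *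
      star (w * X) ^ j) ((w * X) ^ n * a * (w * X))) fun k hk =>
    TrEB_pi he hB hX (hπ (k + 1) (by omega) (by omega)) h2 _ _ _
  have b2 := TrEB.sum (e := e) (ρ := ρ) j (F := fun k w => FF e fun a b =>
    B (star (w * X) * EK e (star (w * X) ^ i * b * star (w * X) ^ (k + 1)) *
      star (w * X) ^ (j - 1 - k)) ((w * X) ^ n * a * (w * X))) fun k hk =>
    TrEB_eta he hB hX (hθ k (by omega)) h4 _ _ _
  have b3 := TrEB.sum (e := e) (ρ := ρ) n (F := fun k w => FF e fun a b => FF e fun a' b' =>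
    B (star (w * X) * b' * star (w * X) ^ i * b * star (w * X) ^ j)
      ((w * X) ^ k * a' * (w * X) ^ (n - k) * a * (w * X))) fun k hk => by
    have h := TrEB_cross he hB hX hϑ hK (hθ (n - k - 1) (by omega)) h3 i j k
    rwa [show n - k - 1 + 1 = n - k by omega] at h
  have b4 := TrEB_pi he hB hX (hπ i hi (by omega)) h2 0 j n
  have b := ((b3.add b4).sub b1).sub b2
  have hc : Continuous fun w => FF e fun a b => FF e fun a' b' => g' a b b' a' (w * X) :=
    continuous_FF e fun a b => continuous_FF e fun a' b' => ((hD a b b').cont' a').comp (by fun_prop)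
  have h := b.sub (⟨hc, h0 ▸ norm_zero.le⟩ : TrEB e _ 0)
  have hn : (n : ℝ) = i + j := by rw [← hij]; push_cast; ring
  refine le_trans (le_of_eq ?_) (h.le.trans (le_of_eq (by rw [hn]; ring)))
  congr 1
  refine Ex_congr he fun w _ => ?_
  generalize w * X = U
  have e0 : ∀ a b, (FF e fun a' b' =>
      B (star U * (a' * b') * (star U ^ i * b * star U ^ j)) (U ^ n * a * U)) =
      B (star U ^ (i + 1) * b * star U ^ j) (U ^ n * a * U) := by
    intro a b
    rw [(FF_mul_self he (tr_lin_left B (star U) (star U ^ i * b * star U ^ j) (U ^ n * a * U))).1]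
    simp only [pow_succ', mul_one, mul_assoc]
  have e1 : ∀ k a b, (FF e fun a' b' =>
      B (star U * (b' * star U ^ (k + 1) * a') * (star U ^ (i - 1 - k) * b * star U ^ j))
        (U ^ n * a * U)) =
      B (star U * (EK e (star U ^ (k + 1)) * star U ^ (i - 1 - k) * b) * star U ^ j)
        (U ^ n * a * U) := by
    intro k a b
    rw [tr_FF_EK' (tr_lin_left B (star U) (star U ^ (i - 1 - k) * b * star U ^ j) (U ^ n * a * U))]
    simp only [mul_assoc]
  have e2 : ∀ k a b, (FF e fun a' b' =>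
      B (star U * (b' * (star U ^ i * b * star U ^ (k + 1)) * a') * star U ^ (j - 1 - k))
        (U ^ n * a * U)) =
      B (star U * EK e (star U ^ i * b * star U ^ (k + 1)) * star U ^ (j - 1 - k))
        (U ^ n * a * U) := fun k a b =>
    tr_FF_EK' (tr_lin_left B (star U) (star U ^ (j - 1 - k)) (U ^ n * a * U)) _
  have e4 : (FF e fun a b => FF e fun a' b' =>
      B (star U * b' * star U ^ i * b * star U ^ j) (U ^ n * (a * a') * U)) =
      FF e fun a b => B (star U * (EK e (star U ^ i) * star U ^ 0 * b) * star U ^ j)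
        (U ^ n * a * U) := by
    rw [FF_comm]
    have h1 : (FF e fun a' b' => FF e fun a b =>
        B (star U * b' * star U ^ i * b * star U ^ j) (U ^ n * (a * a') * U)) =
        FF e fun a' b' => FF e fun a b =>
          B (star U * (b' * star U ^ i * a') * (b * star U ^ j)) (U ^ n * a * U) := by
      refine tr_FF_congr fun a' ha' b' _ => ?_
      have h' := FF_mul_right he (tr_bil_B B (star U * b' * star U ^ i) (star U ^ j) (U ^ n) U) ha'
      simp only [mul_assoc] at h' ⊢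
      exact h'
    rw [h1, FF_comm]
    refine tr_FF_congr fun a _ b _ => ?_
    rw [tr_FF_EK' (tr_lin_left B (star U) (b * star U ^ j) (U ^ n * a * U))]
    simp only [pow_zero, mul_one, mul_assoc]
  simp only [g', tr_FF_sub, FF_add, FF_sum, e0, e1, e2, e4]
  ring

/-- PROOF.  `sd_FF` for `f a U = B (U*^(n+1)) (U^n * a * U)` (chosen slot: the last `U`).  Pairing
with the first `U*` gives `FF B (U* b U*^n) (U^n a U)`, the main term after `FF_flip_right` with
`w` (`U = w X`); pairing with the other `U*` gives the `n` terms of `trail_cross`; pairing with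
another `U` gives `B (U*^(n+1)) (U^i EK(U^(n-i)) U)`, `i < n`, bounded by `BB.le_right`,
`norm_EK_le`, `Ex_sqrt_le` and `h1`. -/
theorem trail (he : MU 1 e) (hB : BB B Λ ε Λ') {X : A} (hX : X ∈ unitary A) (n : ℕ)
    {δ ϑ ρ : ℝ} (hϑ : 0 < ϑ) (hK : (Fintype.card ι : ℝ)⁻¹ ≤ δ)
    (hπ : ∀ m, 1 ≤ m → m ≤ n → piM e X m ≤ δ) (hθ : ∀ m, m ≤ n → thM e X m ≤ δ)
    (h1 : √(ε + Λ' * δ) ≤ ρ) (h2 : √δ * √(ε + Λ') ≤ ρ)
    (h3 : Λ * √(2 * ϑ) + √(ε + Λ' * (2 * δ) / ϑ) ≤ ρ) (h4 : Λ * √√δ ≤ ρ) :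
    ‖Ex e (fun w => B (star (w * X) ^ (n + 1)) ((w * X) ^ (n + 1))) -
      Ex e (fun w => FF e fun a b =>
        B (star X * b * star (w * X) ^ n) ((w * X) ^ n * a * X))‖ ≤ 3 * (n + 1) ^ 2 * ρ := by
  have hρ : 0 ≤ ρ := (Real.sqrt_nonneg _).trans h1
  let g : A → A → ℂ := fun b U => B (star U ^ (n + 1)) (U ^ n * b * U)
  let g' : A → A → A → ℂ := fun b a U =>
    (∑ k ∈ Finset.range n, B (star U ^ (n + 1)) (U ^ k * (a * U ^ (n - k) * b) * U) +
      B (star U ^ (n + 1)) (U ^ n * (b * a) * U)) -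
    (∑ k ∈ Finset.range n,
        B (star U ^ (k + 1 + 1) * a * star U ^ (n - (k + 1))) (U ^ n * b * U) +
      B (star U * a * star U ^ n) (U ^ n * b * U))
  have hD : ∀ b, HasD (g b) (g' b) := by
    intro b
    refine ((HasD.star_pow (n + 1)).bil (((HasD.pow n).mul_const b).mul HasD.id) B).congr
      fun a U => ?_
    simp only [g', Finset.sum_range_succ', mul_add, add_mul, mul_neg, neg_mul, Finset.mul_sum,
      Finset.sum_mul, map_add, map_neg, map_sum, add_apply,
      neg_apply, sum_apply, mul_assoc,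
      Nat.add_sub_cancel, zero_add, pow_one, Nat.sub_zero]
    ring
  have h0 := sd_FF he hD X
  have b1 := TrEB.sum (e := e) (ρ := (2 * n + 1) * ρ) n (F := fun k w => FF e fun a b =>
    B (star (w * X) ^ (k + 1 + 1) * b * star (w * X) ^ (n - (k + 1)))
      ((w * X) ^ n * a * (w * X))) fun k hk =>
    ⟨continuous_FF e fun a b => by fun_prop,
      trail_cross he hB hX n hϑ hK hπ hθ h2 h3 h4 (by omega) (by omega)⟩
  have b2 := TrEB.sum (e := e) (ρ := ρ) n (F := fun k w =>
    B (star (w * X) ^ (n + 1)) ((w * X) ^ k * EK e ((w * X) ^ (n - k)) * (w * X))) fun k hk => by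
    have h1' := hB.h1
    have h2' := hB.h2
    refine (TrEB.of_sqrt he (by fun_prop)
      (G := fun w => ε + Λ' * n2 (EK e ((w * X) ^ (n - k))) ^ 2) (by fun_prop)
      (fun _ _ => by positivity) (c := 0) (C := 1) zero_le_one fun w hw => ?_).mono ?_
    · have hU : w * X ∈ unitary A := mul_mem hw.1 hX
      have hS : star (w * X) ∈ unitary A := Unitary.star_mem hU
      generalize w * X = U at *
      have hc : ‖U ^ k * EK e (U ^ (n - k)) * U‖ ≤ 1 := by
        rw [CStarRing.norm_mul_mem_unitary _ hU, CStarRing.norm_mem_unitary_mul _ (pow_mem hU k)]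
        exact (norm_EK_le he _).trans (tr_norm_unitary_le (pow_mem hU _))
      have h := hB.le_right (star U ^ (n + 1)) hc
      rw [n2_unitary (pow_mem hS _), n2_mul_unitary hU, n2_unitary_mul (pow_mem hU k)] at h
      rwa [zero_add]
    · rw [tr_Ex_affine e _ _ (G := fun w => n2 (EK e ((w * X) ^ (n - k))) ^ 2) (by fun_prop),
        one_mul, zero_add]
      refine le_trans (Real.sqrt_le_sqrt ?_) h1
      have h5 : Ex e (fun w => n2 (EK e ((w * X) ^ (n - k))) ^ 2) ≤ δ :=
        hπ (n - k) (by omega) (by omega)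
      gcongr
  have hc : Continuous fun w => FF e fun a b => g' b a (w * X) :=
    continuous_FF e fun a b => ((hD b).cont' a).comp (by fun_prop)
  have h := (b1.sub b2).add (⟨hc, h0 ▸ norm_zero.le⟩ : TrEB e _ 0)
  rw [← Ex_sub e (by fun_prop) (continuous_FF e fun a b => by fun_prop)]
  have hn : (0 : ℝ) ≤ n := Nat.cast_nonneg n
  refine le_trans (le_of_eq ?_) (h.le.trans (by nlinarith [mul_nonneg hn hρ]))
  congr 1
  refine Ex_congr he fun w hw => ?_
  have e0 : (FF e fun a b => B (star (w * X) * a * star (w * X) ^ n) ((w * X) ^ n * b * (w * X))) =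
      FF e fun a b => B (star X * b * star (w * X) ^ n) ((w * X) ^ n * a * X) := by
    rw [← FF_flip_right he (tr_bil_B B (star X) (star (w * X) ^ n) ((w * X) ^ n) X) hw,
      ← FF_swap e]
    simp only [star_mul, mul_assoc]
  simp only [g', tr_FF_sub, FF_add, FF_sum, e0]
  generalize w * X = U
  have e1 : ∀ k, (FF e fun a b => B (star U ^ (n + 1)) (U ^ k * (a * U ^ (n - k) * b) * U)) =
      B (star U ^ (n + 1)) (U ^ k * EK e (U ^ (n - k)) * U) := fun k =>
    tr_FF_EK (tr_lin_right B _ _ _) _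
  have e2 : (FF e fun a b => B (star U ^ (n + 1)) (U ^ n * (b * a) * U)) =
      B (star U ^ (n + 1)) (U ^ (n + 1)) := by
    rw [(FF_mul_self he (tr_lin_right B (star U ^ (n + 1)) (U ^ n) U)).2, mul_one, ← pow_succ]
  have e3 : ∀ k, (FF e fun a b =>
      B (star U ^ (k + 1 + 1) * a * star U ^ (n - (k + 1))) (U ^ n * b * U)) =
      FF e fun a b => B (star U ^ (k + 1 + 1) * b * star U ^ (n - (k + 1))) (U ^ n * a * U) :=
    fun k => FF_swap e fun a b =>
      B (star U ^ (k + 1 + 1) * b * star U ^ (n - (k + 1))) (U ^ n * a * U)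
  simp only [e1, e2, e3]
  ring

end Crest.Agent.R121
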