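import Crest.Agent.R121.WL
import Crest.Agent.R121.ThmII
import Crest.Agent.R121.TraceEx
import Crest.Agent.R124.Halve
import Crest.Agent.R124.VN2

/-! Row 121: type II₁ algebras with a trace -/

set_option autoImplicit false
set_option linter.unusedSectionVars false
set_option linter.deprecated false

namespace Crest.Agent.R121

open Crest.Agent.R95 Crest.Agent.R124 MeasureTheory Filter Topology
open scoped InnerProductSpace BigOperators ComplexConjugate

variable {K : Type*} [NormedAddCommGroup K] [InnerProductSpace ℂ K] [CompleteSpace K]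

lemma norm_le_one_of_le {a : K →L[ℂ] K} (ha : IsSelfAdjoint a) (h1 : -1 ≤ a) (h2 : a ≤ 1) :
    ‖a‖ ≤ 1 := by
  have h3 : 0 ≤ (1 - a) * (1 + a) :=
    (((Commute.one_left _).sub_left ((Commute.one_right a).add_right (Commute.refl a)))).mul_nonneg
      (sub_nonneg.2 h2) (neg_le_iff_add_nonneg'.1 h1)
  have h4 : star a * a ≤ 1 := by
    rw [← sub_nonneg, ha.star_eq]
    convert h3 using 1
    simp only [mul_add, sub_mul, one_mul, mul_one]; abel
  rw [← CStarAlgebra.norm_le_one_iff_of_nonneg _ (star_mul_self_nonneg a),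
    CStarRing.norm_star_mul_self] at h4
  nlinarith [norm_nonneg a]

/-- `half`: `exists_half`.  `cut`: `p` from `exists_cut_op` with `t = 0`, `s = 2p - 1`,
`2h - s = (2h - 1) p + (2h + 1) (1 - p)`, `-1 ≤ 2h - s ≤ 1`. -/
theorem II_of_not_ab (Q : VonNeumannAlgebra K)
    (hna : ∀ p ∈ Q, IsStarProjection p → p ≠ 0 → ¬ Ab Q p) : II (Al Q) := by
  refine ⟨fun p hp => ?_, fun h hh hn => ?_⟩
  · obtain ⟨v, hv, h1, h2, h3⟩ := exists_half (P := Q) (e := p) p.2
      ⟨congr(($(hp.isIdempotentElem.eq)).1), congr(($(hp.isSelfAdjoint.star_eq)).1)⟩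
      fun q hq hq' hq0 _ => hna q hq hq' hq0
    exact ⟨⟨v, hv⟩, Subtype.ext h1, Subtype.ext h2, Subtype.ext h3⟩
  · have hh' : IsSelfAdjoint (h : K →L[ℂ] K) := congr(($(hh.star_eq)).1)
    obtain ⟨p, hp, hp', hc, h1, h2⟩ := exists_cut_op (P := Q) h.2 hh' 0
    rw [zero_smul, sub_zero] at h1 h2
    have hpp : p * p = p := hp'.isIdempotentElem
    have hps := hp'.isSelfAdjoint.star_eq
    let p' : Al Q := ⟨p, hp⟩
    refine ⟨p' - (1 - p'), ?_, Subtype.ext ?_, ?_, fun y hy => ?_⟩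
    · have : IsSelfAdjoint p' := Subtype.ext hps
      exact this.sub ((IsSelfAdjoint.one _).sub this)
    · change (p - (1 - p)) * (p - (1 - p)) = 1
      simp only [mul_sub, sub_mul, hpp, mul_one, one_mul]; abel
    · change ‖(2 : ℂ) • (h : K →L[ℂ] K) - (p - (1 - p))‖ ≤ 1
      have hn' : ‖(h : K →L[ℂ] K)‖ ≤ 1 := hn
      generalize (h : K →L[ℂ] K) = a at hh' hc h1 h2 hn'
      have hpa : Commute p a := hc a (Commute.refl a)
      have hu : a ≤ 1 := by
        simpa using (hh'.le_algebraMap_norm_self).trans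
          (show algebraMap ℝ (K →L[ℂ] K) ‖a‖ ≤ algebraMap ℝ _ 1 by
            simp only [Algebra.algebraMap_eq_smul_one]
            exact smul_le_smul_of_nonneg_right hn' zero_le_one)
      have hl : -a ≤ 1 := by
        simpa using (hh'.neg.le_algebraMap_norm_self).trans
          (show algebraMap ℝ (K →L[ℂ] K) ‖-a‖ ≤ algebraMap ℝ _ 1 by
            simp only [Algebra.algebraMap_eq_smul_one, norm_neg]
            exact smul_le_smul_of_nonneg_right hn' zero_le_one)
      have h3 : a * p ≤ p := by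
        have := hp'.isSelfAdjoint.conjugate_le_conjugate hu
        rwa [hpa.eq, mul_assoc, hpp, mul_one, hpp] at this
      have h4 : -(a * (1 - p)) ≤ 1 - p := by
        have := hp'.one_sub.isSelfAdjoint.conjugate_le_conjugate hl
        rwa [mul_neg, ((Commute.one_left a).sub_left hpa).eq, neg_mul, mul_assoc,
          hp'.one_sub.isIdempotentElem, mul_one, hp'.one_sub.isIdempotentElem] at this
      have hsa : IsSelfAdjoint ((2 : ℂ) • a - (p - (1 - p))) := by
        rw [IsSelfAdjoint]; simp [hps, hh'.star_eq]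
      have e1 : (1 : K →L[ℂ] K) - ((2 : ℂ) • a - (p - (1 - p))) =
          (p - a * p) + (p - a * p) + (-(a * (1 - p)) + -(a * (1 - p))) := by
        rw [two_smul, mul_sub, mul_one]; abel
      have e2 : (2 : ℂ) • a - (p - (1 - p)) - -1 =
          (1 - p - -(a * (1 - p))) + (1 - p - -(a * (1 - p))) + (a * p + a * p) := by
        rw [two_smul, mul_sub, mul_one]; abel
      have u1 : (2 : ℂ) • a - (p - (1 - p)) ≤ 1 := by
        rw [← sub_nonneg, e1]
        exact add_nonneg (add_nonneg (sub_nonneg.2 h3) (sub_nonneg.2 h3))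
          (add_nonneg (neg_nonneg.2 h2) (neg_nonneg.2 h2))
      have u2 : -1 ≤ (2 : ℂ) • a - (p - (1 - p)) := by
        rw [← sub_nonneg, e2]
        exact add_nonneg (add_nonneg (sub_nonneg.2 h4) (sub_nonneg.2 h4)) (add_nonneg h1 h1)
      exact norm_le_one_of_le hsa u2 u1
    · have : Commute p' y := Subtype.ext (hc y congr(($(hy.eq)).1)).eq
      exact this.sub_left ((Commute.one_left y).sub_left this)

/-- PROOF.  `exists_trace`, normalise by `τ₀ 1 = re τ₀ 1 ≥ c ∑ ‖ξ i‖² > 0` to get `Tr (Al Q)`;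
`avg_of_app` with `ψ y a = τ (y * a) = ∑ ⟪t⁻¹ y* ζᵢ, a ξᵢ⟫`, `S = unitary`
(`CStarAlgebra.span_unitary`), `thmII`. -/
theorem avg_II (Q : VonNeumannAlgebra K)
    (hna : ∀ p ∈ Q, IsStarProjection p → p ≠ 0 → ¬ Ab Q p) {ι : Type*} [Fintype ι] (ξ : ι → K)
    (κ : ℝ) (htr : ∀ x ∈ Q, ∑ i, ‖x (ξ i)‖ ^ 2 ≤ κ * ∑ i, ‖star x (ξ i)‖ ^ 2)
    (hsep : ∀ x ∈ Q, (∀ i, x (ξ i) = 0) → x = 0) (h0 : ∃ i, ξ i ≠ 0) : Avg (1 : Al Q) := by
  obtain ⟨ζ, c, hc, h1, h2, h3⟩ := exists_trace Q ξ κ htr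
  let τ₀ : Al Q →L[ℂ] ℂ := ∑ i, (innerSL ℂ (ζ i)).comp
    ((ContinuousLinearMap.apply ℂ K (ξ i)).comp Q.toStarSubalgebra.toSubalgebra.toSubmodule.subtypeL)
  have hτ : ∀ x, τ₀ x = ∑ i, ⟪ζ i, (x : K →L[ℂ] K) (ξ i)⟫_ℂ := fun x => by
    simp only [τ₀, ContinuousLinearMap.sum_apply]; rfl
  have hst : ∀ x, τ₀ (star x) = conj (τ₀ x) := fun x => by rw [hτ, hτ]; exact h2 x x.2
  have hpos : ∀ x : Al Q, c * ∑ i, ‖(x : K →L[ℂ] K) (ξ i)‖ ^ 2 ≤ (τ₀ (star x * x)).re := fun x => by
    rw [hτ]; exact h3 x x.2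
  have hnn : ∀ x : Al Q, 0 ≤ c * ∑ i, ‖(x : K →L[ℂ] K) (ξ i)‖ ^ 2 := fun x => by positivity
  have hf : ∀ x : Al Q, (τ₀ (star x * x)).re = 0 → x = 0 := fun x hx => by
    have h4 := le_antisymm ((hpos x).trans hx.le) (hnn x)
    rw [mul_eq_zero, Finset.sum_eq_zero_iff_of_nonneg fun _ _ => by positivity] at h4
    exact Subtype.ext (hsep x x.2 fun i => by
      simpa using h4.resolve_left hc.ne' i (Finset.mem_univ _))
  set t : ℝ := (τ₀ 1).re with ht
  have ht1 : τ₀ 1 = t := by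
    have := hst 1
    rw [star_one] at this
    exact (Complex.conj_eq_iff_re.mp this.symm).symm
  have ht0 : 0 < t := by
    have h4 : 0 ≤ t := by simpa using (hnn 1).trans (hpos 1)
    refine h4.lt_of_ne fun h => ?_
    obtain ⟨i, hi⟩ := h0
    have h5 := hf 1 (by simpa using h.symm)
    exact hi congr(($h5).1 (ξ i))
  letI : Tr (Al Q) :=
    { τ := ((t⁻¹ : ℝ) : ℂ) • τ₀
      τ_one := by simp [ht1, ht0.ne']
      τ_comm := fun x y => by
        simp only [ContinuousLinearMap.smul_apply, hτ]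
        exact congrArg _ (h1 x x.2 y y.2)
      τ_star := fun x => by simp [hst]
      τ_nonneg := fun x => by
        rw [ContinuousLinearMap.smul_apply, smul_eq_mul, Complex.re_ofReal_mul]
        exact mul_nonneg (inv_nonneg.2 ht0.le) ((hnn x).trans (hpos x))
      faithful := fun x hx => by
        rw [ContinuousLinearMap.smul_apply, smul_eq_mul, Complex.re_ofReal_mul] at hx
        exact hf x ((mul_eq_zero.mp hx).resolve_left (inv_pos.2 ht0).ne') }
  have hτ' : ∀ x : Al Q, τ x = ((t⁻¹ : ℝ) : ℂ) * τ₀ x := fun x => rfl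
  refine avg_of_app 1 (fun y a : Al Q => τ (y * a)) (fun y => ?_) (fun a h => ?_) (unitary (Al Q))
    ⟨1, one_mem _⟩ (by rw [CStarAlgebra.span_unitary]; exact dense_univ)
    fun n T x l hx ε hε => thmII (II_of_not_ab Q hna) T l x hx hε
  · let E := (Fintype.equivFin ι).symm
    refine ⟨_, fun i => ((t⁻¹ : ℝ) : ℂ) • star (y : K →L[ℂ] K) (ζ (E i)), fun i => ξ (E i),
      fun a => ?_⟩
    rw [hτ', hτ, Finset.mul_sum, ← E.sum_comp]
    refine Finset.sum_congr rfl fun i _ => ?_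
    rw [inner_smul_left, Complex.conj_ofReal, inner_star_left]; rfl
  · exact faithful a (by rw [h (star a), Complex.zero_re])

end Crest.Agent.R121
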